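import Crest.Agent.R129.Ker

/-! # Basic facts on `Bop`, `Wop`, `Qop` (task R129/WQ). Statements frozen. -/

set_option autoImplicit false
open scoped BigOperators

namespace Crest.Agent.R129

theorem wq_sum_one {I : Type} (f : I → ℂ) (h1 : ∀ i, ‖f i‖ ≤ 1)
    (hu : ∀ i i', f i ≠ 0 → f i' ≠ 0 → i = i') (s : Finset I) : ∑ i ∈ s, ‖f i‖ ≤ 1 := by
  by_cases h : ∃ i, f i ≠ 0
  · obtain ⟨i, hi⟩ := h
    have := ker_sum_count f h1 (a := 1) {i} (by simp)
      (fun i' hi' => by simp [hu i' i hi' hi]) s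
    simpa using this
  · have := ker_sum_count f h1 (a := 1) ∅ (by simp) (fun i' hi' => absurd ⟨i', hi'⟩ h) s
    simpa using this

open Classical in
theorem wq_Bop {F A K : Type} [Fintype F] [Group K] (Γ : BG F A) (κ : Γ.V → F → K) :
    (∀ p q : K × Γ.V, mat (Γ.Bop κ) p q = ∑ t : F,
      if Γ.nb p.2 t = some q.2 ∧ κ p.2 t = p.1 * q.1⁻¹ then ph (Γ.om p.2 t) else 0) ∧
    ‖Γ.Bop κ‖ ≤ Real.sqrt ((Fintype.card F : ℝ) * Fintype.card F) := by
  unfold BG.Bop
  have hb : ∀ (P : Prop) [Decidable P] (ω : ZMod 4), ‖(if P then ph ω else 0 : ℂ)‖ ≤ 1 := by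
    intro P _ ω
    split_ifs
    · exact (norm_ph ω).le
    · simp
  refine schur₁ _ _ _ (Nat.cast_nonneg _) (Nat.cast_nonneg _) ?_ ?_
  · intro p s
    refine (Finset.sum_le_sum fun q _ => norm_sum_le _ _).trans ?_
    rw [Finset.sum_comm]
    refine (Finset.sum_le_sum (g := fun _ => (1 : ℝ)) fun t _ => ?_).trans (by simp)
    refine wq_sum_one (fun q : K × Γ.V =>
      if Γ.nb p.2 t = some q.2 ∧ κ p.2 t = p.1 * q.1⁻¹ then ph (Γ.om p.2 t) else 0)
      (fun q => hb _ _) ?_ s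
    intro q q' hq hq'
    have h1 : Γ.nb p.2 t = some q.2 ∧ κ p.2 t = p.1 * q.1⁻¹ := by
      by_contra hne; exact hq (if_neg hne)
    have h2 : Γ.nb p.2 t = some q'.2 ∧ κ p.2 t = p.1 * q'.1⁻¹ := by
      by_contra hne; exact hq' (if_neg hne)
    refine Prod.ext ?_ ?_
    · exact inv_injective (mul_left_cancel (h1.2.symm.trans h2.2))
    · exact Option.some_injective _ (h1.1.symm.trans h2.1)
  · intro q s
    refine (Finset.sum_le_sum fun p _ => norm_sum_le _ _).trans ?_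
    rw [Finset.sum_comm]
    refine (Finset.sum_le_sum (g := fun _ => (1 : ℝ)) fun t _ => ?_).trans (by simp)
    refine wq_sum_one (fun p : K × Γ.V =>
      if Γ.nb p.2 t = some q.2 ∧ κ p.2 t = p.1 * q.1⁻¹ then ph (Γ.om p.2 t) else 0)
      (fun p => hb _ _) ?_ s
    intro p p' hp hp'
    have h1 : Γ.nb p.2 t = some q.2 ∧ κ p.2 t = p.1 * q.1⁻¹ := by
      by_contra hne; exact hp (if_neg hne)
    have h2 : Γ.nb p'.2 t = some q.2 ∧ κ p'.2 t = p'.1 * q.1⁻¹ := by
      by_contra hne; exact hp' (if_neg hne)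
    have e : p.2 = p'.2 := Γ.nb_inj _ _ _ _ h1.1 h2.1
    refine Prod.ext ?_ e
    have h3 := h1.2
    rw [e] at h3
    exact mul_right_cancel (h3.symm.trans h2.2)

open Classical in
theorem BG.mat_Bop {F A K : Type} [Fintype F] [Group K] (Γ : BG F A) (κ : Γ.V → F → K)
    (p q : K × Γ.V) : mat (Γ.Bop κ) p q = ∑ t : F,
      if Γ.nb p.2 t = some q.2 ∧ κ p.2 t = p.1 * q.1⁻¹ then ph (Γ.om p.2 t) else 0 := by
  exact (wq_Bop Γ κ).1 p q

theorem BG.norm_Bop_le {F A K : Type} [Fintype F] [Group K] (Γ : BG F A) (κ : Γ.V → F → K) :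
    ‖Γ.Bop κ‖ ≤ Fintype.card F := by
  have := (wq_Bop Γ κ).2
  rwa [Real.sqrt_mul_self (Nat.cast_nonneg _)] at this

open Classical in
theorem BG.mat_Wop {F A : Type} (Γ : BG F A) (K : Type) (node : ℤ → Finset Γ.V)
    (hd : ∀ i j, i ≠ j → Disjoint (node i) (node j)) (p : K × Γ.V) (q : K × ℤ) :
    mat (Γ.Wop K node) p q =
      if p.1 = q.1 ∧ p.2 ∈ node q.2 then (((Real.sqrt (node q.2).card)⁻¹ : ℝ) : ℂ) else 0 := by
  unfold BG.Wop
  refine (schur _ (fun q : K × ℤ => Real.sqrt (max 1 ((node q.2).card : ℝ))) (fun _ => 1)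
    (fun q => Real.sqrt_pos.2 (lt_max_of_lt_left one_pos)) (fun _ => one_pos) 1 1 zero_le_one
    zero_le_one ?_ ?_).1 p q
  · intro p s
    have e : ∀ q : K × ℤ, ‖(if p.1 = q.1 ∧ p.2 ∈ node q.2 then
        (((Real.sqrt (node q.2).card)⁻¹ : ℝ) : ℂ) else 0)‖ *
        Real.sqrt (max 1 ((node q.2).card : ℝ)) =
        ‖(if p.1 = q.1 ∧ p.2 ∈ node q.2 then (1 : ℂ) else 0)‖ := by
      intro q
      split_ifs with h
      · have hc : (1 : ℝ) ≤ (node q.2).card := by
          exact_mod_cast Finset.card_pos.2 ⟨_, h.2⟩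
        have : 0 < Real.sqrt (node q.2).card := Real.sqrt_pos.2 (by linarith)
        rw [max_eq_right hc, Complex.norm_real, Real.norm_of_nonneg (by positivity), norm_one]
        exact inv_mul_cancel₀ this.ne'
      · simp
    rw [one_mul]
    refine (le_of_eq (Finset.sum_congr rfl fun q _ => e q)).trans ?_
    refine wq_sum_one (fun q : K × ℤ => if p.1 = q.1 ∧ p.2 ∈ node q.2 then (1 : ℂ) else 0)
      (fun q => by split_ifs <;> simp) ?_ s
    intro q q' hq hq'
    have h1 : p.1 = q.1 ∧ p.2 ∈ node q.2 := by by_contra hne; exact hq (if_neg hne)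
    have h2 : p.1 = q'.1 ∧ p.2 ∈ node q'.2 := by by_contra hne; exact hq' (if_neg hne)
    refine Prod.ext (h1.1.symm.trans h2.1) ?_
    by_contra hne
    exact Finset.disjoint_left.1 (hd _ _ hne) h1.2 h2.2
  · intro q s
    have e : ∀ p : K × Γ.V, ‖(if p.1 = q.1 ∧ p.2 ∈ node q.2 then
        (((Real.sqrt (node q.2).card)⁻¹ : ℝ) : ℂ) else 0)‖ * 1 =
        (Real.sqrt (node q.2).card)⁻¹ *
          ‖(if p.1 = q.1 ∧ p.2 ∈ node q.2 then (1 : ℂ) else 0)‖ := by
      intro p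
      split_ifs with h
      · rw [Complex.norm_real, Real.norm_of_nonneg (by positivity), norm_one]
      · simp
    rw [one_mul]
    refine (le_of_eq (Finset.sum_congr rfl fun p _ => e p)).trans ?_
    rw [← Finset.mul_sum]
    have h1 := ker_sum_count
      (fun p : K × Γ.V => if p.1 = q.1 ∧ p.2 ∈ node q.2 then (1 : ℂ) else 0)
      (fun p => by split_ifs <;> simp) (a := (node q.2).card)
      ((node q.2).image fun v => (q.1, v)) Finset.card_image_le (fun p hp => by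
        have h1 : p.1 = q.1 ∧ p.2 ∈ node q.2 := by by_contra hne; exact hp (if_neg hne)
        exact Finset.mem_image.2 ⟨p.2, h1.2, Prod.ext h1.1.symm rfl⟩) s
    refine (mul_le_mul_of_nonneg_left h1 (by positivity)).trans ?_
    refine le_trans (le_of_eq ?_) (Real.sqrt_le_sqrt (le_max_right _ _))
    rw [← div_eq_inv_mul, Real.div_sqrt]

theorem BG.adj_Wop_comp {F A : Type} (Γ : BG F A) (K : Type) (node : ℤ → Finset Γ.V)
    (hne : ∀ i, (node i).Nonempty) (hd : ∀ i j, i ≠ j → Disjoint (node i) (node j)) :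
    adj (Γ.Wop K node) ∘L Γ.Wop K node = 1 := by
  classical
  refine mat_ext fun q q' => ?_
  have h := hasSum_mat_comp (adj (Γ.Wop K node)) (Γ.Wop K node) q q'
  simp only [mat_adj, BG.mat_Wop Γ K node hd] at h
  rw [mat_one]
  refine h.unique ?_
  by_cases hq : q = q'
  · subst hq
    rw [if_pos rfl]
    have hc : (0 : ℝ) < (node q.2).card := by exact_mod_cast Finset.card_pos.2 (hne q.2)
    have e : (1 : ℂ) = ∑ p ∈ (node q.2).image (fun v => (q.1, v)),
        ((((node q.2).card : ℝ)⁻¹ : ℝ) : ℂ) := by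
      rw [Finset.sum_const, Finset.card_image_of_injective _
        (fun v v' hv => (Prod.ext_iff.1 hv).2), nsmul_eq_mul]
      have : ((node q.2).card : ℂ) ≠ 0 := by exact_mod_cast hc.ne'
      push_cast
      exact (mul_inv_cancel₀ this).symm
    rw [e]
    have h2 : HasSum (fun p : K × Γ.V => if p ∈ (node q.2).image (fun v => (q.1, v)) then
        ((((node q.2).card : ℝ)⁻¹ : ℝ) : ℂ) else 0) (∑ p ∈ (node q.2).image (fun v => (q.1, v)),
        if p ∈ (node q.2).image (fun v => (q.1, v)) then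
        ((((node q.2).card : ℝ)⁻¹ : ℝ) : ℂ) else 0) :=
      hasSum_sum_of_ne_finset_zero fun p hp => if_neg hp
    rw [Finset.sum_congr rfl fun p hp => if_pos hp] at h2
    convert h2 using 2 with p
    have hiff : (p.1 = q.1 ∧ p.2 ∈ node q.2) ↔ p ∈ (node q.2).image (fun v => (q.1, v)) := by
      constructor
      · intro h1; exact Finset.mem_image.2 ⟨p.2, h1.2, Prod.ext h1.1.symm rfl⟩
      · intro h1
        obtain ⟨v, hv, rfl⟩ := Finset.mem_image.1 h1
        exact ⟨rfl, hv⟩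
    by_cases h1 : p.1 = q.1 ∧ p.2 ∈ node q.2
    · rw [if_pos h1, if_pos (hiff.1 h1), Complex.conj_ofReal, ← Complex.ofReal_mul, ← mul_inv,
        Real.mul_self_sqrt hc.le]
    · rw [if_neg h1, if_neg fun h2 => h1 (hiff.2 h2), mul_zero]
  · rw [if_neg hq]
    convert hasSum_zero using 2 with p
    split_ifs with h1 h2
    · exfalso
      refine hq (Prod.ext (h1.1.symm.trans h2.1) ?_)
      by_contra hne'
      exact Finset.disjoint_left.1 (hd _ _ hne') h1.2 h2.2
    · simp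
    · simp
    · simp

/-- `∑_x ‖qco ν x‖ ≤ 1` -/
theorem sum_norm_qco_le {A : Type} {ν : (A × ZMod 4) →₀ ℝ} (h : IsLaw ν) (s : Finset A) :
    ∑ x ∈ s, ‖qco ν x‖ ≤ 1 := by
  classical
  have h1 : ∀ x, ‖qco ν x‖ ≤ ∑ ω : ZMod 4, ν (x, ω) := by
    intro x
    unfold qco
    refine (norm_sum_le _ _).trans (le_of_eq (Finset.sum_congr rfl fun ω _ => ?_))
    rw [norm_mul, norm_ph, mul_one, Complex.norm_real, Real.norm_of_nonneg (h.1 _)]
  refine (Finset.sum_le_sum fun x _ => h1 x).trans ?_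
  rw [← Finset.sum_product' (f := fun x ω => ν (x, ω)), ← h.2]
  unfold Finsupp.sum
  calc ∑ y ∈ s ×ˢ (Finset.univ : Finset (ZMod 4)), ν (y.1, y.2)
      ≤ ∑ y ∈ (s ×ˢ (Finset.univ : Finset (ZMod 4))) ∪ ν.support, ν y :=
        Finset.sum_le_sum_of_subset_of_nonneg Finset.subset_union_left fun y _ _ => h.1 y
    _ = ∑ y ∈ ν.support, ν y := by
        symm
        refine Finset.sum_subset Finset.subset_union_right fun y _ hy => ?_
        exact Finsupp.notMem_support_iff.1 hy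

theorem wq_sum_inj {A X : Type} {ν : (A × ZMod 4) →₀ ℝ} (h : IsLaw ν) (s : Finset X)
    (P : X → Prop) [DecidablePred P] (g : X → A)
    (hg : ∀ x y, P x → P y → g x = g y → x = y) :
    ∑ x ∈ s, ‖if P x then qco ν (g x) else 0‖ ≤ 1 := by
  classical
  have e : ∑ x ∈ s, ‖if P x then qco ν (g x) else 0‖ = ∑ x ∈ s.filter P, ‖qco ν (g x)‖ := by
    rw [Finset.sum_filter]
    refine Finset.sum_congr rfl fun x _ => ?_
    split_ifs <;> simp
  rw [e, ← Finset.sum_image (f := fun a => ‖qco ν a‖) (g := g)]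
  · exact sum_norm_qco_le h _
  · intro x hx y hy hxy
    exact hg x y (Finset.mem_filter.1 hx).2 (Finset.mem_filter.1 hy).2 hxy

open Classical in
theorem wq_Qop {A : Type} [Group A] {μ : ℤ → (A × ZMod 4) →₀ ℝ} (h : ∀ i, IsLaw (μ i))
    (on : ℤ → Prop) : (∀ p q : A × ℤ, mat (Qop μ on) p q =
    if Even p.2 then
      (if q.2 = p.2 + 1 ∧ on p.2 then qco (μ p.2) (p.1 * q.1⁻¹) else 0) +
      (if q.2 = p.2 - 1 ∧ on (p.2 - 1) then qco (μ (p.2 - 1)) (p.1 * q.1⁻¹) else 0)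
    else 0) ∧ ‖Qop μ on‖ ≤ Real.sqrt (2 * 2) := by
  unfold Qop
  have hb : ∀ (P : Prop) [Decidable P] (a b : ℂ), ‖if P then a + b else 0‖ ≤ ‖a‖ + ‖b‖ := by
    intro P _ a b
    split_ifs
    · exact norm_add_le _ _
    · rw [norm_zero]; positivity
  refine schur₁ _ _ _ zero_le_two zero_le_two ?_ ?_
  · intro p s
    refine (Finset.sum_le_sum fun q _ => hb _ _ _).trans ?_
    rw [Finset.sum_add_distrib]
    have h1 := wq_sum_inj (h p.2) s (fun q : A × ℤ => q.2 = p.2 + 1 ∧ on p.2)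
      (fun q => p.1 * q.1⁻¹) (fun x y hx hy hxy =>
        Prod.ext (inv_injective (mul_left_cancel hxy)) (hx.1.trans hy.1.symm))
    have h2 := wq_sum_inj (h (p.2 - 1)) s (fun q : A × ℤ => q.2 = p.2 - 1 ∧ on (p.2 - 1))
      (fun q => p.1 * q.1⁻¹) (fun x y hx hy hxy =>
        Prod.ext (inv_injective (mul_left_cancel hxy)) (hx.1.trans hy.1.symm))
    linarith
  · intro q s
    refine (Finset.sum_le_sum fun p _ => hb _ _ _).trans ?_
    rw [Finset.sum_add_distrib]
    have h1 := wq_sum_inj (h (q.2 - 1)) s (fun p : A × ℤ => q.2 = p.2 + 1 ∧ on p.2)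
      (fun p => p.1 * q.1⁻¹) (fun x y hx hy hxy =>
        Prod.ext (mul_right_cancel hxy) (by have := hx.1; have := hy.1; omega))
    have h2 := wq_sum_inj (h q.2) s (fun p : A × ℤ => q.2 = p.2 - 1 ∧ on (p.2 - 1))
      (fun p => p.1 * q.1⁻¹) (fun x y hx hy hxy =>
        Prod.ext (mul_right_cancel hxy) (by have := hx.1; have := hy.1; omega))
    have e1 : ∀ p : A × ℤ, (if q.2 = p.2 + 1 ∧ on p.2 then qco (μ p.2) (p.1 * q.1⁻¹) else 0) =
        (if q.2 = p.2 + 1 ∧ on p.2 then qco (μ (q.2 - 1)) (p.1 * q.1⁻¹) else 0) := by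
      intro p
      split_ifs with hp
      · rw [hp.1, add_sub_cancel_right]
      · rfl
    have e2 : ∀ p : A × ℤ,
        (if q.2 = p.2 - 1 ∧ on (p.2 - 1) then qco (μ (p.2 - 1)) (p.1 * q.1⁻¹) else 0) =
        (if q.2 = p.2 - 1 ∧ on (p.2 - 1) then qco (μ q.2) (p.1 * q.1⁻¹) else 0) := by
      intro p
      split_ifs with hp
      · rw [hp.1]
      · rfl
    simp only [e1, e2]
    linarith

open Classical in
theorem mat_Qop {A : Type} [Group A] {μ : ℤ → (A × ZMod 4) →₀ ℝ} (h : ∀ i, IsLaw (μ i))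
    (on : ℤ → Prop) (p q : A × ℤ) : mat (Qop μ on) p q =
    if Even p.2 then
      (if q.2 = p.2 + 1 ∧ on p.2 then qco (μ p.2) (p.1 * q.1⁻¹) else 0) +
      (if q.2 = p.2 - 1 ∧ on (p.2 - 1) then qco (μ (p.2 - 1)) (p.1 * q.1⁻¹) else 0)
    else 0 := by
  exact (wq_Qop h on).1 p q

theorem norm_Qop_le {A : Type} [Group A] {μ : ℤ → (A × ZMod 4) →₀ ℝ} (h : ∀ i, IsLaw (μ i))
    (on : ℤ → Prop) : ‖Qop μ on‖ ≤ 2 := by
  have := (wq_Qop h on).2
  rwa [Real.sqrt_mul_self zero_le_two] at this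

end Crest.Agent.R129
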