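import Crest.Agent.R129.Tree

/-! # Paths in a base graph (task R129/Paths). Statements frozen; add lemmas freely. -/

set_option autoImplicit false
set_option linter.unusedSectionVars false

namespace Crest.Agent.R129
namespace BG
variable {F A : Type} {Γ : BG F A} {K K' : Type} [Group K] [Group K']

theorem Path.trans {κ : Γ.V → F → K} {v v' v'' : Γ.V} {k k' : K} {m m' : ℕ}
    (h : Γ.Path κ v k v' m) (h' : Γ.Path κ v' k' v'' m') : Γ.Path κ v (k * k') v'' (m + m') := by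
  induction h' with
  | refl => simpa using h
  | fwd _ he ih => rw [← mul_assoc]; exact ih.fwd he
  | bwd _ he ih => rw [← mul_assoc]; exact ih.bwd he

theorem Path.symm {κ : Γ.V → F → K} {v v' : Γ.V} {k : K} {m : ℕ}
    (h : Γ.Path κ v k v' m) : Γ.Path κ v' k⁻¹ v m := by
  induction h with
  | refl => simpa using Path.refl v
  | fwd _ he ih =>
    have := ((Path.refl (κ := κ) _).bwd he).trans ih
    simpa [Nat.add_comm] using this
  | bwd _ he ih =>
    have := ((Path.refl (κ := κ) _).fwd he).trans ih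
    simpa [Nat.add_comm] using this

theorem Path.map {κ : Γ.V → F → K} (φ : K →* K') {v v' : Γ.V} {k : K} {m : ℕ}
    (h : Γ.Path κ v k v' m) : Γ.Path (fun u t => φ (κ u t)) v (φ k) v' m := by
  induction h with
  | refl => simpa using Path.refl v
  | fwd _ he ih => rw [map_mul]; exact ih.fwd he
  | bwd _ he ih => rw [map_mul, map_inv]; exact ih.bwd he

theorem Path.lift {κ : Γ.V → F → K} (φ : K →* K') {v v' : Γ.V} {k' : K'} {m : ℕ}
    (h : Γ.Path (fun u t => φ (κ u t)) v k' v' m) : ∃ k, φ k = k' ∧ Γ.Path κ v k v' m := by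
  induction h with
  | refl => exact ⟨1, map_one φ, Path.refl v⟩
  | fwd _ he ih =>
    obtain ⟨k, rfl, hk⟩ := ih
    exact ⟨_, map_mul φ _ _, hk.fwd he⟩
  | bwd _ he ih =>
    obtain ⟨k, rfl, hk⟩ := ih
    exact ⟨_, by rw [map_mul, map_inv], hk.bwd he⟩

theorem Conn.refl (κ : Γ.V → F → K) (p : K × Γ.V) : Γ.Conn κ p p := by
  exact ⟨0, by simpa using Path.refl p.2⟩
theorem Conn.symm {κ : Γ.V → F → K} {p q : K × Γ.V} (h : Γ.Conn κ p q) : Γ.Conn κ q p := by
  obtain ⟨m, hm⟩ := h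
  exact ⟨m, by simpa using hm.symm⟩
theorem Conn.trans {κ : Γ.V → F → K} {p q r : K × Γ.V} (h : Γ.Conn κ p q) (h' : Γ.Conn κ q r) :
    Γ.Conn κ p r := by
  obtain ⟨m, hm⟩ := h
  obtain ⟨m', hm'⟩ := h'
  exact ⟨m + m', by simpa [mul_assoc] using hm.trans hm'⟩

theorem SEdge.path {b b' : Γ.V} {σ : Let F × Bool} (h : Γ.SEdge b σ b') :
    Γ.Path Γ.fl b (sg σ) b' 1 := by
  rcases h with ⟨h1, h2, h3⟩ | ⟨h1, h2, h3⟩
  · have := (Path.refl (κ := Γ.fl) b).fwd h2
    simpa [sg, h1, fl, h3] using this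
  · have := (Path.refl (κ := Γ.fl) b).bwd h2
    simpa [sg, h1, fl, h3] using this

theorem SEdge.unique {b b' b'' : Γ.V} {σ : Let F × Bool} (h : Γ.SEdge b σ b')
    (h' : Γ.SEdge b σ b'') : b' = b'' := by
  rcases h with ⟨h1, h2, h3⟩ | ⟨h1, h2, h3⟩ <;> rcases h' with ⟨g1, g2, g3⟩ | ⟨g1, g2, g3⟩
  · exact Option.some.inj (h2.symm.trans g2)
  · simp [h1] at g1
  · simp [h1] at g1
  · exact Γ.nb_inj _ _ _ _ h2 g2

theorem SEdge.symm {b b' : Γ.V} {σ : Let F × Bool} (h : Γ.SEdge b σ b') :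
    Γ.SEdge b' (σ.1, !σ.2) b := by
  rcases h with ⟨h1, h2, h3⟩ | ⟨h1, h2, h3⟩
  · exact Or.inr ⟨by simp [h1], h2, h3⟩
  · exact Or.inl ⟨by simp [h1], h2, h3⟩

/-- at most one signed letter per port at a vertex -/
theorem SEdge.eq_of_port {b b' b'' : Γ.V} {σ σ' : Let F × Bool} (h : Γ.SEdge b σ b')
    (h' : Γ.SEdge b σ' b'') (hp : σ.1.1 = σ'.1.1) : σ = σ' := by
  rcases h with ⟨h1, h2, h3⟩ | ⟨h1, h2, h3⟩ <;> rcases h' with ⟨g1, g2, g3⟩ | ⟨g1, g2, g3⟩
  · exact Prod.ext (by rw [← h3, ← g3, hp]) (h1.trans g1.symm)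
  · exact absurd (Γ.nb_typ _ _ _ h2).1 (Γ.nb_typ _ _ _ g2).2
  · exact absurd (Γ.nb_typ _ _ _ g2).1 (Γ.nb_typ _ _ _ h2).2
  · rw [hp] at h2 h3
    obtain rfl := Γ.nb_inj _ _ _ _ h2 g2
    exact Prod.ext (h3.symm.trans g3) (h1.trans g1.symm)

/-- the `κ`-label of a signed edge -/
def slab (κ : Γ.V → F → K) (b : Γ.V) (σ : Let F × Bool) (b' : Γ.V) : K :=
  if σ.2 then κ b σ.1.1 else (κ b' σ.1.1)⁻¹

theorem slab_symm (κ : Γ.V → F → K) (b : Γ.V) (σ : Let F × Bool) (b' : Γ.V) :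
    slab κ b' (σ.1, !σ.2) b = (slab κ b σ b')⁻¹ := by
  unfold slab
  cases h : σ.2 <;> simp

theorem SEdge.slab_fl {b b' : Γ.V} {σ : Let F × Bool} (h : Γ.SEdge b σ b') :
    slab Γ.fl b σ b' = sg σ := by
  rcases h with ⟨h1, h2, h3⟩ | ⟨h1, h2, h3⟩ <;> simp [slab, sg, h1, fl, h3]

theorem SEdge.edge {b b' : Γ.V} {σ : Let F × Bool} (h : Γ.SEdge b σ b') : Γ.Edge b σ.1.1 b' := by
  rcases h with ⟨-, h2, -⟩ | ⟨-, h2, -⟩
  exacts [Or.inl h2, Or.inr h2]

theorem wlab_zero (κ : Γ.V → F → K) (x : ℕ → Γ.V) (t : ℕ → F) : Γ.wlab κ x t 0 = 1 := by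
  simp [wlab]

open Classical in
theorem wlab_succ (κ : Γ.V → F → K) (x : ℕ → Γ.V) (t : ℕ → F) (s : ℕ) :
    Γ.wlab κ x t (s + 1) =
      Γ.wlab κ x t s * if Γ.isH (x s) then κ (x s) (t s) else (κ (x (s + 1)) (t s))⁻¹ := by
  simp [wlab, List.range_succ]

theorem wlab_step {κ : Γ.V → F → K} {x : ℕ → Γ.V} {σ : ℕ → Let F × Bool} {s : ℕ}
    (h : Γ.SEdge (x s) (σ s) (x (s + 1))) :
    Γ.wlab κ x (fun s => (σ s).1.1) (s + 1) =
      Γ.wlab κ x (fun s => (σ s).1.1) s * slab κ (x s) (σ s) (x (s + 1)) := by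
  rw [wlab_succ]
  rcases h with ⟨h1, h2, -⟩ | ⟨h1, h2, -⟩
  · simp [slab, h1, (Γ.nb_typ _ _ _ h2).1]
  · simp [slab, h1, (Γ.nb_typ _ _ _ h2).2]

theorem wlab_congr (κ : Γ.V → F → K) {x x' : ℕ → Γ.V} {t t' : ℕ → F} (n : ℕ)
    (hx : ∀ s, s ≤ n → x s = x' s) (ht : ∀ s, s < n → t s = t' s) :
    Γ.wlab κ x t n = Γ.wlab κ x' t' n := by
  induction n with
  | zero => rw [wlab_zero, wlab_zero]
  | succ n ih =>
    rw [wlab_succ, wlab_succ, ih (fun s hs => hx s (by omega)) (fun s hs => ht s (by omega)),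
      hx n (by omega), hx (n + 1) le_rfl, ht n (by omega)]

theorem wlab_map (φ : K →* K') (κ : Γ.V → F → K) (x : ℕ → Γ.V) (t : ℕ → F) (n : ℕ) :
    Γ.wlab (fun u t => φ (κ u t)) x t n = φ (Γ.wlab κ x t n) := by
  induction n with
  | zero => rw [wlab_zero, wlab_zero, map_one]
  | succ n ih =>
    rw [wlab_succ, wlab_succ, ih, map_mul]
    split_ifs <;> simp

theorem Path.dup {κ : Γ.V → F → K} {v v' : Γ.V} {k : K} {m : ℕ} (h : Γ.Path κ v k v' m) :
    Γ.Path (fun u t => (κ u t, κ u t)) v ((k, k) : K × K) v' m :=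
  h.map ((MonoidHom.id K).prod (MonoidHom.id K))

theorem chain_step {κ : Γ.V → F → K} {v u u' : Γ.V} {k : K} {τ : Let F × Bool}
    (hτ : Γ.SEdge u τ u')
    (h : ∃ (n : ℕ) (x : ℕ → Γ.V) (σ : ℕ → Let F × Bool),
      (∀ s, s < n → Γ.SEdge (x s) (σ s) (x (s + 1))) ∧
      (∀ s, s + 1 < n → (σ s).1.1 ≠ (σ (s + 1)).1.1) ∧ x 0 = v ∧ x n = u ∧
      Γ.wlab κ x (fun s => (σ s).1.1) n = k) :
    ∃ (n : ℕ) (x : ℕ → Γ.V) (σ : ℕ → Let F × Bool),
      (∀ s, s < n → Γ.SEdge (x s) (σ s) (x (s + 1))) ∧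
      (∀ s, s + 1 < n → (σ s).1.1 ≠ (σ (s + 1)).1.1) ∧ x 0 = v ∧ x n = u' ∧
      Γ.wlab κ x (fun s => (σ s).1.1) n = k * slab κ u τ u' := by
  obtain ⟨n, x, σ, hc, hnb, h0, rfl, rfl⟩ := h
  by_cases hb : ∃ j, n = j + 1 ∧ (σ j).1.1 = τ.1.1
  · obtain ⟨j, rfl, hj⟩ := hb
    have a1 := (hc j (by omega)).symm
    obtain rfl := a1.eq_of_port hτ hj
    obtain rfl := a1.unique hτ
    refine ⟨j, x, σ, fun s hs => hc s (by omega), fun s hs => hnb s (by omega), h0, rfl, ?_⟩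
    rw [wlab_step (hc j (by omega)), slab_symm, mul_inv_cancel_right]
  · have x1 : ∀ s, s ≤ n → Function.update x (n + 1) u' s = x s := fun s hs =>
      Function.update_of_ne (by omega) _ _
    have s1 : ∀ s, s < n → Function.update σ n τ s = σ s := fun s hs =>
      Function.update_of_ne (by omega) _ _
    have hl : Γ.SEdge (Function.update x (n + 1) u' n) (Function.update σ n τ n)
        (Function.update x (n + 1) u' (n + 1)) := by
      rw [x1 n le_rfl, Function.update_self, Function.update_self]; exact hτ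
    refine ⟨n + 1, Function.update x (n + 1) u', Function.update σ n τ, fun s hs => ?_,
      fun s hs => ?_, (x1 0 (by omega)).trans h0, Function.update_self _ _ _, ?_⟩
    · rcases (Nat.lt_succ_iff.1 hs).lt_or_eq with hs | rfl
      · rw [x1 s hs.le, x1 (s + 1) hs, s1 s hs]; exact hc s hs
      · exact hl
    · rcases (show s + 1 ≤ n by omega).lt_or_eq with hs | rfl
      · rw [s1 s (by omega), s1 (s + 1) hs]; exact hnb s hs
      · rw [s1 s (by omega), Function.update_self]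
        exact fun he => hb ⟨s, rfl, he⟩
    · rw [wlab_step hl, wlab_congr κ n x1 (t' := fun s => (σ s).1.1) fun s hs => by rw [s1 s hs],
        x1 n le_rfl, Function.update_self, Function.update_self]

/-- without ports there are only trivial paths -/
theorem Path.of_empty (hF : ¬ Nonempty F) {κ : Γ.V → F → K} {v v' : Γ.V} {k : K} {m : ℕ}
    (h : Γ.Path κ v k v' m) : v' = v ∧ k = 1 ∧ m = 0 := by
  cases h with
  | refl => exact ⟨rfl, rfl, rfl⟩
  | @fwd _ _ _ _ t => exact absurd ⟨t⟩ hF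
  | @bwd _ _ _ _ t => exact absurd ⟨t⟩ hF

theorem Path.exists_chain [hF : Nonempty F] {κ : Γ.V → F → K} {v v' : Γ.V} {k : K} {m : ℕ}
    (h : Γ.Path κ v k v' m) : ∃ (n : ℕ) (x : ℕ → Γ.V) (σ : ℕ → Let F × Bool),
      (∀ s, s < n → Γ.SEdge (x s) (σ s) (x (s + 1))) ∧
      (∀ s, s + 1 < n → (σ s).1.1 ≠ (σ (s + 1)).1.1) ∧ x 0 = v ∧ x n = v' ∧
      Γ.wlab κ x (fun s => (σ s).1.1) n = k := by
  · obtain ⟨t0⟩ := hF
    induction h with
    | refl =>
      exact ⟨0, fun _ => v, fun _ => ((t0, t0, 0), true), fun s hs => by omega,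
        fun s hs => by omega, rfl, rfl, wlab_zero _ _ _⟩
    | @fwd u w k m t _ he ih =>
      exact chain_step (τ := (Γ.letter u t, true)) (Or.inl ⟨rfl, he, rfl⟩) ih
    | @bwd u w k m t _ he ih =>
      exact chain_step (τ := (Γ.letter u t, false)) (Or.inr ⟨rfl, he, rfl⟩) ih

variable [DecidableEq F]

theorem Path.norm_le {v v' : Γ.V} {w : FreeGroup (Let F)} {m : ℕ} (h : Γ.Path Γ.fl v w v' m) :
    w.norm ≤ m ∧ w.norm % 2 = m % 2 := by
  induction h with
  | refl => simp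
  | @fwd u w k m t _ he ih =>
    have h1 := FreeGroup.norm_mul_le k (Γ.fl u t)
    have h2 := norm_mul_mod_two k (Γ.fl u t)
    have h3 : (Γ.fl u t).norm = 1 := FreeGroup.norm_of _
    omega
  | @bwd u w k m t _ he ih =>
    have h1 := FreeGroup.norm_mul_le k (Γ.fl u t)⁻¹
    have h2 := norm_mul_mod_two k (Γ.fl u t)⁻¹
    have h3 : (Γ.fl u t)⁻¹.norm = 1 := by rw [FreeGroup.norm_inv_eq]; exact FreeGroup.norm_of _
    omega

open Classical in
/-- parity: `H`-vertices and non-`H`-vertices alternate -/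
theorem Path.parity {κ : Γ.V → F → K} {v v' : Γ.V} {k : K} {m : ℕ} (h : Γ.Path κ v k v' m) :
    (Γ.isH v ↔ Γ.isH v') ↔ m % 2 = 0 := by
  induction h with
  | refl => simp
  | @fwd u w k m t _ he ih =>
    obtain ⟨h1, h2⟩ := Γ.nb_typ _ _ _ he
    have h3 : (m + 1) % 2 = 0 ↔ ¬ m % 2 = 0 := by omega
    rw [h3, ← ih]; tauto
  | @bwd u w k m t _ he ih =>
    obtain ⟨h1, h2⟩ := Γ.nb_typ _ _ _ he
    have h3 : (m + 1) % 2 = 0 ↔ ¬ m % 2 = 0 := by omega
    rw [h3, ← ih]; tauto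

/-- Reduction to a non-backtracking walk.  Induction on the path: appending an edge through port `t`; if the
walk is nonempty and its last port is `t` the edge is the last edge backwards (`nb` is a function, `nb_inj`,
`nb_typ`), so drop the last step; otherwise append it (`Function.update`), and the norm grows by
`norm_mul_sg_sg`.  `σ s` is the signed letter of step `s`. -/
theorem Path.reduce [Nonempty F] {κ : Γ.V → F → K} {v v' : Γ.V} {w : FreeGroup (Let F)} {k : K} {m : ℕ}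
    (h : Γ.Path (fun u t => (Γ.fl u t, κ u t)) v ((w, k) : FreeGroup (Let F) × K) v' m) :
    ∃ (x : ℕ → Γ.V) (t : ℕ → F) (σ : ℕ → Let F × Bool), Γ.NBWalk x t w.norm ∧ x 0 = v ∧ x w.norm = v' ∧
      Γ.wlab κ x t w.norm = k ∧ Γ.wlab Γ.fl x t w.norm = w ∧
      (∀ s, s ≤ w.norm → (Γ.wlab Γ.fl x t s).norm = s ∧ Btw 1 (Γ.wlab Γ.fl x t s) w ∧
        Γ.Path Γ.fl v (Γ.wlab Γ.fl x t s) (x s) s) ∧
      ∀ s, s < w.norm → Γ.SEdge (x s) (σ s) (x (s + 1)) ∧ (σ s).1.1 = t s ∧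
        Γ.wlab Γ.fl x t (s + 1) = Γ.wlab Γ.fl x t s * sg (σ s) := by
  obtain ⟨n, x, σ, hc, hnb, h0, hn, hl⟩ := h.exists_chain
  have e1 := wlab_map (MonoidHom.fst (FreeGroup (Let F)) K)
    (fun u t => (Γ.fl u t, κ u t)) x (fun s => (σ s).1.1) n
  have e2 := wlab_map (MonoidHom.snd (FreeGroup (Let F)) K)
    (fun u t => (Γ.fl u t, κ u t)) x (fun s => (σ s).1.1) n
  rw [hl] at e1 e2
  replace e1 : Γ.wlab Γ.fl x (fun s => (σ s).1.1) n = w := e1
  replace e2 : Γ.wlab κ x (fun s => (σ s).1.1) n = k := e2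
  have st : ∀ s, s < n → Γ.wlab Γ.fl x (fun s => (σ s).1.1) (s + 1) =
      Γ.wlab Γ.fl x (fun s => (σ s).1.1) s * sg (σ s) := fun s hs => by
    rw [wlab_step (hc s hs), (hc s hs).slab_fl]
  have nm : ∀ s, s ≤ n → (Γ.wlab Γ.fl x (fun s => (σ s).1.1) s).norm = s := by
    intro s
    induction s using Nat.twoStepInduction with
    | zero => intro _; simp [wlab_zero]
    | one =>
      intro h1
      rw [st 0 h1, wlab_zero, ← td_one]
      exact td_sg 1 _
    | more s ih1 ih2 =>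
      intro hs
      have a1 := ih1 (by omega)
      have a2 := ih2 (by omega)
      rw [st s (by omega)] at a2
      rw [st (s + 1) (by omega), st s (by omega), norm_mul_sg_sg (by rw [a2, a1]), a1]
      intro he
      exact hnb s (by omega) (by rw [he])
  have hw : w.norm = n := by rw [← e1]; exact nm n le_rfl
  have up : ∀ j s, s + j = n → td (Γ.wlab Γ.fl x (fun s => (σ s).1.1) s) w ≤ j := by
    intro j
    induction j with
    | zero => intro s hs; rw [show s = n from hs, e1, td_self]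
    | succ j ih =>
      intro s hs
      have a1 := ih (s + 1) (by omega)
      have a2 := td_triangle (Γ.wlab Γ.fl x (fun s => (σ s).1.1) s)
        (Γ.wlab Γ.fl x (fun s => (σ s).1.1) (s + 1)) w
      have a3 : td (Γ.wlab Γ.fl x (fun s => (σ s).1.1) s)
          (Γ.wlab Γ.fl x (fun s => (σ s).1.1) (s + 1)) = 1 := by
        rw [st s (by omega)]; exact td_sg _ _
      omega
  rw [hw]
  refine ⟨x, fun s => (σ s).1.1, σ, ⟨fun s hs => (hc s hs).edge, hnb⟩, h0, hn, e2, e1,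
    fun s hs => ⟨nm s hs, ?_, ?_⟩, fun s hs => ⟨hc s hs, rfl, st s hs⟩⟩
  · have a1 := up (n - s) s (by omega)
    have a2 := td_triangle 1 (Γ.wlab Γ.fl x (fun s => (σ s).1.1) s) w
    unfold Btw
    rw [td_one, td_one, nm s hs, hw] at *
    omega
  · induction s with
    | zero => rw [wlab_zero, h0]; exact Path.refl v
    | succ s ih => rw [st s hs]; exact (ih (by omega)).trans (hc s hs).path

/-- the free label determines the endpoint and every other label -/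
theorem Path.det {κ : Γ.V → F → K} {v v' v'' : Γ.V} {w : FreeGroup (Let F)} {k k' : K} {m m' : ℕ}
    (h : Γ.Path (fun u t => (Γ.fl u t, κ u t)) v ((w, k) : FreeGroup (Let F) × K) v' m)
    (h' : Γ.Path (fun u t => (Γ.fl u t, κ u t)) v ((w, k') : FreeGroup (Let F) × K) v'' m') :
    v' = v'' ∧ k = k' := by
  by_cases hF : Nonempty F
  swap
  · obtain ⟨a1, a2, -⟩ := h.of_empty hF
    obtain ⟨b1, b2, -⟩ := h'.of_empty hF
    exact ⟨a1.trans b1.symm, (Prod.mk.inj a2).2.trans (Prod.mk.inj b2).2.symm⟩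
  obtain ⟨x, t, σ, -, h0, hn, hk, -, h1, h2⟩ := h.reduce
  obtain ⟨x', t', σ', -, h0', hn', hk', -, h1', h2'⟩ := h'.reduce
  have e1 : ∀ s, s ≤ w.norm → Γ.wlab Γ.fl x t s = Γ.wlab Γ.fl x' t' s := fun s hs =>
    (h1 s hs).2.1.unique (h1' s hs).2.1 (by rw [td_one, td_one, (h1 s hs).1, (h1' s hs).1])
  have e2 : ∀ s, s < w.norm → σ s = σ' s := fun s hs => by
    have := e1 (s + 1) hs
    rw [(h2 s hs).2.2, (h2' s hs).2.2, e1 s hs.le] at this
    exact sg_injective (mul_left_cancel this)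
  have e3 : ∀ s, s ≤ w.norm → x s = x' s := by
    intro s
    induction s with
    | zero => intro _; rw [h0, h0']
    | succ s ih =>
      intro hs
      have a1 := (h2 s hs).1
      rw [ih (by omega), e2 s hs] at a1
      exact a1.unique (h2' s hs).1
  refine ⟨by rw [← hn, ← hn', e3 _ le_rfl], ?_⟩
  rw [← hk, ← hk']
  exact wlab_congr κ _ e3 fun s hs => by rw [← (h2 s hs).2.1, ← (h2' s hs).2.1, e2 s hs]

theorem Path.det' {v v' v'' : Γ.V} {w : FreeGroup (Let F)} {m m' : ℕ}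
    (h : Γ.Path Γ.fl v w v' m) (h' : Γ.Path Γ.fl v w v'' m') : v' = v'' := by
  exact (Path.det (κ := Γ.fl) h.dup h'.dup).1

/-- prefixes of the label are labels of prefixes; in particular a path of length `‖w‖` exists -/
theorem Path.prefix {v v' : Γ.V} {w x : FreeGroup (Let F)} {m : ℕ} (h : Γ.Path Γ.fl v w v' m)
    (hx : Btw 1 x w) : ∃ v'', Γ.Path Γ.fl v x v'' x.norm := by
  have hs : x.norm ≤ w.norm := by
    unfold Btw at hx
    rw [td_one, td_one] at hx
    omega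
  by_cases hF : Nonempty F
  swap
  · obtain ⟨-, rfl, -⟩ := h.of_empty hF
    obtain rfl : x = 1 := by simpa using hs
    exact ⟨v, Path.refl v⟩
  obtain ⟨y, t, σ, -, -, -, -, -, h1, -⟩ := Path.reduce (κ := Γ.fl) h.dup
  obtain ⟨a1, a2, a3⟩ := h1 _ hs
  rw [a2.unique hx (by rw [td_one, td_one, a1])] at a3
  exact ⟨_, a3⟩

theorem Path.sedge {v v' : Γ.V} {σ : Let F × Bool} {m : ℕ} (h : Γ.Path Γ.fl v (sg σ) v' m) :
    Γ.SEdge v σ v' := by
  have : Nonempty F := ⟨σ.1.1⟩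
  obtain ⟨y, t, τ, -, h0, hn, -, hw, -, h2⟩ := Path.reduce (κ := Γ.fl) h.dup
  have e : (sg σ).norm = 1 := by
    have := td_sg 1 σ
    rwa [td_one, one_mul] at this
  rw [e] at hn hw h2
  obtain ⟨a1, -, a3⟩ := h2 0 one_pos
  rw [zero_add, hw, wlab_zero, one_mul] at a3
  rw [zero_add, h0, hn, ← sg_injective a3] at a1
  exact a1

/-- the number of endpoints of paths of length `≤ m` in a cover -/
theorem card_ball [Fintype F] (κ : Γ.V → F → K) (v : Γ.V) (m : ℕ) :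
    ∃ s : Finset (K × Γ.V), s.card ≤ (Fintype.card F + 1) ^ m ∧
      ∀ k v' m', m' ≤ m → Γ.Path κ v k v' m' → (k, v') ∈ s := by
  classical
  set St : K × Γ.V → F → K × Γ.V → Prop := fun p t q =>
    (Γ.nb p.2 t = some q.2 ∧ q.1 = p.1 * κ p.2 t) ∨
      (Γ.nb q.2 t = some p.2 ∧ q.1 = p.1 * (κ q.2 t)⁻¹) with hSt
  have uq : ∀ p t q q', St p t q → St p t q' → q = q' := by
    rintro p t q q' (⟨h1, h2⟩ | ⟨h1, h2⟩) (⟨g1, g2⟩ | ⟨g1, g2⟩)
    · exact Prod.ext (h2.trans g2.symm) (Option.some.inj (h1.symm.trans g1))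
    · exact absurd (Γ.nb_typ _ _ _ h1).1 (Γ.nb_typ _ _ _ g1).2
    · exact absurd (Γ.nb_typ _ _ _ g1).1 (Γ.nb_typ _ _ _ h1).2
    · have := Γ.nb_inj _ _ _ _ h1 g1
      exact Prod.ext (by rw [h2, g2, this]) this
  set nx : (K × Γ.V) × Option F → K × Γ.V := fun a =>
    a.2.elim a.1 fun t => if h : ∃ q, St a.1 t q then h.choose else a.1 with hnx
  have hn : ∀ p t q, St p t q → nx (p, some t) = q := fun p t q h => by
    have h' : ∃ q, St p t q := ⟨q, h⟩
    simp only [hnx, Option.elim, dif_pos h']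
    exact uq _ _ _ _ h'.choose_spec h
  induction m with
  | zero =>
    refine ⟨{(1, v)}, by simp, fun k v' m' hm h => ?_⟩
    obtain rfl : m' = 0 := by omega
    cases h
    simp
  | succ m ih =>
    obtain ⟨s, hs, h⟩ := ih
    refine ⟨(s ×ˢ Finset.univ).image nx, ?_, fun k v' m' hm hp => ?_⟩
    · refine Finset.card_image_le.trans ?_
      rw [Finset.card_product, Finset.card_univ, Fintype.card_option, pow_succ]
      gcongr
    rcases hm.lt_or_eq with hm | rfl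
    · exact Finset.mem_image.2 ⟨((k, v'), none), by simpa using h k v' m' (by omega) hp, rfl⟩
    cases hp with
    | @fwd u _ k _ t hp he =>
      exact Finset.mem_image.2 ⟨((k, u), some t), by simpa using h k u m le_rfl hp,
        hn _ _ _ (Or.inl ⟨he, rfl⟩)⟩
    | @bwd _ w k _ t hp he =>
      exact Finset.mem_image.2 ⟨((k, w), some t), by simpa using h k w m le_rfl hp,
        hn _ _ _ (Or.inr ⟨he, rfl⟩)⟩

end BG
end Crest.Agent.R129
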