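import Crest.Agent.R129.SC
import Crest.Agent.R129.Paths

/-! # From a base graph to small cancellation data (task R129/Bridge). Statement frozen. -/

set_option autoImplicit false

namespace Crest.Agent.R129
namespace BG
variable {F A : Type} [DecidableEq F] [Group A] {Γ : BG F A}

variable (Γ) in
/-- the equivalence relation on the universal cover -/
def brS : Setoid (FreeGroup (Let F) × Γ.V) where
  r p q := ∃ m, Γ.Path Γ.fl p.2 (p.1⁻¹ * q.1) q.2 m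
  iseqv := {
    refl := fun p => ⟨0, by rw [inv_mul_cancel]; exact Path.refl _⟩
    symm := by
      rintro p q ⟨m, h⟩
      refine ⟨m, ?_⟩
      have := h.symm
      rwa [mul_inv_rev, inv_inv] at this
    trans := by
      rintro p q r ⟨m, h⟩ ⟨m', h'⟩
      refine ⟨m + m', ?_⟩
      have := h.trans h'
      rwa [mul_assoc, mul_inv_cancel_left] at this }

variable (Γ) in
/-- the class -/
def brC (x : FreeGroup (Let F)) (b : Γ.V) : Quotient Γ.brS := Quotient.mk Γ.brS (x, b)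

omit [DecidableEq F] [Group A] in
theorem brC_eq {x y : FreeGroup (Let F)} {b b' : Γ.V} :
    Γ.brC x b = Γ.brC y b' ↔ ∃ m, Γ.Path Γ.fl b (x⁻¹ * y) b' m := Quotient.eq

omit [DecidableEq F] [Group A] in
theorem brC_surj (Y : Quotient Γ.brS) : ∃ x b, Y = Γ.brC x b := by
  obtain ⟨⟨x, b⟩, rfl⟩ := Quotient.exists_rep Y
  exact ⟨x, b, rfl⟩

omit [Group A] in
theorem brC_inj {x : FreeGroup (Let F)} {b b' : Γ.V} (h : Γ.brC x b = Γ.brC x b') : b = b' := by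
  obtain ⟨m, h⟩ := brC_eq.1 h
  rw [inv_mul_cancel] at h
  exact (Path.refl b).det' h

variable (Γ) in
/-- translation -/
def brSm (g : FreeGroup (Let F)) : Quotient Γ.brS → Quotient Γ.brS :=
  Quotient.map (fun p => (g * p.1, p.2)) (by
    rintro p q ⟨m, h⟩
    refine ⟨m, ?_⟩
    have : (g * p.1)⁻¹ * (g * q.1) = p.1⁻¹ * q.1 := by group
    simp only [this]
    exact h)

omit [DecidableEq F] [Group A] in
theorem brSm_C (g x : FreeGroup (Let F)) (b : Γ.V) : Γ.brSm g (Γ.brC x b) = Γ.brC (g * x) b := rfl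

variable (Γ) in
open Classical in
/-- the scale -/
noncomputable def brL (Y : Quotient Γ.brS) (y : FreeGroup (Let F)) : ℝ :=
  if h : ∃ b, Γ.brC y b = Y then Γ.L h.choose else 1

omit [Group A] in
theorem brL_C (x : FreeGroup (Let F)) (b : Γ.V) : Γ.brL (Γ.brC x b) x = Γ.L b := by
  have h : ∃ b', Γ.brC x b' = Γ.brC x b := ⟨b, rfl⟩
  unfold brL
  rw [dif_pos h, brC_inj h.choose_spec]

variable (Γ) in
/-- the rotations -/
def brR (Y : Quotient Γ.brS) : Subgroup (FreeGroup (Let F)) where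
  carrier := {r | ∀ y b, Γ.brC y b = Y → ∃ m, Γ.Path (fun u t => (Γ.fl u t, Γ.a u t)) b
    ((y⁻¹ * r * y, 1) : FreeGroup (Let F) × A) b m}
  one_mem' := fun y b _ => ⟨0, by
    rw [mul_one, inv_mul_cancel]; exact Path.refl _⟩
  mul_mem' := by
    intro r r' hr hr' y b hy
    obtain ⟨m, h⟩ := hr y b hy
    obtain ⟨m', h'⟩ := hr' y b hy
    refine ⟨m + m', ?_⟩
    have := h.trans h'
    have e : y⁻¹ * r * y * (y⁻¹ * r' * y) = y⁻¹ * (r * r') * y := by group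
    rwa [Prod.mk_mul_mk, mul_one, e] at this
  inv_mem' := by
    intro r hr y b hy
    obtain ⟨m, h⟩ := hr y b hy
    refine ⟨m, ?_⟩
    have := h.symm
    have e : (y⁻¹ * r * y)⁻¹ = y⁻¹ * r⁻¹ * y := by group
    rwa [Prod.inv_mk, inv_one, e] at this

omit [DecidableEq F] in
theorem brR_iff {x r : FreeGroup (Let F)} {b : Γ.V} : r ∈ Γ.brR (Γ.brC x b) ↔
    ∃ m, Γ.Path (fun u t => (Γ.fl u t, Γ.a u t)) b
      ((x⁻¹ * r * x, 1) : FreeGroup (Let F) × A) b m := by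
  refine ⟨fun h => h x b rfl, ?_⟩
  rintro ⟨m, h⟩ y b' hy
  obtain ⟨m', h'⟩ := brC_eq.1 hy
  obtain ⟨⟨k, α⟩, hk, h2⟩ := Path.lift (κ := fun u t => (Γ.fl u t, Γ.a u t))
    (MonoidHom.fst _ _) h'
  have hk' : k = y⁻¹ * x := hk
  subst hk'
  refine ⟨m' + m + m', ?_⟩
  have := (h2.trans h).trans h2.symm
  have e : y⁻¹ * x * (x⁻¹ * r * x) * (y⁻¹ * x)⁻¹ = y⁻¹ * r * y := by group
  rwa [Prod.mk_mul_mk, Prod.inv_mk, Prod.mk_mul_mk, mul_one, mul_inv_cancel, e] at this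

omit [DecidableEq F] in
theorem Path.L_le (h : Γ.SCHyp) {K : Type} [Group K] {κ : Γ.V → F → K} {v v' : Γ.V} {k : K} {m : ℕ}
    (hp : Γ.Path κ v k v' m) : Γ.L v' ≤ Γ.L v + m / 100 := by
  induction hp with
  | refl => simp
  | @fwd u w k m t _ he ih =>
    have := h.lip u t w (Or.inl he)
    push_cast
    linarith
  | @bwd u w k m t _ he ih =>
    have := h.lip w t u (Or.inr he)
    push_cast
    linarith

omit [Group A] in
theorem Path.short {v v' : Γ.V} {w : FreeGroup (Let F)} {m : ℕ} (h : Γ.Path Γ.fl v w v' m) :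
    Γ.Path Γ.fl v w v' w.norm := by
  obtain ⟨v'', h'⟩ := h.prefix (btw_right 1 w)
  rwa [h'.det' h] at h'

omit [DecidableEq F] [Group A] in
theorem SEdge.isH_iff {b b' : Γ.V} {σ : Let F × Bool} (h : Γ.SEdge b σ b') :
    Γ.isH b ↔ σ.2 = true := by
  rcases h with ⟨h1, h2, -⟩ | ⟨h1, h2, -⟩
  · exact ⟨fun _ => h1, fun _ => (Γ.nb_typ _ _ _ h2).1⟩
  · exact ⟨fun h => absurd h (Γ.nb_typ _ _ _ h2).2, fun h => by rw [h1] at h; cases h⟩

omit [DecidableEq F] [Group A] in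
theorem SEdge.z_hEnd {x : ℕ → Γ.V} {s : ℕ} {σ : Let F × Bool} (h : Γ.SEdge (x s) σ (x (s + 1))) :
    Γ.z (Γ.hEnd x s) = σ.1.2.1 := by
  unfold hEnd
  rcases h with ⟨-, h2, h3⟩ | ⟨-, h2, h3⟩
  · rw [if_pos (Γ.nb_typ _ _ _ h2).1, ← h3]; rfl
  · rw [if_neg (Γ.nb_typ _ _ _ h2).2, ← h3]; rfl

theorem br_piece (h : Γ.SCHyp) {b b' c c' : Γ.V} {w : FreeGroup (Let F)} {m m' : ℕ} (hb : b ≠ b')
    (h1 : Γ.Path Γ.fl b w c m) (h2 : Γ.Path Γ.fl b' w c' m') : (w.norm : ℝ) ≤ Γ.L b := by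
  by_cases h0 : w.norm = 0
  · rw [h0]
    have := h.one_le b
    push_cast
    linarith
  have hF : Nonempty F := by
    by_contra hF
    rw [(h1.of_empty hF).2.1] at h0
    exact h0 FreeGroup.norm_one
  obtain ⟨x, t, σ, a1, a2, -, -, -, a6, a7⟩ := h1.dup.reduce
  obtain ⟨x', t', σ', b1, b2, -, -, -, b6, b7⟩ := h2.dup.reduce
  have e1 : ∀ s, s ≤ w.norm → Γ.wlab Γ.fl x t s = Γ.wlab Γ.fl x' t' s := fun s hs =>
    (a6 s hs).2.1.unique (b6 s hs).2.1 (by rw [td_one, td_one, (a6 s hs).1, (b6 s hs).1])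
  have e2 : ∀ s, s < w.norm → σ s = σ' s := fun s hs => by
    have := e1 (s + 1) hs
    rw [(a7 s hs).2.2, (b7 s hs).2.2, e1 s hs.le] at this
    exact sg_injective (mul_left_cancel this)
  have e3 : ∀ s, s < w.norm → t s = t' s := fun s hs => by
    rw [← (a7 s hs).2.1, ← (b7 s hs).2.1, e2 s hs]
  have b1' : Γ.NBWalk x' t w.norm :=
    ⟨fun s hs => by rw [e3 s hs]; exact b1.1 s hs, a1.2⟩
  rw [← a2]
  refine h.piece x x' t w.norm a1 b1' ?_ (fun s hs => ?_) (by rw [a2, b2]; exact hb)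
  · have hs : 0 < w.norm := Nat.pos_of_ne_zero h0
    rw [(a7 0 hs).1.isH_iff, (b7 0 hs).1.isH_iff, e2 0 hs]
  · rw [(a7 s hs).1.z_hEnd, (b7 s hs).1.z_hEnd, e2 s hs]

theorem br_girth (h : Γ.SCHyp) {b : Γ.V} {w : FreeGroup (Let F)} {m : ℕ} (hw : w ≠ 1)
    (h1 : Γ.Path (fun u t => (Γ.fl u t, Γ.a u t)) b ((w, 1) : FreeGroup (Let F) × A) b m) :
    100 * Γ.L b ≤ w.norm := by
  have hF : Nonempty F := by
    by_contra hF
    exact hw (congrArg Prod.fst (h1.of_empty hF).2.1)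
  obtain ⟨x, t, σ, a1, a2, a3, a4, -⟩ := h1.reduce
  rw [← a2]
  exact h.girth x t w.norm a1 (Nat.pos_of_ne_zero fun e => hw (FreeGroup.norm_eq_zero.1 e))
    (by rw [a3, a2]) a4

/-- the small cancellation data -/
noncomputable def brSC (h : Γ.SCHyp) : SC (Let F) where
  M := Quotient Γ.brS
  sm := Γ.brSm
  sm_one := fun Y => by
    obtain ⟨x, b, rfl⟩ := brC_surj Y
    rw [brSm_C, one_mul]
  sm_mul := fun g k Y => by
    obtain ⟨x, b, rfl⟩ := brC_surj Y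
    rw [brSm_C, brSm_C, brSm_C, mul_assoc]
  mem := fun Y => {y | ∃ b, Γ.brC y b = Y}
  R := Γ.brR
  L := Γ.brL
  ne := fun Y => by
    obtain ⟨x, b, rfl⟩ := brC_surj Y
    exact ⟨x, b, rfl⟩
  mem_sm := fun g Y y => by
    obtain ⟨x, b, rfl⟩ := brC_surj Y
    have : (g * y)⁻¹ * (g * x) = y⁻¹ * x := by group
    simp only [Set.mem_ofPred_eq, brSm_C, brC_eq, this]
  convex := by
    rintro _ x y z ⟨b, rfl⟩ ⟨b', hy⟩ hz
    obtain ⟨m, hy⟩ := brC_eq.1 hy.symm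
    rw [← btw_mul x⁻¹, inv_mul_cancel] at hz
    obtain ⟨v, hv⟩ := hy.prefix hz
    exact ⟨v, (brC_eq.2 ⟨_, hv⟩).symm⟩
  R_sm := fun g Y r hr => by
    obtain ⟨x, b, rfl⟩ := brC_surj Y
    rw [brSm_C, brR_iff]
    have : (g * x)⁻¹ * (g * r * g⁻¹) * (g * x) = x⁻¹ * r * x := by group
    rw [this]
    exact brR_iff.1 hr
  R_fix := fun Y r hr => by
    obtain ⟨x, b, rfl⟩ := brC_surj Y
    obtain ⟨m, hm⟩ := brR_iff.1 hr
    rw [brSm_C]
    refine (brC_eq.2 ⟨m, ?_⟩).symm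
    rw [← mul_assoc]
    exact hm.map (MonoidHom.fst _ _)
  L_sm := fun g Y y => by
    by_cases hy : ∃ b, Γ.brC y b = Y
    · obtain ⟨b, rfl⟩ := hy
      rw [brSm_C, brL_C, brL_C]
    · obtain ⟨x, b, rfl⟩ := brC_surj Y
      have : (g * y)⁻¹ * (g * x) = y⁻¹ * x := by group
      unfold brL
      rw [dif_neg hy, dif_neg]
      simpa only [brSm_C, brC_eq, this] using hy
  one_le := by
    rintro _ y ⟨b, rfl⟩
    rw [brL_C]
    exact h.one_le b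
  lip := by
    rintro _ x y ⟨b, rfl⟩ ⟨b', hy⟩
    obtain ⟨m, hm⟩ := brC_eq.1 hy.symm
    rw [brL_C, ← hy, brL_C]
    exact hm.short.L_le h
  piece := by
    rintro _ _ x y hne ⟨b, rfl⟩ ⟨c, hy⟩ ⟨b', rfl⟩ ⟨c', hy'⟩
    obtain ⟨m, hm⟩ := brC_eq.1 hy.symm
    obtain ⟨m', hm'⟩ := brC_eq.1 hy'.symm
    rw [brL_C]
    exact br_piece h (fun e => hne (by rw [e])) hm hm'
  girth := by
    rintro _ r y hr hr1 ⟨b, rfl⟩
    obtain ⟨m, hm⟩ := brR_iff.1 hr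
    rw [brL_C]
    unfold td
    rw [← mul_assoc]
    refine br_girth h (fun e => hr1 ?_) hm
    have : r = y * (y⁻¹ * r * y) * y⁻¹ := by group
    rw [this, e, mul_one, mul_inv_cancel]

/-- `M` = quotient of `FreeGroup × V` by `(x,b) ~ (y,b') ↔ ∃ m, Path fl b (x⁻¹ y) b' m`; `mem Y = {y | ∃ b, ⟦(y,b)⟧ = Y}`
(`b` is unique by `Path.det'`), `L Y y = Γ.L b` (`1` off `mem Y`; make it equivariant),
`R Y = {r | ∀ y b, ⟦(y,b)⟧ = Y → ∃ m, Path (fl,a) b (y⁻¹ r y, 1) b m}` (one `(y,b)` suffices: conjugate by a lifted path).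
`convex`: `Path.prefix`.  `lip`: `Path.prefix` with `x = w` and induction along a path of length `‖w‖`.
`piece`: `Path.reduce` (with `K = Unit` or `A`) for both base vertices `b ≠ b'`; the prefixes agree by `Btw.unique`, so the signed
letters agree (`sg_injective`), so ports, types, and `z (hEnd ..)` agree (`NBWalk` only looks at `t s`, `s < ℓ`); `ℓ = 0` is trivial.
`girth`: `Path.reduce`. -/
theorem exists_SC (h : Γ.SCHyp) : ∃ (𝒮 : SC (Let F)) (cls : FreeGroup (Let F) → Γ.V → 𝒮.M),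
    (∀ Y y, y ∈ 𝒮.mem Y → ∃ b, Y = cls y b) ∧
    (∀ x b y, y ∈ 𝒮.mem (cls x b) ↔ ∃ b' m, Γ.Path Γ.fl b (x⁻¹ * y) b' m) ∧
    (∀ x b y b', cls x b = cls y b' ↔ ∃ m, Γ.Path Γ.fl b (x⁻¹ * y) b' m) ∧
    (∀ g x b, 𝒮.sm g (cls x b) = cls (g * x) b) ∧
    (∀ x b, 𝒮.L (cls x b) x = Γ.L b) ∧
    (∀ x b r, r ∈ 𝒮.R (cls x b) ↔ ∃ m, Γ.Path (fun u t => (Γ.fl u t, Γ.a u t)) b
      ((x⁻¹ * r * x, 1) : FreeGroup (Let F) × A) b m) ∧
    𝒮.N = Γ.Nrm := by
  refine ⟨brSC h, Γ.brC, ?_, ?_, fun _ _ _ _ => brC_eq, fun _ _ _ => rfl, brL_C,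
    fun _ _ _ => brR_iff, le_antisymm ?_ ?_⟩
  · rintro Y y ⟨b, rfl⟩
    exact ⟨b, rfl⟩
  · intro x b y
    constructor
    · rintro ⟨b', hb⟩
      exact ⟨b', brC_eq.1 hb.symm⟩
    · rintro ⟨b', hb⟩
      exact ⟨b', (brC_eq.2 hb).symm⟩
  · refine iSup_le fun Y r hr => ?_
    obtain ⟨x, b, rfl⟩ := brC_surj Y
    obtain ⟨m, hm⟩ := brR_iff.1 hr
    have h1 : x⁻¹ * r * x ∈ Γ.Nrm := Subgroup.subset_normalClosure ⟨b, m, hm⟩
    have : r = x * (x⁻¹ * r * x) * x⁻¹ := by group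
    rw [this]
    exact Subgroup.Normal.conj_mem inferInstance _ h1 x
  · refine Subgroup.normalClosure_le_normal ?_
    rintro w ⟨v, m, hm⟩
    refine (brSC h).R_le_N (Γ.brC 1 v) (brR_iff.2 ⟨m, ?_⟩)
    rwa [inv_one, one_mul, mul_one]

end BG
end Crest.Agent.R129
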