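import Crest.Agent.R129.Wind2

/-! # Consequences of `LG`, part 1: embedding, shortcuts, torsion (task R129/Cons1). Statements frozen. -/

set_option autoImplicit false

namespace Crest.Agent.R129
namespace SC
variable {S : Type} [DecidableEq S] (𝒮 : SC S)

/-- in the Greendlinger configuration the segment `[a,b]` is long (`girth`, triangle inequality) -/
theorem long_of_LG {Y : 𝒮.M} {r a b : FreeGroup S} (hr : r ∈ 𝒮.R Y) (h1 : r ≠ 1) (ha : a ∈ 𝒮.mem Y)
    (hd : (td (r * a) b : ℝ) ≤ 13 * 𝒮.L Y a) : 87 * 𝒮.L Y a ≤ td a b := by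
  have h2 := 𝒮.girth Y r a hr h1 ha
  have h3 : (td a (r * a) : ℝ) ≤ td a b + td (r * a) b := by
    rw [td_comm (r * a) b]
    exact_mod_cast td_triangle a b (r * a)
  linarith

/-- Strong induction on `td y (h y)`: if `h ≠ 1`, `LG` gives `Y' r a b` with `a, b ∈ [y, h y] ⊆ Y`, so `Y' = Y` by
`piece`; `td y (r⁻¹ h y) = td (r y) (h y) ≤ td y a + 13 L + td b (h y) < td y (h y)`. -/
theorem emb {Y : 𝒮.M} {y h : FreeGroup S} (hy : y ∈ 𝒮.mem Y) (hh : h ∈ 𝒮.N)
    (hhy : h * y ∈ 𝒮.mem Y) : h ∈ 𝒮.R Y := by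
  induction hn : td y (h * y) using Nat.strong_induction_on generalizing h with
  | _ n ih =>
  by_cases h1 : h = 1
  · rw [h1]; exact one_mem _
  obtain ⟨Y', r, a, b, hr, hr1, ha, hb, hab, hbh, hd⟩ := 𝒮.LG hh h1 y
  have hbY : b ∈ 𝒮.mem Y := 𝒮.convex Y _ _ _ hy hhy hbh
  have haY : a ∈ 𝒮.mem Y := 𝒮.convex Y _ _ _ hy hbY hab
  have hl := 𝒮.long_of_LG hr hr1 ha hd
  have h2 := 𝒮.one_le _ _ ha
  obtain rfl : Y' = Y := by
    by_contra hne
    have := 𝒮.piece _ _ _ _ hne ha hb haY hbY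
    linarith
  have h3 : td y (r⁻¹ * h * y) < n := by
    have h4 : td (r * a) b < td a b := by
      have : (td (r * a) b : ℝ) < td a b := by linarith
      exact_mod_cast this
    have h5 : td y (r⁻¹ * h * y) = td (r * y) (h * y) := by
      rw [← td_mul r y, mul_assoc, mul_inv_cancel_left]
    have h6 := td_triangle (r * y) (r * a) (h * y)
    have h7 := td_triangle (r * a) b (h * y)
    rw [td_mul] at h6
    unfold Btw at hab hbh
    omega
  have h8 := ih _ h3 (𝒮.N.mul_mem (𝒮.N.inv_mem (𝒮.R_le_N _ hr)) hh)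
    (by rw [mul_assoc]; exact 𝒮.mul_mem_of_R ((𝒮.R Y').inv_mem hr) hhy) rfl
  simpa using (𝒮.R Y').mul_mem hr h8

/-- nontrivial elements of `N` move every point by at least `87` -/
theorem N_long {h : FreeGroup S} (hh : h ∈ 𝒮.N) (h1 : h ≠ 1) (x : FreeGroup S) :
    87 ≤ td x (h * x) := by
  obtain ⟨Y, r, a, b, hr, hr1, ha, -, hab, hbh, hd⟩ := 𝒮.LG hh h1 x
  have hl := 𝒮.long_of_LG hr hr1 ha hd
  have h2 := 𝒮.one_le _ _ ha
  have h3 : 87 ≤ td a b := by
    have : ((87 : ℕ) : ℝ) ≤ td a b := by push_cast; linarith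
    exact_mod_cast this
  unfold Btw at hab hbh
  omega

/-- a shortest word admits no shortcut: `‖r⁻¹ w‖ ≤ td 1 p + td (r p) q + td q w` -/
theorem Min.shortcut {w p q r : FreeGroup S} (hw : 𝒮.Min w) (hr : r ∈ 𝒮.N) (hp : Btw 1 p q)
    (hq : Btw 1 q w) : td p q ≤ td (r * p) q ∧ td p q ≤ td (r * q) p := by
  have h1 := hw r⁻¹ (𝒮.N.inv_mem hr)
  have h2 := hw r hr
  rw [← td_one, ← td_one, ← td_mul r 1 (r⁻¹ * w), mul_inv_cancel_left] at h1
  rw [← td_one, ← td_one] at h2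
  have h3 := td_triangle (r * 1) (r * p) w
  have h4 := td_triangle (r * p) q w
  have h5 := td_triangle 1 p (r * w)
  have h6 := td_triangle p (r * q) (r * w)
  rw [td_mul] at h3 h6
  rw [td_comm (r * q) p]
  unfold Btw at hp hq
  omega

/-- an element whose minimal displacement is attained at `1` translates a line through `1` -/
private theorem c1_line {g : FreeGroup S} (hg : g ≠ 1) (hmin : ∀ x, td 1 g ≤ td x (g * x)) (k : ℕ) :
    td 1 (g ^ k) = k * td 1 g := by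
  have hn : td 1 g⁻¹ = td 1 g := by rw [← td_mul g, mul_one, mul_inv_cancel, td_comm]
  have h1 : Btw g⁻¹ 1 g := by
    obtain ⟨m, h1, h2, h3⟩ := exists_median g⁻¹ 1 g
    by_cases hm : m = 1
    · rwa [hm] at h3
    exfalso
    obtain ⟨s, hs, hs1⟩ := exists_btw 1 m (k := 1)
      (Nat.pos_of_ne_zero fun h => hm (td_eq_zero.1 h).symm)
    have h4 := (h2.trans_left hs).1
    have h5 := (h1.symm.trans_left hs).1
    have h6 := ((btw_mul g).2 h5).symm
    rw [mul_one, mul_inv_cancel] at h6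
    have h7 : td (g * s) g = 1 := by rw [td_comm, ← hs1, ← td_mul g 1 s, mul_one]
    have h8 := hmin s
    by_cases h9 : td 1 s ≤ td 1 (g * s)
    · have h10 := h4.order h6 h9
      unfold Btw at h6 h10
      omega
    · have e1 : s = g := td_eq_zero.1 (by unfold Btw at h4 h6; omega)
      have e2 : s = g⁻¹ := td_eq_zero.1 (by unfold Btw at h5 h6; omega)
      refine hg ((pow_eq_one_iff_left two_ne_zero).1 ?_)
      rw [sq, mul_eq_one_iff_eq_inv, ← e2, e1]
  have h2 : ∀ k : ℕ, Btw 1 (g ^ k) (g ^ (k + 1)) := by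
    intro k
    induction k with
    | zero => rw [pow_zero]; exact btw_left _ _
    | succ k ih =>
      have h3 := (btw_mul (g ^ (k + 1))).2 h1
      rw [mul_one, ← pow_succ, pow_succ g k, mul_inv_cancel_right, ← pow_succ] at h3
      exact (ih.concat h3 fun h => hg (by simpa [pow_succ] using h)).2
  induction k with
  | zero => simp [td_self]
  | succ k ih =>
    rw [← h2 k, ih, Nat.succ_mul, pow_succ, ← td_mul (g ^ k) 1 g, mul_one]

/-- Torsion-freeness.  Suppose not; among all `g` with `g ∉ N`, `g ^ p ∈ N` take one of least norm (`p` fixed); then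
every `c⁻¹ h g c` (`h ∈ N`) is again such, so has norm `≥ ‖g‖`.
(1) `‖g²‖ = 2‖g‖`: if the median of `1, g, g⁻¹` is not `1`, let `s` be the common first letter; `g s ∈ [1,g]` at
distance `‖g‖-1`, so `td s (g s) = ‖g‖ - 2` if `‖g‖ ≥ 2`; if `‖g‖ = 1` then `g = g⁻¹`, impossible in a free
group.  So `Btw g⁻¹ 1 g`, and by `Btw.concat` all `g^k` lie on a line: `td 1 (g^k) = k ‖g‖`.
(2) `g^p ≠ 1` (free groups are torsion-free); `LG` with `x = 1` gives `Y r a b` on `[1, g^p]`, `ℓ = L Y a`.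
All of `a, b, g a, g b` lie on `[1, g^(p+1)]`, `td 1 (g a) = ‖g‖ + td 1 a`.
If `‖g‖ + 2 ℓ' ≤ td a b` with... precisely if `td 1 (g a) ≤ td 1 b` and `td (g a) b > L Y (g a)`: `g a, b ∈ Y ∩ g Y`
so `g Y = Y`, `g^p ∈ R Y` by `emb`, `g ∈ R Y` by `hY`, contradiction.  Otherwise let `b'` be the earlier of
`b`, `g a`; `td b' b ≤ L Y b' ≤ ℓ + td a b' / 100`; `td a b' + td b' b ≥ 87 ℓ`; and
`td (r a) (g a) ≤ 13 ℓ + td b b' + (‖g‖ - td a b') < ‖g‖`, so `a⁻¹ r⁻¹ g a` is shorter. -/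
theorem torsionFree
    (hY : ∀ Y g (p : ℕ), 𝒮.sm g Y = Y → 0 < p → g ^ p ∈ 𝒮.R Y → g ∈ 𝒮.R Y)
    {g : FreeGroup S} {p : ℕ} (hp : 0 < p) (hg : g ^ p ∈ 𝒮.N) : g ∈ 𝒮.N := by
  induction hn : td 1 g using Nat.strong_induction_on generalizing g with
  | _ n ih =>
  by_contra hgN
  have hmin : ∀ h ∈ 𝒮.N, ∀ x, n ≤ td (h * x) (g * x) := by
    intro h hh x
    by_contra hlt
    have e : td 1 (x⁻¹ * (h⁻¹ * g) * x) = td (h * x) (g * x) := by
      rw [← td_mul (h * x) 1]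
      congr 1 <;> group
    have h1 : (h⁻¹ * g) ^ p ∈ 𝒮.N := by
      rw [← QuotientGroup.eq_one_iff] at hg hh ⊢
      simpa [hh] using hg
    have h2 := ih _ (e ▸ not_le.1 hlt) (g := x⁻¹ * (h⁻¹ * g) * x) (by
      have := 𝒮.N_normal.conj_mem _ h1 x⁻¹
      rwa [← conj_pow, inv_inv] at this) rfl
    have h3 := 𝒮.N.mul_mem hh (𝒮.N_normal.conj_mem _ h2 x)
    exact hgN (by simpa [mul_assoc] using h3)
  have hg1 : g ≠ 1 := fun h => hgN (h ▸ one_mem _)
  have hline := c1_line hg1 fun x => by simpa [hn] using hmin 1 (one_mem _) x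
  rw [hn] at hline
  obtain ⟨Y, r, a, b, hr, hr1, ha, hb, hab, hbh, hd⟩ :=
    𝒮.LG hg (fun h => hg1 ((pow_eq_one_iff_left hp.ne').1 h)) 1
  rw [mul_one] at hbh
  have hl := 𝒮.long_of_LG hr hr1 ha hd
  have h2 := 𝒮.one_le _ _ ha
  have hw1 : Btw 1 (g ^ p) (g * g ^ p) := by
    have : td (g ^ p) (g * g ^ p) = n := by
      rw [← pow_succ', pow_succ, ← hn, ← td_mul (g ^ p) 1, mul_one]
    rw [Btw, this, ← pow_succ', hline, hline, Nat.succ_mul]
  have hw2 : Btw 1 g (g * g ^ p) := by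
    have : td g (g * g ^ p) = p * n := by rw [← hline, ← td_mul g 1, mul_one]
    rw [Btw, this, ← pow_succ', hline, hn, Nat.succ_mul, add_comm]
  have hap : Btw 1 a (g ^ p) := (hbh.trans_left hab).1
  have hsh : ∀ u, Btw 1 u (g ^ p) → Btw 1 (g * u) (g * g ^ p) ∧ td 1 (g * u) = n + td 1 u := by
    intro u hu
    have h3 := (btw_mul g).2 hu
    rw [mul_one] at h3
    obtain ⟨h4, h5⟩ := hw2.symm.trans_left h3.symm
    refine ⟨h4.symm, ?_⟩
    rw [← h5.symm, hn, ← td_mul g 1 u, mul_one]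
  obtain ⟨hga, ega⟩ := hsh a hap
  obtain ⟨hgb, egb⟩ := hsh b hbh
  have haw := (hw1.trans_left hap).1
  have hbw := (hw1.trans_left hbh).1
  have h3 : (n : ℝ) ≤ td (r * a) b + td b (g * a) := by
    exact_mod_cast (hmin r (𝒮.R_le_N _ hr) a).trans (td_triangle _ b _)
  rcases le_total (td 1 (g * a)) (td 1 b) with hc | hc
  · have h4 := hga.order hbw hc
    have h5 := haw.order hga (by omega)
    have h6 := hbw.order hgb (by omega)
    have hga' : g * a ∈ 𝒮.mem Y := 𝒮.convex Y a b _ ha hb (h4.trans_left h5).2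
    have hga'' := (𝒮.mem_sm g Y a).2 ha
    have hb' : b ∈ 𝒮.mem (𝒮.sm g Y) :=
      𝒮.convex _ _ _ _ hga'' ((𝒮.mem_sm g Y b).2 hb) (h6.trans_left h4).2
    by_cases hfix : 𝒮.sm g Y = Y
    · have h7 : ∀ k : ℕ, 𝒮.sm (g ^ k) Y = Y := fun k => by
        induction k with
        | zero => rw [pow_zero, 𝒮.sm_one]
        | succ k ihk => rw [pow_succ, 𝒮.sm_mul, hfix, ihk]
      exact hgN (𝒮.R_le_N _ (hY Y g p hfix hp (𝒮.emb ha hg (h7 p ▸ (𝒮.mem_sm _ Y a).2 ha))))
    have h7 := 𝒮.piece _ _ _ _ hfix hga'' hb' hga' hb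
    rw [𝒮.L_sm] at h7
    have h8 : (td a b : ℝ) = n + td (g * a) b := by
      unfold Btw at h4 hab
      exact_mod_cast (by omega : td a b = n + td (g * a) b)
    rw [td_comm b] at h3
    linarith
  · have h4 := hbw.order hga hc
    have h8 : (td a b : ℝ) + td b (g * a) = n := by
      unfold Btw at h4 hab
      exact_mod_cast (by omega : td a b + td b (g * a) = n)
    linarith

end SC
end Crest.Agent.R129
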