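import Crest.Agent.R129.Cons1

/-! # Consequences of `LG`, part 2: bigons and deep vertices (task R129/Cons2). Statements frozen. -/

set_option autoImplicit false

namespace Crest.Agent.R129
namespace SC
variable {S : Type} [DecidableEq S] (𝒮 : SC S)

/-- two members that follow a common geodesic from a common point for longer than a piece agree -/
theorem c2_same {Y Z : 𝒮.M} {m a b v : FreeGroup S} (hmY : m ∈ 𝒮.mem Y) (hmZ : m ∈ 𝒮.mem Z)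
    (ha : a ∈ 𝒮.mem Y) (hb : b ∈ 𝒮.mem Z) (hav : Btw m a v) (hbv : Btw m b v)
    (hla : 𝒮.L Y m < td m a) (hlb : 𝒮.L Z m < td m b) : Y = Z := by
  by_contra hne
  rcases le_total (td m a) (td m b) with hc | hc
  · exact not_le.2 hla (𝒮.piece _ _ _ _ hne hmY ha hmZ
      (𝒮.convex _ _ _ _ hmZ hb (hav.order hbv hc)))
  · exact not_le.2 hlb (𝒮.piece _ _ _ _ (Ne.symm hne) hmZ hb hmY
      (𝒮.convex _ _ _ _ hmY ha (hbv.order hav hc)))

private theorem c2_mono {w : FreeGroup S} {Y : 𝒮.M} {c c' : ℝ} (hc : c' ≤ c)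
    (hY : 𝒮.ADeep c w Y) : 𝒮.ADeep c' w Y := by
  obtain ⟨h1, a, ha, haw, hal⟩ := hY
  exact ⟨h1, a, ha, haw,
    (mul_le_mul_of_nonneg_right hc (zero_le_one.trans (𝒮.one_le _ _ h1))).trans hal⟩

private theorem c2_first {w : FreeGroup S} {σ : S × Bool} {Y : 𝒮.M} {c : ℝ} (hc : 1 ≤ c)
    (hY : 𝒮.ADeep c w Y) (hσ : Btw 1 (sg σ) w) : sg σ ∈ 𝒮.mem Y := by
  obtain ⟨h1, a, ha, haw, hal⟩ := hY
  have l1 := 𝒮.one_le _ _ h1
  have e : td 1 (sg σ) = 1 := by simpa using td_sg 1 σ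
  refine 𝒮.convex _ _ _ _ h1 ha (hσ.order haw ?_)
  have : ((1 : ℕ) : ℝ) ≤ a.norm := by push_cast; nlinarith
  rw [e, td_one]
  exact_mod_cast this

/-- Bigon lemma.  `LG` for `x = w`: `Z r a b` on `[w, h w]`, `ℓ = L Z a`, `μ = td w m = td m (h w)`, `α = td w a < β = td w b`,
`β - α ≥ 87 ℓ`.  `‖r w‖ ≤ td 1 b + 13 ℓ + α` and `‖r⁻¹ h w‖ ≤ td 1 a + 13 ℓ + (2μ - β)` are `≥ ‖w‖ = ‖m‖ + μ`, with
`td 1 b = ‖m‖ + |β - μ|`, `td 1 a = ‖m‖ + |α - μ|` (points of `[w, h w]` are on `[m,w]` or `[m,h w]`).  Hence `α < μ < β`,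
`|(β-μ) - (μ-α)| ≤ 13 ℓ`, both `≥ 37 ℓ`; `m ∈ [a,b] ⊆ Z`; `L Z m ≤ ℓ + (μ-α)/100`. -/
theorem bigon {w h m : FreeGroup S} (hw : 𝒮.Min w) (hh : h ∈ 𝒮.N) (h1 : h ≠ 1)
    (hn : (h * w).norm = w.norm) (hm₁ : Btw 1 m w) (hm₂ : Btw 1 m (h * w)) (hm₃ : Btw w m (h * w)) :
    ∃ Z a b, m ∈ 𝒮.mem Z ∧ a ∈ 𝒮.mem Z ∧ b ∈ 𝒮.mem Z ∧ Btw m a w ∧ Btw m b (h * w) ∧
      20 * 𝒮.L Z m ≤ td m a ∧ 20 * 𝒮.L Z m ≤ td m b := by
  obtain ⟨Z, r, a, b, hr, hr1, ha, hb, hab, hbh, hd⟩ := 𝒮.LG hh h1 w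
  have hl := 𝒮.long_of_LG hr hr1 ha hd
  have h2 := 𝒮.one_le _ _ ha
  have hD : td (r * a) b < td a b := by
    have : (td (r * a) b : ℝ) < td a b := by linarith
    exact_mod_cast this
  have hrN := 𝒮.R_le_N _ hr
  have e1 := hw r hrN
  have e2 := hw (r⁻¹ * h) (𝒮.N.mul_mem (𝒮.N.inv_mem hrN) hh)
  rw [← td_one, ← td_one] at e1 e2 hn
  rw [← td_mul r 1 (r⁻¹ * h * w), mul_assoc, mul_inv_cancel_left] at e2
  have t1 := td_triangle 1 b (r * w)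
  have t2 := td_triangle b (r * a) (r * w)
  have t3 := td_triangle (r * 1) (r * a) (h * w)
  have t4 := td_triangle (r * a) b (h * w)
  have t5 := td_triangle 1 m a
  have t6 := td_triangle 1 m b
  rw [td_mul, td_comm b (r * a), td_comm a w] at t2
  rw [td_mul] at t3
  have hah := (hbh.trans_left hab).1
  have c1 := td_comm w m
  have hβ : td w m ≤ td w b := by
    by_contra hc
    have := hbh.order hm₃ (not_le.1 hc).le
    have c2 := td_comm b m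
    unfold Btw at *
    omega
  have hα : td w a ≤ td w m := by
    by_contra hc
    have := hm₃.order hah (not_le.1 hc).le
    unfold Btw at *
    omega
  have h3 := hah.order hm₃ hα
  have h4 := hm₃.order hbh hβ
  have h5 := (h4.trans_left h3).2
  have hmZ := 𝒮.convex Z _ _ _ ha hb h5
  have h6 := 𝒮.lip Z a m ha hmZ
  have c2 := td_comm a m
  have f1 : (td m a : ℝ) ≤ td m b + td (r * a) b := by
    unfold Btw at *
    exact_mod_cast (by omega : td m a ≤ td m b + td (r * a) b)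
  have f2 : (td m b : ℝ) ≤ td m a + td (r * a) b := by
    unfold Btw at *
    exact_mod_cast (by omega : td m b ≤ td m a + td (r * a) b)
  have f3 : (td a b : ℝ) = td m a + td m b := by
    unfold Btw at h5
    exact_mod_cast (by omega : td a b = td m a + td m b)
  rw [c2] at h6
  exact ⟨Z, a, b, hmZ, ha, hb, h3.symm, (hbh.trans_left h4).2, by linarith, by linarith⟩

/-- (D1) Suppose `Y ≠ Y'`, witnesses `a`, `a'`.  If `h = 1` the shorter of `a, a'` lies in both: contradiction with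
`piece`.  Else `m` = median; if `a ∈ [1,m]` or `a' ∈ [1,m]` compare as before (the shortest of `a, a', m` is in `Y ∩ Y'`);
so `m ∈ [1,a] ∩ [1,a']`, `‖m‖ ≤ min (L Y 1) (L Y' 1)`, `td m a ≥ 2 L Y 1 > L Y m`.  With `Z` from `bigon`, the shorter
of `a` and the arm end lies in `Y ∩ Z` at distance `> min` from `m`, so `Y = Z`; likewise `Y' = Z`. -/
theorem deep_unique {w h : FreeGroup S} {Y Y' : 𝒮.M} (hw : 𝒮.Min w) (hh : h ∈ 𝒮.N)
    (hn : (h * w).norm = w.norm) (hY : 𝒮.ADeep 3 w Y) (hY' : 𝒮.ADeep 3 (h * w) Y') : Y = Y' := by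
  obtain ⟨h1, a, ha, haw, hal⟩ := hY
  obtain ⟨h1', a', ha', haw', hal'⟩ := hY'
  rw [← td_one] at hal hal'
  have l1 := 𝒮.one_le _ _ h1
  have l2 := 𝒮.one_le _ _ h1'
  have key : ∀ v, Btw 1 a v → Btw 1 a' v → Y = Y' := fun v hv hv' =>
    𝒮.c2_same h1 h1' ha ha' hv hv' (by linarith) (by linarith)
  by_cases hh1 : h = 1
  · exact key w haw (by simpa [hh1] using haw')
  obtain ⟨m, hm₁, hm₃, hm₂⟩ := exists_median 1 w (h * w)
  rcases le_total (td 1 a) (td 1 m) with hc | hc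
  · exact key _ (hm₂.trans_left (haw.order hm₁ hc)).1 haw'
  rcases le_total (td 1 a') (td 1 m) with hc' | hc'
  · exact key _ haw (hm₁.trans_left (haw'.order hm₂ hc')).1
  by_contra hne
  have h2 := hm₁.order haw hc
  have h2' := hm₂.order haw' hc'
  have hmY := 𝒮.convex _ _ _ _ h1 ha h2
  have hmY' := 𝒮.convex _ _ _ _ h1' ha' h2'
  have p1 := 𝒮.piece _ _ _ _ hne h1 hmY h1' hmY'
  have p2 := 𝒮.piece _ _ _ _ (Ne.symm hne) h1' hmY' h1 hmY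
  have q1 := 𝒮.lip _ _ _ h1 hmY
  have q2 := 𝒮.lip _ _ _ h1' hmY'
  have e1 : (td 1 m : ℝ) + td m a = td 1 a := by exact_mod_cast h2
  have e2 : (td 1 m : ℝ) + td m a' = td 1 a' := by exact_mod_cast h2'
  obtain ⟨Z, b, b', hmZ, hb, hb', hbw, hbw', hbl, hbl'⟩ := 𝒮.bigon hw hh hh1 hn hm₁ hm₂ hm₃
  have l3 := 𝒮.one_le _ _ hmZ
  exact hne ((𝒮.c2_same hmY hmZ ha hb (haw.trans_left h2).2 hbw (by linarith) (by linarith)).trans
    (𝒮.c2_same hmY' hmZ ha' hb' (haw'.trans_left h2').2 hbw' (by linarith) (by linarith)).symm)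

/-- (D3) two shortest words with different first letters: the median is `1` -/
theorem two_first {w h : FreeGroup S} {σ σ' : S × Bool} (hw : 𝒮.Min w) (hh : h ∈ 𝒮.N)
    (hn : (h * w).norm = w.norm) (hσ : Btw 1 (sg σ) w) (hσ' : Btw 1 (sg σ') (h * w)) (hne : σ ≠ σ') :
    ∃ Z, 𝒮.ADeep 20 w Z ∧ 𝒮.ADeep 20 (h * w) Z := by
  have e : ∀ τ : S × Bool, td 1 (sg τ) = 1 := fun τ => by simpa using td_sg 1 τ
  have key : ∀ v, Btw 1 (sg σ) v → Btw 1 (sg σ') v → False := fun v hv hv' =>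
    hne (sg_injective (hv.unique hv' (by rw [e, e])))
  have hh1 : h ≠ 1 := fun hh1 => key w hσ (by simpa [hh1] using hσ')
  obtain ⟨m, hm₁, hm₃, hm₂⟩ := exists_median 1 w (h * w)
  obtain rfl : m = 1 := by
    by_contra hm
    have : 1 ≤ td 1 m := Nat.pos_of_ne_zero fun h => hm (td_eq_zero.1 h).symm
    exact key m (hσ.order hm₁ (by rwa [e])) (hσ'.order hm₂ (by rwa [e]))
  obtain ⟨Z, b, b', hmZ, hb, hb', hbw, hbw', hbl, hbl'⟩ := 𝒮.bigon hw hh hh1 hn hm₁ hm₂ hm₃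
  rw [td_one] at hbl hbl'
  exact ⟨Z, ⟨hmZ, b, hb, hbw, hbl⟩, hmZ, b', hb', hbw', hbl'⟩

/-- (D2) if the first letters agree, `sg σ ∈ [1,a]`; else `two_first` and `deep_unique` -/
theorem deep_first {w h : FreeGroup S} {σ : S × Bool} {Y : 𝒮.M} (hw : 𝒮.Min w) (hh : h ∈ 𝒮.N)
    (hn : (h * w).norm = w.norm) (hY : 𝒮.ADeep 3 w Y) (hσ : Btw 1 (sg σ) (h * w)) :
    sg σ ∈ 𝒮.mem Y := by
  obtain ⟨h1, a, ha, haw, hal⟩ := id hY
  have l1 := 𝒮.one_le _ _ h1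
  obtain ⟨s, hs, hs1⟩ := exists_btw 1 a (k := 1) (by
    have : ((1 : ℕ) : ℝ) ≤ a.norm := by push_cast; linarith
    rw [td_one]
    exact_mod_cast this)
  obtain ⟨τ, rfl⟩ := exists_sg_of_td hs1
  rw [one_mul] at hs
  by_cases hτ : τ = σ
  · exact hτ ▸ 𝒮.convex _ _ _ _ h1 ha hs
  obtain ⟨Z, -, hZ⟩ := 𝒮.two_first hw hh hn (haw.trans_left hs).1 hσ hτ
  rw [𝒮.deep_unique hw hh hn hY (𝒮.c2_mono (by norm_num) hZ)]
  exact 𝒮.c2_first (by norm_num) hZ hσ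

/-- moving one step along the word: `c L(1) - 1 ≥ c' (L(1) + 1/100)` -/
theorem ADeep.step {w : FreeGroup S} {σ : S × Bool} {Y : 𝒮.M} {c c' : ℝ} (hc : c' + 2 ≤ c)
    (hc' : 0 ≤ c') (hc'' : c' ≤ 100) (hY : 𝒮.ADeep c w Y) (hσ : Btw 1 (sg σ) w) :
    sg σ ∈ 𝒮.mem Y ∧ 𝒮.ADeep c' ((sg σ)⁻¹ * w) (𝒮.sm (sg σ)⁻¹ Y) := by
  have hs := 𝒮.c2_first (by linarith) hY hσ
  obtain ⟨h1, a, ha, haw, hal⟩ := hY
  have l1 := 𝒮.one_le _ _ h1
  have e : td 1 (sg σ) = 1 := by simpa using td_sg 1 σ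
  have h2 : Btw 1 (sg σ) a := hσ.order haw (by
    have : ((1 : ℕ) : ℝ) ≤ a.norm := by push_cast; nlinarith
    rw [e, td_one]
    exact_mod_cast this)
  refine ⟨hs, by simpa using (𝒮.mem_sm (sg σ)⁻¹ Y _).2 hs, _, (𝒮.mem_sm (sg σ)⁻¹ Y _).2 ha, ?_, ?_⟩
  · simpa using (btw_mul (sg σ)⁻¹).2 (haw.trans_left h2).2
  · have h3 := 𝒮.L_sm (sg σ)⁻¹ Y (sg σ)
    have h4 := 𝒮.lip _ _ _ h1 hs
    have h5 : (td 1 (sg σ) : ℝ) + td (sg σ) a = td 1 a := by exact_mod_cast h2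
    rw [inv_mul_cancel] at h3
    rw [e] at h4 h5
    rw [h3, ← td_one] at *
    change _ ≤ (td 1 ((sg σ)⁻¹ * a) : ℝ)
    rw [← td_mul (sg σ), mul_one, mul_inv_cancel_left]
    push_cast at h4 h5
    nlinarith [mul_le_mul_of_nonneg_left h4 hc']

theorem ADeep.mono {w : FreeGroup S} {Y : 𝒮.M} {c c' : ℝ} (hc : c' ≤ c) (hY : 𝒮.ADeep c w Y) :
    𝒮.ADeep c' w Y := by
  exact 𝒮.c2_mono hc hY

end SC
end Crest.Agent.R129
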