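import Crest.Agent.R129.Cons1

/-! # Consequences of `LG`, part 3: far from the root means deep (task R129/Cons3). Statement frozen. -/

set_option autoImplicit false

namespace Crest.Agent.R129
namespace SC
variable {S : Type} [DecidableEq S] (𝒮 : SC S)

/-- (D5)  `w = h x`.  First `Btw 1 y₀ x` (the median of `1, y₀, x` is in `Y`, use `hmin`), and any `a ∈ Y ∩ [x, y₀]` is `y₀`.
Let `m` = median of `x, 1, w`.  If `m ∈ [x,y₀]` then `Btw 1 y₀ w`: take `a = y₀`.  Else `m ∈ [1,y₀] ⊆ Y`.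
If `td y₀ m ≤ L Y m`: `‖m‖ ≥ 7 L - L Y m`, `L Y m ≤ L + ‖m‖/100`, take `a = m`.  So let `td y₀ m > L Y m`; then `h ≠ 1`.
`LG` at `x`: `Z r a b` on `[x,w]`, on which the order is `x ≤ y₀ < m ≤ w`; `ℓ = L Z a`, `td a b ≥ 87 ℓ`.
Case `Z ≠ Y`: not both (`a ≤ y₀` and `m ≤ b`) by `piece`.  If `y₀ ≤ a`: `m ≤ a` contradicts `Min.shortcut` on `[1,w]`;
`b ≤ m` contradicts `piece`; else `td a m ≤ ℓ`, `td (r m) b ≤ 14 ℓ < td m b`, contradiction with `Min.shortcut`.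
If `a ≤ y₀`, `b ≤ m`: `td y₀ (r x) ≤ td y₀ b + 13 ℓ + td a x`; if `b ≤ y₀` this is `< td y₀ x`; else
`td y₀ b ≤ L Z y₀ ≤ ℓ + td a y₀/100` and `hx` gives `td a y₀ ≤ td y₀ b + 13 ℓ`, so `td a b ≤ 16 ℓ`.
Case `Z = Y`: `y₀ ≤ a`; `m ≤ a` is impossible as before; `b ≤ m` gives `‖r y₀‖ < ‖y₀‖`
(`‖r y₀‖ ≤ td 1 b + 13 ℓ + td a y₀`), against `horb`; so `a ≤ m ≤ b`, `Btw 1 m b`, `Btw 1 b w`, and `horb` gives
`td m a ≤ td m b + 13 ℓ`, so `td m b ≥ 37 ℓ`, `L Y m ≤ ℓ + td a m/100`, `td m b ≥ 20 L Y m`,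
`L Y 1 ≤ L Y m + ‖m‖/100`; take `a := b`. -/
theorem deep_of_far {Y : 𝒮.M} {w h x y₀ : FreeGroup S} (h1 : 1 ∈ 𝒮.mem Y) (hy₀ : y₀ ∈ 𝒮.mem Y)
    (hw : 𝒮.Min w) (hh : h ∈ 𝒮.N) (hwx : w = h * x)
    (hmin : ∀ y ∈ 𝒮.mem Y, td y₀ x ≤ td y x) (hx : ∀ k ∈ 𝒮.N, td y₀ x ≤ td y₀ (k * x))
    (horb : ∀ r ∈ 𝒮.R Y, y₀.norm ≤ (r * y₀).norm) (hfar : 7 * 𝒮.L Y 1 ≤ y₀.norm) :
    𝒮.ADeep 5 w Y := by
  have gate : ∀ y ∈ 𝒮.mem Y, Btw x y₀ y := by
    intro y hy
    obtain ⟨m, h2, h3, h4⟩ := exists_median y y₀ x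
    have h5 := hmin m (𝒮.convex _ _ _ _ hy hy₀ h2)
    obtain rfl : y₀ = m := td_eq_zero.1 (by unfold Btw at h3; omega)
    exact h4.symm
  have l1 := 𝒮.one_le _ _ h1
  rw [← td_one] at hfar
  suffices H : ∃ a ∈ 𝒮.mem Y, Btw 1 a w ∧ 5 * 𝒮.L Y 1 ≤ td 1 a by
    simpa only [td_one, ADeep] using And.intro h1 H
  have g1 := gate 1 h1
  obtain ⟨m, hm₁, hm₂, hm₃⟩ := exists_median x 1 w
  rcases le_total (td x m) (td x y₀) with hc | hc
  · exact ⟨y₀, hy₀, (hm₂.trans_left (g1.trans_left (hm₁.order g1 hc)).2.symm).1, by linarith⟩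
  have g2 := g1.order hm₁ hc
  have g3 := (hm₁.trans_left g2).2
  have hmY := 𝒮.convex _ _ _ _ hy₀ h1 g3
  have l2 := 𝒮.one_le _ _ hmY
  have g4 : (td y₀ m : ℝ) + td 1 m = td 1 y₀ := by
    rw [td_comm 1, td_comm 1]
    exact_mod_cast g3
  by_cases hs : (td y₀ m : ℝ) ≤ 𝒮.L Y m
  · exact ⟨m, hmY, hm₂, by linarith [𝒮.lip _ _ _ h1 hmY]⟩
  have hh1 : h ≠ 1 := by
    rintro rfl
    rw [hwx, one_mul] at hm₃
    have h2 : td y₀ m = 0 := by
      unfold Btw at hm₃ g2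
      rw [td_self] at hm₃
      omega
    rw [h2] at hs
    exact hs (by push_cast; linarith)
  obtain ⟨Z, r, a, b, hr, hr1, ha, hb, hab, hbw, hd⟩ := 𝒮.LG hh hh1 x
  rw [← hwx] at hbw
  have hl := 𝒮.long_of_LG hr hr1 ha hd
  have l3 := 𝒮.one_le _ _ ha
  have hD : td (r * a) b < td a b := by
    have : (td (r * a) b : ℝ) < td a b := by linarith
    exact_mod_cast this
  have hrN := 𝒮.R_le_N _ hr
  have haw := (hbw.trans_left hab).1
  have hyw := (hm₃.trans_left g2).1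
  have mid : ∀ {u v z}, Btw x u w → Btw x v w → Btw x z w → td x u ≤ td x v → td x v ≤ td x z →
      Btw u v z := fun hu hv hz h2 h3 => ((hv.order hz h3).trans_left (hu.order hv h2)).2
  have far : ∀ {u}, Btw x u w → td x m ≤ td x u → Btw 1 u w ∧ Btw 1 m u := fun hu h2 =>
    have h3 := hm₂.symm.trans_left (hu.trans_left (hm₃.order hu h2)).2.symm
    ⟨h3.1.symm, h3.2.symm⟩
  have hαβ : td x a ≤ td x b := by unfold Btw at hab; omega
  have hα : td x a ≤ td x m := by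
    by_contra hc'
    have h2 := (not_le.1 hc').le
    obtain ⟨h3, h4⟩ := far hbw (h2.trans hαβ)
    have h5 := (h4.symm.trans_left (mid hm₃ haw hbw h2 hαβ).symm).1.symm
    exact not_le.2 hD (Min.shortcut 𝒮 hw hrN h5 h3).1
  have ham := haw.order hm₃ hα
  have c1 := td_comm b (r * a)
  by_cases hZ : Z = Y
  · subst hZ
    have h2 := horb r hr
    rw [← td_one, ← td_one] at h2
    have t1 := td_triangle 1 b (r * y₀)
    have t2 := td_triangle b (r * a) (r * y₀)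
    rw [td_mul, td_comm a] at t2
    have h3 := gate a ha
    have c2 := td_comm 1 y₀
    have hβ : td x m ≤ td x b := by
      by_contra hc'
      have h4 := (hm₁.trans_left (hbw.order hm₃ (not_le.1 hc').le)).1
      have c3 := td_comm 1 b
      unfold Btw at *
      omega
    obtain ⟨h4, h5⟩ := far hbw hβ
    have h6 := hm₃.order hbw hβ
    have c3 := td_comm 1 m
    have f1 : (td a m : ℝ) ≤ td m b + td (r * a) b := by
      unfold Btw at *
      exact_mod_cast (by omega : td a m ≤ td m b + td (r * a) b)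
    have f2 : (td a b : ℝ) = td a m + td m b := by
      exact_mod_cast Eq.symm (mid haw hm₃ hbw hα hβ)
    have f3 : (td 1 m : ℝ) + td m b = td 1 b := by exact_mod_cast h5
    have f4 := 𝒮.lip _ _ _ hmY h1
    have f5 : (0 : ℝ) ≤ td 1 m := Nat.cast_nonneg _
    rw [← c3] at f4
    exact ⟨b, hb, h4, by linarith [𝒮.lip _ _ _ ha hmY]⟩
  exfalso
  rcases le_total (td x y₀) (td x a) with hc₁ | hc₁
  · have haY := 𝒮.convex _ _ _ _ hy₀ hmY (mid hyw haw hm₃ hc₁ hα)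
    rcases le_total (td x b) (td x m) with hc₂ | hc₂
    · have := 𝒮.piece _ _ _ _ hZ ha hb haY
        (𝒮.convex _ _ _ _ hy₀ hmY (mid hyw hbw hm₃ (hc₁.trans hαβ) hc₂))
      linarith
    · have h2 := mid haw hm₃ hbw hα hc₂
      have h3 := 𝒮.piece _ _ _ _ hZ ha (𝒮.convex _ _ _ _ ha hb h2) haY hmY
      obtain ⟨h4, h5⟩ := far hbw hc₂
      have h6 := (Min.shortcut 𝒮 hw hrN h5 h4).1.trans (td_triangle _ (r * a) _)
      rw [td_mul, td_comm m a] at h6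
      have f1 : (td m b : ℝ) ≤ td a m + td (r * a) b := by exact_mod_cast h6
      have f2 : (td a m : ℝ) + td m b = td a b := by exact_mod_cast h2
      linarith
  rcases le_total (td x m) (td x b) with hc₂ | hc₂
  · have := 𝒮.piece _ _ _ _ (Ne.symm hZ) hmY hy₀
      (𝒮.convex _ _ _ _ ha hb (mid haw hm₃ hbw hα hc₂))
      (𝒮.convex _ _ _ _ ha hb (mid haw hyw hbw hc₁ (hc.trans hc₂)))
    exact hs (by rwa [td_comm])
  have h2 := hx r hrN
  have t1 := td_triangle y₀ b (r * x)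
  have t2 := td_triangle b (r * a) (r * x)
  rw [td_mul, td_comm a] at t2
  rw [td_comm y₀ x] at h2
  rcases le_total (td x b) (td x y₀) with hc₃ | hc₃
  · have h3 := hbw.order hyw hc₃
    have c2 := td_comm b y₀
    unfold Btw at *
    omega
  have h3 := mid haw hyw hbw hc₁ hc₃
  have hyZ := 𝒮.convex _ _ _ _ ha hb h3
  have h4 := 𝒮.piece _ _ _ _ hZ hyZ hb hy₀ (𝒮.convex _ _ _ _ hy₀ hmY (mid hyw hbw hm₃ hc₃ hc₂))
  have h5 := haw.order hyw hc₁
  have f1 : (td a y₀ : ℝ) ≤ td y₀ b + td (r * a) b := by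
    unfold Btw at *
    exact_mod_cast (by omega : td a y₀ ≤ td y₀ b + td (r * a) b)
  have f2 : (td a y₀ : ℝ) + td y₀ b = td a b := by exact_mod_cast h3
  linarith [𝒮.lip _ _ _ ha hyZ]

end SC
end Crest.Agent.R129
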