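import Mathlib
import Crest.Prelude.Def_ReducedGroupCStar

/-!
# R129 definitions (rows S0173, S0174).  DO NOT EDIT (ask helper86).

Conventions: groups act on `ℓ²` by LEFT translations; a labelled base graph `BG` has covers
`K × V` with edges `(k,u) → (κ⁻¹ k, w)`.
-/

set_option autoImplicit false
open scoped BigOperators

namespace Crest.Agent.R129

/-! ## ℓ² and kernels -/

abbrev L2 (I : Type) : Type := lp (fun _ : I => ℂ) 2

open Classical in
/-- basis vector -/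
noncomputable def dl {I : Type} (i : I) : L2 I := lp.single 2 i (1 : ℂ)

/-- matrix entry (row `j`, column `i`) -/
noncomputable def mat {I J : Type} (T : L2 I →L[ℂ] L2 J) (j : J) (i : I) : ℂ := (T (dl i) : J → ℂ) j

open Classical in
/-- the bounded operator with kernel `k` (junk `0` if there is none) -/
noncomputable def kop {I J : Type} (k : J → I → ℂ) : L2 I →L[ℂ] L2 J :=
  if h : ∃ T : L2 I →L[ℂ] L2 J, ∀ j i, mat T j i = k j i then h.choose else 0

/-- adjoint, short name -/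
noncomputable abbrev adj {I J : Type} (T : L2 I →L[ℂ] L2 J) : L2 J →L[ℂ] L2 I :=
  ContinuousLinearMap.adjoint T

/-- spectral gap of radius `r` around `γ` -/
def Gap {I : Type} (Z : L2 I →L[ℂ] L2 I) (γ r : ℝ) : Prop :=
  ∀ ξ : L2 I, r * ‖ξ‖ ≤ ‖Z ξ - (γ : ℂ) • ξ‖

/-- the phase `i^ω` -/
noncomputable def ph (ω : ZMod 4) : ℂ := Complex.I ^ ω.val

/-! ## the free-group tree -/

/-- tree distance in the Cayley tree of the free group (edges `x — x * of s`) -/
def td {S : Type} [DecidableEq S] (x y : FreeGroup S) : ℕ := (x⁻¹ * y).norm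

/-- `z` lies on the geodesic from `x` to `y` -/
def Btw {S : Type} [DecidableEq S] (x z y : FreeGroup S) : Prop := td x z + td z y = td x y

/-- signed letter as an element of the free group -/
def sg {S : Type} (σ : S × Bool) : FreeGroup S :=
  if σ.2 then FreeGroup.of σ.1 else (FreeGroup.of σ.1)⁻¹

/-! ## labelled base graphs -/

/-- letters `(port, block, phase)` -/
abbrev Let (F : Type) : Type := F × F × ZMod 4

/-- Bipartite graph with edges from `H`-vertices to non-`H`-vertices, at most one edge per port at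
each vertex; `z` block, `om` phase, `a` voltage, `L` scale. -/
structure BG (F A : Type) where
  V : Type
  isH : V → Prop
  nb : V → F → Option V
  nb_typ : ∀ u t w, nb u t = some w → isH u ∧ ¬ isH w
  nb_inj : ∀ u u' t w, nb u t = some w → nb u' t = some w → u = u'
  z : V → F
  om : V → F → ZMod 4
  a : V → F → A
  L : V → ℝ

namespace BG
variable {F A : Type} (Γ : BG F A)

/-- the letter on the edge leaving the `H`-vertex `u` through port `t` -/
def letter (u : Γ.V) (t : F) : Let F := (t, Γ.z u, Γ.om u t)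

/-- the letter as an element of the free group -/
def fl (u : Γ.V) (t : F) : FreeGroup (Let F) := FreeGroup.of (Γ.letter u t)

/-- `Path κ v k v' m`: a path with `m` edges from `v` to `v'` whose `κ`-label is `k`. -/
inductive Path {K : Type} [Group K] (κ : Γ.V → F → K) : Γ.V → K → Γ.V → ℕ → Prop
  | refl (v : Γ.V) : Path κ v 1 v 0
  | fwd {v u w : Γ.V} {k : K} {m : ℕ} {t : F} :
      Path κ v k u m → Γ.nb u t = some w → Path κ v (k * κ u t) w (m + 1)
  | bwd {v u w : Γ.V} {k : K} {m : ℕ} {t : F} :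
      Path κ v k w m → Γ.nb u t = some w → Path κ v (k * (κ u t)⁻¹) u (m + 1)

/-- same component of the cover `K × V` -/
def Conn {K : Type} [Group K] (κ : Γ.V → F → K) (p q : K × Γ.V) : Prop :=
  ∃ m, Γ.Path κ p.2 (p.1 * q.1⁻¹) q.2 m

/-- an edge read from `b` to `b'` with signed letter `σ` -/
def SEdge (b : Γ.V) (σ : Let F × Bool) (b' : Γ.V) : Prop :=
  (σ.2 = true ∧ Γ.nb b σ.1.1 = some b' ∧ Γ.letter b σ.1.1 = σ.1) ∨
  (σ.2 = false ∧ Γ.nb b' σ.1.1 = some b ∧ Γ.letter b' σ.1.1 = σ.1)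

/-- unoriented edge through port `t` -/
def Edge (v : Γ.V) (t : F) (v' : Γ.V) : Prop := Γ.nb v t = some v' ∨ Γ.nb v' t = some v

/-- non-backtracking walk `v 0, …, v ℓ` through ports `t 0, …, t (ℓ-1)` -/
def NBWalk (v : ℕ → Γ.V) (t : ℕ → F) (ℓ : ℕ) : Prop :=
  (∀ s, s < ℓ → Γ.Edge (v s) (t s) (v (s + 1))) ∧ ∀ s, s + 1 < ℓ → t s ≠ t (s + 1)

open Classical in
/-- the `H`-endpoint of step `s` -/
noncomputable def hEnd (v : ℕ → Γ.V) (s : ℕ) : Γ.V := if Γ.isH (v s) then v s else v (s + 1)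

open Classical in
/-- `κ`-label of a walk -/
noncomputable def wlab {K : Type} [Group K] (κ : Γ.V → F → K) (v : ℕ → Γ.V) (t : ℕ → F) (ℓ : ℕ) : K :=
  ((List.range ℓ).map fun s =>
    if Γ.isH (v s) then κ (v s) (t s) else (κ (v (s + 1)) (t s))⁻¹).prod

/-- the small cancellation hypotheses -/
structure SCHyp [Group A] : Prop where
  one_le : ∀ v, 1 ≤ Γ.L v
  lip : ∀ v t v', Γ.Edge v t v' → Γ.L v' ≤ Γ.L v + 1 / 100
  piece : ∀ (v v' : ℕ → Γ.V) (t : ℕ → F) (ℓ : ℕ), Γ.NBWalk v t ℓ → Γ.NBWalk v' t ℓ →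
    (Γ.isH (v 0) ↔ Γ.isH (v' 0)) →
    (∀ s, s < ℓ → Γ.z (Γ.hEnd v s) = Γ.z (Γ.hEnd v' s)) → v 0 ≠ v' 0 → (ℓ : ℝ) ≤ Γ.L (v 0)
  girth : ∀ (v : ℕ → Γ.V) (t : ℕ → F) (ℓ : ℕ), Γ.NBWalk v t ℓ → 0 < ℓ → v ℓ = v 0 →
    Γ.wlab Γ.a v t ℓ = 1 → 100 * Γ.L (v 0) ≤ ℓ

open Classical in
/-- the signed adjacency operator of the cover `K × V` (rows `H`, columns non-`H`) -/
noncomputable def Bop [Fintype F] {K : Type} [Group K] (κ : Γ.V → F → K) :
    L2 (K × Γ.V) →L[ℂ] L2 (K × Γ.V) :=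
  kop fun p q => ∑ t : F,
    if Γ.nb p.2 t = some q.2 ∧ κ p.2 t = p.1 * q.1⁻¹ then ph (Γ.om p.2 t) else 0

/-- relators: labels of closed paths with trivial voltage -/
def Nrm [Group A] : Subgroup (FreeGroup (Let F)) :=
  Subgroup.normalClosure
    {w | ∃ v m, Γ.Path (fun u t => (Γ.fl u t, Γ.a u t)) v ((w, 1) : FreeGroup (Let F) × A) v m}

instance [Group A] : Γ.Nrm.Normal := Subgroup.normalClosure_normal

/-- the group -/
abbrev Grp [Group A] : Type := FreeGroup (Let F) ⧸ Γ.Nrm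

/-- the projection -/
def mkG [Group A] : FreeGroup (Let F) →* Γ.Grp := QuotientGroup.mk' Γ.Nrm

/-- edge labels in the group -/
def gl [Group A] (u : Γ.V) (t : F) : Γ.Grp := Γ.mkG (Γ.fl u t)

/-- word length in the group -/
noncomputable def len [Group A] [DecidableEq F] (g : Γ.Grp) : ℕ :=
  sInf {m | ∃ w, Γ.mkG w = g ∧ w.norm = m}

/-- the signed letter `σ` leads from `g` towards the identity -/
def Down [Group A] [DecidableEq F] (σ : Let F × Bool) (g : Γ.Grp) : Prop :=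
  Γ.len ((Γ.mkG (sg σ))⁻¹ * g) < Γ.len g

/-- some shortest word for `g` starts with the label of a path from `b` of length `≥ c L b` -/
def Deep [Group A] [DecidableEq F] (c : ℝ) (g : Γ.Grp) (b : Γ.V) : Prop :=
  ∃ w x : FreeGroup (Let F), Γ.mkG w = g ∧ w.norm = Γ.len g ∧ Btw 1 x w ∧
    (∃ b' m, Γ.Path Γ.fl b x b' m) ∧ c * Γ.L b ≤ x.norm

open Classical in
/-- `(D ξ)(g,z) = ∑_{s in block z} ε(s) ξ(s⁻¹ g)` -/
noncomputable def Dop [Group A] [Fintype F] : L2 Γ.Grp →L[ℂ] L2 (Γ.Grp × F) :=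
  kop fun p h => ∑ s : Let F,
    if s.2.1 = p.2 ∧ Γ.mkG (FreeGroup.of s) = p.1 * h⁻¹ then ph s.2.2 else 0

open Classical in
/-- the sheet isometry `δ_{(a,i)} ↦ |N_i|^{-1/2} ∑_{v ∈ N_i} δ_{(a,v)}` -/
noncomputable def Wop (K : Type) (node : ℤ → Finset Γ.V) : L2 (K × ℤ) →L[ℂ] L2 (K × Γ.V) :=
  kop fun p q => if p.1 = q.1 ∧ p.2 ∈ node q.2 then ((Real.sqrt (node q.2).card)⁻¹ : ℝ) else 0

end BG

/-! ## label laws -/

/-- a finitely supported probability law -/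
def IsLaw {X : Type} (ν : X →₀ ℝ) : Prop := (∀ x, 0 ≤ ν x) ∧ ν.sum (fun _ p => p) = 1

/-- mean of `ph ω · u_a`: coefficient at `x` -/
noncomputable def qco {A : Type} (ν : (A × ZMod 4) →₀ ℝ) (x : A) : ℂ :=
  ∑ ω : ZMod 4, (ν (x, ω) : ℂ) * ph ω

open Classical in
/-- the bidiagonal operator on `A × ℤ` (rows: even nodes, columns: odd nodes); the law `μ i`
belongs to the pair `(i, i+1)`, which is present iff `on i` -/
noncomputable def Qop {A : Type} [Group A] (μ : ℤ → (A × ZMod 4) →₀ ℝ) (on : ℤ → Prop) :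
    L2 (A × ℤ) →L[ℂ] L2 (A × ℤ) :=
  kop fun p q =>
    if Even p.2 then
      (if q.2 = p.2 + 1 ∧ on p.2 then qco (μ p.2) (p.1 * q.1⁻¹) else 0) +
      (if q.2 = p.2 - 1 ∧ on (p.2 - 1) then qco (μ (p.2 - 1)) (p.1 * q.1⁻¹) else 0)
    else 0

/-- unitriangular matrices with entry `(a,b)` in `Sx a b` above the diagonal -/
def box {R₀ : Type} [CommRing R₀] [DecidableEq R₀] {c : ℕ}
    (Sx : Fin (c + 1) → Fin (c + 1) → Finset R₀) : Finset (Matrix (Fin (c + 1)) (Fin (c + 1)) R₀) :=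
  Fintype.piFinset fun a => Fintype.piFinset fun b =>
    if a < b then Sx a b else if a = b then {1} else {0}

/-- the law of `π a` is uniform on the box -/
def UnifBox {A R₀ : Type} [Group A] [CommRing R₀] [DecidableEq R₀] {c : ℕ}
    (ν : (A × ZMod 4) →₀ ℝ) (π : A →* Matrix (Fin (c + 1)) (Fin (c + 1)) R₀)
    (Sx : Fin (c + 1) → Fin (c + 1) → Finset R₀) : Prop :=
  ∀ φ : Matrix (Fin (c + 1)) (Fin (c + 1)) R₀ → ℝ,
    ν.sum (fun x p => p * φ (π x.1)) = (∑ m ∈ box Sx, φ m) / (box Sx).card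

/-- genericity of the label laws -/
def GenHyp {A : Type} [Group A] (μ : ℤ → (A × ZMod 4) →₀ ℝ) (on : ℤ → Prop) (c M₀ R : ℕ) : Prop :=
  ∀ i₀, on i₀ → ∃ (R₀ : Type) (_ : CommRing R₀) (_ : IsDomain R₀) (_ : DecidableEq R₀)
    (π : A →* Matrix (Fin (c + 1)) (Fin (c + 1)) R₀), ∀ i, (∀ i' ∈ Set.uIcc i₀ i, on i') →
      ∃ Sx : Fin (c + 1) → Fin (c + 1) → Finset R₀,
        (∀ a b, M₀ * R ^ (i₀.natAbs - (i - i₀).natAbs) ≤ (Sx a b).card) ∧ UnifBox (μ i) π Sx

/-- polynomial growth of the supports -/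
def Growth {A : Type} [Group A] (μ : ℤ → (A × ZMod 4) →₀ ℝ) (on : ℤ → Prop) (C M₀ : ℕ) : Prop :=
  ∀ i, on i → ∀ k : ℕ, 1 ≤ k → ∃ Fk : Finset A,
    (∀ l : List A, l.length ≤ k →
      (∀ x ∈ l, ∃ ω, (x, ω) ∈ (μ i).support ∨ (x⁻¹, ω) ∈ (μ i).support) → l.prod ∈ Fk) ∧
    Fk.card ≤ (M₀ * 2 ^ i.natAbs * k) ^ C

end Crest.Agent.R129
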