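import Crest.Agent.R129.Defs

/-! # Resampling expectations and the union bound (task R129/Prob). Statements frozen. -/

set_option autoImplicit false
open scoped BigOperators

namespace Crest.Agent.R129
variable {Co Val : Type} [DecidableEq Co] {E : Type} [NormedAddCommGroup E] [NormedSpace ℝ E]

/-- expectation of `f` when the coordinates in `D` of `ω₀` are resampled independently, `c` with law `ν c` -/
noncomputable def Ex (ν : Co → Val →₀ ℝ) (D : Finset Co) (f : (Co → Val) → E) (ω₀ : Co → Val) : E :=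
  ∑ x ∈ Fintype.piFinset (fun c : D => (ν c).support),
    (∏ c : D, ν c (x c)) • f fun c => if h : c ∈ D then x ⟨c, h⟩ else ω₀ c

/-- every coordinate is in the support of its law -/
def Valid (ν : Co → Val →₀ ℝ) (ω : Co → Val) : Prop := ∀ c, ω c ∈ (ν c).support

variable {ν : Co → Val →₀ ℝ}

/-- extension of a partial configuration -/
def pext (D : Finset Co) (x : D → Val) (ω₀ : Co → Val) : Co → Val :=
  fun c => if h : c ∈ D then x ⟨c, h⟩ else ω₀ c

theorem pext_mem {D : Finset Co} (x : D → Val) (ω₀ : Co → Val) {c : Co} (h : c ∈ D) :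
    pext D x ω₀ c = x ⟨c, h⟩ := dif_pos h

theorem pext_not {D : Finset Co} (x : D → Val) (ω₀ : Co → Val) {c : Co} (h : c ∉ D) :
    pext D x ω₀ c = ω₀ c := dif_neg h

theorem Ex_def (D : Finset Co) (f : (Co → Val) → E) (ω₀ : Co → Val) :
    Ex ν D f ω₀ = ∑ x ∈ Fintype.piFinset (fun c : D => (ν c).support),
      (∏ c : D, ν c (x c)) • f (pext D x ω₀) := rfl

theorem Ex_def' (D : Finset Co) (f : (Co → Val) → E) (ω₀ : Co → Val) :
    Ex ν D f ω₀ = ∑ x ∈ Fintype.piFinset (fun c : D => (ν c).support),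
      (∏ c ∈ D, ν c (pext D x ω₀ c)) • f (pext D x ω₀) := by
  rw [Ex_def]
  refine Finset.sum_congr rfl fun x _ => ?_
  rw [← Finset.prod_coe_sort D]
  congr 1
  exact Finset.prod_congr rfl fun c _ => by rw [pext_mem x ω₀ c.2]

theorem Ex_empty (f : (Co → Val) → E) (ω₀ : Co → Val) : Ex ν ∅ f ω₀ = f ω₀ := by
  rw [Ex_def', Fintype.piFinset_of_isEmpty, Fintype.sum_unique, Finset.prod_empty, one_smul]
  rfl


theorem Ex_insert {D : Finset Co} {c : Co} (hc : c ∉ D) (f : (Co → Val) → E) (ω₀ : Co → Val) :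
    Ex ν (insert c D) f ω₀ = (ν c).sum fun x p => p • Ex ν D f (Function.update ω₀ c x) := by
  unfold Finsupp.sum
  simp only [Ex_def', Finset.smul_sum, smul_smul]
  rw [← Finset.sum_product']
  refine Finset.sum_bij' (fun x _ => (x ⟨c, Finset.mem_insert_self _ _⟩,
      fun d : D => x ⟨d, Finset.mem_insert_of_mem d.2⟩))
    (fun y _ => fun d => if h : d.1 ∈ D then y.2 ⟨d, h⟩ else y.1) ?_ ?_ ?_ ?_ ?_
  · intro x hx
    rw [Fintype.mem_piFinset] at hx
    exact Finset.mem_product.2 ⟨hx _, Fintype.mem_piFinset.2 fun d => hx _⟩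
  · intro y hy
    obtain ⟨h1, h2⟩ := Finset.mem_product.1 hy
    rw [Fintype.mem_piFinset] at h2 ⊢
    rintro ⟨d, hd⟩
    by_cases h : d ∈ D
    · simp only [dif_pos h]; exact h2 ⟨d, h⟩
    · simp only [dif_neg h]
      rw [(Finset.mem_insert.1 hd).resolve_right h]; exact h1
  · intro x _
    funext ⟨d, hd⟩
    by_cases h : d ∈ D
    · simp only [dif_pos h]
    · simp only [dif_neg h]
      congr 1
      exact Subtype.ext ((Finset.mem_insert.1 hd).resolve_right h).symm
  · intro y _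
    refine Prod.ext ?_ ?_
    · simp only [dif_neg hc]
    · funext d
      simp only [dif_pos d.2]
  · intro x _
    have e : pext D (fun d : D => x ⟨d, Finset.mem_insert_of_mem d.2⟩)
        (Function.update ω₀ c (x ⟨c, Finset.mem_insert_self _ _⟩)) = pext (insert c D) x ω₀ := by
      funext d
      by_cases h : d ∈ D
      · rw [pext_mem _ _ h, pext_mem _ _ (Finset.mem_insert_of_mem h)]
      · rw [pext_not _ _ h]
        by_cases h' : d = c
        · subst h'
          rw [Function.update_self, pext_mem _ _ (Finset.mem_insert_self _ _)]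
        · rw [Function.update_of_ne h', pext_not _ _ (by simp [h, h'])]
    simp only [e]
    rw [Finset.prod_insert hc, pext_mem _ _ (Finset.mem_insert_self _ _)]


theorem Ex_singleton (c : Co) (f : (Co → Val) → E) (ω₀ : Co → Val) :
    Ex ν {c} f ω₀ = (ν c).sum fun x p => p • f (Function.update ω₀ c x) := by
  have := Ex_insert (ν := ν) (Finset.notMem_empty c) f ω₀
  simp only [Ex_empty] at this
  exact this


theorem Ex_union {D D' : Finset Co} (h : Disjoint D D') (f : (Co → Val) → E) (ω₀ : Co → Val) :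
    Ex ν (D ∪ D') f ω₀ = Ex ν D (fun ω => Ex ν D' f ω) ω₀ := by
  induction D using Finset.induction_on generalizing ω₀ with
  | empty => rw [Finset.empty_union, Ex_empty]
  | insert c D hc ih =>
    rw [Finset.disjoint_insert_left] at h
    rw [Finset.insert_union, Ex_insert (by simp [hc, h.1]), Ex_insert hc]
    simp only [ih h.2]


theorem Ex_congr {D : Finset Co} {f g : (Co → Val) → E} {ω₀ : Co → Val}
    (h : ∀ ω, (∀ c, c ∉ D → ω c = ω₀ c) → (∀ c ∈ D, ω c ∈ (ν c).support) → f ω = g ω) :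
    Ex ν D f ω₀ = Ex ν D g ω₀ := by
  rw [Ex_def, Ex_def]
  refine Finset.sum_congr rfl fun x hx => ?_
  rw [h _ (fun c hc => pext_not _ _ hc) fun c hc => ?_]
  rw [pext_mem _ _ hc]
  exact Fintype.mem_piFinset.1 hx ⟨c, hc⟩


theorem Ex_add (D : Finset Co) (f g : (Co → Val) → E) (ω₀ : Co → Val) :
    Ex ν D (fun ω => f ω + g ω) ω₀ = Ex ν D f ω₀ + Ex ν D g ω₀ := by
  simp only [Ex_def, smul_add, Finset.sum_add_distrib]


theorem Ex_sub (D : Finset Co) (f g : (Co → Val) → E) (ω₀ : Co → Val) :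
    Ex ν D (fun ω => f ω - g ω) ω₀ = Ex ν D f ω₀ - Ex ν D g ω₀ := by
  simp only [Ex_def, smul_sub, Finset.sum_sub_distrib]


theorem Ex_sum {ι : Type} (s : Finset ι) (D : Finset Co) (f : ι → (Co → Val) → E) (ω₀ : Co → Val) :
    Ex ν D (fun ω => ∑ i ∈ s, f i ω) ω₀ = ∑ i ∈ s, Ex ν D (f i) ω₀ := by
  simp only [Ex_def, Finset.smul_sum]
  exact Finset.sum_comm


theorem Ex_const (hν : ∀ c, IsLaw (ν c)) (D : Finset Co) (e : E) (ω₀ : Co → Val) :
    Ex ν D (fun _ => e) ω₀ = e := by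
  rw [Ex_def, ← Finset.sum_smul, ← Finset.prod_univ_sum (fun c : D => (ν c).support)
    (fun c y => ν c y), Finset.prod_eq_one (f := fun c : D => ∑ y ∈ (ν c).support, ν c y)
      fun c _ => (hν c).2, one_smul]


theorem Ex_mono (hν : ∀ c, IsLaw (ν c)) {D : Finset Co} {f g : (Co → Val) → ℝ} {ω₀ : Co → Val}
    (h : ∀ ω, (∀ c, c ∉ D → ω c = ω₀ c) → (∀ c ∈ D, ω c ∈ (ν c).support) → f ω ≤ g ω) :
    Ex ν D f ω₀ ≤ Ex ν D g ω₀ := by
  rw [Ex_def, Ex_def]
  refine Finset.sum_le_sum fun x hx => ?_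
  refine smul_le_smul_of_nonneg_left (h _ (fun c hc => pext_not _ _ hc) fun c hc => ?_)
    (Finset.prod_nonneg fun c _ => (hν c).1 _)
  rw [pext_mem _ _ hc]
  exact Fintype.mem_piFinset.1 hx ⟨c, hc⟩


theorem norm_Ex_le (hν : ∀ c, IsLaw (ν c)) (D : Finset Co) (f : (Co → Val) → E) (ω₀ : Co → Val) :
    ‖Ex ν D f ω₀‖ ≤ Ex ν D (fun ω => ‖f ω‖) ω₀ := by
  rw [Ex_def, Ex_def]
  refine (norm_sum_le _ _).trans (le_of_eq (Finset.sum_congr rfl fun x _ => ?_))
  rw [norm_smul, Real.norm_of_nonneg (Finset.prod_nonneg fun (c : D) _ => (hν c).1 _), smul_eq_mul]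


theorem Ex_re (D : Finset Co) (f : (Co → Val) → ℂ) (ω₀ : Co → Val) :
    Ex ν D (fun ω => (f ω).re) ω₀ = (Ex ν D f ω₀).re := by
  simp only [Ex_def, Complex.re_sum, Complex.smul_re]


theorem Ex_mul_left (D : Finset Co) (a : ℝ) (f : (Co → Val) → ℝ) (ω₀ : Co → Val) :
    Ex ν D (fun ω => a * f ω) ω₀ = a * Ex ν D f ω₀ := by
  simp only [Ex_def, Finset.mul_sum, mul_smul_comm]


theorem Ex_mul_left' (D : Finset Co) (a : ℂ) (f : (Co → Val) → ℂ) (ω₀ : Co → Val) :
    Ex ν D (fun ω => a * f ω) ω₀ = a * Ex ν D f ω₀ := by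
  simp only [Ex_def, Finset.mul_sum, mul_smul_comm]


/-- a function that ignores `D'` sees only `D \ D'` -/
theorem Ex_sdiff (hν : ∀ c, IsLaw (ν c)) {D D' : Finset Co} {f : (Co → Val) → E}
    (hf : ∀ ω ω', (∀ c, c ∉ D' → ω c = ω' c) → f ω = f ω') (ω₀ : Co → Val) :
    Ex ν D f ω₀ = Ex ν (D \ D') f ω₀ := by
  conv_lhs => rw [← Finset.sdiff_union_inter D D']
  rw [Ex_union (Finset.disjoint_sdiff_inter D D')]
  refine Ex_congr fun ω _ _ => ?_
  rw [← Ex_const hν (D ∩ D') (f ω) ω]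
  exact Ex_congr fun ω' h _ => hf _ _ fun c hc => h c fun h' => hc (Finset.mem_inter.1 h').2


/-- a centred factor that is the only one depending on `D' ⊆ D` kills the expectation -/
theorem Ex_mul_eq_zero {D D' : Finset Co} (hD : D' ⊆ D) {f g : (Co → Val) → ℂ}
    (hg : ∀ ω ω', (∀ c, c ∉ D' → ω c = ω' c) → g ω = g ω') (hf : ∀ ω, Ex ν D' f ω = 0)
    (ω₀ : Co → Val) : Ex ν D (fun ω => g ω * f ω) ω₀ = 0 := by
  rw [← Finset.sdiff_union_of_subset hD, Ex_union Finset.sdiff_disjoint]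
  have : ∀ ω, Ex ν D' (fun ω => g ω * f ω) ω = 0 := fun ω => by
    rw [Ex_congr (g := fun ω' => g ω * f ω') fun ω' h _ => by rw [hg ω' ω h], Ex_mul_left', hf,
      mul_zero]
  simp only [this, Ex_def, smul_zero, Finset.sum_const_zero]


open Classical in
/-- Union bound + compactness.  For a finite set `s` of indices resample `⋃ (Dep i ∪ D i)`; `Ex_union` and `Ex_mono` bound the
expected number of bad events by `1/2`, so some valid `ω` avoids them.  The sets
`{ω : ∀ c, (ν c).support | ω ∉ bad i}` are closed in a compact space (`IsCompact.inter_iInter_nonempty`). -/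
theorem exists_good (hν : ∀ c, IsLaw (ν c)) {ι : Type} (bad : ι → (Co → Val) → Prop)
    (D Dep : ι → Finset Co) (η : ι → ℝ)
    (hdep : ∀ i ω ω', (∀ c ∈ Dep i, ω c = ω' c) → bad i ω → bad i ω')
    (hη : ∀ i ω₀, Valid ν ω₀ → Ex ν (D i) (fun ω => if bad i ω then (1 : ℝ) else 0) ω₀ ≤ η i)
    (hsum : ∀ s : Finset ι, ∑ i ∈ s, η i ≤ 1 / 2) : ∃ ω, Valid ν ω ∧ ∀ i, ¬ bad i ω := by
  have hne : ∀ c, ∃ x, x ∈ (ν c).support := fun c => by
    by_contra h
    have h1 : (ν c).support = ∅ := Finset.eq_empty_of_forall_notMem fun x hx => h ⟨x, hx⟩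
    have h2 := (hν c).2
    unfold Finsupp.sum at h2
    rw [h1, Finset.sum_empty] at h2
    exact zero_ne_one h2
  choose ω₀ hω₀ using hne
  have hval : ∀ (U : Finset Co) (ω : Co → Val), (∀ c, c ∉ U → ω c = ω₀ c) →
      (∀ c ∈ U, ω c ∈ (ν c).support) → Valid ν ω := fun U ω h1 h2 c => by
    by_cases h : c ∈ U
    · exact h2 c h
    · rw [h1 c h]; exact hω₀ c
  have hfin : ∀ s : Finset ι, ∃ ω, Valid ν ω ∧ ∀ i ∈ s, ¬ bad i ω := by
    intro s
    by_contra hcon
    push Not at hcon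
    have h1 : ∀ i ∈ s, Ex ν (s.biUnion D) (fun ω => if bad i ω then (1 : ℝ) else 0) ω₀ ≤ η i := by
      intro i hi
      rw [← Finset.sdiff_union_of_subset (Finset.subset_biUnion_of_mem D hi),
        Ex_union Finset.sdiff_disjoint, ← Ex_const hν (s.biUnion D \ D i) (η i) ω₀]
      exact Ex_mono hν fun ω a b => hη i ω (hval _ ω a b)
    have h2 := (Finset.sum_le_sum h1).trans (hsum s)
    rw [← Ex_sum] at h2
    have h3 : (1 : ℝ) ≤ Ex ν (s.biUnion D)
        (fun ω => ∑ i ∈ s, if bad i ω then (1 : ℝ) else 0) ω₀ := by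
      conv_lhs => rw [← Ex_const hν (s.biUnion D) (1 : ℝ) ω₀]
      refine Ex_mono hν fun ω a b => ?_
      obtain ⟨i, hi, hb⟩ := hcon ω (hval _ ω a b)
      have := Finset.single_le_sum (f := fun i => if bad i ω then (1 : ℝ) else 0)
        (fun j _ => by split_ifs <;> norm_num) hi
      simpa only [if_pos hb] using this
    linarith
  let _ : ∀ c, TopologicalSpace (ν c).support := fun _ => ⊥
  have _ : ∀ c, DiscreteTopology (ν c).support := fun _ => ⟨rfl⟩
  have hc := (isCompact_univ (X := ∀ c, (ν c).support)).inter_iInter_nonempty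
    (fun i => {x | ¬ bad i fun c => (x c : Val)}) (fun i => ?_) (fun u => ?_)
  · obtain ⟨x, -, hx⟩ := hc
    exact ⟨fun c => x c, fun c => (x c).2, fun i => Set.mem_iInter.1 hx i⟩
  · let r : (∀ c, (ν c).support) → ∀ c : Dep i, (ν c).support := fun x c => x c
    have hr : Continuous r := continuous_pi fun c => continuous_apply _
    have e : {x : ∀ c, (ν c).support | ¬ bad i fun c => (x c : Val)} =
        r ⁻¹' (r '' {x | ¬ bad i fun c => (x c : Val)}) := by
      refine Set.Subset.antisymm (Set.subset_preimage_image _ _) ?_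
      rintro x ⟨y, hy, hxy⟩ hb
      refine hy (hdep i _ _ (fun c hc => ?_) hb)
      exact (congrArg Subtype.val (congrFun hxy ⟨c, hc⟩)).symm
    rw [e]
    exact (isClosed_discrete _).preimage hr
  · obtain ⟨ω, h1, h2⟩ := hfin u
    exact ⟨fun c => ⟨ω c, h1 c⟩, Set.mem_univ _, Set.mem_iInter₂.2 h2⟩


end Crest.Agent.R129
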