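import Crest.Agent.R129.TyDefs
import Crest.Agent.R129.Prob

/-! # The random telescope of digit graphs (definitions; do not edit)

Nodes `i : ℤ`, position `pos i = |i| + 1`, stage `stg i`, vertices `(i, γ :: κ)` with `γ ∈ Gs i`, `|κ| = stg i - 1`.
The pair `i` joins the nodes `i, i+1` through the ports `ports i`; `tp i` is its fibre side, `sub i` its block side. -/

set_option autoImplicit false
open scoped BigOperators

namespace Crest.Agent.R129

structure Par where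
  n : ℕ
  C : ℕ
  J : ℕ
  j₀ : ℕ
  prime : n.Prime
  hC : 1 ≤ C
  hJ : 1000 ≤ J
  oddJ : Odd J
  evj : Even j₀
  hj : 1000 ≤ j₀
  lo_n : C * 2 ^ (J + 2) ≤ n
  hi_n : n ≤ C * 2 ^ (J + 3)
  h4 : n + 1 ≤ 4 ^ J

namespace Par
variable (P : Par)

instance : Fact P.n.Prime := ⟨P.prime⟩

abbrev F : Type := ZMod P.n
abbrev V : Type := ℤ × List P.F
/-- `inl (i,κ,t)`: shift of the block `(κ,t)` of pair `i`; `inr (i,x,t)`: label of the edge at vertex `(i,x)`, port `t` -/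
abbrev Co : Type := (ℤ × List P.F × P.F) ⊕ (ℤ × List P.F × P.F)

def pos (i : ℤ) : ℕ := i.natAbs + 1
def stg (i : ℤ) : ℕ := P.j₀ + pos i / P.J
def top (i : ℤ) : Prop := Even (pos i % P.J)
instance (i : ℤ) : Decidable (P.top i) := inferInstanceAs (Decidable (Even _))
def sz (i : ℤ) : ℕ := P.C * 2 ^ (pos i % P.J)
def em (i : ℤ) (x : ℕ) : P.F := if 0 ≤ i then ((P.sz i + x : ℕ) : P.F) else -((P.sz i + x : ℕ) : P.F)
def Gs (i : ℤ) : Finset P.F := (Finset.range (P.sz i)).image (P.em i)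
def Nd (i : ℤ) : Finset (List P.F) :=
  (P.Gs i ×ˢ lists Finset.univ (P.stg i - 1)).image fun p => p.1 :: p.2
def node (i : ℤ) : Finset P.V := (P.Nd i).image fun x => (i, x)
def lo (i : ℤ) : ℤ := if 0 ≤ i then i else i + 1
def hi (i : ℤ) : ℤ := if 0 ≤ i then i + 1 else i
def cross (i : ℤ) : Prop := pos (lo i) % P.J = P.J - 1
instance (i : ℤ) : Decidable (P.cross i) := inferInstanceAs (Decidable (_ = _))
def sub (i : ℤ) : ℤ := if P.cross i then lo i else if P.top (lo i) then hi i else lo i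
def tp (i : ℤ) : ℤ := if P.cross i then hi i else if P.top (lo i) then lo i else hi i
def lvl (i : ℤ) : ℕ := P.stg (P.tp i)
def ms (i : ℤ) : ℕ := if P.cross i then 1 else P.sz (P.sub i)
def mt (i : ℤ) : ℕ := P.sz (P.tp i)
def mb (i : ℤ) : ℕ := max (P.ms i) (P.mt i)
def es (i : ℤ) (x : ℕ) : P.F := if P.cross i then 0 else P.em (P.sub i) x
def Blk (i : ℤ) : Finset (List P.F) :=
  if P.cross i then P.Nd (lo i) else lists Finset.univ (P.lvl i - 1)
def ports (i : ℤ) : Finset P.F := Finset.univ.filter fun t => (t.val < P.n / 2 ↔ Even i)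
def pairOf (i : ℤ) (t : P.F) : ℤ := if t ∈ P.ports i then i else i - 1
/-- the type string of a vertex -/
def ty (v : P.V) : List P.F := if P.top v.1 then v.2 else v.2.tail
def six (i : ℤ) (w : List P.F) : P.F := if P.cross i then 0 else w.headD 0
def Match (i : ℤ) (sh x y : ℕ) : Prop := x < P.ms i ∧ y < P.mt i ∧ (x + y + sh) % P.mb i = 0
/-- the top digits of `U` (fibre side) and `W` (block side) are matched by the shift `sh` -/
def MatchV (i : ℤ) (sh : ℕ) (U W : P.V) : Prop :=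
  ∃ x y, P.Match i sh x y ∧ P.six i W.2 = P.es i x ∧ U.2.headD 0 = P.em (P.tp i) y
def gir (j : ℕ) : ℕ := 2 * (j / 16)

variable {A : Type}

abbrev Val (A : Type) : Type := ℕ × (A × ZMod 4)
abbrev Om (A : Type) : Type := P.Co → Val A

def Rel (ω : P.Om A) (t : P.F) (κ : List P.F) (γ β : P.F) : Prop :=
  (∃ i x y, t ∈ P.ports i ∧ κ ∈ P.Blk i ∧ P.Match i (ω (.inl (i, κ, t))).1 x y ∧
    γ = P.es i x ∧ β = P.em (P.tp i) y) ∨
  (γ = 0 ∧ β = 0 ∧ ¬ ∃ i, P.cross i ∧ t ∈ P.ports i ∧ κ ∈ P.Blk i)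

noncomputable def psi (ω : P.Om A) (t : P.F) (κ : List P.F) : Equiv.Perm P.F := extP (P.Rel ω t κ)

def Good (ω : P.Om A) (v : P.V) : Prop :=
  ¬ Spec (P.psi ω) (gir (P.stg v.1)) (P.ty v) ∧ ¬ ZeroRun P.j₀ v.2

/-- `U`, `W` are good vertices of the pair `i` in the same block of port `t` -/
def SameBlk (ω : P.Om A) (i : ℤ) (t : P.F) (U W : P.V) : Prop :=
  t ∈ P.ports i ∧ U ∈ P.node (P.tp i) ∧ W ∈ P.node (P.sub i) ∧ P.Good ω U ∧ P.Good ω W ∧
    tau (P.psi ω) t U.2 = P.ty W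

def PE (ω : P.Om A) (on : ℤ → Prop) (i : ℤ) (t : P.F) (U W : P.V) : Prop :=
  on i ∧ P.SameBlk ω i t U W ∧ P.MatchV i (ω (.inl (i, P.ty W, t))).1 U W

def Adj (ω : P.Om A) (on : ℤ → Prop) (t : P.F) (v v' : P.V) : Prop :=
  ∃ i, P.PE ω on i t v v' ∨ P.PE ω on i t v' v

open Classical in
noncomputable def nbr (ω : P.Om A) (on : ℤ → Prop) (u : P.V) (t : P.F) : Option P.V :=
  if h : Even u.1 ∧ ∃ w, P.Adj ω on t u w then some h.2.choose else none

/-! ### laws -/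

noncomputable def shLaw [One A] (m : ℕ) : Val A →₀ ℝ :=
  ∑ s ∈ Finset.range m, Finsupp.single (s, ((1 : A), (0 : ZMod 4))) ((m : ℝ)⁻¹)

/-- keep the phase with probability `ρ`, otherwise add a uniform phase -/
noncomputable def damp (ρ : ℝ) (ν : (A × ZMod 4) →₀ ℝ) : (A × ZMod 4) →₀ ℝ :=
  ρ • ν + ∑ ω' : ZMod 4, ((1 - ρ) / 4) • ν.mapDomain fun x => (x.1, x.2 + ω')

noncomputable def kap (i : ℤ) : ℝ :=
  (P.ports i).card * Real.sqrt ((P.node i).card * (P.node (i + 1)).card) /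
    (P.mb i * (P.n : ℝ) ^ (P.lvl i - 1))
noncomputable def lam : ℝ := P.n / (16 * Real.sqrt P.C)
noncomputable def rho (i : ℤ) : ℝ := P.lam / P.kap i

noncomputable def law [One A] (μ : ℤ → (A × ZMod 4) →₀ ℝ) : P.Co → Val A →₀ ℝ
  | .inl c => shLaw (P.mb c.1)
  | .inr c => (damp (P.rho (P.pairOf c.1 c.2.2)) (μ (P.pairOf c.1 c.2.2))).mapDomain fun y => (0, y)

/-! ### the fluctuation of a pair -/

open Classical in
/-- centred coefficient of the pair `i` from the `H`-vertex `u` to `w`; the block structure is read from `ω₀`, the shift and the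
label from `ω` -/
noncomputable def cH (μ : ℤ → (A × ZMod 4) →₀ ℝ) (i : ℤ) (ω₀ ω : P.Om A) (u : P.V) (t : P.F) (w : P.V) (f : A) : ℂ :=
  if Even u.1 ∧ (P.SameBlk ω₀ i t u w ∨ P.SameBlk ω₀ i t w u) then
    (if ((P.SameBlk ω₀ i t u w ∧ P.MatchV i (ω (.inl (i, P.ty w, t))).1 u w) ∨
          (P.SameBlk ω₀ i t w u ∧ P.MatchV i (ω (.inl (i, P.ty u, t))).1 w u)) ∧
        (ω (.inr (u.1, u.2, t))).2.1 = f then ph (ω (.inr (u.1, u.2, t))).2.2 else 0) -
      ((P.rho i / P.mb i : ℝ) : ℂ) * qco (μ i) f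
  else 0

noncomputable def fluct [Group A] (μ : ℤ → (A × ZMod 4) →₀ ℝ) (i : ℤ) (ω : P.Om A) :
    L2 (A × P.V) →L[ℂ] L2 (A × P.V) :=
  kop fun p q => ∑ t ∈ P.ports i, P.cH μ i ω ω p.2 t q.2 (p.1 * q.1⁻¹)

/-- shifts and labels of the pair `i` -/
def DT (i : ℤ) : Finset P.Co :=
  ((lists Finset.univ (P.lvl i - 1) ×ˢ P.ports i).image fun c => Sum.inl (i, c.1, c.2)) ∪
  (((P.node i ∪ P.node (i + 1)) ×ˢ P.ports i).image fun c => Sum.inr (c.1.1, c.1.2, c.2))

/-- all coordinates of size `≤ B` -/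
noncomputable def Dep (B : ℕ) : Finset P.Co :=
  let s : Finset (ℤ × List P.F × P.F) := Finset.Icc (-(B : ℤ)) B ×ˢ
    ((Finset.range (B + 1)).biUnion fun k => lists Finset.univ k) ×ˢ Finset.univ
  s.image Sum.inl ∪ s.image Sum.inr

/-- all labels of size `≤ B` -/
noncomputable def DG (B : ℕ) : Finset P.Co := (P.Dep B).filter fun c => c.isRight

end Par
end Crest.Agent.R129
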