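import Crest.Agent.R129.Prob

/-! # Genericity of random unitriangular labels (task R129/GenAbs). Statements frozen. -/

set_option autoImplicit false
open scoped BigOperators

namespace Crest.Agent.R129

theorem gen_chain (L : List ℕ) (hs : L.Pairwise (· < ·)) (R : ℕ → ℕ → Prop)
    (h : ∀ p ∈ L, ∀ q ∈ L, p < q → (∀ t ∈ L, ¬ (p < t ∧ t < q)) → R p q) : L.IsChain R := by
  rw [List.isChain_iff_getElem]
  rw [List.pairwise_iff_getElem] at hs
  intro i hi
  refine h _ (List.getElem_mem _) _ (List.getElem_mem _) (hs i (i + 1) _ _ (Nat.lt_succ_self i)) ?_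
  rintro t ht ⟨h1, h2⟩
  obtain ⟨j, hj, rfl⟩ := List.getElem_of_mem ht
  rcases lt_trichotomy j i with h3 | rfl | h3
  · exact lt_asymm h1 (hs j i _ _ h3)
  · exact lt_irrefl _ h1
  · rcases (Nat.succ_le_of_lt h3).eq_or_lt with h4 | h4
    · subst h4
      exact lt_irrefl _ h2
    · exact lt_asymm h2 (hs (i + 1) j _ _ h4)

/-- Sample the times `0, h, 2h, …` below `ℓ` with `h = g / 2`; `E'` = their edges (`≤ 3K + 1` of them as `3h ≥ g`); each edge occurs at
most `K + 1` times; between two occurrences of the same edge (`≥ g ≥ 2h` apart) lies a sample time. -/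
theorem gen_comb {Co : Type} [DecidableEq Co] (e : ℕ → Co) (ℓ g K : ℕ) (hg : 2 ≤ g) (hℓ : 0 < ℓ)
    (hK : ℓ ≤ K * g) (hrec : ∀ p q, p < q → q < ℓ → e p = e q → g ≤ q - p) :
    ∃ E' : Finset Co, ((List.range ℓ).filter fun s => e s ∈ E') ≠ [] ∧
      ((List.range ℓ).filter fun s => e s ∈ E').length ≤ (3 * K + 1) * (K + 1) ∧
      ((List.range ℓ).filter fun s => e s ∈ E').IsChain fun p q => e p ≠ e q := by
  obtain ⟨h, hh⟩ : ∃ h, h = g / 2 := ⟨_, rfl⟩
  have hh0 : 0 < h := by omega
  have hmem : ∀ j, j * h < ℓ →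
      e (j * h) ∈ ((Finset.range (3 * K)).filter fun j => j * h < ℓ).image fun j => e (j * h) := by
    intro j hj
    refine Finset.mem_image.2 ⟨j, Finset.mem_filter.2 ⟨Finset.mem_range.2 ?_, hj⟩, rfl⟩
    have h1 : K * g ≤ K * (3 * h) := Nat.mul_le_mul_left K (by omega)
    have h2 : j * h < 3 * K * h := by nlinarith
    exact lt_of_mul_lt_mul_right h2 (Nat.zero_le _)
  set E' := ((Finset.range (3 * K)).filter fun j => j * h < ℓ).image fun j => e (j * h) with hE'
  refine ⟨E', ?_, ?_, ?_⟩
  · refine List.ne_nil_of_mem (a := 0) (List.mem_filter.2 ⟨List.mem_range.2 hℓ, ?_⟩)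
    simpa using hmem 0 (by simpa using hℓ)
  · have h1 : ((List.range ℓ).filter fun s => e s ∈ E').length =
        ((Finset.range ℓ).filter fun s => e s ∈ E').card := rfl
    have h2 : ((Finset.range ℓ).filter fun s => e s ∈ E').card ≤ (E' ×ˢ Finset.range K).card := by
      refine Finset.card_le_card_of_injOn (fun s => (e s, s / g)) (fun s hs => ?_) ?_
      · obtain ⟨h3, h4⟩ := Finset.mem_filter.1 (Finset.mem_coe.1 hs)
        refine Finset.mem_coe.2 (Finset.mem_product.2 ⟨h4, Finset.mem_range.2 ?_⟩)
        exact (Nat.div_lt_iff_lt_mul (by omega)).2 ((Finset.mem_range.1 h3).trans_le hK)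
      · have key : ∀ p q, p < q → q < ℓ → e p = e q → p / g < q / g := by
          intro p q hpq hq he
          have h3 := hrec p q hpq hq he
          have h4 : (p + g) / g ≤ q / g := Nat.div_le_div_right (by omega)
          rw [Nat.add_div_right _ (by omega)] at h4
          omega
        intro p hp q hq hpq
        have hp' := Finset.mem_range.1 (Finset.mem_filter.1 (Finset.mem_coe.1 hp)).1
        have hq' := Finset.mem_range.1 (Finset.mem_filter.1 (Finset.mem_coe.1 hq)).1
        obtain ⟨h3, h4⟩ := Prod.mk.inj hpq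
        rcases lt_trichotomy p q with h5 | h5 | h5
        · exact absurd h4 (key p q h5 hq' h3).ne
        · exact h5
        · exact absurd h4 (key q p h5 hp' h3.symm).ne'
    have h3 : E'.card ≤ 3 * K :=
      Finset.card_image_le.trans ((Finset.card_filter_le _ _).trans (Finset.card_range _).le)
    rw [Finset.card_product, Finset.card_range] at h2
    rw [h1]
    exact h2.trans (Nat.mul_le_mul (by omega) (by omega))
  · refine gen_chain _ (List.pairwise_lt_range.filter _) _ fun p _ q hq hpq hn he => ?_
    have hq' := List.mem_range.1 (List.mem_filter.1 hq).1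
    have h1 := hrec p q hpq hq' he
    have h2 : p < (p / h + 1) * h := by
      rw [mul_comm]; exact Nat.lt_mul_div_succ p hh0
    have h3 : (p / h + 1) * h ≤ p + h := by
      rw [add_mul, one_mul]; exact Nat.add_le_add_right (Nat.div_mul_le_self p h) h
    refine hn ((p / h + 1) * h) (List.mem_filter.2 ⟨List.mem_range.2 (by omega), ?_⟩) ⟨h2, by omega⟩
    simpa using hmem _ (by omega)

section SZ
open MvPolynomial

/-- Schwartz–Zippel for an arbitrary finite type of variables -/
theorem gen_sz {σ R : Type} [Fintype σ] [DecidableEq σ] [CommRing R] [IsDomain R] [DecidableEq R]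
    {p : MvPolynomial σ R} (hp : p ≠ 0) (S : σ → Finset R) {M c : ℕ} (hM : 0 < M)
    (hS : ∀ i, M ≤ (S i).card) (hc : p.totalDegree ≤ c) :
    (((Fintype.piFinset S).filter fun v => eval v p = 0).card : ℝ) / ∏ i, ((S i).card : ℝ) ≤ c / M := by
  let e := Fintype.equivFin σ
  have h1 := schwartz_zippel_sup_sum (p := rename e p)
    (fun h => hp (rename_injective _ e.injective (by rw [h, map_zero]))) fun i => S (e.symm i)
  have h2 : ((Fintype.piFinset S).filter fun v => eval v p = 0).card ≤
      ((Fintype.piFinset fun i => S (e.symm i)).filter fun v => eval v (rename e p) = 0).card := by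
    refine Finset.card_le_card_of_injOn (fun v => v ∘ e.symm) (fun v hv => ?_) fun v _ w _ h => ?_
    · obtain ⟨h3, h4⟩ := Finset.mem_filter.1 (Finset.mem_coe.1 hv)
      refine Finset.mem_coe.2 (Finset.mem_filter.2 ⟨Fintype.mem_piFinset.2 fun i =>
        Fintype.mem_piFinset.1 h3 _, ?_⟩)
      rw [eval_rename, Function.comp_assoc, e.symm_comp_self, Function.comp_id]
      exact h4
    · funext i
      simpa using congrFun h (e i)
  have h3 : ((rename e p).support.sup fun s => ∑ i, (s i / (S (e.symm i)).card : ℚ≥0)) ≤ c / M := by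
    refine Finset.sup_le fun s hs => ?_
    have h4 : ∑ i, s i ≤ c := by
      have := le_totalDegree hs
      rw [Finsupp.sum_fintype _ _ (fun _ => rfl)] at this
      exact this.trans ((totalDegree_rename_le _ _).trans hc)
    have hM' : (0 : ℚ≥0) < M := by exact_mod_cast hM
    calc ∑ i, (s i / (S (e.symm i)).card : ℚ≥0) ≤ ∑ i, (s i / M : ℚ≥0) := by
          refine Finset.sum_le_sum fun i _ => ?_
          gcongr
          exact hS _
      _ = (∑ i, s i : ℕ) / M := by rw [← Finset.sum_div, Nat.cast_sum]
      _ ≤ c / M := by gcongr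
  have h4 := h1.trans h3
  rw [e.symm.prod_comp fun i => ((S i).card : ℚ≥0)] at h4
  have h5 : (((Fintype.piFinset S).filter fun v => eval v p = 0).card : ℚ≥0) /
      ∏ i, ((S i).card : ℚ≥0) ≤ c / M := le_trans (by gcongr) h4
  have h6 := (NNRat.cast_le (K := ℝ)).2 h5
  rw [← Nat.cast_prod] at h6 ⊢
  simpa only [NNRat.cast_div, NNRat.cast_natCast] using h6

/-- matrices whose entry `(a, b)` has degree at most `b - a` -/
noncomputable def genUD (σ R : Type) [CommRing R] (n : ℕ) :
    Subring (Matrix (Fin n) (Fin n) (MvPolynomial σ R)) where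
  carrier := {Y | ∀ a b, Y a b = 0 ∨ (Y a b).totalDegree + a.val ≤ b.val}
  mul_mem' := by
    have hadd : ∀ (a b : ℕ) (f g : MvPolynomial σ R), (f = 0 ∨ f.totalDegree + a ≤ b) →
        (g = 0 ∨ g.totalDegree + a ≤ b) → (f + g = 0 ∨ (f + g).totalDegree + a ≤ b) := by
      rintro a b f g (rfl | hf) hg
      · rwa [zero_add]
      rcases hg with rfl | hg
      · rw [add_zero]; exact Or.inr hf
      have := totalDegree_add f g
      omega
    intro Y Z hY hZ a b
    rw [Matrix.mul_apply]
    refine Finset.sum_induction _ (fun f : MvPolynomial σ R => f = 0 ∨ f.totalDegree + a.val ≤ b.val)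
      (hadd _ _)
      (Or.inl rfl) fun k _ => ?_
    rcases hY a k with h | h
    · exact Or.inl (by rw [h, zero_mul])
    rcases hZ k b with h' | h'
    · exact Or.inl (by rw [h', mul_zero])
    have := totalDegree_mul (Y a k) (Z k b)
    omega
  one_mem' a b := by
    by_cases h : a = b
    · subst h
      simp
    · exact Or.inl (Matrix.one_apply_ne h)
  add_mem' := by
    intro Y Z hY hZ a b
    rw [Matrix.add_apply]
    rcases hY a b with h | h
    · rw [h, zero_add]; exact hZ a b
    rcases hZ a b with h' | h'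
    · rw [h', add_zero]; exact Or.inr h
    have := totalDegree_add (Y a b) (Z a b)
    omega
  zero_mem' a b := Or.inl rfl
  neg_mem' := by
    intro Y hY a b
    rw [Matrix.neg_apply, neg_eq_zero, totalDegree_neg]
    exact hY a b

end SZ

/-- positions above the diagonal -/
abbrev GenUp (n : ℕ) : Type := {u : Fin n × Fin n // u.1 < u.2}

/-- the unitriangular matrix with given entries above the diagonal -/
def genTri {R : Type} [CommRing R] {n : ℕ} (v : GenUp n → R) : Matrix (Fin n) (Fin n) R :=
  Matrix.of fun a b => if h : a < b then v ⟨(a, b), h⟩ else if a = b then 1 else 0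

/-- polynomial formula for the inverse of a unitriangular matrix -/
def genInv {R : Type} [CommRing R] {n : ℕ} (Y : Matrix (Fin n) (Fin n) R) : Matrix (Fin n) (Fin n) R :=
  ∑ k ∈ Finset.range n, (1 - Y) ^ k

theorem gen_pow {R : Type} [CommRing R] {n : ℕ} {N : Matrix (Fin n) (Fin n) R}
    (hN : ∀ a b, ¬ a < b → N a b = 0) (k : ℕ) : ∀ a b : Fin n, b.val < a.val + k → (N ^ k) a b = 0 := by
  induction k with
  | zero =>
    intro a b h
    rw [pow_zero]
    exact Matrix.one_apply_ne fun h' => by rw [h'] at h; omega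
  | succ k ih =>
    intro a b h
    rw [pow_succ, Matrix.mul_apply]
    refine Finset.sum_eq_zero fun j _ => ?_
    by_cases hj : j < b
    · rw [ih a j (by have : j.val < b.val := hj; omega), zero_mul]
    · rw [hN j b hj, mul_zero]

theorem gen_inv {R : Type} [CommRing R] {n : ℕ} (v : GenUp n → R) :
    (genTri v)⁻¹ = genInv (genTri v) := by
  refine Matrix.inv_eq_left_inv ?_
  have h1 := geom_sum_mul_neg (1 - genTri v) n
  rw [sub_sub_cancel] at h1
  rw [genInv, h1, sub_eq_self]
  ext a b
  refine gen_pow (fun a b h => ?_) n a b (by omega)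
  simp [genTri, h, Matrix.one_apply]

theorem gen_map_tri {R R' : Type} [CommRing R] [CommRing R'] (f : R →+* R') {n : ℕ}
    (v : GenUp n → R) : f.mapMatrix (genTri v) = genTri fun u => f (v u) := by
  ext a b
  simp only [genTri, RingHom.mapMatrix_apply, Matrix.map_apply, Matrix.of_apply]
  split_ifs <;> simp

theorem gen_map_inv {R R' : Type} [CommRing R] [CommRing R'] (f : R →+* R') {n : ℕ}
    (Y : Matrix (Fin n) (Fin n) R) : f.mapMatrix (genInv Y) = genInv (f.mapMatrix Y) := by
  simp only [genInv, map_sum, map_pow, map_sub, map_one]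

theorem gen_tri_mem {σ R : Type} [CommRing R] {n : ℕ} (i : GenUp n → σ) :
    genTri (fun u => MvPolynomial.X (i u)) ∈ genUD σ R n := by
  intro a b
  simp only [genTri, Matrix.of_apply]
  split_ifs with h h'
  · have h1 := (MvPolynomial.isHomogeneous_X R (i ⟨(a, b), h⟩)).totalDegree_le
    have h2 : a.val < b.val := h
    omega
  · subst h'
    simp
  · exact Or.inl rfl

theorem gen_box {R : Type} [CommRing R] [DecidableEq R] {c : ℕ}
    {Sx : Fin (c + 1) → Fin (c + 1) → Finset R} {m : Matrix (Fin (c + 1)) (Fin (c + 1)) R}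
    (hm : m ∈ box Sx) : (∀ u : GenUp (c + 1), m u.1.1 u.1.2 ∈ Sx u.1.1 u.1.2) ∧
      genTri (fun u => m u.1.1 u.1.2) = m := by
  have h : ∀ a b, m a b ∈ (if a < b then Sx a b else if a = b then {1} else {0} : Finset R) :=
    fun a b => Fintype.mem_piFinset.1 (Fintype.mem_piFinset.1 hm a) b
  refine ⟨fun u => by simpa only [if_pos u.2] using h u.1.1 u.1.2, ?_⟩
  ext a b
  have := h a b
  simp only [genTri, Matrix.of_apply]
  split_ifs at this ⊢
  · rfl
  · exact (Finset.mem_singleton.1 this).symm
  · exact (Finset.mem_singleton.1 this).symm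

theorem gen_card_box {R : Type} [CommRing R] [DecidableEq R] {c : ℕ}
    (Sx : Fin (c + 1) → Fin (c + 1) → Finset R) :
    (box Sx).card = ∏ u : GenUp (c + 1), (Sx u.1.1 u.1.2).card := by
  refine (Fintype.card_piFinset _).trans ?_
  simp only [Fintype.card_piFinset]
  rw [← Fintype.prod_prod_type', ← Finset.prod_subtype (Finset.univ.filter fun u => u.1 < u.2)
    (by simp) fun u : Fin (c + 1) × Fin (c + 1) => (Sx u.1 u.2).card, Finset.prod_filter]
  refine Finset.prod_congr rfl fun u _ => ?_
  split_ifs <;> simp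

theorem gen_transfer {Co Val B : Type} [DecidableEq Co] {ν : Co → Val →₀ ℝ} (T : Val → B)
    (ν' : Co → B →₀ ℝ) (ψ : (Co → B) → ℝ) (U : Finset Co) :
    (∀ x ∈ U, ∀ φ : B → ℝ, (ν x).sum (fun a p => p * φ (T a)) = (ν' x).sum fun m p => p * φ m) →
    ∀ ω₀, Ex ν U (fun ω => ψ fun x => T (ω x)) ω₀ = Ex ν' U ψ fun x => T (ω₀ x) := by
  induction U using Finset.induction_on with
  | empty => intro _ ω₀; rw [Ex_empty, Ex_empty]
  | insert c U hc ih =>
    intro h ω₀
    rw [Ex_insert hc, Ex_insert hc]
    simp only [ih fun x hx => h x (Finset.mem_insert_of_mem hx), smul_eq_mul]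
    rw [← h c (Finset.mem_insert_self _ _) fun m =>
      Ex ν' U ψ (Function.update (fun x => T (ω₀ x)) c m)]
    refine Finsupp.sum_congr fun a _ => ?_
    congr 2
    exact Function.comp_update T ω₀ c a

theorem gen_filter {α G : Type} [Monoid G] (p : α → Bool) (g : α → G) (l : List α)
    (h : ∀ s ∈ l, ¬ p s → g s = 1) : ((l.filter p).map g).prod = (l.map g).prod := by
  induction l with
  | nil => rfl
  | cons a l ih =>
    have ih' := ih fun s hs => h s (List.mem_cons_of_mem _ hs)
    by_cases ha : p a
    · simp [ha, ih']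
    · simp [ha, ih', h a (by simp) ha]

/-- the test matrices -/
def genN {Co : Type} [DecidableEq Co] (R : Type) [CommRing R] (n r : ℕ) (f : ℕ → Co) (x : Co) :
    Matrix (Fin n) (Fin n) R :=
  Matrix.of fun a b => if b.val = a.val + 1 ∧ a.val < r ∧ f a = x then 1 else 0

theorem gen_N_tri {Co : Type} [DecidableEq Co] (R : Type) [CommRing R] (n r : ℕ) (f : ℕ → Co)
    (x : Co) : genTri (fun u : GenUp n => genN R n r f x u.1.1 u.1.2) = 1 + genN R n r f x := by
  ext a b
  simp only [genTri, Matrix.of_apply, Matrix.add_apply, Matrix.one_apply]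
  by_cases h : a < b
  · simp [h, h.ne]
  · have : genN R n r f x a b = 0 := if_neg fun h' => h (by have := h'.1; exact Fin.lt_def.2 (by omega))
    simp [h, this]

theorem gen_N_inv {Co : Type} [DecidableEq Co] (R : Type) [CommRing R] (n r : ℕ) {f : ℕ → Co}
    (hf : ∀ k, k + 1 < r → f k ≠ f (k + 1)) (x : Co) :
    (1 + genN R n r f x)⁻¹ = 1 + (-1 : R) • genN R n r f x := by
  have h : genN R n r f x * genN R n r f x = 0 := by
    ext a b
    rw [Matrix.mul_apply]
    refine Finset.sum_eq_zero fun k _ => ?_
    simp only [genN, Matrix.of_apply]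
    split_ifs with h1 h2
    · refine absurd (h1.2.2.trans h2.2.2.symm) ?_
      rw [h1.1]
      exact hf _ (h1.1 ▸ h2.2.1)
    all_goals simp
  refine Matrix.inv_eq_right_inv ?_
  rw [neg_smul, one_smul, add_mul, mul_add, mul_add, mul_neg, mul_neg, h]
  simp

theorem gen_entry {Co : Type} [DecidableEq Co] (R : Type) [CommRing R] [IsDomain R] (c r : ℕ)
    (f : ℕ → Co) (ε : ℕ → R) (hε : ∀ k, ε k ≠ 0) (j : ℕ) (hj : j ≤ r) (b : Fin (c + 1)) :
    (j < b.val → ((List.range j).map fun k => 1 + ε k • genN R (c + 1) r f (f k)).prod 0 b = 0) ∧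
    (j = b.val → ((List.range j).map fun k => 1 + ε k • genN R (c + 1) r f (f k)).prod 0 b ≠ 0) := by
  induction j generalizing b with
  | zero =>
    refine ⟨fun h => Matrix.one_apply_ne fun h' => ?_, fun h => ?_⟩
    · rw [← h'] at h
      exact lt_irrefl _ h
    · obtain rfl : b = 0 := Fin.ext h.symm
      simp
  | succ j ih =>
    have ih' := ih (by omega)
    rw [List.prod_range_succ, mul_add, mul_one, Matrix.add_apply, Matrix.mul_smul,
      Matrix.smul_apply, Matrix.mul_apply]
    constructor
    · intro h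
      rw [(ih' b).1 (by omega), zero_add, Finset.sum_eq_zero, smul_zero]
      intro a _
      by_cases ha : j < a.val
      · rw [(ih' a).1 ha, zero_mul]
      · have : genN R (c + 1) r f (f j) a b = 0 := if_neg fun h' => by omega
        rw [this, mul_zero]
    · intro h
      have hjc : j < c + 1 := by omega
      rw [(ih' b).1 (by omega), zero_add, Finset.sum_eq_single ⟨j, hjc⟩]
      · have : genN R (c + 1) r f (f j) ⟨j, hjc⟩ b = 1 := if_pos ⟨h.symm, hj, rfl⟩
        rw [this, mul_one]
        exact mul_ne_zero (hε j) ((ih' ⟨j, hjc⟩).2 rfl)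
      · intro a _ ha
        have : genN R (c + 1) r f (f j) a b = 0 := if_neg fun h' => ha (Fin.ext (by
          have := h'.1; simp only; omega))
        rw [this, mul_zero]
      · simp

open Classical in
/-- Schwartz–Zippel.  Let `r` be the length of the filtered list.  Apply `π`; by `hbox` (induction on the coordinates, `Ex_sdiff`,
`Ex_insert`) the matrices `π (lab (ω x))` are independent and uniform on boxes.  Over `MvPolynomial (coords × index × index) R₀` take generic
unitriangular `Y x = 1 + N x`, with inverse `∑_{k ≤ c} (-N x)^k`; entry `(a,b)` of any product of these has total degree `≤ b - a`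
and vanishes for `a > b`; evaluation at box points gives `π` of the word (inverses are unique).  The entry `(0,r)` is a nonzero polynomial:
put `Y x = 1` off `E'` and `Y x = 1 + ∑_{k : e_k = x} E_{k-1,k}` on `E'` (then `N x ^ 2 = 0` since neighbours differ); the entry is `±1`.  If the
word is `1` this entry vanishes (`r ≥ 1`); `MvPolynomial.schwartz_zippel_sup_sum` gives probability `≤ c / M`. -/
theorem gen_prob {Co Val A R₀ : Type} [DecidableEq Co] [Group A] [CommRing R₀] [IsDomain R₀] [DecidableEq R₀]
    {c : ℕ} {ν : Co → Val →₀ ℝ} (hν : ∀ x, IsLaw (ν x)) (lab : Val → A)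
    (π : A →* Matrix (Fin (c + 1)) (Fin (c + 1)) R₀) (M : ℕ) (hM : 0 < M)
    (e : ℕ → Co) (sgn : ℕ → Bool) (ℓ : ℕ) (D : Finset Co) (hD : ∀ s, s < ℓ → e s ∈ D)
    (hbox : ∀ s, s < ℓ → ∃ Sx : Fin (c + 1) → Fin (c + 1) → Finset R₀, (∀ a b, M ≤ (Sx a b).card) ∧
      ∀ φ : Matrix (Fin (c + 1)) (Fin (c + 1)) R₀ → ℝ,
        (ν (e s)).sum (fun x p => p * φ (π (lab x))) = (∑ m ∈ box Sx, φ m) / (box Sx).card)
    (E' : Finset Co) (hne : ((List.range ℓ).filter fun s => e s ∈ E') ≠ [])
    (hlen : ((List.range ℓ).filter fun s => e s ∈ E').length ≤ c)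
    (hch : ((List.range ℓ).filter fun s => e s ∈ E').IsChain fun p q => e p ≠ e q) (ω₀ : Co → Val) :
    Ex ν D (fun ω => if ((List.range ℓ).map fun s =>
        if sgn s then lab (ω (e s)) else (lab (ω (e s)))⁻¹).prod = 1 then (1 : ℝ) else 0) ω₀ ≤ c / M := by
  set L := (List.range ℓ).filter fun s => e s ∈ E' with hL
  have hr0 : 0 < L.length := List.length_pos_iff.2 hne
  let r : Fin (c + 1) := ⟨L.length, by omega⟩
  let U : Finset Co := (Finset.range ℓ).image e
  have hU : ∀ s, s < ℓ → e s ∈ U := fun s hs => Finset.mem_image_of_mem e (Finset.mem_range.2 hs)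
  have hUD : U ⊆ D := fun x hx => by
    obtain ⟨s, hs, rfl⟩ := Finset.mem_image.1 hx
    exact hD s (Finset.mem_range.1 hs)
  -- the word in matrices
  let W : (Co → Matrix (Fin (c + 1)) (Fin (c + 1)) R₀) → Matrix (Fin (c + 1)) (Fin (c + 1)) R₀ :=
    fun Y => ((List.range ℓ).map fun s => if sgn s then Y (e s) else (Y (e s))⁻¹).prod
  have hW : ∀ Y Y', (∀ x ∈ U, Y x = Y' x) → W Y = W Y' := fun Y Y' h => by
    refine congrArg List.prod (List.map_congr_left fun s hs => ?_)
    rw [h _ (hU s (List.mem_range.1 hs))]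
  let ψ : (Co → Matrix (Fin (c + 1)) (Fin (c + 1)) R₀) → ℝ := fun Y => if W Y 0 r = 0 then 1 else 0
  -- the generic word
  let G : Co → Matrix (Fin (c + 1)) (Fin (c + 1)) (MvPolynomial (U × GenUp (c + 1)) R₀) :=
    fun x => if h : x ∈ U then genTri fun u => MvPolynomial.X (⟨x, h⟩, u) else 1
  let P := ((List.range ℓ).map fun s => if sgn s then G (e s) else genInv (G (e s))).prod
  have hG : ∀ x, G x ∈ genUD _ R₀ (c + 1) := fun x => by
    by_cases h : x ∈ U
    · simp only [G, dif_pos h]
      exact gen_tri_mem _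
    · simp only [G, dif_neg h]
      exact one_mem _
  have hP : P ∈ genUD _ R₀ (c + 1) := by
    refine list_prod_mem fun Y hY => ?_
    obtain ⟨s, -, rfl⟩ := List.mem_map.1 hY
    split_ifs
    · exact hG _
    · exact sum_mem fun k _ => pow_mem (sub_mem (one_mem _) (hG _)) k
  have hdeg : (P 0 r).totalDegree ≤ c := by
    rcases hP 0 r with h | h
    · rw [h]; simp
    · have : r.val ≤ c := hlen
      omega
  have heval : ∀ (v : U × GenUp (c + 1) → R₀) (Y : Co → Matrix (Fin (c + 1)) (Fin (c + 1)) R₀),
      (∀ x (h : x ∈ U), Y x = genTri fun u => v (⟨x, h⟩, u)) →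
      MvPolynomial.eval v (P 0 r) = W Y 0 r := by
    intro v Y hY
    have h1 : (MvPolynomial.eval v).mapMatrix P = W Y := by
      rw [map_list_prod, List.map_map]
      refine congrArg List.prod (List.map_congr_left fun s hs => ?_)
      have hs' := hU s (List.mem_range.1 hs)
      have h2 : (MvPolynomial.eval v).mapMatrix (G (e s)) = Y (e s) := by
        simp only [G, dif_pos hs']
        rw [gen_map_tri, hY _ hs']
        simp
      rw [Function.comp_apply]
      split_ifs
      · exact h2
      · rw [gen_map_inv, h2, hY _ hs', gen_inv]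
    rw [← h1]
    rfl
  have hP0 : P 0 r ≠ 0 := by
    intro h0
    let f : ℕ → Co := fun k => e (L.getD k 0)
    have hf : ∀ k, k + 1 < L.length → f k ≠ f (k + 1) := fun k hk => by
      have := List.isChain_iff_getElem.1 hch k hk
      simp only [f]
      rwa [List.getD_eq_getElem _ _ hk, List.getD_eq_getElem _ _ (by omega : k < L.length)]
    have h1 := heval (fun i => genN R₀ (c + 1) L.length f i.1 i.2.1.1 i.2.1.2)
      (fun x => 1 + genN R₀ (c + 1) L.length f x) fun x _ => (gen_N_tri ..).symm
    rw [h0, map_zero] at h1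
    have h2 : W (fun x => 1 + genN R₀ (c + 1) L.length f x) =
        ((List.range L.length).map fun k => 1 + (if sgn (L.getD k 0) then (1 : R₀) else -1) •
          genN R₀ (c + 1) L.length f (f k)).prod := by
      simp only [W]
      rw [← gen_filter (fun s => e s ∈ E') _ _ (fun s _ hs => ?_), ← hL]
      · congr 1
        refine List.ext_getElem (by simp) fun k h1 h2 => ?_
        have hk : k < L.length := by simpa using h1
        simp only [List.getElem_map, List.getElem_range, f, List.getD_eq_getElem _ _ hk]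
        split_ifs
        · rw [one_smul]
        · exact gen_N_inv R₀ _ _ hf _
      · have : genN R₀ (c + 1) L.length f (e s) = 0 := by
          ext a b
          refine if_neg fun h' => hs ?_
          rw [← h'.2.2]
          simp only [f, List.getD_eq_getElem _ _ h'.2.1]
          exact (List.mem_filter.1 (List.getElem_mem h'.2.1)).2
        simp [this]
    rw [h2] at h1
    refine (gen_entry R₀ c L.length f _ (fun k => ?_) L.length le_rfl r).2 rfl h1.symm
    split_ifs <;> simp
  -- the boxes
  have hbox' : ∀ x : Co, ∃ Sx : Fin (c + 1) → Fin (c + 1) → Finset R₀, x ∈ U →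
      (∀ a b, M ≤ (Sx a b).card) ∧ ∀ φ : Matrix (Fin (c + 1)) (Fin (c + 1)) R₀ → ℝ,
        (ν x).sum (fun x p => p * φ (π (lab x))) = (∑ m ∈ box Sx, φ m) / (box Sx).card := by
    intro x
    by_cases hx : x ∈ U
    · obtain ⟨s, hs, rfl⟩ := Finset.mem_image.1 hx
      obtain ⟨Sx, h⟩ := hbox s (Finset.mem_range.1 hs)
      exact ⟨Sx, fun _ => h⟩
    · exact ⟨fun _ _ => ∅, fun h => absurd h hx⟩
  choose S hS using hbox'
  let ν' : Co → Matrix (Fin (c + 1)) (Fin (c + 1)) R₀ →₀ ℝ := fun x =>
    Finsupp.onFinset (box (S x)) (fun m => if m ∈ box (S x) then ((box (S x)).card : ℝ)⁻¹ else 0)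
      fun m hm => by by_contra h; exact hm (if_neg h)
  have hsupp : ∀ x, (ν' x).support ⊆ box (S x) := fun x => Finsupp.support_onFinset_subset
  have hval : ∀ x, ∀ m ∈ box (S x), ν' x m = ((box (S x)).card : ℝ)⁻¹ := fun x m hm => if_pos hm
  clear_value ν' P
  calc _ ≤ Ex ν D (fun ω => ψ fun x => π (lab (ω x))) ω₀ := by
        refine Ex_mono hν fun ω _ _ => ?_
        simp only [ψ]
        split_ifs with h1 h2
        · exact le_rfl
        · refine absurd ?_ h2
          have h3 : W (fun x => π (lab (ω x))) = 1 := by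
            rw [← map_one π, ← h1, map_list_prod, List.map_map]
            refine congrArg List.prod (List.map_congr_left fun s _ => ?_)
            rw [Function.comp_apply]
            split_ifs
            · rfl
            · exact Matrix.inv_eq_right_inv (by rw [← map_mul, mul_inv_cancel, map_one])
          rw [h3]
          exact Matrix.one_apply_ne fun h => hr0.ne (congrArg Fin.val h)
        · exact zero_le_one
        · exact le_rfl
    _ = Ex ν U (fun ω => ψ fun x => π (lab (ω x))) ω₀ := by
        rw [Ex_sdiff hν (D' := D \ U), Finset.sdiff_sdiff_eq_self hUD]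
        intro ω ω' h
        simp only [ψ]
        rw [hW (fun x => π (lab (ω x))) (fun x => π (lab (ω' x))) fun x hx => by
          rw [h x (by simp [hx])]]
    _ = Ex ν' U ψ fun x => π (lab (ω₀ x)) := by
        refine gen_transfer (fun a => π (lab a)) ν' ψ U (fun x hx φ => ?_) ω₀
        rw [(hS x hx).2 φ, Finsupp.sum_of_support_subset _ (hsupp x) _ (by simp), Finset.sum_div]
        exact Finset.sum_congr rfl fun m hm => by rw [hval x m hm, div_eq_inv_mul]
    _ = (((Fintype.piFinset fun x : U => (ν' x).support).filter fun Y =>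
          W (pext U Y fun x => π (lab (ω₀ x))) 0 r = 0).card : ℝ) /
          ∏ i : U × GenUp (c + 1), ((S i.1 i.2.1.1 i.2.1.2).card : ℝ) := by
        rw [Ex_def, Finset.card_filter, Nat.cast_sum, Finset.sum_div]
        refine Finset.sum_congr rfl fun Y hY => ?_
        have h1 : ∏ x : U, ν' x (Y x) =
            (∏ i : U × GenUp (c + 1), ((S i.1 i.2.1.1 i.2.1.2).card : ℝ))⁻¹ := by
          rw [Fintype.prod_prod_type, ← Finset.prod_inv_distrib]
          refine Finset.prod_congr rfl fun x _ => ?_
          rw [hval x.1 (Y x) (hsupp _ (Fintype.mem_piFinset.1 hY x)), gen_card_box, Nat.cast_prod]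
        rw [h1, smul_eq_mul, div_eq_inv_mul, Nat.cast_ite, Nat.cast_one, Nat.cast_zero]
    _ ≤ _ := by
        refine le_trans ?_ (gen_sz hP0 (fun i : U × GenUp (c + 1) => S i.1 i.2.1.1 i.2.1.2) hM
          (fun i => (hS _ i.1.2).1 _ _) hdeg)
        refine div_le_div_of_nonneg_right (Nat.cast_le.2 ?_)
          (Finset.prod_nonneg fun _ _ => Nat.cast_nonneg _)
        refine Finset.card_le_card_of_injOn (fun Y i => Y i.1 i.2.1.1 i.2.1.2) (fun Y hY => ?_)
          fun Y hY Y' hY' h => ?_
        · obtain ⟨h1, h2⟩ := Finset.mem_filter.1 (Finset.mem_coe.1 hY)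
          have h3 := fun x : U => gen_box (hsupp _ (Fintype.mem_piFinset.1 h1 x))
          refine Finset.mem_coe.2 (Finset.mem_filter.2
            ⟨Fintype.mem_piFinset.2 fun i => (h3 i.1).1 i.2, ?_⟩)
          rw [heval _ (pext U Y fun x => π (lab (ω₀ x))) fun x hx => ?_, h2]
          rw [pext_mem _ _ hx]
          exact (h3 ⟨x, hx⟩).2.symm
        · have h1 := (Finset.mem_filter.1 (Finset.mem_coe.1 hY)).1
          have h2 := (Finset.mem_filter.1 (Finset.mem_coe.1 hY')).1
          funext x
          rw [← (gen_box (hsupp _ (Fintype.mem_piFinset.1 h1 x))).2,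
            ← (gen_box (hsupp _ (Fintype.mem_piFinset.1 h2 x))).2]
          congr 1
          funext u
          exact congrFun h (x, u)

end Crest.Agent.R129
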