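import Crest.Agent.R129.GSC
import Crest.Agent.R129.GenAbs

/-! # Short closed walks have nontrivial voltage with high probability (task R129/GGen). Statements frozen. -/

set_option autoImplicit false
open scoped BigOperators

namespace Crest.Agent.R129
namespace Par
variable (P : Par) {A : Type} [Group A] {μ : ℤ → (A × ZMod 4) →₀ ℝ} {on : ℤ → Prop}

/-- size of the window seen by short walks from node `i` -/
def BG' (i : ℤ) : ℕ := P.j₀ + i.natAbs + 500 * (P.stg i + 1) + 1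

theorem stg_le_of_close {i i' : ℤ} {d : ℕ} (h : (i - i').natAbs ≤ d) :
    P.stg i ≤ P.stg i' + d / 1000 + 1 := by
  unfold stg
  have h1 : pos i ≤ pos i' + d := by unfold pos; omega
  have h2 := Nat.div_le_div_right (c := P.J) h1
  have h3 := Nat.add_div_le_div_add_div_add_one (pos i') d P.J
  have h4 : d / P.J ≤ d / 1000 := Nat.div_le_div_left P.hJ (by norm_num)
  omega

theorem stg_le_pos (i : ℤ) : P.stg i ≤ P.j₀ + i.natAbs + 1 := by
  unfold stg pos
  have := Nat.div_le_self (i.natAbs + 1) P.J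
  omega

omit [Group A] in
theorem len_bounds {ω : P.Om A} {v : P.V} {ℓ : ℕ} (hL : (ℓ : ℝ) < 100 * (P.graph ω on).L v) :
    ℓ ≤ 500 * (P.stg v.1 + 1) ∧ 2 * ℓ ≤ 1000 * P.j₀ + v.1.natAbs + 1 := by
  change (ℓ : ℝ) < 100 * (5 * (P.j₀ + (pos v.1 : ℝ) / P.J)) at hL
  have hJ : (1000 : ℝ) ≤ P.J := by exact_mod_cast P.hJ
  have hJ0 : (0 : ℝ) < P.J := by linarith
  constructor
  · have h1 : (pos v.1 : ℝ) / P.J ≤ ((pos v.1 / P.J : ℕ) : ℝ) + 1 := by
      rw [div_le_iff₀ hJ0]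
      have h2 := Nat.lt_div_mul_add (a := pos v.1) (b := P.J) (by have := P.hJ; omega)
      have h3 : (pos v.1 : ℝ) < ((pos v.1 / P.J : ℕ) : ℝ) * P.J + P.J := by exact_mod_cast h2
      linarith
    have h4 : (ℓ : ℝ) ≤ ((500 * (P.stg v.1 + 1) : ℕ) : ℝ) := by
      unfold stg; push_cast; linarith
    exact_mod_cast h4
  · have h1 : (pos v.1 : ℝ) / P.J ≤ (pos v.1 : ℝ) / 1000 :=
      div_le_div_of_nonneg_left (Nat.cast_nonneg _) (by norm_num) hJ
    have h4 : ((2 * ℓ : ℕ) : ℝ) ≤ ((1000 * P.j₀ + pos v.1 : ℕ) : ℝ) := by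
      push_cast; linarith
    have h5 : 2 * ℓ ≤ 1000 * P.j₀ + pos v.1 := by exact_mod_cast h4
    unfold pos at h5; omega

omit [Group A] in
theorem walk_adj {ω : P.Om A} {v : ℕ → P.V} {t : ℕ → P.F} {ℓ : ℕ} (hw : (P.graph ω on).NBWalk v t ℓ)
    {s : ℕ} (hs : s < ℓ) : P.Adj ω on (t s) (v s) (v (s + 1)) := P.edge_iff.1 (hw.1 s hs)

omit [Group A] in
theorem walk_close {ω : P.Om A} {v : ℕ → P.V} {t : ℕ → P.F} {ℓ : ℕ} (hw : (P.graph ω on).NBWalk v t ℓ)
    (s : ℕ) (hs : s ≤ ℓ) : ((v 0).1 - (v s).1).natAbs ≤ s := by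
  induction s with
  | zero => simp
  | succ s ih =>
    have h1 := ih (by omega)
    rcases (Adj.pair P (P.walk_adj hw (s := s) (by omega))).2.2.2.1 with h | h <;> omega

omit [Group A] in
theorem walk_mem {ω : P.Om A} {v : ℕ → P.V} {t : ℕ → P.F} {ℓ : ℕ} (hw : (P.graph ω on).NBWalk v t ℓ)
    (hℓ : 0 < ℓ) (s : ℕ) (hs : s ≤ ℓ) : v s ∈ P.node (v s).1 := by
  rcases Nat.eq_zero_or_pos s with rfl | h
  · exact (Adj.pair P (P.walk_adj hw hℓ)).2.2.2.2.1
  · obtain ⟨s, rfl⟩ : ∃ k, s = k + 1 := ⟨s - 1, by omega⟩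
    exact (Adj.pair P (P.walk_adj hw (s := s) (by omega))).2.2.2.2.2.1

omit [Group A] in
theorem walk_on {ω : P.Om A} {v : ℕ → P.V} {t : ℕ → P.F} {ℓ : ℕ} (hw : (P.graph ω on).NBWalk v t ℓ)
    (s : ℕ) (hs : s < ℓ) : (P.pairOf (v s).1 (t s) - P.pairOf (v 0).1 (t 0)).natAbs ≤ s ∧
      ∀ i' ∈ Set.uIcc (P.pairOf (v 0).1 (t 0)) (P.pairOf (v s).1 (t s)), on i' := by
  induction s with
  | zero =>
    refine ⟨by simp, fun i' hi' => ?_⟩
    rw [Set.uIcc_self, Set.mem_singleton_iff] at hi'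
    rw [hi']; exact (Adj.pair P (P.walk_adj hw hs)).1
  | succ s ih =>
    obtain ⟨h1, h2⟩ := ih (by omega)
    have a := Adj.pair P (P.walk_adj hw (s := s) (by omega))
    have b := Adj.pair P (P.walk_adj hw hs)
    have c : (P.pairOf (v (s + 1)).1 (t (s + 1)) - P.pairOf (v s).1 (t s)).natAbs ≤ 1 := by
      rcases a.2.2.2.1 with h | h <;> rcases b.2.2.2.1 with h' | h' <;> omega
    refine ⟨by omega, fun i' hi' => ?_⟩
    by_cases he : i' = P.pairOf (v (s + 1)).1 (t (s + 1))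
    · rw [he]; exact b.1
    · refine h2 i' ?_
      rw [Set.mem_uIcc] at hi' ⊢
      omega

omit [Group A] in
theorem walk_shift {ω : P.Om A} {v : ℕ → P.V} {t : ℕ → P.F} {ℓ : ℕ} (hw : (P.graph ω on).NBWalk v t ℓ)
    (a b : ℕ) (h : a + b ≤ ℓ) : (P.graph ω on).NBWalk (fun s => v (a + s)) (fun s => t (a + s)) b :=
  ⟨fun s hs => hw.1 (a + s) (by omega), fun s hs => hw.2 (a + s) (by omega)⟩

omit [Group A] in
theorem walk_return {ω : P.Om A} {v : ℕ → P.V} {t : ℕ → P.F} {ℓ : ℕ} (hw : (P.graph ω on).NBWalk v t ℓ)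
    (hL : ℓ ≤ 500 * (P.stg (v 0).1 + 1)) {a q : ℕ} (ha : a < q) (hq : q ≤ ℓ) (he : v q = v a) :
    P.stg (v 0).1 / 20 ≤ q - a := by
  have h1 := P.base_girth _ _ _ (P.walk_shift hw a (q - a) (by omega)) (by omega)
    (by simp only [add_zero]; rw [show a + (q - a) = q by omega, he])
  simp only [add_zero] at h1
  have h2 := P.stg_le_of_close ((P.walk_close hw a (by omega)).trans (show a ≤ ℓ by omega))
  have h3 := P.j₀_le_stg (v 0).1
  have h4 := P.hj
  unfold gir at h1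
  omega

/-- the `H`-end of step `s` -/
def hE (v : ℕ → P.V) (s : ℕ) : P.V := if Even (v s).1 then v s else v (s + 1)

omit [Group A] in
theorem walk_rec {ω : P.Om A} {v : ℕ → P.V} {t : ℕ → P.F} {ℓ : ℕ} (hw : (P.graph ω on).NBWalk v t ℓ)
    (hL : ℓ ≤ 500 * (P.stg (v 0).1 + 1)) {p q : ℕ} (hpq : p < q) (hq : q < ℓ)
    (he : P.hE v p = P.hE v q) (ht : t p = t q) : P.stg (v 0).1 / 20 ≤ q - p := by
  have a := P.walk_adj hw (s := p) (by omega)
  have b := P.walk_adj hw hq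
  have second : v q = v (p + 1) → P.stg (v 0).1 / 20 ≤ q - p := fun h => by
    have hne : q ≠ p + 1 := by
      rintro rfl
      exact hw.2 p hq ht
    have := P.walk_return hw hL (a := p + 1) (q := q) (by omega) hq.le h
    omega
  unfold hE at he
  split_ifs at he with h1 h2 h2
  · exact P.walk_return hw hL hpq hq.le he.symm
  · refine second ?_
    rw [he, ht] at a
    exact Adj.unique P (Adj.symm P b) a
  · exact second he.symm
  · refine P.walk_return hw hL hpq hq.le ?_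
    rw [he, ht] at a
    exact Adj.unique P (Adj.symm P b) (Adj.symm P a)

open Classical in
theorem prob_walk (hμ : ∀ i, IsLaw (μ i)) {M₀ R : ℕ} (hM : 1 ≤ M₀) (hR : 1 ≤ R)
    (hg : GenHyp μ on (60001 * 20001) M₀ R) (ω₀ : P.Om A) (v : ℕ → P.V) (t : ℕ → P.F) (ℓ : ℕ)
    (hw : (P.graph ω₀ on).NBWalk v t ℓ) (hℓ : 0 < ℓ) (hL : (ℓ : ℝ) < 100 * (P.graph ω₀ on).L (v 0)) :
    Ex (P.law μ) (P.DG (P.BG' (v 0).1))
      (fun ω => if (P.graph ω on).wlab (P.graph ω on).a v t ℓ = 1 then (1 : ℝ) else 0) ω₀ ≤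
      (60001 * 20001 : ℕ) / ((M₀ * R ^ ((v 0).1.natAbs / 2 - (500 * P.j₀ + 2)) : ℕ) : ℝ) := by
  obtain ⟨hL1, hL2⟩ := P.len_bounds hL
  have hj1 := P.j₀_le_stg (v 0).1
  have hj2 := P.hj
  let e : ℕ → P.Co := fun s => Sum.inr ((P.hE v s).1, (P.hE v s).2, t s)
  obtain ⟨E', h1, h2, h3⟩ := gen_comb e ℓ (P.stg (v 0).1 / 20) 20000 (by omega) hℓ (by omega)
    (fun p q hpq hq h => by
      simp only [e, Sum.inr.injEq, Prod.mk.injEq] at h
      exact P.walk_rec hw hL1 hpq hq (Prod.ext h.1 h.2.1) h.2.2)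
  have a0 := Adj.pair P (P.walk_adj hw hℓ)
  obtain ⟨R₀, _, _, _, π, hπ⟩ := hg _ a0.1
  have hpair : ∀ s, s < ℓ → P.pairOf (P.hE v s).1 (t s) = P.pairOf (v s).1 (t s) := fun s hs => by
    unfold hE
    split_ifs
    · rfl
    · exact (Adj.pair P (P.walk_adj hw hs)).2.2.1
  have key := gen_prob (P.isLaw_law hμ) (fun x : Val A => x.2.1) π
    (M₀ * R ^ ((v 0).1.natAbs / 2 - (500 * P.j₀ + 2))) (Nat.mul_pos hM (Nat.pow_pos hR)) e
    (fun s => decide (Even (v s).1)) ℓ (P.DG (P.BG' (v 0).1)) (fun s hs => ?_) (fun s hs => ?_)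
    E' h1 h2 h3 ω₀
  · refine le_of_eq_of_le ?_ key
    congr 1
    funext ω
    congr 2
    unfold BG.wlab
    congr 1
    refine List.map_congr_left fun s _ => ?_
    by_cases h : Even (v s).1
    · have h' : (P.graph ω on).isH (v s) := h
      simp only [e, hE, if_pos h', h, decide_true, if_true]; rfl
    · have h' : ¬ (P.graph ω on).isH (v s) := h
      simp only [e, hE, if_neg h', h, decide_false, if_false, Bool.false_eq_true]; rfl
  · have hh : ∀ k, k ≤ ℓ → (v k).1.natAbs ≤ P.BG' (v 0).1 ∧ (v k).2.length ≤ P.BG' (v 0).1 := fun k hk => by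
      have b1 := P.walk_close hw k hk
      have b2 := P.length_of_mem (P.walk_mem hw hℓ k hk)
      have b3 := P.stg_le_pos (v k).1
      unfold BG'
      omega
    have : (P.hE v s).1.natAbs ≤ P.BG' (v 0).1 ∧ (P.hE v s).2.length ≤ P.BG' (v 0).1 := by
      unfold hE
      split_ifs
      · exact hh s hs.le
      · exact hh (s + 1) hs
    generalize P.BG' (v 0).1 = B at this ⊢
    exact (P.mem_Dep this.1 this.2).2.2
  · obtain ⟨b1, b2⟩ := P.walk_on hw s hs
    obtain ⟨Sx, c1, c2⟩ := hπ _ b2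
    refine ⟨Sx, fun a b => le_trans (Nat.mul_le_mul_left _ (Nat.pow_le_pow_right hR ?_)) (c1 a b),
      fun φ => ?_⟩
    · rcases a0.2.2.2.1 with h | h <;> omega
    · rw [← c2 φ]
      simp only [e, law, hpair s hs]
      rw [Finsupp.sum_mapDomain_index (by simp) (fun _ _ _ => by ring)]
      exact sum_damp _ _ fun x => φ (π x)

omit [Group A] in
theorem adj_congr {ω ω' : P.Om A} {B : ℕ}
    (h : ∀ i κ t, κ ∈ P.Blk i → κ.length ≤ B → (ω (.inl (i, κ, t))).1 = (ω' (.inl (i, κ, t))).1)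
    {t : P.F} {v v' : P.V} (hB : P.stg v.1 ≤ B) (ha : P.Adj ω on t v v') : P.Adj ω' on t v v' := by
  have key : ∀ i U W, P.lvl i ≤ B + 1 → P.PE ω on i t U W → P.PE ω' on i t U W := by
    rintro i U W hl ⟨h1, h2, h3⟩
    have hb := P.ty_mem_Blk h2.2.2.1
    have hl2 := P.length_of_mem_Blk hb
    refine ⟨h1, (P.SameBlk_congr (fun i' κ t a b => h i' κ t a (by omega)) t U W).1 h2, ?_⟩
    rwa [← h i _ t hb (by omega)]
  obtain ⟨i, ha | ha⟩ := ha
  · refine ⟨i, Or.inl (key i _ _ ?_ ha)⟩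
    rw [P.fst_of_mem ha.2.1.2.1] at hB
    unfold lvl; omega
  · refine ⟨i, Or.inr (key i _ _ ?_ ha)⟩
    rw [P.fst_of_mem ha.2.1.2.2.1] at hB
    by_cases hc : P.cross i
    · have := (P.of_cross hc).2.2.1; omega
    · have := (P.of_not_cross hc).2.1; omega

omit [Group A] in
theorem walk_congr {ω ω' : P.Om A} {B : ℕ}
    (h : ∀ i κ t, κ ∈ P.Blk i → κ.length ≤ B → (ω (.inl (i, κ, t))).1 = (ω' (.inl (i, κ, t))).1)
    {v : ℕ → P.V} {t : ℕ → P.F} {ℓ : ℕ} (hB : P.j₀ + (v 0).1.natAbs + ℓ + 1 ≤ B)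
    (hw : (P.graph ω on).NBWalk v t ℓ) : (P.graph ω' on).NBWalk v t ℓ := by
  refine ⟨fun s hs => P.edge_iff.2 (P.adj_congr h ?_ (P.walk_adj hw hs)), hw.2⟩
  have b1 := P.walk_close hw s hs.le
  have b3 := P.stg_le_pos (v s).1
  omega

theorem wlab_congr {ω ω' : P.Om A} {v v' : ℕ → P.V} {t t' : ℕ → P.F} {ℓ : ℕ}
    (hv : ∀ s, s ≤ ℓ → v s = v' s) (ht : ∀ s, s < ℓ → t s = t' s)
    (h : ∀ s k, s < ℓ → k ≤ ℓ → ω (.inr ((v k).1, (v k).2, t s)) = ω' (.inr ((v k).1, (v k).2, t s))) :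
    (P.graph ω on).wlab (P.graph ω on).a v t ℓ = (P.graph ω' on).wlab (P.graph ω' on).a v' t' ℓ := by
  unfold BG.wlab
  congr 1
  refine List.map_congr_left fun s hs => ?_
  have hs' := List.mem_range.1 hs
  rw [← hv s hs'.le, ← hv (s + 1) hs', ← ht s hs']
  by_cases he : Even (v s).1
  · have h1 : (P.graph ω on).isH (v s) := he
    have h2 : (P.graph ω' on).isH (v s) := he
    rw [if_pos h1, if_pos h2]
    exact congrArg (fun x : Val A => x.2.1) (h s s hs' hs'.le)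
  · have h1 : ¬ (P.graph ω on).isH (v s) := he
    have h2 : ¬ (P.graph ω' on).isH (v s) := he
    rw [if_neg h1, if_neg h2]
    exact congrArg (fun x : Val A => x.2.1⁻¹) (h s (s + 1) hs' hs')

theorem sum_pow_le (n m : ℕ) : ∑ k ∈ Finset.range (m + 1), n ^ k ≤ (n + 1) ^ m := by
  induction m with
  | zero => simp
  | succ m ih =>
    rw [Finset.sum_range_succ, pow_succ (n + 1)]
    have : n ^ (m + 1) ≤ (n + 1) ^ m * n := by
      rw [pow_succ]; exact Nat.mul_le_mul_right _ (Nat.pow_le_pow_left (by omega) _)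
    nlinarith

open Classical in
theorem prob_badG (hμ : ∀ i, IsLaw (μ i)) {M₀ R : ℕ} (hM : 1 ≤ M₀) (hR : 1 ≤ R)
    (hg : GenHyp μ on (60001 * 20001) M₀ R) (i : ℤ) (ω₀ : P.Om A) :
    Ex (P.law μ) (P.DG (P.BG' i)) (fun ω => if P.badG on i ω then (1 : ℝ) else 0) ω₀ ≤
      ((P.n : ℝ) + 1) ^ (501 * (P.stg i + 1)) * (60001 * 20001 : ℕ) /
        ((M₀ * R ^ (i.natAbs / 2 - (500 * P.j₀ + 2)) : ℕ) : ℝ) := by
  set η : ℝ := (60001 * 20001 : ℕ) / ((M₀ * R ^ (i.natAbs / 2 - (500 * P.j₀ + 2)) : ℕ) : ℝ) with hη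
  have hη0 : 0 ≤ η := by positivity
  let S : Finset (P.V × List P.F) := P.node i ×ˢ
    (Finset.range (500 * (P.stg i + 1) + 1)).biUnion fun k => lists Finset.univ k
  let Pw : P.V × List P.F → (ℕ → P.V) × (ℕ → P.F) → Prop := fun x w =>
    (P.graph ω₀ on).NBWalk w.1 w.2 x.2.length ∧ w.1 0 = x.1 ∧ (List.range x.2.length).map w.2 = x.2 ∧
      0 < x.2.length ∧ (x.2.length : ℝ) < 100 * (P.graph ω₀ on).L (w.1 0)
  let f : P.V × List P.F → P.Om A → ℝ := fun x ω =>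
    if h : ∃ w, Pw x w then
      (if (P.graph ω on).wlab (P.graph ω on).a h.choose.1 h.choose.2 x.2.length = 1 then 1 else 0) else 0
  have hf0 : ∀ x ω, 0 ≤ f x ω := fun x ω => by
    simp only [f]; split_ifs <;> norm_num
  have hlaw := P.isLaw_law hμ
  have h1 : Ex (P.law μ) (P.DG (P.BG' i)) (fun ω => if P.badG on i ω then (1 : ℝ) else 0) ω₀ ≤
      Ex (P.law μ) (P.DG (P.BG' i)) (fun ω => ∑ x ∈ S, f x ω) ω₀ := by
    refine Ex_mono hlaw fun ω hω _ => ?_
    split_ifs with hb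
    swap
    · exact Finset.sum_nonneg fun x _ => hf0 x ω
    obtain ⟨v, t, ℓ, hw, hℓ, -, hi, hlab, hL⟩ := hb
    have hw₀ : (P.graph ω₀ on).NBWalk v t ℓ :=
      P.walk_congr (B := P.j₀ + (v 0).1.natAbs + ℓ + 1)
        (fun i κ t _ _ => by rw [hω _ (by simp [DG])]) le_rfl hw
    have hlen : ((List.range ℓ).map t).length = ℓ := by simp
    have hx : (v 0, (List.range ℓ).map t) ∈ S := by
      have := (P.len_bounds hL).1
      rw [hi] at this
      simp only [S]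
      generalize 500 * (P.stg i + 1) = B at this ⊢
      exact Finset.mem_product.2 ⟨hi ▸ P.walk_mem hw hℓ 0 (Nat.zero_le _), Finset.mem_biUnion.2
        ⟨ℓ, Finset.mem_range.2 (by omega), mem_lists.2 ⟨hlen, fun _ _ => Finset.mem_univ _⟩⟩⟩
    refine le_trans ?_ (Finset.single_le_sum (fun x _ => hf0 x ω) hx)
    have hex : ∃ w, Pw (v 0, (List.range ℓ).map t) w :=
      ⟨(v, t), by simp only [Pw, hlen]; exact ⟨hw₀, trivial, trivial, hℓ, hL⟩⟩
    obtain ⟨c1, c2, c3, -, -⟩ := hex.choose_spec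
    simp only [f, dif_pos hex]
    rw [if_pos]
    simp only [hlen] at c1 c2 c3 ⊢
    have ht : ∀ s, s < ℓ → hex.choose.2 s = t s := fun s hs =>
      List.map_inj_left.1 c3 s (List.mem_range.2 hs)
    have hv : ∀ s, s ≤ ℓ → hex.choose.1 s = v s := fun s hs => by
      induction s with
      | zero => exact c2
      | succ s ih =>
        have a := P.walk_adj c1 (s := s) (by omega)
        rw [ih (by omega), ht s (by omega)] at a
        exact Adj.unique P a (P.walk_adj hw₀ (by omega))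
    rw [← hlab]
    exact P.wlab_congr hv ht fun _ _ _ _ => rfl
  have h2 : ∀ x ∈ S, Ex (P.law μ) (P.DG (P.BG' i)) (f x) ω₀ ≤ η := fun x hx => by
    by_cases h : ∃ w, Pw x w
    · obtain ⟨c1, c2, -, c4, c5⟩ := h.choose_spec
      have hi : (h.choose.1 0).1 = i := by
        rw [c2]; exact P.fst_of_mem (Finset.mem_product.1 hx).1
      have := P.prob_walk hμ hM hR hg ω₀ _ _ _ c1 c4 c5
      rw [hi] at this
      simpa only [f, dif_pos h] using this
    · have : f x = fun _ => 0 := funext fun ω => by simp only [f, dif_neg h]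
      rw [this, Ex_const hlaw]; exact hη0
  have h3 : S.card ≤ (P.n + 1) ^ (501 * (P.stg i + 1)) := by
    rw [Finset.card_product, P.card_node]
    have a1 : ((Finset.range (500 * (P.stg i + 1) + 1)).biUnion
        fun k => lists (Finset.univ : Finset P.F) k).card ≤ (P.n + 1) ^ (500 * (P.stg i + 1)) := by
      refine Finset.card_biUnion_le.trans (le_trans (le_of_eq ?_) (sum_pow_le P.n _))
      refine Finset.sum_congr rfl fun k _ => ?_
      rw [card_lists, Finset.card_univ, ZMod.card]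
    have a2 : P.sz i * P.n ^ (P.stg i - 1) ≤ (P.n + 1) ^ (P.stg i + 1) := by
      have b1 := P.sz_le i
      calc P.sz i * P.n ^ (P.stg i - 1) ≤ (P.n + 1) * (P.n + 1) ^ (P.stg i - 1) :=
            Nat.mul_le_mul (by omega) (Nat.pow_le_pow_left (by omega) _)
        _ = (P.n + 1) ^ (P.stg i - 1 + 1) := by ring
        _ ≤ _ := Nat.pow_le_pow_right (by omega) (by omega)
    calc _ ≤ (P.n + 1) ^ (P.stg i + 1) * (P.n + 1) ^ (500 * (P.stg i + 1)) := Nat.mul_le_mul a2 a1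
      _ = _ := by
        rw [← pow_add, show P.stg i + 1 + 500 * (P.stg i + 1) = 501 * (P.stg i + 1) by omega]
  refine h1.trans ?_
  rw [Ex_sum, mul_div_assoc]
  refine (Finset.sum_le_card_nsmul _ _ _ h2).trans ?_
  rw [nsmul_eq_mul]
  refine mul_le_mul_of_nonneg_right ?_ hη0
  exact_mod_cast h3

theorem badG_dep (i : ℤ) : ∃ B, ∀ ω ω' : P.Om A, (∀ c ∈ P.Dep B, ω c = ω' c) →
    P.badG on i ω → P.badG on i ω' := by
  refine ⟨P.J * (P.BG' i + 2), fun ω ω' h ⟨v, t, ℓ, hw, hℓ, hc, hi, hlab, hL⟩ => ?_⟩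
  have hL1 := (P.len_bounds hL).1
  have hJ : P.BG' i + 2 ≤ P.J * (P.BG' i + 2) := Nat.le_mul_of_pos_left _ (by have := P.hJ; omega)
  refine ⟨v, t, ℓ, P.walk_congr (B := P.BG' i) (fun i' κ t a b => ?_) ?_ hw, hℓ, hc, hi, ?_, hL⟩
  · rw [h _ (P.mem_Dep ((P.natAbs_le_of_Blk a).trans (Nat.mul_le_mul_left _ (by omega))) (by omega)).1]
  · rw [hi] at hL1 ⊢; unfold BG'; omega
  · rw [← hlab]
    refine (P.wlab_congr (fun _ _ => rfl) (fun _ _ => rfl) fun s k _ hk => h _ ?_).symm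
    have b1 := P.walk_close hw k hk
    have b2 := P.length_of_mem (P.walk_mem hw hℓ k hk)
    have b3 := P.stg_le_pos (v k).1
    rw [hi] at hL1 b1
    have : (v k).1.natAbs ≤ P.BG' i ∧ (v k).2.length ≤ P.BG' i := by unfold BG'; omega
    exact (P.mem_Dep (by omega) (by omega)).2.1

end Par
end Crest.Agent.R129
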