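import Crest.Agent.R129.GPsi

/-! # The base graph of a configuration (definitions; do not edit) -/

set_option autoImplicit false

namespace Crest.Agent.R129
namespace Par
variable (P : Par) {A : Type}

noncomputable def graph (ω : P.Om A) (on : ℤ → Prop) : BG P.F A where
  V := P.V
  isH v := Even v.1
  nb := P.nbr ω on
  nb_typ u t w h := by
    have h' := (P.nbr_eq_some).1 h
    exact ⟨h'.1, (Adj.parity P h'.2).1 h'.1⟩
  nb_inj u u' t w h h' :=
    Adj.unique P (Adj.symm P ((P.nbr_eq_some).1 h).2) (Adj.symm P ((P.nbr_eq_some).1 h').2)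
  z u := u.2.getLastD 0
  om u t := (ω (.inr (u.1, u.2, t))).2.2
  a u t := (ω (.inr (u.1, u.2, t))).2.1
  L v := 5 * (P.j₀ + (pos v.1 : ℝ) / P.J)

theorem edge_iff {ω : P.Om A} {on : ℤ → Prop} {v v' : P.V} {t : P.F} :
    (P.graph ω on).Edge v t v' ↔ P.Adj ω on t v v' := by
  constructor
  · rintro (h | h)
    · exact ((P.nbr_eq_some).1 h).2
    · exact Adj.symm P ((P.nbr_eq_some).1 h).2
  · intro h
    by_cases hv : Even v.1
    · exact Or.inl ((P.nbr_eq_some).2 ⟨hv, h⟩)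
    · refine Or.inr ((P.nbr_eq_some).2 ⟨?_, Adj.symm P h⟩)
      by_contra hv'
      exact hv ((Adj.parity P h).2 hv')

/-- the fluctuation of pair `i` is large -/
def badT [Group A] (μ : ℤ → (A × ZMod 4) →₀ ℝ) (on : ℤ → Prop) (i : ℤ) (ω : P.Om A) : Prop :=
  on i ∧ 16 * Real.sqrt (P.n * Real.sqrt P.n) < ‖P.fluct μ i ω‖

/-- a short closed walk from node `i` has trivial voltage -/
def badG [Group A] (on : ℤ → Prop) (i : ℤ) (ω : P.Om A) : Prop :=
  ∃ (v : ℕ → P.V) (t : ℕ → P.F) (ℓ : ℕ), (P.graph ω on).NBWalk v t ℓ ∧ 0 < ℓ ∧ v ℓ = v 0 ∧ (v 0).1 = i ∧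
    (P.graph ω on).wlab (P.graph ω on).a v t ℓ = 1 ∧ (ℓ : ℝ) < 100 * (P.graph ω on).L (v 0)

end Par
end Crest.Agent.R129
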