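import Crest.Agent.R129.Defs

/-! # Kernel calculus on ℓ² (task R129/Ker). Statements are frozen; add lemmas freely. -/

set_option autoImplicit false
open scoped BigOperators

namespace Crest.Agent.R129
variable {I J K : Type}

theorem dl_apply [DecidableEq I] (i j : I) : (dl i : I → ℂ) j = if j = i then 1 else 0 := by
  unfold dl
  by_cases h : j = i
  · subst h; rw [if_pos rfl]
    exact @lp.single_apply_self _ _ _ (fun a b => Classical.propDecidable (a = b)) _ _ _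
  · rw [if_neg h]
    exact @lp.single_apply_ne _ _ _ (fun a b => Classical.propDecidable (a = b)) _ _ _ _ h

theorem norm_dl (i : I) : ‖dl i‖ = 1 := by
  unfold dl
  rw [@lp.norm_single _ _ _ _ (fun a b => Classical.propDecidable (a = b)) (by norm_num)]; simp

theorem inner_dl (j : I) (ξ : L2 I) : inner ℂ (dl j) ξ = (ξ : I → ℂ) j := by
  unfold dl
  open Classical in rw [lp.inner_single_left]
  simp

theorem hasSum_norm_sq (ξ : L2 I) : HasSum (fun i => ‖(ξ : I → ℂ) i‖ ^ 2) (‖ξ‖ ^ 2) := by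
  have h := lp.hasSum_norm (p := 2) (by norm_num) ξ
  simpa using h

/-- `ξ = ∑ ξ i • dl i` (`lp.hasSum_single`), then apply `T` and evaluate at `j`. -/
theorem hasSum_apply (T : L2 I →L[ℂ] L2 J) (ξ : L2 I) (j : J) :
    HasSum (fun i => mat T j i * (ξ : I → ℂ) i) ((T ξ : J → ℂ) j) := by
  classical
  have h := lp.hasSum_single (p := 2) (by norm_num) ξ
  have h2 := (h.mapL T).mapL (lp.evalCLM ℂ (fun _ : J => ℂ) 2 j)
  have e : ∀ i, (lp.evalCLM ℂ (fun _ : J => ℂ) 2 j) (T (lp.single 2 i ((ξ : I → ℂ) i))) =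
      mat T j i * (ξ : I → ℂ) i := by
    intro i
    have : (lp.single 2 i ((ξ : I → ℂ) i) : L2 I) = (ξ : I → ℂ) i • dl i := by
      ext l
      rw [lp.coeFn_smul, Pi.smul_apply, dl_apply]
      by_cases hl : l = i
      · subst hl; rw [if_pos rfl, lp.single_apply_self]; simp
      · rw [if_neg hl, lp.single_apply_ne _ _ _ hl]; simp
    rw [this, map_smul, map_smul, smul_eq_mul, mul_comm]
    rfl
  simp only [e] at h2
  exact h2

theorem mat_ext {T T' : L2 I →L[ℂ] L2 J} (h : ∀ j i, mat T j i = mat T' j i) : T = T' := by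
  ext ξ j
  have h1 := hasSum_apply T ξ j
  have h2 := hasSum_apply T' ξ j
  simp only [h] at h1
  exact h1.unique h2

theorem mat_add (T T' : L2 I →L[ℂ] L2 J) (j : J) (i : I) :
    mat (T + T') j i = mat T j i + mat T' j i := by
  rfl

theorem mat_sub (T T' : L2 I →L[ℂ] L2 J) (j : J) (i : I) :
    mat (T - T') j i = mat T j i - mat T' j i := by
  rfl

theorem mat_smul (c : ℂ) (T : L2 I →L[ℂ] L2 J) (j : J) (i : I) :
    mat (c • T) j i = c * mat T j i := by
  rfl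

theorem mat_zero (j : J) (i : I) : mat (0 : L2 I →L[ℂ] L2 J) j i = 0 := by
  rfl

theorem mat_one [DecidableEq I] (j i : I) :
    mat (1 : L2 I →L[ℂ] L2 I) j i = if j = i then 1 else 0 := by
  unfold mat
  rw [one_apply_eq_self, dl_apply]

theorem mat_sum {ι : Type} (s : Finset ι) (T : ι → L2 I →L[ℂ] L2 J) (j : J) (i : I) :
    mat (∑ x ∈ s, T x) j i = ∑ x ∈ s, mat (T x) j i := by
  classical
  induction s using Finset.induction_on with
  | empty => simp [mat_zero]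
  | insert a s ha ih => rw [Finset.sum_insert ha, Finset.sum_insert ha, mat_add, ih]

theorem mat_adj (T : L2 I →L[ℂ] L2 J) (i : I) (j : J) :
    mat (adj T) i j = (starRingEnd ℂ) (mat T j i) := by
  unfold mat
  rw [← inner_dl, ← inner_dl, ContinuousLinearMap.adjoint_inner_right, inner_conj_symm]

theorem hasSum_mat_comp (S : L2 J →L[ℂ] L2 K) (T : L2 I →L[ℂ] L2 J) (k : K) (i : I) :
    HasSum (fun j => mat S k j * mat T j i) (mat (S ∘L T) k i) := by
  exact hasSum_apply S (T (dl i)) k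

theorem kop_mat (T : L2 I →L[ℂ] L2 J) : kop (mat T) = T := by
  have h : ∃ T' : L2 I →L[ℂ] L2 J, ∀ j i, mat T' j i = mat T j i := ⟨T, fun _ _ => rfl⟩
  unfold kop
  rw [dif_pos h]
  exact mat_ext h.choose_spec

theorem eq_kop {T : L2 I →L[ℂ] L2 J} {k : J → I → ℂ} (h : ∀ j i, mat T j i = k j i) :
    kop k = T := by
  have : k = mat T := by funext j i; exact (h j i).symm
  rw [this, kop_mat]

/-- finite form of the weighted Schur estimate -/
theorem ker_schur_fin (k : J → I → ℂ) (p : I → ℝ) (q : J → ℝ) (hp : ∀ i, 0 < p i)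
    (_hq : ∀ j, 0 < q j) (α β : ℝ) (hα : 0 ≤ α) (hβ : 0 ≤ β)
    (hrow : ∀ j (s : Finset I), ∑ i ∈ s, ‖k j i‖ * p i ≤ α * q j)
    (hcol : ∀ i (s : Finset J), ∑ j ∈ s, ‖k j i‖ * q j ≤ β * p i) (ξ : L2 I) (s : Finset I)
    (t : Finset J) :
    ∑ j ∈ t, (∑ i ∈ s, ‖k j i‖ * ‖(ξ : I → ℂ) i‖) ^ 2 ≤ α * β * ‖ξ‖ ^ 2 := by
  have h1 : ∀ j, (∑ i ∈ s, ‖k j i‖ * ‖(ξ : I → ℂ) i‖) ^ 2 ≤
      α * ∑ i ∈ s, ‖k j i‖ * q j * (‖(ξ : I → ℂ) i‖ ^ 2 / p i) := by
    intro j
    have := Finset.sum_sq_le_sum_mul_sum_of_sq_le_mul s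
      (r := fun i => ‖k j i‖ * ‖(ξ : I → ℂ) i‖) (f := fun i => ‖k j i‖ * p i)
      (g := fun i => ‖k j i‖ * (‖(ξ : I → ℂ) i‖ ^ 2 / p i))
      (fun i _ => by have := hp i; positivity) (fun i _ => by have := hp i; positivity)
      (fun i _ => le_of_eq (by have := (hp i).ne'; field_simp))
    refine this.trans ?_
    have hg : 0 ≤ ∑ i ∈ s, ‖k j i‖ * (‖(ξ : I → ℂ) i‖ ^ 2 / p i) :=
      Finset.sum_nonneg fun i _ => by have := hp i; positivity
    refine (mul_le_mul_of_nonneg_right (hrow j s) hg).trans (le_of_eq ?_)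
    rw [mul_assoc, Finset.mul_sum]
    congr 1
    refine Finset.sum_congr rfl fun i _ => by ring
  refine (Finset.sum_le_sum fun j _ => h1 j).trans ?_
  rw [← Finset.mul_sum, Finset.sum_comm, mul_assoc]
  refine mul_le_mul_of_nonneg_left ?_ hα
  have h2 : ∀ i ∈ s, ∑ j ∈ t, ‖k j i‖ * q j * (‖(ξ : I → ℂ) i‖ ^ 2 / p i) ≤
      β * ‖(ξ : I → ℂ) i‖ ^ 2 := by
    intro i _
    rw [← Finset.sum_mul]
    have hpi := hp i
    refine (mul_le_mul_of_nonneg_right (hcol i t) (by positivity)).trans (le_of_eq ?_)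
    field_simp
  refine (Finset.sum_le_sum h2).trans ?_
  rw [← Finset.mul_sum]
  exact mul_le_mul_of_nonneg_left
    (sum_le_hasSum s (fun i _ => by positivity) (hasSum_norm_sq ξ)) hβ

/-- Weighted Schur test.  Define `(Tξ) j = ∑' i, k j i * ξ i`; Cauchy–Schwarz
`|∑ k ξ|² ≤ (∑ |k| p)(∑ |k| |ξ|²/p) ≤ α q j ∑ |k j i| |ξ i|²/p i`, sum over `j` in a finite set. -/
theorem schur (k : J → I → ℂ) (p : I → ℝ) (q : J → ℝ) (hp : ∀ i, 0 < p i) (hq : ∀ j, 0 < q j)
    (α β : ℝ) (hα : 0 ≤ α) (hβ : 0 ≤ β)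
    (hrow : ∀ j (s : Finset I), ∑ i ∈ s, ‖k j i‖ * p i ≤ α * q j)
    (hcol : ∀ i (s : Finset J), ∑ j ∈ s, ‖k j i‖ * q j ≤ β * p i) :
    (∀ j i, mat (kop k) j i = k j i) ∧ ‖kop k‖ ≤ Real.sqrt (α * β) := by
  classical
  have key := ker_schur_fin k p q hp hq α β hα hβ hrow hcol
  have hsum : ∀ (ξ : L2 I) j, Summable fun i => ‖k j i‖ * ‖(ξ : I → ℂ) i‖ := by
    intro ξ j
    refine summable_of_sum_le (c := Real.sqrt (α * β * ‖ξ‖ ^ 2)) (fun i => by positivity) ?_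
    intro s
    have := key ξ s {j}
    rw [Finset.sum_singleton] at this
    exact Real.le_sqrt_of_sq_le this
  have hsum' : ∀ (ξ : L2 I) j, Summable fun i => k j i * (ξ : I → ℂ) i := by
    intro ξ j
    refine Summable.of_norm ?_
    simpa only [norm_mul] using hsum ξ j
  have hb : ∀ (ξ : L2 I) (t : Finset J),
      ∑ j ∈ t, ‖∑' i, k j i * (ξ : I → ℂ) i‖ ^ 2 ≤ α * β * ‖ξ‖ ^ 2 := by
    intro ξ t
    have ht : Filter.Tendsto (fun s : Finset I => ∑ j ∈ t, ‖∑ i ∈ s, k j i * (ξ : I → ℂ) i‖ ^ 2)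
        Filter.atTop (nhds (∑ j ∈ t, ‖∑' i, k j i * (ξ : I → ℂ) i‖ ^ 2)) := by
      refine tendsto_finsetSum _ fun j _ => ?_
      have := (hsum' ξ j).hasSum
      unfold HasSum at this
      simp only [SummationFilter.unconditional_filter] at this
      exact this.norm.pow 2
    refine le_of_tendsto' ht fun s => le_trans ?_ (key ξ s t)
    refine Finset.sum_le_sum fun j _ => ?_
    refine pow_le_pow_left₀ (norm_nonneg _) ?_ 2
    refine (norm_sum_le _ _).trans (le_of_eq ?_)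
    simp only [norm_mul]
  have hmem : ∀ ξ : L2 I, Memℓp (fun j => ∑' i, k j i * (ξ : I → ℂ) i) 2 := by
    intro ξ
    refine memℓp_gen' (C := α * β * ‖ξ‖ ^ 2) fun t => ?_
    simpa using hb ξ t
  let L : L2 I →ₗ[ℂ] L2 J :=
    { toFun := fun ξ => ⟨fun j => ∑' i, k j i * (ξ : I → ℂ) i, hmem ξ⟩
      map_add' := by
        intro ξ η
        ext j
        change ∑' i, k j i * ((ξ : I → ℂ) i + (η : I → ℂ) i) =
          ∑' i, k j i * (ξ : I → ℂ) i + ∑' i, k j i * (η : I → ℂ) i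
        rw [← (hsum' ξ j).tsum_add (hsum' η j)]
        simp only [mul_add]
      map_smul' := by
        intro c ξ
        ext j
        change ∑' i, k j i * (c * (ξ : I → ℂ) i) = c * ∑' i, k j i * (ξ : I → ℂ) i
        rw [← tsum_mul_left]
        simp only [mul_left_comm] }
  have hL : ∀ ξ, ‖L ξ‖ ≤ Real.sqrt (α * β) * ‖ξ‖ := by
    intro ξ
    refine lp.norm_le_of_forall_sum_le (p := 2) (by norm_num) (by positivity) fun t => ?_
    have := hb ξ t
    have e : (Real.sqrt (α * β) * ‖ξ‖) ^ 2 = α * β * ‖ξ‖ ^ 2 := by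
      rw [mul_pow, Real.sq_sqrt (by positivity)]
    simp only [ENNReal.toReal_ofNat, Real.rpow_ofNat]
    rw [e]
    exact this
  let T : L2 I →L[ℂ] L2 J := L.mkContinuous _ hL
  have hT : ∀ j i, mat T j i = k j i := by
    intro j i
    change ∑' l, k j l * (dl i : I → ℂ) l = k j i
    simp only [dl_apply, mul_ite, mul_one, mul_zero]
    rw [tsum_ite_eq]
  rw [eq_kop hT]
  exact ⟨hT, LinearMap.mkContinuous_norm_le _ (Real.sqrt_nonneg _) _⟩

/-- unweighted Schur test -/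
theorem schur₁ (k : J → I → ℂ) (α β : ℝ) (hα : 0 ≤ α) (hβ : 0 ≤ β)
    (hrow : ∀ j (s : Finset I), ∑ i ∈ s, ‖k j i‖ ≤ α)
    (hcol : ∀ i (s : Finset J), ∑ j ∈ s, ‖k j i‖ ≤ β) :
    (∀ j i, mat (kop k) j i = k j i) ∧ ‖kop k‖ ≤ Real.sqrt (α * β) := by
  refine schur k (fun _ => 1) (fun _ => 1) (fun _ => one_pos) (fun _ => one_pos) α β hα hβ ?_ ?_
  · intro j s; simpa using hrow j s
  · intro i s; simpa using hcol i s

theorem ker_sum_count (f : I → ℂ) (h1 : ∀ i, ‖f i‖ ≤ 1) {a : ℕ} (u : Finset I) (hu : u.card ≤ a)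
    (hu' : ∀ i, f i ≠ 0 → i ∈ u) (s : Finset I) : ∑ i ∈ s, ‖f i‖ ≤ a := by
  classical
  have e : ∑ i ∈ s, ‖f i‖ = ∑ i ∈ s ∩ u, ‖f i‖ := by
    symm
    refine Finset.sum_subset Finset.inter_subset_left fun i hi hi' => ?_
    by_contra hne
    exact hi' (Finset.mem_inter.2 ⟨hi, hu' i fun h0 => hne (by rw [h0, norm_zero])⟩)
  rw [e]
  calc ∑ i ∈ s ∩ u, ‖f i‖ ≤ ∑ _i ∈ s ∩ u, (1 : ℝ) := Finset.sum_le_sum fun i _ => h1 i
    _ = (s ∩ u).card := by simp
    _ ≤ a := by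
      exact_mod_cast (Finset.card_le_card Finset.inter_subset_right).trans hu

/-- counting form: entries of modulus `≤ 1`, at most `a` per row and `b` per column -/
theorem schur_count (k : J → I → ℂ) (a b : ℕ) (h1 : ∀ j i, ‖k j i‖ ≤ 1)
    (hrow : ∀ j, ∃ s : Finset I, s.card ≤ a ∧ ∀ i, k j i ≠ 0 → i ∈ s)
    (hcol : ∀ i, ∃ s : Finset J, s.card ≤ b ∧ ∀ j, k j i ≠ 0 → j ∈ s) :
    (∀ j i, mat (kop k) j i = k j i) ∧ ‖kop k‖ ≤ Real.sqrt ((a : ℝ) * b) := by
  refine schur₁ k a b (Nat.cast_nonneg _) (Nat.cast_nonneg _) ?_ ?_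
  · intro j s
    obtain ⟨u, hu, hu'⟩ := hrow j
    exact ker_sum_count (fun i => k j i) (h1 j) u hu hu' s
  · intro i s
    obtain ⟨u, hu, hu'⟩ := hcol i
    exact ker_sum_count (fun j => k j i) (fun j => h1 j i) u hu hu' s

open Classical in
/-- isometric embedding along an injective map -/
noncomputable def emb (f : I → J) : L2 I →L[ℂ] L2 J := kop fun j i => if j = f i then 1 else 0

open Classical in
/-- coordinate projection -/
noncomputable def prj (s : Set I) : L2 I →L[ℂ] L2 I := kop fun j i => if j = i ∧ i ∈ s then 1 else 0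

open Classical in
theorem mat_emb {f : I → J} (hf : Function.Injective f) (j : J) (i : I) :
    mat (emb f) j i = if j = f i then 1 else 0 := by
  unfold emb
  refine (schur_count _ 1 1 ?_ ?_ ?_).1 j i
  · intro j i; split_ifs <;> simp
  · intro j
    by_cases h : ∃ i, j = f i
    · obtain ⟨i, rfl⟩ := h
      refine ⟨{i}, by simp, fun i' hi' => ?_⟩
      have : f i = f i' := by by_contra hne; exact hi' (if_neg hne)
      simp [hf this]
    · refine ⟨∅, by simp, fun i' hi' => ?_⟩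
      exact absurd (if_neg fun e => h ⟨i', e⟩) hi'
  · intro i
    refine ⟨{f i}, by simp, fun j hj => ?_⟩
    have : j = f i := by by_contra hne; exact hj (if_neg hne)
    simp [this]

theorem adj_emb_apply {f : I → J} (hf : Function.Injective f) (η : L2 J) (i : I) :
    (adj (emb f) η : I → ℂ) i = (η : J → ℂ) (f i) := by
  classical
  have h := hasSum_apply (adj (emb f)) η i
  simp only [mat_adj, mat_emb hf] at h
  have h2 : HasSum (fun j => if j = f i then (η : J → ℂ) (f i) else 0) ((η : J → ℂ) (f i)) :=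
    hasSum_ite_eq _ _
  refine h.unique ?_
  convert h2 using 2 with j
  split_ifs with hj
  · subst hj; simp
  · simp

theorem adj_emb_comp {f : I → J} (hf : Function.Injective f) : adj (emb f) ∘L emb f = 1 := by
  classical
  refine mat_ext fun j i => ?_
  rw [mat_one]
  change (adj (emb f) (emb f (dl i)) : I → ℂ) j = _
  rw [adj_emb_apply hf]
  have := mat_emb hf (f j) i
  unfold mat at this
  rw [this]
  simp only [hf.eq_iff]

theorem ker_norm_of_adj_comp (W : L2 I →L[ℂ] L2 J) (hW : adj W ∘L W = 1) (ξ : L2 I) :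
    ‖W ξ‖ = ‖ξ‖ := by
  have hWW : adj W (W ξ) = ξ := by
    have := congrArg (fun S : L2 I →L[ℂ] L2 I => S ξ) hW
    simpa using this
  have h : inner ℂ (W ξ) (W ξ) = inner ℂ ξ ξ := by
    rw [← ContinuousLinearMap.adjoint_inner_right, hWW]
  rw [@norm_eq_sqrt_re_inner ℂ, h, ← @norm_eq_sqrt_re_inner ℂ]

theorem norm_emb_apply {f : I → J} (hf : Function.Injective f) (ξ : L2 I) : ‖emb f ξ‖ = ‖ξ‖ := by
  exact ker_norm_of_adj_comp _ (adj_emb_comp hf) ξ

open Classical in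
theorem ker_prj (s : Set I) :
    (∀ j i, mat (prj s) j i = if j = i ∧ i ∈ s then 1 else 0) ∧
      ‖prj s‖ ≤ Real.sqrt (((1 : ℕ) : ℝ) * (1 : ℕ)) := by
  unfold prj
  refine schur_count _ 1 1 ?_ ?_ ?_
  · intro j i; split_ifs <;> simp
  · intro j
    refine ⟨{j}, by simp, fun i hi => ?_⟩
    have : j = i ∧ i ∈ s := by by_contra hne; exact hi (if_neg hne)
    simp [this.1]
  · intro i
    refine ⟨{i}, by simp, fun j hj => ?_⟩
    have : j = i ∧ i ∈ s := by by_contra hne; exact hj (if_neg hne)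
    simp [this.1]

open Classical in
theorem mat_prj (s : Set I) (j i : I) : mat (prj s) j i = if j = i ∧ i ∈ s then 1 else 0 := by
  exact (ker_prj s).1 j i

open Classical in
theorem prj_apply (s : Set I) (ξ : L2 I) (i : I) :
    (prj s ξ : I → ℂ) i = if i ∈ s then (ξ : I → ℂ) i else 0 := by
  have h := hasSum_apply (prj s) ξ i
  simp only [mat_prj] at h
  have h2 : HasSum (fun j => if j = i then (if i ∈ s then (ξ : I → ℂ) i else 0) else 0)
      (if i ∈ s then (ξ : I → ℂ) i else 0) := hasSum_ite_eq _ _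
  refine h.unique ?_
  convert h2 using 2 with j
  by_cases hj : j = i
  · subst hj
    by_cases hs : j ∈ s <;> simp [hs]
  · simp [hj, Ne.symm hj]

theorem adj_prj (s : Set I) : adj (prj s) = prj s := by
  classical
  refine mat_ext fun j i => ?_
  rw [mat_adj, mat_prj, mat_prj]
  by_cases hj : j = i
  · subst hj
    by_cases hs : j ∈ s <;> simp [hs]
  · simp [hj, Ne.symm hj]

theorem prj_comp_prj (s s' : Set I) : prj s ∘L prj s' = prj (s ∩ s') := by
  classical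
  ext ξ i
  rw [ContinuousLinearMap.comp_apply, prj_apply, prj_apply, prj_apply]
  by_cases h : i ∈ s <;> by_cases h' : i ∈ s' <;> simp [h, h']

theorem norm_prj_le (s : Set I) : ‖prj s‖ ≤ 1 := by
  have := (ker_prj s).2
  simpa using this

open Classical in
theorem mat_prj_comp (T : L2 I →L[ℂ] L2 J) (s : Set I) (s' : Set J) (j : J) (i : I) :
    mat (prj s' ∘L T ∘L prj s) j i = if j ∈ s' ∧ i ∈ s then mat T j i else 0 := by
  unfold mat
  rw [ContinuousLinearMap.comp_apply, ContinuousLinearMap.comp_apply, prj_apply]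
  have e : prj s (dl i) = if i ∈ s then dl i else 0 := by
    ext l
    rw [prj_apply, dl_apply]
    by_cases hi : i ∈ s
    · rw [if_pos hi, dl_apply]
      by_cases hl : l = i
      · subst hl; simp [hi]
      · simp [hl]
    · rw [if_neg hi]
      by_cases hl : l = i
      · subst hl; simp [hi]
      · simp [hl]
  rw [e]
  by_cases hi : i ∈ s <;> by_cases hj : j ∈ s' <;> simp [hi, hj]

theorem ker_prj_supp {C : Type} (c : I → C) (x : C) (ξ : L2 I) (i : I)
    (h : (prj {i | c i = x} ξ : I → ℂ) i ≠ 0) : c i = x := by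
  classical
  rw [prj_apply] at h
  by_contra hne
  exact h (if_neg hne)

theorem ker_hasSum_blocks {C : Type} (c : I → C) (ξ : L2 I) :
    HasSum (fun x => ‖prj {i | c i = x} ξ‖ ^ 2) (‖ξ‖ ^ 2) := by
  classical
  have h := hasSum_norm_sq ξ
  rw [← (Equiv.sigmaFiberEquiv c).hasSum_iff] at h
  refine h.sigma fun x => ?_
  have h2 := hasSum_norm_sq (prj {i | c i = x} ξ)
  have h3 := (hasSum_subtype_iff_of_support_subset
    (f := fun i => ‖(prj {i | c i = x} ξ : I → ℂ) i‖ ^ 2) (s := {i | c i = x}) (by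
      intro i hi
      refine ker_prj_supp c x ξ i fun h0 => hi ?_
      simp only [h0, norm_zero]; norm_num)).2 h2
  have e : ((fun i => ‖(prj {i | c i = x} ξ : I → ℂ) i‖ ^ 2) ∘
      (Subtype.val : {i | c i = x} → I)) = fun i : {i | c i = x} => ‖(ξ : I → ℂ) i‖ ^ 2 := by
    funext i
    have hi : (i : I) ∈ {i | c i = x} := i.2
    simp only [Function.comp, prj_apply, if_pos hi]
  rw [e] at h3
  exact h3

theorem ker_prj_block {C : Type} (T : L2 I →L[ℂ] L2 J) (c : I → C) (c' : J → C)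
    (hT : ∀ j i, mat T j i ≠ 0 → c' j = c i) (x : C) (ξ : L2 I) :
    prj {j | c' j = x} (T ξ) = T (prj {i | c i = x} ξ) := by
  classical
  ext j
  have h1 := hasSum_apply T (prj {i | c i = x} ξ) j
  rw [prj_apply]
  refine HasSum.unique ?_ h1
  by_cases hj : j ∈ {j | c' j = x}
  · rw [if_pos hj]
    convert hasSum_apply T ξ j using 2 with i
    rw [prj_apply]
    by_cases h0 : mat T j i = 0
    · simp [h0]
    · rw [if_pos]
      exact (hT j i h0).symm.trans hj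
  · rw [if_neg hj]
    convert hasSum_zero using 2 with i
    rw [prj_apply]
    by_cases h0 : mat T j i = 0
    · simp [h0]
    · rw [if_neg, mul_zero]
      intro hi
      exact hj ((hT j i h0).trans hi)

/-- block-diagonal operators: norm.  (`‖ξ‖² = ∑_x ‖prj {c = x} ξ‖²` via `HasSum.sigma`/fibres,
`prj {c' = x} (T ξ) = T (prj {c = x} ξ)`.) -/
theorem norm_le_of_blocks {C : Type} (T : L2 I →L[ℂ] L2 J) (c : I → C) (c' : J → C)
    (hT : ∀ j i, mat T j i ≠ 0 → c' j = c i) (a : ℝ) (ha : 0 ≤ a)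
    (h : ∀ x (ξ : L2 I), (∀ i, (ξ : I → ℂ) i ≠ 0 → c i = x) → ‖T ξ‖ ≤ a * ‖ξ‖) : ‖T‖ ≤ a := by
  refine ContinuousLinearMap.opNorm_le_bound _ ha fun ξ => ?_
  have h1 := ker_hasSum_blocks c ξ
  have h2 := ker_hasSum_blocks c' (T ξ)
  have h3 : ‖T ξ‖ ^ 2 ≤ a ^ 2 * ‖ξ‖ ^ 2 := by
    refine hasSum_le (fun x => ?_) h2 (h1.mul_left (a ^ 2))
    rw [ker_prj_block T c c' hT, ← mul_pow]
    exact pow_le_pow_left₀ (norm_nonneg _) (h x _ (ker_prj_supp c x ξ)) 2
  rw [← mul_pow] at h3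
  exact (pow_le_pow_iff_left₀ (norm_nonneg _) (by positivity) two_ne_zero).1 h3

/-- block-diagonal operators: lower bound -/
theorem le_norm_of_blocks {C : Type} (T : L2 I →L[ℂ] L2 J) (c : I → C) (c' : J → C)
    (hT : ∀ j i, mat T j i ≠ 0 → c' j = c i) (a : ℝ)
    (h : ∀ x (ξ : L2 I), (∀ i, (ξ : I → ℂ) i ≠ 0 → c i = x) → a * ‖ξ‖ ≤ ‖T ξ‖) (ξ : L2 I) :
    a * ‖ξ‖ ≤ ‖T ξ‖ := by
  rcases le_total a 0 with ha | ha
  · exact (mul_nonpos_of_nonpos_of_nonneg ha (norm_nonneg _)).trans (norm_nonneg _)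
  have h1 := ker_hasSum_blocks c ξ
  have h2 := ker_hasSum_blocks c' (T ξ)
  have h3 : a ^ 2 * ‖ξ‖ ^ 2 ≤ ‖T ξ‖ ^ 2 := by
    refine hasSum_le (fun x => ?_) (h1.mul_left (a ^ 2)) h2
    rw [ker_prj_block T c c' hT, ← mul_pow]
    exact pow_le_pow_left₀ (by positivity) (h x _ (ker_prj_supp c x ξ)) 2
  rw [← mul_pow] at h3
  exact (pow_le_pow_iff_left₀ (by positivity) (norm_nonneg _) two_ne_zero).1 h3

theorem Gap.perturb {Z Z' : L2 I →L[ℂ] L2 I} {γ r e : ℝ} (h : Gap Z γ r) (he : ‖Z - Z'‖ ≤ e) :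
    Gap Z' γ (r - e) := by
  intro ξ
  have h1 := h ξ
  have h2 : ‖(Z - Z') ξ‖ ≤ e * ‖ξ‖ :=
    ((Z - Z').le_opNorm ξ).trans (mul_le_mul_of_nonneg_right he (norm_nonneg _))
  have h3 : Z ξ - (γ : ℂ) • ξ = (Z' ξ - (γ : ℂ) • ξ) + (Z - Z') ξ := by
    rw [sub_apply]; abel
  have h4 := norm_add_le (Z' ξ - (γ : ℂ) • ξ) ((Z - Z') ξ)
  rw [← h3] at h4
  nlinarith

theorem Gap.mono {Z : L2 I →L[ℂ] L2 I} {γ r r' : ℝ} (h : Gap Z γ r) (hr : r' ≤ r) :
    Gap Z γ r' := by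
  intro ξ
  exact (mul_le_mul_of_nonneg_right hr (norm_nonneg _)).trans (h ξ)

theorem Gap.smul {Z : L2 I →L[ℂ] L2 I} {γ r c : ℝ} (h : Gap Z γ r) (hc : 0 ≤ c) :
    Gap ((c : ℂ) • Z) (c * γ) (c * r) := by
  intro ξ
  have e : ((c : ℂ) • Z) ξ - ((c * γ : ℝ) : ℂ) • ξ = (c : ℂ) • (Z ξ - (γ : ℂ) • ξ) := by
    rw [smul_apply, smul_sub, smul_smul, Complex.ofReal_mul]
  rw [e, norm_smul, Complex.norm_real, Real.norm_of_nonneg hc, mul_assoc]
  exact mul_le_mul_of_nonneg_left (h ξ) hc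

/-- `ξ = W W* ξ + ξ⊥`, `(W Z W* - γ) ξ = W (Z - γ) W* ξ - γ ξ⊥`, orthogonal summands. -/
theorem Gap.conj {Z : L2 I →L[ℂ] L2 I} {γ r : ℝ} (h : Gap Z γ r) (hr : r ≤ γ)
    (W : L2 I →L[ℂ] L2 J) (hW : adj W ∘L W = 1) : Gap (W ∘L Z ∘L adj W) γ r := by
  intro ξ
  rcases le_total r 0 with hr0 | hr0
  · exact (mul_nonpos_of_nonpos_of_nonneg hr0 (norm_nonneg _)).trans (norm_nonneg _)
  have hWW : ∀ η, adj W (W η) = η := fun η => by
    have := congrArg (fun S : L2 I →L[ℂ] L2 I => S η) hW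
    simpa using this
  have hn := ker_norm_of_adj_comp W hW
  set u := adj W ξ with hu
  set v := ξ - W u with hv
  have hv0 : adj W v = 0 := by rw [hv, map_sub, hWW, ← hu, sub_self]
  have horth : ∀ η, inner ℂ (W η) v = 0 := fun η => by
    rw [← ContinuousLinearMap.adjoint_inner_right, hv0, inner_zero_right]
  have hξ : ξ = W u + v := by rw [hv]; abel
  have e1 : ‖ξ‖ ^ 2 = ‖u‖ ^ 2 + ‖v‖ ^ 2 := by
    have := norm_add_sq_eq_norm_sq_add_norm_sq_of_inner_eq_zero (𝕜 := ℂ) (W u) v (horth u)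
    rw [← hξ, hn] at this
    nlinarith
  have e2 : (W ∘L Z ∘L adj W) ξ - (γ : ℂ) • ξ = W (Z u - (γ : ℂ) • u) + (-(γ : ℂ)) • v := by
    rw [ContinuousLinearMap.comp_apply, ContinuousLinearMap.comp_apply, ← hu, map_sub, map_smul,
      hv, neg_smul, smul_sub]
    abel
  have e3 : ‖(W ∘L Z ∘L adj W) ξ - (γ : ℂ) • ξ‖ ^ 2 =
      ‖Z u - (γ : ℂ) • u‖ ^ 2 + γ ^ 2 * ‖v‖ ^ 2 := by
    have := norm_add_sq_eq_norm_sq_add_norm_sq_of_inner_eq_zero (𝕜 := ℂ)
      (W (Z u - (γ : ℂ) • u)) ((-(γ : ℂ)) • v) (by rw [inner_smul_right, horth, mul_zero])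
    rw [← e2, hn, norm_smul, norm_neg, Complex.norm_real, Real.norm_of_nonneg (hr0.trans hr)]
      at this
    nlinarith
  have h1 : (r * ‖u‖) ^ 2 ≤ ‖Z u - (γ : ℂ) • u‖ ^ 2 :=
    pow_le_pow_left₀ (by positivity) (h u) 2
  have h2 : r ^ 2 ≤ γ ^ 2 := pow_le_pow_left₀ hr0 hr 2
  refine (pow_le_pow_iff_left₀ (by positivity) (norm_nonneg _) two_ne_zero).1 ?_
  rw [e3, mul_pow, e1]
  nlinarith [sq_nonneg ‖v‖, mul_le_mul_of_nonneg_right h2 (sq_nonneg ‖v‖)]

theorem Gap.of_intertwine {Z₁ : L2 J →L[ℂ] L2 J} {Z₂ : L2 I →L[ℂ] L2 I} {γ r : ℝ}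
    (h : Gap Z₁ γ r) (V : L2 I →L[ℂ] L2 J) (hV : ∀ ξ, ‖V ξ‖ = ‖ξ‖) (hi : Z₁ ∘L V = V ∘L Z₂) :
    Gap Z₂ γ r := by
  intro ξ
  have h1 := h (V ξ)
  have h2 : Z₁ (V ξ) = V (Z₂ ξ) := by
    have := congrArg (fun S : L2 I →L[ℂ] L2 J => S ξ) hi
    simpa using this
  rw [hV, h2, ← map_smul, ← map_sub, hV] at h1
  exact h1

theorem norm_ph (ω : ZMod 4) : ‖ph ω‖ = 1 := by
  unfold ph
  rw [norm_pow, Complex.norm_I, one_pow]

theorem sum_ph : ∑ ω : ZMod 4, ph ω = 0 := by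
  have : (Finset.univ : Finset (ZMod 4)) = {0, 1, 2, 3} := by decide
  rw [this, Finset.sum_insert (by decide), Finset.sum_insert (by decide),
    Finset.sum_insert (by decide), Finset.sum_singleton]
  unfold ph
  have h0 : (0 : ZMod 4).val = 0 := rfl
  have h1 : (1 : ZMod 4).val = 1 := rfl
  have h2 : (2 : ZMod 4).val = 2 := rfl
  have h3 : (3 : ZMod 4).val = 3 := rfl
  rw [h0, h1, h2, h3, pow_succ _ 2, Complex.I_sq]
  ring

end Crest.Agent.R129
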