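import Crest.Agent.R129.GNode
import Crest.Agent.R129.Ker

/-! # Ports, matchings, laws (task R129/GLaw). Statements frozen; add lemmas freely. -/

set_option autoImplicit false
open scoped BigOperators

namespace Crest.Agent.R129
namespace Par
variable (P : Par)

theorem gl_mem_ports {i : ℤ} {t : P.F} : t ∈ P.ports i ↔ (t.val < P.n / 2 ↔ Even i) := by
  simp [ports]

theorem gl_mb_pos (i : ℤ) : 0 < P.mb i := lt_of_lt_of_le (P.sz_pos _) (le_max_right _ _)

theorem mem_ports_iff {i j : ℤ} {t : P.F} (h : t ∈ P.ports i) : t ∈ P.ports j ↔ (Even i ↔ Even j) := by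
  rw [gl_mem_ports] at h ⊢
  rw [h]

theorem pairOf_eq {i j : ℤ} {t : P.F} (h : t ∈ P.ports i) (hj : j = i ∨ j = i + 1) : P.pairOf j t = i := by
  unfold pairOf
  rcases hj with rfl | rfl
  · rw [if_pos h]
  · rw [if_neg, add_sub_cancel_right]
    rw [P.mem_ports_iff h, Int.even_add_one]
    tauto

theorem card_ports (i : ℤ) : P.n ≤ 4 * (P.ports i).card ∧ (P.ports i).card ≤ P.n := by
  have h2 := P.prime.two_le
  have hc : (Finset.univ.filter fun t : P.F => t.val < P.n / 2).card = P.n / 2 := by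
    conv_rhs => rw [← Finset.card_range (P.n / 2)]
    refine Finset.card_nbij' (fun t => t.val) (fun x => (x : P.F)) ?_ ?_ ?_ ?_
    · intro t ht
      simpa using ht
    · intro x hx
      have hx' : x < P.n / 2 := by simpa using hx
      simp only [Finset.coe_filter, Finset.mem_univ, true_and, Set.mem_ofPred_eq]
      rwa [ZMod.val_cast_of_lt (by omega)]
    · intro t _
      exact ZMod.natCast_zmod_val t
    · intro x hx
      have hx' : x < P.n / 2 := by simpa using hx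
      exact ZMod.val_cast_of_lt (by omega)
  have hu : (Finset.univ : Finset P.F).card = P.n := by rw [Finset.card_univ, ZMod.card]
  refine ⟨?_, (Finset.card_le_univ _).trans (ZMod.card _).le⟩
  have h3 := Finset.card_filter_add_card_filter_not (s := (Finset.univ : Finset P.F))
    (fun t : P.F => t.val < P.n / 2)
  rw [hc, hu] at h3
  unfold ports
  by_cases hi : Even i
  · simp only [hi, iff_true]
    omega
  · simp only [hi, iff_false]
    omega

theorem match_unique (i : ℤ) {sh x y x' y' : ℕ} (h : P.Match i sh x y) (h' : P.Match i sh x' y') :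
    x = x' ↔ y = y' := by
  obtain ⟨a1, a2, a3⟩ := h
  obtain ⟨b1, b2, b3⟩ := h'
  have e : x + y + sh ≡ x' + y' + sh [MOD P.mb i] := a3.trans b3.symm
  have e' := Nat.ModEq.add_right_cancel' sh e
  constructor
  · rintro rfl
    exact (Nat.ModEq.add_left_cancel' x e').eq_of_lt_of_lt (a2.trans_le (le_max_right _ _))
      (b2.trans_le (le_max_right _ _))
  · rintro rfl
    exact (Nat.ModEq.add_right_cancel' y e').eq_of_lt_of_lt (a1.trans_le (le_max_left _ _))
      (b1.trans_le (le_max_left _ _))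

/-- exactly one shift in `range (mb i)` matches `x` with `y` -/
theorem card_match (i : ℤ) {x y : ℕ} (hx : x < P.ms i) (hy : y < P.mt i) :
    ∃! sh, sh < P.mb i ∧ P.Match i sh x y := by
  have h0 := P.gl_mb_pos i
  refine ⟨(P.mb i - (x + y) % P.mb i) % P.mb i, ⟨Nat.mod_lt _ h0, hx, hy, ?_⟩, ?_⟩
  · rw [Nat.add_mod_mod, ← Nat.mod_add_mod, Nat.add_sub_cancel' (Nat.mod_lt _ h0).le, Nat.mod_self]
  · rintro sh ⟨a1, -, -, a2⟩
    have a3 : (x + y + (P.mb i - (x + y) % P.mb i) % P.mb i) % P.mb i = 0 := by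
      rw [Nat.add_mod_mod, ← Nat.mod_add_mod, Nat.add_sub_cancel' (Nat.mod_lt _ h0).le,
        Nat.mod_self]
    have e : x + y + sh ≡ x + y + (P.mb i - (x + y) % P.mb i) % P.mb i [MOD P.mb i] :=
      a2.trans a3.symm
    exact (Nat.ModEq.add_left_cancel' _ e).eq_of_lt_of_lt a1 (Nat.mod_lt _ h0)

theorem lam_pos : 0 < P.lam := by
  have h1 : (0 : ℝ) < P.n := by exact_mod_cast P.prime.pos
  have h2 : (0 : ℝ) < P.C := by exact_mod_cast P.hC
  unfold lam
  positivity

theorem gl_card_pair (i : ℤ) : (P.node i).card * (P.node (i + 1)).card =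
    (P.node (P.sub i)).card * (P.node (P.tp i)).card := by
  rcases P.sub_tp i with ⟨h1, h2⟩ | ⟨h1, h2⟩
  · rw [h1, h2]
  · rw [h1, h2, mul_comm]

theorem gl_key (i : ℤ) : (P.mb i * P.n ^ (P.lvl i - 1)) ^ 2 ≤
    16 * P.C * ((P.node i).card * (P.node (i + 1)).card) := by
  rw [gl_card_pair, card_node, card_node]
  have hC := P.hC
  by_cases h : P.cross i
  · obtain ⟨-, -, h3, h4, h5⟩ := P.of_cross h
    have h6 : P.mb i = P.C := by
      unfold mb ms
      rw [if_pos h, h4]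
      exact max_eq_right hC
    have h7 : P.sz (P.tp i) = P.C := h4
    have h8 : P.stg (P.tp i) = P.lvl i := rfl
    have h9 := P.j₀_le_stg (P.sub i)
    have h10 := P.hj
    have e : P.lvl i - 1 = (P.stg (P.sub i) - 1) + 1 := by omega
    rw [h6, h7, h8, e]
    generalize P.stg (P.sub i) - 1 = k
    calc (P.C * P.n ^ (k + 1)) ^ 2 = P.n * (P.C * P.C * P.n ^ k * P.n ^ (k + 1)) := by ring
      _ ≤ (16 * P.sz (P.sub i)) * (P.C * P.C * P.n ^ k * P.n ^ (k + 1)) :=
          Nat.mul_le_mul_right _ h5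
      _ = _ := by ring
  · obtain ⟨-, h3, h4⟩ := P.of_not_cross h
    have h6 : P.sz (P.sub i) = P.ms i := by unfold ms; rw [if_neg h]
    have h7 : P.sz (P.tp i) = P.mt i := rfl
    have h8 : P.stg (P.tp i) = P.lvl i := rfl
    have h9 : P.mb i ^ 2 = 2 * (P.ms i * P.mt i) := by
      unfold mb
      rcases h4 with h4 | h4
      · rw [max_eq_left (by omega), h4]; ring
      · rw [max_eq_right (by omega), h4]; ring
    rw [h6, h7, h8, h3, mul_pow, h9]
    calc 2 * (P.ms i * P.mt i) * (P.n ^ (P.lvl i - 1)) ^ 2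
        ≤ (16 * P.C) * (P.ms i * P.mt i) * (P.n ^ (P.lvl i - 1)) ^ 2 :=
          Nat.mul_le_mul_right _ (Nat.mul_le_mul_right _ (by omega))
      _ = _ := by ring

theorem gl_lam_le_kap (i : ℤ) : P.lam ≤ P.kap i := by
  have h1 : (0 : ℝ) < P.n := by exact_mod_cast P.prime.pos
  have h2 : (0 : ℝ) < P.C := by exact_mod_cast P.hC
  have h3 : (0 : ℝ) < P.mb i := by exact_mod_cast P.gl_mb_pos i
  have h4 : (P.n : ℝ) ≤ 4 * (P.ports i).card := by exact_mod_cast (P.card_ports i).1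
  have h5 : ((P.mb i : ℝ) * (P.n : ℝ) ^ (P.lvl i - 1)) ^ 2 ≤
      16 * P.C * ((P.node i).card * (P.node (i + 1)).card) := by exact_mod_cast P.gl_key i
  have h6 : (P.mb i : ℝ) * (P.n : ℝ) ^ (P.lvl i - 1) ≤
      4 * Real.sqrt P.C * Real.sqrt ((P.node i).card * (P.node (i + 1)).card) := by
    refine (pow_le_pow_iff_left₀ (by positivity) (by positivity) two_ne_zero).1 ?_
    rw [mul_pow (4 * Real.sqrt P.C), mul_pow 4, Real.sq_sqrt h2.le, Real.sq_sqrt (by positivity)]
    linarith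
  unfold lam kap
  rw [div_le_div_iff₀ (by positivity) (by positivity)]
  calc (P.n : ℝ) * (P.mb i * (P.n : ℝ) ^ (P.lvl i - 1)) ≤ (4 * (P.ports i).card) *
        (4 * Real.sqrt P.C * Real.sqrt ((P.node i).card * (P.node (i + 1)).card)) :=
        mul_le_mul h4 h6 (by positivity) (by positivity)
    _ = _ := by ring

/-- `kap i = |ports| √(|node sub| |node tp|)/(mb n^(lvl-1))` is `|ports|/√2` or `|ports| √(sz (sub i)/(n C))` -/
theorem rho_mem (i : ℤ) : 0 < P.rho i ∧ P.rho i ≤ 1 := by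
  have h1 := P.lam_pos
  have h2 := P.gl_lam_le_kap i
  unfold rho
  exact ⟨div_pos h1 (h1.trans_le h2), (div_le_one (h1.trans_le h2)).2 h2⟩


variable {A : Type}
theorem gl_sum_eq {X : Type} (ν : X →₀ ℝ) (φ : X → ℝ) :
    ν.sum (fun x p => p * φ x) = Finsupp.linearCombination ℝ φ ν := by
  rw [Finsupp.linearCombination_apply]; rfl

theorem gl_damp_apply (ρ : ℝ) (ν : (A × ZMod 4) →₀ ℝ) (a : A) (ω : ZMod 4) :
    damp ρ ν (a, ω) = ρ * ν (a, ω) + (1 - ρ) / 4 * ∑ ω' : ZMod 4, ν (a, ω') := by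
  unfold damp
  rw [Finsupp.add_apply, Finsupp.smul_apply, Finsupp.finsetSum_apply, smul_eq_mul,
    ← Equiv.sum_comp (Equiv.subLeft ω) (fun ω' => ν (a, ω')), Finset.mul_sum]
  congr 1
  refine Finset.sum_congr rfl fun ω' _ => ?_
  rw [Finsupp.smul_apply, smul_eq_mul]
  congr 1
  have hinj : Function.Injective fun x : A × ZMod 4 => (x.1, x.2 + ω') := fun x y e =>
    Prod.ext (Prod.ext_iff.1 e).1 (add_right_cancel (Prod.ext_iff.1 e).2)
  have := Finsupp.mapDomain_apply hinj ν (a, ω - ω')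
  simpa using this

theorem gl_sum_damp (ρ : ℝ) (ν : (A × ZMod 4) →₀ ℝ) (φ : A → ℝ) :
    (damp ρ ν).sum (fun x p => p * φ x.1) = ν.sum fun x p => p * φ x.1 := by
  rw [gl_sum_eq (damp ρ ν) fun x => φ x.1, gl_sum_eq ν fun x => φ x.1]
  unfold damp
  rw [map_add, map_smul, map_sum]
  simp only [map_smul, Finsupp.linearCombination_mapDomain, Function.comp_def, smul_eq_mul]
  rw [Finset.sum_const, Finset.card_univ, ZMod.card, nsmul_eq_mul]
  push_cast
  ring

theorem isLaw_damp {ρ : ℝ} (h0 : 0 ≤ ρ) (h1 : ρ ≤ 1) {ν : (A × ZMod 4) →₀ ℝ} (h : IsLaw ν) :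
    IsLaw (damp ρ ν) := by
  refine ⟨fun x => ?_, ?_⟩
  · rw [show x = (x.1, x.2) from rfl, gl_damp_apply]
    have := h.1 (x.1, x.2)
    have h2 : 0 ≤ ∑ ω' : ZMod 4, ν (x.1, ω') := Finset.sum_nonneg fun _ _ => h.1 _
    have h3 : 0 ≤ 1 - ρ := by linarith
    positivity
  · have := gl_sum_damp ρ ν fun _ => 1
    simp only [mul_one] at this
    rw [this, h.2]

theorem sum_damp (ρ : ℝ) (ν : (A × ZMod 4) →₀ ℝ) (φ : A → ℝ) :
    (damp ρ ν).sum (fun x p => p * φ x.1) = ν.sum fun x p => p * φ x.1 := gl_sum_damp ρ ν φ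

theorem qco_damp (ρ : ℝ) (ν : (A × ZMod 4) →₀ ℝ) (f : A) : qco (damp ρ ν) f = ρ * qco ν f := by
  unfold qco
  simp only [gl_damp_apply]
  push_cast
  simp only [add_mul, Finset.sum_add_distrib, mul_assoc]
  rw [← Finset.mul_sum, ← Finset.mul_sum, ← Finset.mul_sum, sum_ph, mul_zero, mul_zero, add_zero]

theorem supp_damp {ρ : ℝ} {ν : (A × ZMod 4) →₀ ℝ} {x : A × ZMod 4} (h : x ∈ (damp ρ ν).support) :
    ∃ ω, (x.1, ω) ∈ ν.support := by
  by_contra hc
  push Not at hc
  simp only [Finsupp.notMem_support_iff] at hc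
  rw [Finsupp.mem_support_iff, show x = (x.1, x.2) from rfl, gl_damp_apply] at h
  simp [hc] at h

theorem isLaw_law [One A] {μ : ℤ → (A × ZMod 4) →₀ ℝ} (h : ∀ i, IsLaw (μ i)) (c : P.Co) :
    IsLaw (P.law μ c) := by
  rcases c with c | c
  · have h0 : (0 : ℝ) < P.mb c.1 := by exact_mod_cast P.gl_mb_pos c.1
    change IsLaw (shLaw (P.mb c.1))
    unfold shLaw
    refine ⟨fun x => ?_, ?_⟩
    · rw [Finsupp.finsetSum_apply]
      refine Finset.sum_nonneg fun s _ => ?_
      classical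
      rw [Finsupp.single_apply]
      split_ifs <;> positivity
    · have := gl_sum_eq (∑ s ∈ Finset.range (P.mb c.1),
        Finsupp.single (s, ((1 : A), (0 : ZMod 4))) ((P.mb c.1 : ℝ)⁻¹)) fun _ => 1
      simp only [mul_one] at this
      rw [this, map_sum]
      simp only [Finsupp.linearCombination_single, smul_eq_mul, mul_one]
      rw [Finset.sum_const, Finset.card_range, nsmul_eq_mul]
      exact mul_inv_cancel₀ h0.ne'
  · have hd := isLaw_damp (P.rho_mem (P.pairOf c.1 c.2.2)).1.le (P.rho_mem _).2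
      (h (P.pairOf c.1 c.2.2))
    change IsLaw (Finsupp.mapDomain _ _)
    refine ⟨fun x => ?_, ?_⟩
    · by_cases hx : x ∈ Set.range fun y : A × ZMod 4 => ((0 : ℕ), y)
      · obtain ⟨y, rfl⟩ := hx
        rw [Finsupp.mapDomain_apply (fun a b e => (Prod.ext_iff.1 e).2)]
        exact hd.1 y
      · rw [Finsupp.mapDomain_of_notMem_range _ _ hx]
    · rw [Finsupp.sum_mapDomain_index (fun _ => rfl) (fun _ _ _ => rfl)]
      exact hd.2

theorem mem_Dep {B : ℕ} {i : ℤ} {x : List P.F} {t : P.F} (hi : i.natAbs ≤ B) (hx : x.length ≤ B) :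
    Sum.inl (i, x, t) ∈ P.Dep B ∧ Sum.inr (i, x, t) ∈ P.Dep B ∧ Sum.inr (i, x, t) ∈ P.DG B := by
  have hs : (i, x, t) ∈ Finset.Icc (-(B : ℤ)) B ×ˢ
      ((Finset.range (B + 1)).biUnion fun k => lists Finset.univ k) ×ˢ
        (Finset.univ : Finset P.F) := by
    refine Finset.mem_product.2 ⟨Finset.mem_Icc.2 ⟨by simp only; omega, by simp only; omega⟩,
      Finset.mem_product.2 ⟨Finset.mem_biUnion.2 ⟨x.length, Finset.mem_range.2 (by omega),
        mem_lists.2 ⟨rfl, fun _ _ => Finset.mem_univ _⟩⟩, Finset.mem_univ _⟩⟩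
  have h2 : Sum.inr (i, x, t) ∈ P.Dep B :=
    Finset.mem_union_right _ (Finset.mem_image_of_mem _ hs)
  exact ⟨Finset.mem_union_left _ (Finset.mem_image_of_mem _ hs), h2,
    Finset.mem_filter.2 ⟨h2, rfl⟩⟩


end Par
end Crest.Agent.R129
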