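import Crest.Agent.R129.GTr2
import Crest.Agent.R129.GGen

/-! # Choice of parameters (task R129/GMain). Statements frozen. -/

set_option autoImplicit false
open scoped BigOperators

namespace Crest.Agent.R129

theorem gmain_sq_le {r : ℕ} (hr : 4 ≤ r) : r * r ≤ 2 ^ r := by
  induction r, hr using Nat.le_induction with
  | base => norm_num
  | succ r hr ih =>
    rw [pow_succ]
    nlinarith

theorem gmain_lin_le {a r : ℕ} (hr : 2 * a + 4 ≤ r) : a * (r + 2) ≤ 2 ^ r := by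
  have := gmain_sq_le (r := r) (by omega)
  nlinarith

theorem exists_j₁ (E n : ℕ) : ∃ j₁, ∀ j, j₁ ≤ j → E ^ (j + 2) ≤ 4 ^ 2 ^ (j / 32) ∧
    (j / 16 + 1) * (2 * 2 ^ (j / 32) * n + 1) ≤ 2 ^ (j / 16) := by
  refine ⟨32 * (2 * (32 * E + 4 * n + 2) + 4), fun j hj => ?_⟩
  have h := gmain_lin_le (a := 32 * E + 4 * n + 2) (r := j / 32) (by omega)
  have h1 : j + 2 ≤ 32 * (j / 32 + 2) := by omega
  have h2 : j / 16 + 1 ≤ 2 * (j / 32 + 2) := by omega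
  have h3 : j / 32 + j / 32 ≤ j / 16 := by omega
  generalize j / 32 = r at h h1 h2 h3
  constructor
  · calc E ^ (j + 2) ≤ (4 ^ E) ^ (j + 2) :=
        Nat.pow_le_pow_left (Nat.lt_pow_self (by norm_num)).le _
      _ = 4 ^ (E * (j + 2)) := by rw [← pow_mul]
      _ ≤ 4 ^ 2 ^ r := by
        refine Nat.pow_le_pow_right (by norm_num) ?_
        calc E * (j + 2) ≤ E * (32 * (r + 2)) := Nat.mul_le_mul_left _ h1
          _ = 32 * E * (r + 2) := by ring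
          _ ≤ (32 * E + 4 * n + 2) * (r + 2) := Nat.mul_le_mul_right _ (by omega)
          _ ≤ 2 ^ r := h
  · have hp : 1 ≤ 2 ^ r := Nat.one_le_two_pow
    calc (j / 16 + 1) * (2 * 2 ^ r * n + 1) ≤ 2 * (r + 2) * (2 ^ r * (2 * n + 1)) :=
        Nat.mul_le_mul h2 (by nlinarith)
      _ = (4 * n + 2) * (r + 2) * 2 ^ r := by ring
      _ ≤ 2 ^ r * 2 ^ r :=
        Nat.mul_le_mul_right _ ((Nat.mul_le_mul_right _ (by omega)).trans h)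
      _ ≤ 2 ^ (j / 16) := by
        rw [← pow_add]
        exact Nat.pow_le_pow_right (by norm_num) h3

/-- from an inequality of natural numbers to the bound `4^{-m} / 100` -/
theorem gmain_div_le {a b m : ℕ} (hb : 0 < b) (h : 100 * 4 ^ m * a ≤ b) :
    (a : ℝ) / b ≤ (1 / 4) ^ m / 100 := by
  have h' : (100 * 4 ^ m * a : ℝ) ≤ b := by exact_mod_cast h
  have hb' : (0 : ℝ) < b := by exact_mod_cast hb
  rw [one_div, inv_pow, div_le_div_iff₀ hb' (by norm_num), ← div_eq_inv_mul,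
    le_div_iff₀ (by positivity)]
  linarith

theorem gmain_etaG {c n1 R j₀ q m e : ℕ} (hR : R = 4 ^ 1004) (hq : n1 ^ q ≤ 4 ^ (m + 1))
    (he : m / 2 + 1 ≤ 500 * j₀ + 3 + e) :
    100 * 4 ^ m * (n1 ^ (501 * (j₀ + q + 1)) * c) ≤
      100 * c * n1 ^ (501 * (j₀ + 1)) * R ^ (500 * j₀ + 3) * R ^ e := by
  have h1 : 4 ^ m * (n1 ^ q) ^ 501 ≤ R ^ (500 * j₀ + 3) * R ^ e := by
    rw [← pow_add, hR, ← pow_mul 4 1004]
    refine le_trans (Nat.mul_le_mul_left _ (Nat.pow_le_pow_left hq 501)) ?_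
    rw [← pow_mul, ← pow_add]
    exact Nat.pow_le_pow_right (by norm_num) (by omega)
  calc 100 * 4 ^ m * (n1 ^ (501 * (j₀ + q + 1)) * c)
      = 100 * c * n1 ^ (501 * (j₀ + 1)) * (4 ^ m * (n1 ^ q) ^ 501) := by
        rw [show 501 * (j₀ + q + 1) = 501 * (j₀ + 1) + q * 501 by ring, pow_add, pow_mul n1 q]
        generalize n1 ^ (501 * (j₀ + 1)) = x
        generalize (n1 ^ q) ^ 501 = y
        ring
    _ ≤ 100 * c * n1 ^ (501 * (j₀ + 1)) * (R ^ (500 * j₀ + 3) * R ^ e) :=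
        Nat.mul_le_mul_left _ h1
    _ = _ := by rw [← mul_assoc]

theorem gmain_M₀ {c n1 R j₀ j : ℕ} (hc : 0 < c) (hn : 0 < n1) (hR : 0 < R) (hj : j₀ ≤ j) :
    c * n1 ^ (501 * (j₀ + 1)) * R ^ (500 * j₀ + 3) ≤ (c * n1 ^ 501 * R ^ 500) ^ (j + 2) := by
  rw [mul_pow, mul_pow, ← pow_mul, ← pow_mul]
  exact Nat.mul_le_mul (Nat.mul_le_mul (Nat.le_self_pow (by omega) c)
    (Nat.pow_le_pow_right hn (by omega))) (Nat.pow_le_pow_right hR (by omega))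

theorem gmain_etaT {n J E₀ M CA j m r g k X : ℕ} (hn : 0 < n) (hM : M ≤ E₀ ^ (j + 2))
    (hm : m ≤ J * (j + 2)) (hr : r ≤ j + 2) (hg : g ≤ j + 2) (hk : g * k ≤ 2 * 2 ^ r + g)
    (hX : X ≤ 2 ^ g)
    (hE : (100 * n ^ 2 * 2 * 4 ^ J * (E₀ * 2 ^ J * 2) ^ CA) ^ (j + 2) ≤ 4 ^ 2 ^ r) :
    100 * 4 ^ m * ((n ^ (j + 1)) ^ 2 * (M * 2 ^ m * 2 ^ r) ^ CA * X ^ k) ≤ 16 ^ 2 ^ r := by
  have h1 : X ^ k ≤ 4 ^ 2 ^ r * 2 ^ (j + 2) := by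
    refine (Nat.pow_le_pow_left hX _).trans ?_
    rw [← pow_mul, show (4 : ℕ) = 2 ^ 2 by norm_num, ← pow_mul, ← pow_add]
    exact Nat.pow_le_pow_right (by norm_num) (by omega)
  have h2 : M * 2 ^ m * 2 ^ r ≤ (E₀ * 2 ^ J * 2) ^ (j + 2) := by
    rw [mul_pow, mul_pow, ← pow_mul 2 J]
    exact Nat.mul_le_mul (Nat.mul_le_mul hM (Nat.pow_le_pow_right (by norm_num) hm))
      (Nat.pow_le_pow_right (by norm_num) hr)
  have h3 : (M * 2 ^ m * 2 ^ r) ^ CA ≤ ((E₀ * 2 ^ J * 2) ^ CA) ^ (j + 2) := by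
    rw [← pow_mul, mul_comm CA, pow_mul]
    exact Nat.pow_le_pow_left h2 _
  have h4 : (n ^ (j + 1)) ^ 2 ≤ (n ^ 2) ^ (j + 2) := by
    rw [← pow_mul, ← pow_mul]
    exact Nat.pow_le_pow_right hn (by omega)
  have h5 : 4 ^ m ≤ (4 ^ J) ^ (j + 2) := by
    rw [← pow_mul]
    exact Nat.pow_le_pow_right (by norm_num) hm
  have h6 : 100 ≤ 100 ^ (j + 2) := Nat.le_self_pow (by omega) 100
  rw [mul_pow, mul_pow, mul_pow, mul_pow] at hE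
  calc _ ≤ 100 ^ (j + 2) * (4 ^ J) ^ (j + 2) * ((n ^ 2) ^ (j + 2) *
        ((E₀ * 2 ^ J * 2) ^ CA) ^ (j + 2) * (4 ^ 2 ^ r * 2 ^ (j + 2))) :=
        Nat.mul_le_mul (Nat.mul_le_mul h6 h5) (Nat.mul_le_mul (Nat.mul_le_mul h4 h3) h1)
    _ = 100 ^ (j + 2) * (n ^ 2) ^ (j + 2) * 2 ^ (j + 2) * (4 ^ J) ^ (j + 2) *
        ((E₀ * 2 ^ J * 2) ^ CA) ^ (j + 2) * 4 ^ 2 ^ r := by
        generalize 100 ^ (j + 2) = a
        generalize (4 ^ J) ^ (j + 2) = b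
        generalize (n ^ 2) ^ (j + 2) = c
        generalize ((E₀ * 2 ^ J * 2) ^ CA) ^ (j + 2) = d
        generalize 4 ^ 2 ^ r = e
        generalize 2 ^ (j + 2) = f
        ring
    _ ≤ 4 ^ 2 ^ r * 4 ^ 2 ^ r := Nat.mul_le_mul_right _ hE
    _ = 16 ^ 2 ^ r := (mul_pow 4 4 _).symm

theorem gmain_ball {c n1 R j₀ q m x : ℕ} (hc : 0 < c) (hn : 0 < n1) (hR : R = 4 ^ 1004)
    (hq : n1 ^ q ≤ 4 ^ (m + 1)) (hx : x ≤ 40 * j₀ + 40 * (q + 1)) :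
    n1 ^ (x + 1) ≤ c * n1 ^ (501 * (j₀ + 1)) * R ^ (500 * j₀ + 3) * R ^ m := by
  have h1 : (n1 ^ q) ^ 40 ≤ R ^ (500 * j₀ + 3) * R ^ m := by
    rw [← pow_add, hR, ← pow_mul 4 1004]
    refine (Nat.pow_le_pow_left hq _).trans ?_
    rw [← pow_mul]
    exact Nat.pow_le_pow_right (by norm_num) (by omega)
  calc n1 ^ (x + 1) ≤ n1 ^ (501 * (j₀ + 1) + q * 40) := Nat.pow_le_pow_right hn (by omega)
    _ = 1 * n1 ^ (501 * (j₀ + 1)) * (n1 ^ q) ^ 40 := by rw [pow_add, pow_mul n1 q, one_mul]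
    _ ≤ c * n1 ^ (501 * (j₀ + 1)) * (R ^ (500 * j₀ + 3) * R ^ m) :=
        Nat.mul_le_mul (Nat.mul_le_mul_right _ hc) h1
    _ = _ := by rw [← mul_assoc]

theorem gmain_sum (s : Finset (ℤ ⊕ ℤ)) :
    ∑ x ∈ s, ((1 / 4 : ℝ) ^ (Sum.elim id id x : ℤ).natAbs / 100) ≤ 1 / 2 := by
  have h0 : HasSum (fun n : ℕ => (1 / 4 : ℝ) ^ n / 100) ((1 - 1 / 4)⁻¹ / 100) :=
    (hasSum_geometric_of_lt_one (by norm_num) (by norm_num)).div_const _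
  have h1 : HasSum (fun i : ℤ => (1 / 4 : ℝ) ^ i.natAbs / 100) _ :=
    HasSum.of_nat_of_neg (f := fun i : ℤ => (1 / 4 : ℝ) ^ i.natAbs / 100)
      (by simpa only [Int.natAbs_natCast] using h0)
      (by simpa only [Int.natAbs_neg, Int.natAbs_natCast] using h0)
  have h2 := HasSum.sum
    (f := fun x : ℤ ⊕ ℤ => (1 / 4 : ℝ) ^ (Sum.elim id id x : ℤ).natAbs / 100) h1 h1
  refine (sum_le_hasSum s (fun _ _ => by positivity) h2).trans ?_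
  norm_num

theorem gmain_large {δ : ℝ} (hδ : 0 < δ) : ∃ n₁ : ℕ, ∀ n : ℕ, n₁ ≤ n →
    Real.sqrt (n * Real.sqrt n) ≤ δ * n ∧ Real.sqrt (3 / n) ≤ δ := by
  obtain ⟨n₁, hn₁⟩ := exists_nat_ge ((1 / δ ^ 2) ^ 2 + 3 / δ ^ 2)
  refine ⟨n₁, fun n hn => ?_⟩
  have h1 : (1 / δ ^ 2) ^ 2 + 3 / δ ^ 2 ≤ n := hn₁.trans (by exact_mod_cast hn)
  have h2 : 0 < (1 / δ ^ 2) ^ 2 := by positivity
  have h3 : 0 < 3 / δ ^ 2 := by positivity
  have hn0 : (0 : ℝ) < n := by linarith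
  constructor
  · refine Real.sqrt_le_iff.2 ⟨by positivity, ?_⟩
    have h4 : 1 / δ ^ 2 ≤ Real.sqrt n := Real.le_sqrt_of_sq_le (by linarith)
    rw [div_le_iff₀ (by positivity)] at h4
    have h5 : Real.sqrt n * Real.sqrt n = n := Real.mul_self_sqrt hn0.le
    have h6 : Real.sqrt n ≤ δ ^ 2 * n := by
      have := mul_le_mul_of_nonneg_left h4 (Real.sqrt_nonneg n)
      nlinarith
    nlinarith
  · refine Real.sqrt_le_iff.2 ⟨hδ.le, ?_⟩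
    rw [div_le_iff₀ hn0]
    have h4 : 3 / δ ^ 2 ≤ n := by linarith
    rw [div_le_iff₀ (by positivity)] at h4
    linarith

theorem gmain_J (C n₁ : ℕ) (hC : 1 ≤ C) : ∃ J : ℕ, 1000 ≤ J ∧ Odd J ∧ n₁ ≤ C * 2 ^ (J + 2) ∧
    C * 2 ^ (J + 3) + 1 ≤ 4 ^ J := by
  obtain ⟨J, hJ0, hodd, hJ1, hJ⟩ : ∃ J : ℕ, 1000 ≤ J ∧ Odd J ∧ n₁ ≤ J + 2 ∧ C + 3 ≤ J :=
    ⟨2 * (n₁ + C + 500) + 1, by omega, ⟨_, rfl⟩, by omega, by omega⟩
  refine ⟨J, hJ0, hodd, ?_, ?_⟩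
  · exact (Nat.lt_two_pow_self (n := n₁)).le.trans ((Nat.pow_le_pow_right (by norm_num)
      hJ1).trans (Nat.le_mul_of_pos_left _ hC))
  · have h1 : C < 2 ^ C := Nat.lt_two_pow_self
    have h2 : 2 ^ (C + 3) ≤ 2 ^ J := Nat.pow_le_pow_right (by norm_num) hJ
    have h3 : 1 ≤ 2 ^ J := Nat.one_le_two_pow
    rw [show (4 : ℕ) = 2 * 2 by norm_num, mul_pow, pow_add]
    rw [pow_add] at h2
    nlinarith

namespace Par
variable (P : Par)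

/-- the box size -/
def M₀ : ℕ := 100 * (60001 * 20001) * (P.n + 1) ^ (501 * (P.j₀ + 1)) * (4 ^ 1004) ^ (500 * P.j₀ + 3)

theorem n_pos : 0 < P.n := P.prime.pos

theorem pow_pos_div_le (i : ℤ) : (P.n + 1) ^ (pos i / P.J) ≤ 4 ^ (i.natAbs + 1) := by
  refine (Nat.pow_le_pow_left P.h4 _).trans ?_
  rw [← pow_mul]
  exact Nat.pow_le_pow_right (by norm_num) (Nat.mul_div_le _ _)

theorem two_le_M₀ : 2 ≤ P.M₀ := by
  unfold M₀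
  have h1 : 0 < (P.n + 1) ^ (501 * (P.j₀ + 1)) := Nat.pow_pos (Nat.succ_pos _)
  have h2 : 0 < (4 ^ 1004) ^ (500 * P.j₀ + 3) := Nat.pow_pos (Nat.pow_pos (Nat.succ_pos 3))
  exact le_trans (by norm_num) ((Nat.le_mul_of_pos_right _ h1).trans (Nat.le_mul_of_pos_right _ h2))

/-- `stg i + 1 = j₀ + 1 + pos/J`, `(n+1)^(pos/J) ≤ 4^pos`, `R^(|i|/2) ≥ 4^(502 (|i| - 1))` -/
theorem etaG_le (i : ℤ) : ((P.n : ℝ) + 1) ^ (501 * (P.stg i + 1)) * (60001 * 20001 : ℕ) /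
    ((P.M₀ * (4 ^ 1004) ^ (i.natAbs / 2 - (500 * P.j₀ + 2)) : ℕ) : ℝ) ≤ (1 / 4) ^ i.natAbs / 100 := by
  have h := gmain_div_le (m := i.natAbs) (a := (P.n + 1) ^ (501 * (P.stg i + 1)) * (60001 * 20001))
    (b := P.M₀ * (4 ^ 1004) ^ (i.natAbs / 2 - (500 * P.j₀ + 2)))
    (Nat.mul_pos (lt_of_lt_of_le two_pos P.two_le_M₀) (Nat.pow_pos (Nat.pow_pos (Nat.succ_pos 3))))
    (gmain_etaG rfl (P.pow_pos_div_le i) (by omega))
  rwa [Nat.cast_mul ((P.n + 1) ^ _), Nat.cast_pow, Nat.cast_succ] at h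

/-- `j = stg (lo i)`, `g = j/16`, `r = j/32`, `k = 2·2^r / g + 1`, so `g k ≤ 2·2^r + g`; `|i| ≤ J (j+2)`, `M₀ ≤ E₀^(j+2)` with
`E₀ = 100 c (n+1)^501 R^500`. -/
theorem etaT_le (CA : ℕ)
    (h : ∀ j, P.j₀ ≤ j → (100 * P.n ^ 2 * 2 * 4 ^ P.J *
        (100 * (60001 * 20001) * (P.n + 1) ^ 501 * (4 ^ 1004) ^ 500 * 2 ^ P.J * 2) ^ CA) ^ (j + 2) ≤
          4 ^ 2 ^ (j / 32) ∧
      (j / 16 + 1) * (2 * 2 ^ (j / 32) * P.n + 1) ≤ 2 ^ (j / 16)) (i : ℤ) :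
    ∃ r k : ℕ, 2 * 2 ^ r ≤ k * (P.stg (lo i) / 16) ∧
      ((P.n : ℝ) ^ (P.stg (lo i) + 1)) ^ 2 * ((P.M₀ * 2 ^ i.natAbs * 2 ^ r : ℕ) : ℝ) ^ CA *
        ((((P.stg (lo i) / 16 : ℕ) : ℝ) + 1) * (2 * 2 ^ r * P.n + 1)) ^ k / 16 ^ 2 ^ r ≤
        (1 / 4) ^ i.natAbs / 100 := by
  have hj := P.j₀_le_stg (lo i)
  have hj0 := P.hj
  have hm : i.natAbs ≤ P.J * (P.stg (lo i) + 2) := by
    have h1 := P.natAbs_le (lo i)
    have h2 : i.natAbs ≤ (lo i).natAbs + 1 := by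
      unfold lo
      split_ifs <;> omega
    exact (h2.trans h1).trans (Nat.mul_le_mul_left _ (by omega))
  obtain ⟨h1, h2⟩ := h _ hj
  generalize P.stg (lo i) = j at *
  have hg : 0 < j / 16 := by omega
  refine ⟨j / 32, 2 * 2 ^ (j / 32) / (j / 16) + 1, ?_, ?_⟩
  · rw [mul_comm _ (j / 16)]
    exact (Nat.lt_mul_div_succ _ hg).le
  · have h3 := gmain_div_le (m := i.natAbs) (Nat.pow_pos (by norm_num))
      (gmain_etaT (M := P.M₀) (k := 2 * 2 ^ (j / 32) / (j / 16) + 1) P.n_pos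
        (gmain_M₀ (by norm_num) (Nat.succ_pos _) (Nat.pow_pos (Nat.succ_pos 3)) hj) hm
        (by omega) (by omega)
        (by rw [mul_add, mul_one]; exact Nat.add_le_add_right (Nat.mul_div_le _ _) _) h2 h1)
    generalize P.M₀ * 2 ^ i.natAbs * 2 ^ (j / 32) = Y at h3 ⊢
    generalize j / 16 = g at h3 ⊢
    exact_mod_cast h3

theorem ball_le {A : Type} (ω : P.Om A) (on : ℤ → Prop) (v : P.V) :
    (P.n + 1) ^ (⌈8 * (P.graph ω on).L v⌉₊ + 1) ≤ P.M₀ * (4 ^ 1004) ^ v.1.natAbs := by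
  refine gmain_ball (by norm_num) (Nat.succ_pos _) rfl (P.pow_pos_div_le v.1) (Nat.ceil_le.2 ?_)
  have hJ : 0 < P.J := lt_of_lt_of_le (by norm_num) P.hJ
  have h1 : (pos v.1 : ℝ) / P.J ≤ ((pos v.1 / P.J + 1 : ℕ) : ℝ) := by
    rw [div_le_iff₀ (by exact_mod_cast hJ), mul_comm]
    exact_mod_cast (Nat.lt_mul_div_succ _ hJ).le
  change 8 * (5 * ((P.j₀ : ℝ) + (pos v.1 : ℝ) / P.J)) ≤ _
  generalize pos v.1 / P.J + 1 = q at h1 ⊢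
  push_cast
  linarith

open Classical in
theorem exists_omega (CA : ℕ)
    (h : ∀ j, P.j₀ ≤ j → (100 * P.n ^ 2 * 2 * 4 ^ P.J *
        (100 * (60001 * 20001) * (P.n + 1) ^ 501 * (4 ^ 1004) ^ 500 * 2 ^ P.J * 2) ^ CA) ^ (j + 2) ≤
          4 ^ 2 ^ (j / 32) ∧
      (j / 16 + 1) * (2 * 2 ^ (j / 32) * P.n + 1) ≤ 2 ^ (j / 16))
    {A : Type} [Group A] {μ : ℤ → (A × ZMod 4) →₀ ℝ} {on : ℤ → Prop} (hμ : ∀ i, IsLaw (μ i))
    (hG : GenHyp μ on (60001 * 20001) P.M₀ (4 ^ 1004)) (hGr : Growth μ on CA P.M₀) :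
    ∃ ω, Valid (P.law μ) ω ∧ (∀ i, ¬ P.badT μ on i ω) ∧ ∀ i, ¬ P.badG on i ω := by
  choose BT hBT using P.badT_dep (μ := μ) (on := on)
  choose BG hBG using P.badG_dep (A := A) (on := on)
  obtain ⟨ω, h1, h2⟩ := exists_good (P.isLaw_law hμ) (ι := ℤ ⊕ ℤ)
    (Sum.elim (P.badT μ on) (P.badG on)) (Sum.elim P.DT fun i => P.DG (P.BG' i))
    (Sum.elim (fun i => P.Dep (BT i)) fun i => P.Dep (BG i))
    (fun x => (1 / 4 : ℝ) ^ (Sum.elim id id x : ℤ).natAbs / 100)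
    (by
      rintro (i | i)
      · exact hBT i
      · exact hBG i)
    (by
      rintro (i | i) ω₀ -
      · obtain ⟨r, k, hk, hle⟩ := P.etaT_le CA h i
        exact (P.prob_badT hμ hGr i r k hk ω₀).trans hle
      · exact (P.prob_badG hμ (le_trans one_le_two P.two_le_M₀) (Nat.pow_pos (Nat.succ_pos 3)) hG i
          ω₀).trans (P.etaG_le i))
    gmain_sum
  exact ⟨ω, h1, fun i => h2 (.inl i), fun i => h2 (.inr i)⟩

theorem edge_pair {A : Type} [Group A] {μ : ℤ → (A × ZMod 4) →₀ ℝ} {on : ℤ → Prop} {ω : P.Om A}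
    (hω : Valid (P.law μ) ω) (u : P.V) (t : P.F) (w : P.V) (h : (P.graph ω on).nb u t = some w) :
    ∃ i, on i ∧ ((u ∈ P.node i ∧ w ∈ P.node (i + 1)) ∨ (u ∈ P.node (i + 1) ∧ w ∈ P.node i)) ∧
      ∃ ω', ((P.graph ω on).a u t, ω') ∈ (μ i).support := by
  classical
  obtain ⟨h1, -, -, h2, h3, h4, -⟩ := Adj.pair P ((P.nbr_eq_some).1 h).2
  refine ⟨P.pairOf u.1 t, h1, ?_, ?_⟩
  · rcases h2 with ⟨a, b⟩ | ⟨a, b⟩
    · exact Or.inl ⟨a ▸ h3, a ▸ b ▸ h4⟩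
    · have c : w.1 = P.pairOf u.1 t := by omega
      exact Or.inr ⟨a ▸ h3, c ▸ h4⟩
  · obtain ⟨y, hy, e⟩ := Finset.mem_image.1 (Finsupp.mapDomain_support (hω (.inr (u.1, u.2, t))))
    obtain ⟨ω', h5⟩ := supp_damp hy
    refine ⟨ω', ?_⟩
    change ((ω (.inr (u.1, u.2, t))).2.1, ω') ∈ _
    rw [← e]
    exact h5

end Par

/-- `c = 60001 * 20001`, `R = 4^1004`.  Given `CA, ε`: `C ≥ 1` with `32/√C ≤ ε/3`, `C' = 16 √C`.  Given `n₀`: `n₁ ≥ n₀` such that for `n ≥ n₁`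
`32 √(n √n) ≤ (ε/3) n/(16 √C)` and `4 √(3/n) ≤ ε/3`; `J ≥ 1000` odd with `n₁ ≤ C 2^(J+2)`, `C 2^(J+3) + 1 ≤ 4^J`; `n` by Bertrand
(`Nat.exists_prime_lt_and_le_two_mul`); `j₀ ≥ 1000` even from `exists_j₁`; `M₀ = P.M₀`.  `exists_good` with `ι = ℤ ⊕ ℤ` (`badT`, `badG`),
`∑_{i ∈ s} 4^{-|i|} ≤ 2 ∑ 4^{-m} ≤ 8/3`.  Then `scHyp`, `op_bound`, `Adj.pair`, `supp_damp`, `ball_le`. -/
theorem partG' : ∃ c R : ℕ, 2 ≤ R ∧ ∀ (CA : ℕ) (ε : ℝ), 0 < ε → ∃ C' : ℝ, 0 < C' ∧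
    ∀ n₀ : ℕ, ∃ (n : ℕ) (_ : Fact n.Prime) (M₀ : ℕ), n₀ ≤ n ∧ 2 ≤ M₀ ∧
    ∀ (A : Type) [Group A] (μ : ℤ → (A × ZMod 4) →₀ ℝ) (on : ℤ → Prop),
      (∀ i, IsLaw (μ i)) → GenHyp μ on c M₀ R → Growth μ on CA M₀ →
      ∃ (Γ : BG (ZMod n) A) (node : ℤ → Finset Γ.V), Γ.SCHyp ∧
        (∀ i, (node i).Nonempty) ∧ (∀ i j, i ≠ j → Disjoint (node i) (node j)) ∧
        (∀ i, ∀ v ∈ node i, Γ.isH v ↔ Even i) ∧
        (∀ u t w, Γ.nb u t = some w → ∃ i, on i ∧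
          ((u ∈ node i ∧ w ∈ node (i + 1)) ∨ (u ∈ node (i + 1) ∧ w ∈ node i)) ∧
          ∃ ω, (Γ.a u t, ω) ∈ (μ i).support) ∧
        (∀ i, ∀ v ∈ node i, (n + 1) ^ (⌈8 * Γ.L v⌉₊ + 1) ≤ M₀ * R ^ i.natAbs) ∧
        ‖Γ.Bop Γ.a - (((n : ℝ) / C' : ℝ) : ℂ) • (Γ.Wop A node ∘L Qop μ on ∘L adj (Γ.Wop A node))‖
          ≤ ε * ((n : ℝ) / C') := by
  refine ⟨60001 * 20001, 4 ^ 1004, le_trans (by norm_num) (Nat.le_self_pow (by norm_num) 4),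
    fun CA ε hε => ?_⟩
  obtain ⟨C₀, hC₀⟩ := exists_nat_ge ((96 / ε) ^ 2)
  have hC1 : 1 ≤ Real.sqrt (C₀ + 1 : ℕ) :=
    Real.le_sqrt_of_sq_le (by rw [one_pow]; exact_mod_cast Nat.le_add_left 1 C₀)
  have hC2 : 96 / ε ≤ Real.sqrt (C₀ + 1 : ℕ) :=
    Real.le_sqrt_of_sq_le (hC₀.trans (by exact_mod_cast Nat.le_add_right C₀ 1))
  have hC : 1 ≤ C₀ + 1 := Nat.le_add_left 1 C₀
  generalize C₀ + 1 = C at hC1 hC2 hC
  refine ⟨16 * Real.sqrt C, by positivity, fun n₀ => ?_⟩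
  obtain ⟨n₁, hn₁⟩ := gmain_large (δ := ε / (1536 * Real.sqrt C)) (by positivity)
  obtain ⟨J, hJ, hodd, hJ1, hJ2⟩ := gmain_J C (n₀ + n₁) hC
  obtain ⟨n, hp, hn1, hn2⟩ := Nat.exists_prime_lt_and_le_two_mul (C * 2 ^ (J + 2)) (by positivity)
  have hn3 : n ≤ C * 2 ^ (J + 3) := hn2.trans (le_of_eq (by ring))
  obtain ⟨j₁, hj₁⟩ := exists_j₁ (100 * n ^ 2 * 2 * 4 ^ J *
    (100 * (60001 * 20001) * (n + 1) ^ 501 * (4 ^ 1004) ^ 500 * 2 ^ J * 2) ^ CA) n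
  obtain ⟨j₀, hev, hj0, hjj⟩ : ∃ j₀ : ℕ, Even j₀ ∧ 1000 ≤ j₀ ∧ j₁ ≤ j₀ :=
    ⟨2 * (j₁ + 500), even_two_mul _, by omega, by omega⟩
  have hn0 : n₀ + n₁ ≤ n := hJ1.trans hn1.le
  let P : Par := ⟨n, C, J, j₀, hp, hC, hJ, hodd, hev, hj0, hn1.le, hn3,
    (Nat.succ_le_succ hn3).trans hJ2⟩
  refine ⟨n, ⟨hp⟩, P.M₀, (Nat.le_add_right _ _).trans hn0, P.two_le_M₀, fun A _ μ on hμ hG hGr => ?_⟩
  obtain ⟨ω, hω, hT, hB⟩ := P.exists_omega CA (fun j hj => hj₁ j (hjj.trans hj)) hμ hG hGr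
  refine ⟨P.graph ω on, P.node, P.scHyp hB, P.node_nonempty, P.node_disjoint, fun i v hv => ?_,
    P.edge_pair hω, fun i v hv => ?_, (P.op_bound hμ hT).trans ?_⟩
  · rw [← (P.mem_node.1 hv).1]
    exact Iff.rfl
  · rw [← (P.mem_node.1 hv).1]
    exact P.ball_le ω on v
  · obtain ⟨a1, a2⟩ := hn₁ n ((Nat.le_add_left _ _).trans hn0)
    change 2 * (16 * Real.sqrt (n * Real.sqrt n) + 16 * ((n : ℝ) / (16 * Real.sqrt C)) / Real.sqrt C +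
      2 * ((n : ℝ) / (16 * Real.sqrt C)) * Real.sqrt (3 / n)) ≤ _
    have hs : 0 < Real.sqrt C := by linarith
    have hl : 0 ≤ (n : ℝ) / (16 * Real.sqrt C) := by positivity
    have b1 : ε / (1536 * Real.sqrt C) * n = ε / 96 * (n / (16 * Real.sqrt C)) := by
      field_simp
      ring
    have b2 : 1 / Real.sqrt C ≤ ε / 96 := by
      rw [div_le_iff₀ hε] at hC2
      rw [div_le_div_iff₀ hs (by norm_num)]
      linarith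
    have b3 : ε / (1536 * Real.sqrt C) ≤ ε / 12 :=
      div_le_div_of_nonneg_left hε.le (by norm_num) (by linarith)
    rw [b1] at a1
    rw [mul_div_assoc, div_eq_mul_one_div _ (Real.sqrt C)]
    generalize (n : ℝ) / (16 * Real.sqrt C) = l at *
    have c2 := mul_le_mul_of_nonneg_left b2 hl
    have c3 := mul_le_mul_of_nonneg_left (a2.trans b3) hl
    linarith

end Crest.Agent.R129
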