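import Crest.Agent.R129.Ty

/-! # The mean operator (task R129/TyMean). Statement frozen. -/

set_option autoImplicit false
open scoped BigOperators

namespace Crest.Agent.R129
variable {F : Type} [Field F] [Fintype F] [DecidableEq F] (ψ : F → List F → Equiv.Perm F)

omit [DecidableEq F] in
theorem tm_one (σ : Equiv.Perm F) (t : F) (h : F → ℝ) :
    ∑ β : F, ∑ α : F, h (σ (α + β * t)) = Fintype.card F * ∑ γ, h γ := by
  have : ∀ β : F, ∑ α : F, h (σ (α + β * t)) = ∑ γ, h γ := fun β =>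
    Equiv.sum_comp ((Equiv.addRight (β * t)).trans σ) h
  simp only [this, Finset.sum_const, Finset.card_univ, nsmul_eq_mul]

omit [DecidableEq F] in
theorem tm_two (σ σ' : Equiv.Perm F) {t t' : F} (ht : t ≠ t') (h h' : F → ℝ) :
    ∑ β : F, ∑ α : F, h (σ (α + β * t)) * h' (σ' (α + β * t')) = (∑ γ, h γ) * ∑ γ, h' γ := by
  have h1 : ∀ β : F, ∑ α : F, h (σ (α + β * t)) * h' (σ' (α + β * t')) =
      ∑ u : F, h (σ u) * h' (σ' (β * (t' - t) + u)) := fun β => by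
    rw [← Equiv.sum_comp (Equiv.addRight (β * t))
      fun u => h (σ u) * h' (σ' (β * (t' - t) + u))]
    refine Finset.sum_congr rfl fun α _ => ?_
    rw [Equiv.coe_addRight]
    congr 3
    ring
  have h2 : ∀ u : F, ∑ β : F, h' (σ' (β * (t' - t) + u)) = ∑ γ, h' γ := fun u =>
    Equiv.sum_comp (((Equiv.mulRight₀ (t' - t) (sub_ne_zero.2 ht.symm)).trans
      (Equiv.addRight u)).trans σ') h'
  simp only [h1]
  rw [Finset.sum_comm]
  simp only [← Finset.mul_sum, h2]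
  rw [← Finset.sum_mul, Equiv.sum_comp σ h]

omit [DecidableEq F] in
theorem tm_local (T : Finset F) (σ : F → Equiv.Perm F) (Φ G : F → F → ℝ) (s f0 : ℝ)
    (hf : (Fintype.card F : ℝ) ^ 2 * f0 = ∑ β, ∑ α, Φ β α) :
    2 * s * ∑ t ∈ T, ∑ β, ∑ α, Φ β α * G t (σ t (α + β * t)) ≤
      2 * s * Fintype.card F * ∑ t ∈ T, ∑ γ, G t γ * f0 +
        s ^ 2 * (∑ β, ∑ α, Φ β α ^ 2 - (Fintype.card F : ℝ) ^ 2 * f0 ^ 2) +
        ∑ t ∈ T, (Fintype.card F * ∑ γ, G t γ ^ 2 - (∑ γ, G t γ) ^ 2) := by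
  have hn : (Fintype.card F : ℝ) ≠ 0 := by exact_mod_cast Fintype.card_ne_zero
  obtain ⟨n, hnd⟩ : ∃ n : ℝ, n = Fintype.card F := ⟨_, rfl⟩
  have hc : ∀ c : ℝ, ∑ _γ : F, c = n * c := fun c => by
    rw [Finset.sum_const, Finset.card_univ, nsmul_eq_mul, hnd]
  rw [← hnd] at hf hn ⊢
  let a : F → F → ℝ := fun t γ => G t γ - (∑ δ, G t δ) / n
  have ha : ∀ t, ∑ γ, a t γ = 0 := fun t => by
    simp only [a, Finset.sum_sub_distrib, hc]
    field_simp
    ring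
  have ha2 : ∀ t, n * ∑ γ, a t γ ^ 2 = n * ∑ γ, G t γ ^ 2 - (∑ γ, G t γ) ^ 2 := fun t => by
    simp only [a, sub_sq, Finset.sum_add_distrib, Finset.sum_sub_distrib, hc, mul_assoc,
      ← Finset.mul_sum, ← Finset.sum_mul]
    field_simp
    ring
  have e1 : ∀ t, ∑ β, ∑ α, Φ β α * G t (σ t (α + β * t)) =
      ∑ β, ∑ α, (Φ β α - f0) * a t (σ t (α + β * t)) + n * ∑ γ, G t γ * f0 := fun t => by
    have h1 := tm_one (σ t) t (G t)
    rw [← hnd] at h1
    have h2 : ∀ β α, (Φ β α - f0) * a t (σ t (α + β * t)) = Φ β α * G t (σ t (α + β * t)) -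
        G t (σ t (α + β * t)) * f0 - Φ β α * ((∑ δ, G t δ) / n) + f0 * ((∑ δ, G t δ) / n) :=
      fun β α => by simp only [a]; ring
    simp only [h2, Finset.sum_add_distrib, Finset.sum_sub_distrib, hc, ← Finset.sum_mul, h1, ← hf]
    ring
  have e2 : ∑ β, ∑ α, (Φ β α - f0) ^ 2 = ∑ β, ∑ α, Φ β α ^ 2 - n ^ 2 * f0 ^ 2 := by
    simp only [sub_sq, Finset.sum_add_distrib, Finset.sum_sub_distrib, hc, mul_assoc,
      ← Finset.mul_sum, ← Finset.sum_mul, ← hf]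
    ring
  have e3 : ∑ β, ∑ α, (∑ t ∈ T, a t (σ t (α + β * t))) ^ 2 =
      ∑ t ∈ T, (n * ∑ γ, G t γ ^ 2 - (∑ γ, G t γ) ^ 2) := by
    simp only [sq (∑ t ∈ T, _), Finset.sum_mul_sum]
    have h1 : ∀ β : F, ∑ α : F, ∑ t ∈ T, ∑ t' ∈ T, a t (σ t (α + β * t)) * a t' (σ t' (α + β * t')) =
        ∑ t ∈ T, ∑ t' ∈ T, ∑ α : F, a t (σ t (α + β * t)) * a t' (σ t' (α + β * t')) := fun β => by
      rw [Finset.sum_comm]
      exact Finset.sum_congr rfl fun t _ => Finset.sum_comm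
    simp only [h1]
    rw [Finset.sum_comm]
    refine Finset.sum_congr rfl fun t ht => ?_
    rw [Finset.sum_comm, Finset.sum_eq_single_of_mem t ht fun t' _ h => by
      rw [tm_two _ _ h.symm, ha, zero_mul], ← ha2, hnd, ← tm_one (σ t) t fun γ => a t γ ^ 2]
    simp only [sq]
  have e4 : ∑ t ∈ T, ∑ β, ∑ α, (Φ β α - f0) * a t (σ t (α + β * t)) =
      ∑ β, ∑ α, (Φ β α - f0) * ∑ t ∈ T, a t (σ t (α + β * t)) := by
    rw [Finset.sum_comm]
    refine Finset.sum_congr rfl fun β _ => ?_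
    rw [Finset.sum_comm]
    simp only [Finset.mul_sum]
  have e5 : 2 * s * ∑ β, ∑ α, (Φ β α - f0) * ∑ t ∈ T, a t (σ t (α + β * t)) ≤
      s ^ 2 * ∑ β, ∑ α, (Φ β α - f0) ^ 2 + ∑ β, ∑ α, (∑ t ∈ T, a t (σ t (α + β * t))) ^ 2 := by
    rw [Finset.mul_sum, Finset.mul_sum, ← Finset.sum_add_distrib]
    refine Finset.sum_le_sum fun β _ => ?_
    rw [Finset.mul_sum, Finset.mul_sum, ← Finset.sum_add_distrib]
    refine Finset.sum_le_sum fun α _ => ?_
    nlinarith [sq_nonneg (s * (Φ β α - f0) - ∑ t ∈ T, a t (σ t (α + β * t)))]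
  simp only [e1]
  rw [Finset.sum_add_distrib, e4, ← Finset.mul_sum, ← e2, ← e3]
  linarith

/-- `‖R* f‖²` -/
noncomputable def tmRho : ℕ → (List F → ℝ) → ℝ
  | 0, _ => 0
  | m + 1, f => (Fintype.card F : ℝ) ^ 2 * ∑ κ ∈ lists Finset.univ m,
      ((∑ β, ∑ α, f (β :: α :: κ)) / (Fintype.card F : ℝ) ^ 2) ^ 2

omit [Fintype F] [DecidableEq F] in
theorem tm_fib_fib (t : F) (κ : List F) (γ β : F) :
    fib ψ t (fib ψ t κ γ) β = β :: ((ψ t κ).symm γ - β * t) :: κ := by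
  have h1 := tau_fib (ψ := ψ) t κ γ
  have h2 := head_fib (ψ := ψ) t κ γ
  cases h : fib ψ t κ γ with
  | nil => rw [h] at h2; simp at h2
  | cons a l =>
    rw [h] at h1 h2
    simp only [List.head?_cons, Option.some.injEq] at h2
    rw [fib, h1, h2]

omit [Field F] [DecidableEq F] in
theorem tm_cs (h : F → ℝ) : (∑ γ, h γ) ^ 2 ≤ Fintype.card F * ∑ γ, h γ ^ 2 := by
  simpa using sq_sum_le_card_mul_sum_sq (s := Finset.univ) (f := h)

theorem tm_rho_le (t : F) (m : ℕ) (g : List F → ℝ) :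
    Fintype.card F * tmRho m g ≤ ∑ κ ∈ lists Finset.univ m, (∑ γ, g (fib ψ t κ γ)) ^ 2 := by
  have hn : (0 : ℝ) < Fintype.card F := by exact_mod_cast Fintype.card_pos
  cases m with
  | zero => rw [tmRho, mul_zero]; positivity
  | succ m =>
    rw [tmRho, sum_fib (ψ := ψ) t, Finset.mul_sum, Finset.mul_sum]
    refine Finset.sum_le_sum fun κ _ => ?_
    have h1 : ∑ β, ∑ α, g (β :: α :: κ) = ∑ δ, ∑ γ, g (fib ψ t (fib ψ t κ δ) γ) := by
      rw [Finset.sum_comm (f := fun δ γ => g (fib ψ t (fib ψ t κ δ) γ))]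
      refine Finset.sum_congr rfl fun β _ => ?_
      simp only [tm_fib_fib]
      exact (Equiv.sum_comp ((ψ t κ).symm.trans (Equiv.subRight (β * t)))
        fun α => g (β :: α :: κ)).symm
    have h2 := tm_cs fun δ => ∑ γ, g (fib ψ t (fib ψ t κ δ) γ)
    rw [← h1] at h2
    have h3 : (Fintype.card F : ℝ) * ((Fintype.card F : ℝ) ^ 2 *
        ((∑ β, ∑ α, g (β :: α :: κ)) / (Fintype.card F : ℝ) ^ 2) ^ 2) =
        (∑ β, ∑ α, g (β :: α :: κ)) ^ 2 / Fintype.card F := by field_simp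
    rw [h3, div_le_iff₀' hn]
    exact h2

omit [Field F] in
theorem tm_two_sum (m : ℕ) (h : List F → ℝ) : ∑ x ∈ lists Finset.univ (m + 1 + 1), h x =
    ∑ κ ∈ lists Finset.univ m, ∑ β, ∑ α, h (β :: α :: κ) := by
  simp only [sum_lists_succ]
  rw [Finset.sum_comm (s := lists Finset.univ m)]
  exact Finset.sum_congr rfl fun β _ => Finset.sum_comm

theorem tm_ind (T : Finset F) {s : ℝ} (hs : 0 < s) (hsT : s ^ 2 = T.card) (m : ℕ)
    (f g : List F → ℝ) :
    ∑ t ∈ T, ∑ x ∈ lists Finset.univ (m + 1), f x * g (tau ψ t x) -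
        T.card * (∑ x ∈ lists Finset.univ (m + 1), f x) * (∑ y ∈ lists Finset.univ m, g y) /
          (Fintype.card F : ℝ) ^ m ≤
      s * (Fintype.card F * ∑ y ∈ lists Finset.univ m, g y ^ 2 +
        (∑ x ∈ lists Finset.univ (m + 1), f x ^ 2) / 2 + tmRho m f / 2) := by
  have hn : (0 : ℝ) < Fintype.card F := by exact_mod_cast Fintype.card_pos
  induction m generalizing f g with
  | zero =>
    simp only [sum_lists_succ, sum_lists_zero, tau, tmRho, Finset.sum_const, nsmul_eq_mul,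
      ← Finset.sum_mul, pow_zero, div_one]
    rw [mul_assoc, sub_self]
    positivity
  | succ m ih =>
    let f0 : List F → ℝ := fun κ => (∑ β, ∑ α, f (β :: α :: κ)) / (Fintype.card F : ℝ) ^ 2
    have hf0 : ∀ κ, (Fintype.card F : ℝ) ^ 2 * f0 κ = ∑ β, ∑ α, f (β :: α :: κ) := fun κ => by
      simp only [f0]; field_simp
    have h1 := ih g f0
    have h2 := Finset.sum_le_sum fun κ (_ : κ ∈ lists (Finset.univ : Finset F) m) =>
      tm_local T (fun t => ψ t κ) (fun β α => f (β :: α :: κ)) (fun t γ => g (fib ψ t κ γ)) s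
        (f0 κ) (hf0 κ)
    have e1 : ∑ t ∈ T, ∑ x ∈ lists Finset.univ (m + 1 + 1), f x * g (tau ψ t x) =
        ∑ κ ∈ lists Finset.univ m, ∑ t ∈ T, ∑ β, ∑ α,
          f (β :: α :: κ) * g (fib ψ t κ (ψ t κ (α + β * t))) := by
      simp only [tm_two_sum, tau_cons_cons]
      exact Finset.sum_comm
    have e2 : ∑ t ∈ T, ∑ x ∈ lists Finset.univ (m + 1), g x * f0 (tau ψ t x) =
        ∑ κ ∈ lists Finset.univ m, ∑ t ∈ T, ∑ γ, g (fib ψ t κ γ) * f0 κ := by
      rw [Finset.sum_comm (s := lists Finset.univ m)]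
      refine Finset.sum_congr rfl fun t _ => ?_
      rw [sum_fib (ψ := ψ) t]
      simp only [tau_fib]
    have e3 : ∑ x ∈ lists Finset.univ (m + 1 + 1), f x =
        (Fintype.card F : ℝ) ^ 2 * ∑ κ ∈ lists Finset.univ m, f0 κ := by
      rw [tm_two_sum, Finset.mul_sum]
      simp only [hf0]
    have e4 : tmRho (m + 1) f = (Fintype.card F : ℝ) ^ 2 * ∑ κ ∈ lists Finset.univ m, f0 κ ^ 2 :=
      rfl
    have e5 : ∑ κ ∈ lists Finset.univ m, ∑ t ∈ T, (Fintype.card F * ∑ γ, g (fib ψ t κ γ) ^ 2 -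
        (∑ γ, g (fib ψ t κ γ)) ^ 2) ≤ s ^ 2 * (Fintype.card F *
          ∑ y ∈ lists Finset.univ (m + 1), g y ^ 2 - Fintype.card F * tmRho m g) := by
      rw [Finset.sum_comm, hsT, ← nsmul_eq_mul]
      refine Finset.sum_le_card_nsmul _ _ _ fun t _ => ?_
      rw [Finset.sum_sub_distrib, ← Finset.mul_sum, sum_fib (ψ := ψ) t]
      linarith [tm_rho_le ψ t m g]
    simp only [Finset.sum_add_distrib, ← Finset.mul_sum, Finset.sum_sub_distrib
      (s := lists (Finset.univ : Finset F) m)] at h2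
    rw [← e1, ← e2, ← tm_two_sum m fun x => f x ^ 2] at h2
    have e6 : (T.card : ℝ) * (∑ x ∈ lists Finset.univ (m + 1 + 1), f x) *
        (∑ y ∈ lists Finset.univ (m + 1), g y) / (Fintype.card F : ℝ) ^ (m + 1) =
        Fintype.card F * (T.card * (∑ x ∈ lists Finset.univ (m + 1), g x) *
          (∑ y ∈ lists Finset.univ m, f0 y) / (Fintype.card F : ℝ) ^ m) := by
      rw [e3]; field_simp; ring
    rw [e6, e4]
    refine le_of_mul_le_mul_left ?_ (show 0 < 2 * s by positivity)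
    have h3 := mul_le_mul_of_nonneg_left h1 (show 0 ≤ 2 * s * Fintype.card F by positivity)
    linarith

theorem tm_real (T : Finset F) {s : ℝ} (hs : 0 < s) (hsT : s ^ 2 = T.card) (m : ℕ)
    (f g : List F → ℝ) :
    ∑ t ∈ T, ∑ x ∈ lists Finset.univ (m + 1), f x * g (tau ψ t x) -
        T.card * (∑ x ∈ lists Finset.univ (m + 1), f x) * (∑ y ∈ lists Finset.univ m, g y) /
          (Fintype.card F : ℝ) ^ m ≤
      s * (Fintype.card F * ∑ y ∈ lists Finset.univ m, g y ^ 2 +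
        ∑ x ∈ lists Finset.univ (m + 1), f x ^ 2) := by
  have hn : (0 : ℝ) < Fintype.card F := by exact_mod_cast Fintype.card_pos
  refine (tm_ind ψ T hs hsT m f g).trans (mul_le_mul_of_nonneg_left ?_ hs.le)
  have h1 := tm_rho_le ψ 0 m f
  have h2 : ∑ κ ∈ lists Finset.univ m, (∑ γ, f (fib ψ 0 κ γ)) ^ 2 ≤
      Fintype.card F * ∑ x ∈ lists Finset.univ (m + 1), f x ^ 2 := by
    rw [sum_fib (ψ := ψ) 0, Finset.mul_sum]
    exact Finset.sum_le_sum fun κ _ => tm_cs _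
  have h3 := le_of_mul_le_mul_left (h1.trans h2) hn
  linarith

theorem tm_cplx (T : Finset F) {s : ℝ} (hs : 0 < s) (hsT : s ^ 2 = T.card) (m : ℕ)
    (f g : List F → ℂ) :
    (∑ t ∈ T, ∑ x ∈ lists Finset.univ (m + 1), f x * g (tau ψ t x) -
        T.card * (∑ x ∈ lists Finset.univ (m + 1), f x) * (∑ y ∈ lists Finset.univ m, g y) /
          (Fintype.card F : ℂ) ^ m).re ≤
      s * (Fintype.card F * ∑ y ∈ lists Finset.univ m, ‖g y‖ ^ 2 +
        ∑ x ∈ lists Finset.univ (m + 1), ‖f x‖ ^ 2) := by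
  have h1 := tm_real ψ T hs hsT m (fun x => (f x).re) (fun y => (g y).re)
  have h2 := tm_real ψ T hs hsT m (fun x => -(f x).im) (fun y => (g y).im)
  have e : ((Fintype.card F : ℂ) ^ m) = (((Fintype.card F : ℝ) ^ m : ℝ) : ℂ) := by push_cast; rfl
  rw [e]
  simp only [Complex.sub_re, Complex.re_sum, Complex.im_sum, Complex.mul_re, Complex.mul_im,
    Complex.div_ofReal_re, Complex.natCast_re, Complex.natCast_im, zero_mul, sub_zero, add_zero,
    Complex.sq_norm, Complex.normSq_apply, Finset.sum_sub_distrib, Finset.sum_add_distrib]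
  simp only [neg_mul, Finset.sum_neg_distrib, sq, mul_neg, neg_neg] at h1 h2
  rw [sub_div]
  rw [neg_div] at h2
  linarith

/-- Normalised counting measure on `X_m = lists univ m`; `U_t g = g ∘ tau t : L²(X_m) → L²(X_{m+1})` is an isometry (`sum_fib`),
`U_t U_t = R` (pull-back along `drop 2`), and for `t ≠ t'`: `⟨U_t g, U_t' g'⟩ = ⟨U_t* g, U_t'* g'⟩` (given `κ`, the map
`(β,α) ↦ (ψ t κ (α+βt), ψ t' κ (α+βt'))` is a bijection of `F²`, `tau_cons_cons`).  For mean-zero `f` on `X_{m+1}`, `g` on `X_m` prove by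
induction on `m`:  `|⟨f, ∑_t U_t g⟩| ≤ √d (‖g‖² + ‖f‖²/2 + ‖R* f‖²/2)` (`R* f := 0` for `m = 0`, where `g = 0`):
`f = R f₀ + f⊥`, `f₀ = R* f`; `⟨R f₀, U_t g⟩ = ⟨U_t f₀, g⟩`, bounded by induction by `√d (‖f₀‖² + ‖g‖²/2 + ‖R* g‖²/2)`; the vectors
`(1 - R R*) U_t g` are pairwise orthogonal with norm² `‖g‖² - ‖U_t* g‖² ≤ ‖g‖² - ‖R* g‖²`, so
`|⟨f⊥, ∑ U_t g⟩| ≤ √d (‖f⊥‖²/2 + ‖g‖²/2 - ‖R* g‖²/2)`.  Then `‖R* f‖ ≤ ‖f‖`, rescale (`f ↦ c f`, `g ↦ g / c`), and subtract means. -/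
theorem mean_bound (T : Finset F) (m : ℕ) (f g : List F → ℂ) :
    ‖∑ t ∈ T, ∑ x ∈ lists Finset.univ (m + 1), f x * g (tau ψ t x) -
        T.card * (∑ x ∈ lists Finset.univ (m + 1), f x) * (∑ y ∈ lists Finset.univ m, g y) /
          (Fintype.card F : ℂ) ^ m‖ ≤
      2 * Real.sqrt (T.card * Fintype.card F) *
        Real.sqrt (∑ x ∈ lists Finset.univ (m + 1), ‖f x‖ ^ 2) *
        Real.sqrt (∑ y ∈ lists Finset.univ m, ‖g y‖ ^ 2) := by
  rcases T.eq_empty_or_nonempty with rfl | hT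
  · simp
  have hd : (0 : ℝ) < T.card := by exact_mod_cast hT.card_pos
  have hs := Real.sqrt_pos.2 hd
  have hsT := Real.sq_sqrt hd.le
  obtain ⟨z, hz⟩ : ∃ z, z = ∑ t ∈ T, ∑ x ∈ lists Finset.univ (m + 1), f x * g (tau ψ t x) -
      T.card * (∑ x ∈ lists Finset.univ (m + 1), f x) * (∑ y ∈ lists Finset.univ m, g y) /
        (Fintype.card F : ℂ) ^ m := ⟨_, rfl⟩
  obtain ⟨A, hA⟩ : ∃ A, A = ∑ x ∈ lists Finset.univ (m + 1), ‖f x‖ ^ 2 := ⟨_, rfl⟩
  obtain ⟨B, hB⟩ : ∃ B, B = ∑ y ∈ lists Finset.univ m, ‖g y‖ ^ 2 := ⟨_, rfl⟩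
  have hA0 : 0 ≤ A := by rw [hA]; positivity
  have hB0 : 0 ≤ B := by rw [hB]; positivity
  have key : ∀ c : ℂ, (c * z).re ≤ √(T.card) * (Fintype.card F * B + ‖c‖ ^ 2 * A) := fun c => by
    have h := tm_cplx ψ T hs hsT m (fun x => c * f x) g
    simp only [norm_mul, mul_pow, mul_assoc, ← Finset.mul_sum] at h
    rw [← hA, ← hB] at h
    refine le_of_eq_of_le ?_ h
    rw [hz]
    congr 1
    ring
  rw [← hz, ← hA, ← hB]
  have h1 : discrim (√(T.card) * ‖z‖ ^ 2 * A) (-‖z‖ ^ 2) (√(T.card) * (Fintype.card F * B)) ≤ 0 := by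
    refine discrim_le_zero fun l => ?_
    have h := key (l * (starRingEnd ℂ) z)
    rw [mul_assoc, Complex.conj_mul', ← Complex.ofReal_pow, ← Complex.ofReal_mul,
      Complex.ofReal_re, norm_mul, Complex.norm_conj, Complex.norm_real, mul_pow, Real.norm_eq_abs,
      sq_abs] at h
    linarith
  rcases (norm_nonneg z).eq_or_lt with h0 | h0
  · rw [← h0]; positivity
  refine le_of_sq_le_sq ?_ (by positivity)
  rw [mul_pow, mul_pow, mul_pow, Real.sq_sqrt hA0, Real.sq_sqrt hB0, Real.sq_sqrt (by positivity)]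
  refine le_of_mul_le_mul_left ?_ (pow_pos h0 2)
  unfold discrim at h1
  have e : 4 * (√(T.card) * ‖z‖ ^ 2 * A) * (√(T.card) * (Fintype.card F * B)) =
      ‖z‖ ^ 2 * (2 ^ 2 * (√(T.card) ^ 2 * Fintype.card F) * A * B) := by ring
  rw [e, hsT] at h1
  nlinarith

end Crest.Agent.R129
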