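import Crest.Agent.R129.GSC
import Crest.Agent.R129.TyMean
import Crest.Agent.R129.Ker

/-! # The mean operator of a pair (task R129/GMean). Statements frozen. -/

set_option autoImplicit false
open scoped BigOperators

namespace Crest.Agent.R129

theorem gm_inj {A : Type} (q : A → ℂ) (hq : ∀ s : Finset A, ∑ x ∈ s, ‖q x‖ ≤ 1) {g : A → A}
    (hg : Function.Injective g) (s : Finset A) : ∑ a ∈ s, ‖q (g a)‖ ≤ 1 := by
  classical
  rw [← Finset.sum_image (f := fun a => ‖q a‖) fun a _ b _ h => hg h]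
  exact hq _

theorem gm_row {A V : Type} (q : A → ℂ) (hq : ∀ s : Finset A, ∑ x ∈ s, ‖q x‖ ≤ 1) {g : A → A}
    (hg : Function.Injective g) (C : Finset V) (h : V → ℂ) (hC : ∀ w, h w ≠ 0 → w ∈ C)
    (s : Finset (A × V)) : ∑ p ∈ s, ‖q (g p.1) * h p.2‖ ≤ ∑ w ∈ C, ‖h w‖ := by
  classical
  calc ∑ p ∈ s, ‖q (g p.1) * h p.2‖ = ∑ p ∈ s.filter (fun p => p.2 ∈ C), ‖q (g p.1) * h p.2‖ := by
        rw [Finset.sum_filter_of_ne]
        intro p _ hp
        refine hC _ fun h0 => hp ?_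
        rw [h0, mul_zero, norm_zero]
    _ ≤ ∑ p ∈ s.image Prod.fst ×ˢ C, ‖q (g p.1) * h p.2‖ := by
        refine Finset.sum_le_sum_of_subset_of_nonneg (fun p hp => ?_) fun _ _ _ => norm_nonneg _
        rw [Finset.mem_filter] at hp
        exact Finset.mem_product.2 ⟨Finset.mem_image_of_mem _ hp.1, hp.2⟩
    _ = (∑ a ∈ s.image Prod.fst, ‖q (g a)‖) * ∑ w ∈ C, ‖h w‖ := by
        rw [Finset.sum_product, Finset.sum_mul_sum]
        simp only [norm_mul]
    _ ≤ _ := mul_le_of_le_one_left (Finset.sum_nonneg fun _ _ => norm_nonneg _) (gm_inj q hq hg _)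

theorem gm_schur {A : Type} [Group A] (q : A → ℂ) (hq : ∀ s : Finset A, ∑ x ∈ s, ‖q x‖ ≤ 1)
    (s t : Finset A) (x y : A → ℝ) :
    ∑ a' ∈ t, ∑ a ∈ s, ‖q (a * a'⁻¹)‖ * (x a * y a') ≤
      Real.sqrt (∑ a ∈ s, x a ^ 2) * Real.sqrt (∑ a' ∈ t, y a' ^ 2) := by
  rw [← Finset.sum_product' (f := fun a' a => ‖q (a * a'⁻¹)‖ * (x a * y a')),
    ← Real.sqrt_mul (Finset.sum_nonneg fun _ _ => sq_nonneg _)]
  refine Real.le_sqrt_of_sq_le ?_
  refine (Finset.sum_sq_le_sum_mul_sum_of_sq_le_mul (t ×ˢ s)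
    (f := fun p => ‖q (p.2 * p.1⁻¹)‖ * x p.2 ^ 2) (g := fun p => ‖q (p.2 * p.1⁻¹)‖ * y p.1 ^ 2)
    (fun _ _ => by positivity) (fun _ _ => by positivity) fun _ _ => le_of_eq (by ring)).trans ?_
  refine mul_le_mul ?_ ?_ (Finset.sum_nonneg fun _ _ => by positivity)
    (Finset.sum_nonneg fun _ _ => sq_nonneg _)
  · rw [Finset.sum_product_right]
    refine Finset.sum_le_sum fun a _ => ?_
    simp only
    rw [← Finset.sum_mul]
    exact mul_le_of_le_one_left (sq_nonneg _) (gm_inj q hq (g := fun a' => a * a'⁻¹)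
      (fun _ _ h => inv_injective (mul_left_cancel h)) _)
  · rw [Finset.sum_product]
    refine Finset.sum_le_sum fun a' _ => ?_
    simp only
    rw [← Finset.sum_mul]
    exact mul_le_of_le_one_left (sq_nonneg _) (gm_inj q hq (g := fun a => a * a'⁻¹)
      (fun _ _ h => mul_right_cancel h) _)

theorem gm_fin {a b x y y' m c : ℝ} (ha : 0 ≤ a) (hb : 0 ≤ b) (hx : 0 ≤ x) (hy : 0 ≤ y)
    (h1 : y' ≤ m * y) (h2 : a * (2 * b) * m ≤ c) : a * (2 * b * x * y') ≤ c * x * y := by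
  calc a * (2 * b * x * y') ≤ a * (2 * b * x * (m * y)) := by gcongr
    _ = (a * (2 * b) * m) * (x * y) := by ring
    _ ≤ c * (x * y) := by gcongr
    _ = _ := by ring

theorem gm_fin2 {Z D₁ S₁ S₂ D₂ : ℂ} {c e r a b x y l : ℝ} (hc : 0 ≤ c) (hr : 0 ≤ r) (ha : 0 ≤ a)
    (hx : 0 ≤ x) (hl : c * (a * b) = l) (h0 : ‖Z‖ ≤ e * x * y)
    (h1 : ‖D₁‖ ≤ r * a * x) (h2 : ‖S₁‖ ≤ b * y) (h3 : ‖S₂‖ ≤ a * x) (h4 : ‖D₂‖ ≤ r * b * y) :
    ‖Z - (c : ℂ) * (D₁ * S₁ + S₂ * D₂)‖ ≤ (e + 2 * l * r) * x * y := by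
  refine (norm_sub_le _ _).trans ?_
  rw [norm_mul, Complex.norm_real, Real.norm_of_nonneg hc]
  have a6 := (norm_add_le _ _).trans (add_le_add
    ((norm_mul_le _ _).trans (mul_le_mul h1 h2 (norm_nonneg _) (by positivity)))
    ((norm_mul_le _ _).trans (mul_le_mul h3 h4 (norm_nonneg _) (by positivity))))
  refine (add_le_add h0 (mul_le_mul_of_nonneg_left a6 hc)).trans (le_of_eq ?_)
  rw [← hl]
  ring

theorem gm_cs {X : Type} (s : Finset X) (f : X → ℂ) :
    ‖∑ x ∈ s, f x‖ ≤ Real.sqrt s.card * Real.sqrt (∑ x ∈ s, ‖f x‖ ^ 2) := by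
  rw [← Real.sqrt_mul (Nat.cast_nonneg _)]
  refine (norm_sum_le _ _).trans (Real.le_sqrt_of_sq_le ?_)
  exact sq_sum_le_card_mul_sum_sq

/-- `|⟨η, K ξ⟩| ≤ ∑_{a,a'} |q (a a'⁻¹)| e ‖η_a‖ ‖ξ_a'‖ ≤ e ‖η‖ ‖ξ‖`; existence of the operator by `schur₁`.  (One way: `K = ∑_x q x • K_x` on finitely
supported `q` is not available, so test on finitely supported vectors or use `hasSum_apply`.) -/
theorem tensor_bound {A V : Type} [Group A] (q : A → ℂ) (hq : ∀ s : Finset A, ∑ x ∈ s, ‖q x‖ ≤ 1)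
    (R C : Finset V) (E : V → V → ℂ) (hE : ∀ u w, E u w ≠ 0 → u ∈ R ∧ w ∈ C) (e : ℝ) (he : 0 ≤ e)
    (hb : ∀ f g : V → ℂ, ‖∑ u ∈ R, ∑ w ∈ C, f u * g w * E u w‖ ≤
      e * Real.sqrt (∑ u ∈ R, ‖f u‖ ^ 2) * Real.sqrt (∑ w ∈ C, ‖g w‖ ^ 2)) :
    (∀ p p' : A × V, mat (kop fun p p' : A × V => q (p.1 * p'.1⁻¹) * E p.2 p'.2) p p' =
      q (p.1 * p'.1⁻¹) * E p.2 p'.2) ∧
    ‖kop fun p p' : A × V => q (p.1 * p'.1⁻¹) * E p.2 p'.2‖ ≤ e := by
  classical
  have hM : 0 ≤ ∑ u ∈ R, ∑ w ∈ C, ‖E u w‖ :=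
    Finset.sum_nonneg fun _ _ => Finset.sum_nonneg fun _ _ => norm_nonneg _
  have hmat := (schur₁ (fun p p' : A × V => q (p.1 * p'.1⁻¹) * E p.2 p'.2) _ _ hM hM
    (fun p s => ?_) (fun p' s => ?_)).1
  · refine ⟨hmat, ContinuousLinearMap.opNorm_le_bound _ he fun ξ => ?_⟩
    set T := kop fun p p' : A × V => q (p.1 * p'.1⁻¹) * E p.2 p'.2 with hT
    set y : A × V → ℂ := (T ξ : A × V → ℂ) with hy
    have hs : ∀ p : A × V, HasSum (fun a' => ∑ w ∈ C, q (p.1 * a'⁻¹) * E p.2 w *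
        (ξ : A × V → ℂ) (a', w)) (y p) := by
      intro p
      have h1 := hasSum_apply T ξ p
      simp only [hmat] at h1
      refine h1.prod_fiberwise fun a' => hasSum_sum_of_ne_finset_zero fun w hw => ?_
      have : E p.2 w = 0 := by by_contra h0; exact hw (hE _ _ h0).2
      simp [this]
    have key : ∀ s : Finset A, ∑ a ∈ s, ∑ u ∈ R, ‖y (a, u)‖ ^ 2 ≤ (e * ‖ξ‖) ^ 2 := by
      intro s
      set N := ∑ a ∈ s, ∑ u ∈ R, ‖y (a, u)‖ ^ 2 with hN
      have hN0 : 0 ≤ N := Finset.sum_nonneg fun _ _ => Finset.sum_nonneg fun _ _ => sq_nonneg _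
      have h1 : HasSum (fun a' => ∑ a ∈ s, ∑ u ∈ R, (starRingEnd ℂ) (y (a, u)) *
          ∑ w ∈ C, q (a * a'⁻¹) * E u w * (ξ : A × V → ℂ) (a', w))
          (∑ a ∈ s, ∑ u ∈ R, (starRingEnd ℂ) (y (a, u)) * y (a, u)) :=
        hasSum_sum fun a _ => hasSum_sum fun u _ => (hs (a, u)).mul_left _
      have h2 : (∑ a ∈ s, ∑ u ∈ R, (starRingEnd ℂ) (y (a, u)) * y (a, u)) = (N : ℂ) := by
        rw [hN]
        push_cast
        simp only [Complex.conj_mul']
      rw [h2] at h1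
      unfold HasSum at h1
      simp only [SummationFilter.unconditional_filter] at h1
      have h3 : ‖(N : ℂ)‖ ≤ e * Real.sqrt N * ‖ξ‖ := by
        refine le_of_tendsto' h1.norm fun t => ?_
        have a1 : ∀ a' a, ‖∑ u ∈ R, (starRingEnd ℂ) (y (a, u)) *
            ∑ w ∈ C, q (a * a'⁻¹) * E u w * (ξ : A × V → ℂ) (a', w)‖ ≤
            e * (‖q (a * a'⁻¹)‖ * (Real.sqrt (∑ u ∈ R, ‖y (a, u)‖ ^ 2) *
              Real.sqrt (∑ w ∈ C, ‖(ξ : A × V → ℂ) (a', w)‖ ^ 2))) := by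
          intro a' a
          have b1 := hb (fun u => (starRingEnd ℂ) (y (a, u))) fun w => (ξ : A × V → ℂ) (a', w)
          simp only [Complex.norm_conj] at b1
          have b2 : ∑ u ∈ R, (starRingEnd ℂ) (y (a, u)) *
              ∑ w ∈ C, q (a * a'⁻¹) * E u w * (ξ : A × V → ℂ) (a', w) =
              q (a * a'⁻¹) * ∑ u ∈ R, ∑ w ∈ C,
                (starRingEnd ℂ) (y (a, u)) * (ξ : A × V → ℂ) (a', w) * E u w := by
            simp only [Finset.mul_sum]
            exact Finset.sum_congr rfl fun _ _ => Finset.sum_congr rfl fun _ _ => by ring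
          rw [b2, norm_mul]
          refine (mul_le_mul_of_nonneg_left b1 (norm_nonneg _)).trans (le_of_eq (by ring))
        refine (norm_sum_le _ _).trans ((Finset.sum_le_sum fun a' _ =>
          (norm_sum_le _ _).trans (Finset.sum_le_sum fun a _ => a1 a' a)).trans ?_)
        simp only [← Finset.mul_sum]
        rw [mul_assoc]
        refine mul_le_mul_of_nonneg_left ((gm_schur q hq s t _ _).trans ?_) he
        have c1 : ∀ (X : Finset V) (z : V → ℂ), Real.sqrt (∑ u ∈ X, ‖z u‖ ^ 2) ^ 2 =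
            ∑ u ∈ X, ‖z u‖ ^ 2 := fun X z =>
          Real.sq_sqrt (Finset.sum_nonneg fun _ _ => sq_nonneg _)
        simp only [c1]
        refine mul_le_mul_of_nonneg_left (Real.sqrt_le_iff.2 ⟨norm_nonneg _, ?_⟩)
          (Real.sqrt_nonneg _)
        rw [← Finset.sum_product' (f := fun a' w => ‖(ξ : A × V → ℂ) (a', w)‖ ^ 2)]
        exact sum_le_hasSum _ (fun _ _ => sq_nonneg _) (hasSum_norm_sq ξ)
      rw [Complex.norm_real, Real.norm_of_nonneg hN0] at h3
      have h4 := Real.mul_self_sqrt hN0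
      have h5 := Real.sqrt_nonneg N
      have h6 : 0 ≤ e * ‖ξ‖ := by positivity
      nlinarith [sq_nonneg (Real.sqrt N - e * ‖ξ‖)]
    refine lp.norm_le_of_forall_sum_le (p := 2) (by norm_num) (by positivity) fun t => ?_
    simp only [ENNReal.toReal_ofNat, Real.rpow_ofNat]
    refine le_trans ?_ (key (t.image Prod.fst))
    rw [← Finset.sum_product' (f := fun a u => ‖y (a, u)‖ ^ 2),
      ← Finset.sum_filter_of_ne (p := fun p : A × V => p.2 ∈ R)]
    · refine Finset.sum_le_sum_of_subset_of_nonneg (fun p hp => ?_) fun _ _ _ => sq_nonneg _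
      rw [Finset.mem_filter] at hp
      exact Finset.mem_product.2 ⟨Finset.mem_image_of_mem _ hp.1, hp.2⟩
    · intro p _ hp
      by_contra hR
      have h0 : ∀ w, E p.2 w = 0 := fun w => by by_contra h0; exact hR (hE _ _ h0).1
      have h1 := hs p
      simp only [h0, mul_zero, zero_mul, Finset.sum_const_zero] at h1
      refine hp ?_
      rw [show (T ξ : A × V → ℂ) p = 0 from h1.unique hasSum_zero, norm_zero]
      norm_num
  · refine (gm_row q hq (g := fun a' => p.1 * a'⁻¹)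
      (fun _ _ h => inv_injective (mul_left_cancel h)) C (E p.2) (fun w h => (hE _ _ h).2) s).trans ?_
    by_cases hp : p.2 ∈ R
    · exact Finset.single_le_sum (f := fun u => ∑ w ∈ C, ‖E u w‖)
        (fun _ _ => Finset.sum_nonneg fun _ _ => norm_nonneg _) hp
    · rw [Finset.sum_eq_zero fun w _ => ?_]
      · exact hM
      · by_contra h0; exact hp (hE _ _ (norm_ne_zero_iff.1 h0)).1
  · refine (gm_row q hq (g := fun a => a * p'.1⁻¹)
      (fun _ _ h => mul_right_cancel h) R (fun u => E u p'.2) (fun u h => (hE _ _ h).1) s).trans ?_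
    refine Finset.sum_le_sum fun u _ => ?_
    by_cases hp : p'.2 ∈ C
    · exact Finset.single_le_sum (f := fun w => ‖E u w‖) (fun _ _ => norm_nonneg _) hp
    · have : E u p'.2 = 0 := by by_contra h0; exact hp (hE _ _ h0).2
      rw [this, norm_zero]
      exact Finset.sum_nonneg fun _ _ => norm_nonneg _


namespace Par
variable (P : Par) {A : Type} (ω : P.Om A)

theorem gm_ty (i : ℤ) (κ : List P.F) (x : ℕ) :
    P.ty (P.sub i, if P.cross i then κ else P.es i x :: κ) = κ := by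
  unfold ty
  by_cases h : P.cross i
  · rw [if_pos (P.of_cross h).2.1, if_pos h]
  · rw [if_neg (P.of_not_cross h).1, if_neg h]; rfl

theorem gm_lvl (i : ℤ) : P.lvl i - 1 + 1 = P.lvl i := by
  have := P.j₀_le_stg (P.tp i)
  have := P.hj
  unfold lvl
  omega

theorem gm_sum_tp {M : Type} [AddCommMonoid M] (i : ℤ) (φ : P.V → M) :
    ∑ x ∈ lists Finset.univ (P.lvl i - 1 + 1), (if x ∈ P.Nd (P.tp i) then φ (P.tp i, x) else 0) =
      ∑ U ∈ P.node (P.tp i), φ U := by
  unfold node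
  rw [Finset.sum_image fun a _ b _ h => (Prod.ext_iff.1 h).2, ← Finset.sum_filter,
    Finset.filter_mem_eq_inter, Finset.inter_eq_right.2]
  intro x hx
  obtain ⟨y, κ, -, h2, rfl⟩ := P.mem_Nd.1 hx
  refine mem_lists.2 ⟨?_, fun _ _ => Finset.mem_univ _⟩
  rw [gm_lvl, List.length_cons, h2]; rfl

theorem gm_sum_blk {M : Type} [AddCommMonoid M] (i : ℤ) (φ : List P.F → M) :
    ∑ x ∈ lists Finset.univ (P.lvl i - 1), (if x ∈ P.Blk i then φ x else 0) =
      ∑ κ ∈ P.Blk i, φ κ := by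
  rw [← Finset.sum_filter, Finset.filter_mem_eq_inter, Finset.inter_eq_right.2]
  intro x hx
  refine mem_lists.2 ⟨?_, fun _ _ => Finset.mem_univ _⟩
  have := P.length_of_mem_Blk hx
  omega

theorem gm_pos (i : ℤ) : 0 < Real.sqrt ((P.node i).card * (P.node (i + 1)).card) := by
  have h1 : (0 : ℝ) < (P.node i).card := by exact_mod_cast (P.node_nonempty i).card_pos
  have h2 : (0 : ℝ) < (P.node (i + 1)).card := by exact_mod_cast (P.node_nonempty _).card_pos
  positivity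

theorem gm_coef (i : ℤ) : P.rho i / P.mb i * (P.ports i).card / (P.n : ℝ) ^ (P.lvl i - 1) =
    P.lam / Real.sqrt ((P.node i).card * (P.node (i + 1)).card) := by
  have h1 : (0 : ℝ) < P.n := by exact_mod_cast P.prime.pos
  have h3 : (0 : ℝ) < P.mb i := by exact_mod_cast P.gl_mb_pos i
  have h4 : (P.n : ℝ) ≤ 4 * (P.ports i).card := by exact_mod_cast (P.card_ports i).1
  have h5 : (0 : ℝ) < (P.ports i).card := by linarith
  have h6 := P.gm_pos i
  unfold rho kap
  field_simp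

theorem gm_err (i : ℤ) : P.rho i / P.mb i * (2 * Real.sqrt ((P.ports i).card * P.n)) *
    Real.sqrt (P.ms i) ≤ 16 * P.lam / Real.sqrt P.C := by
  have h1 : (0 : ℝ) < P.n := by exact_mod_cast P.prime.pos
  have h2 : (0 : ℝ) < P.C := by exact_mod_cast P.hC
  have h3 : (0 : ℝ) < P.mb i := by exact_mod_cast P.gl_mb_pos i
  have h4 : (P.n : ℝ) ≤ 4 * (P.ports i).card := by exact_mod_cast (P.card_ports i).1
  have h6 := P.gm_pos i
  have h7 := P.gm_coef i
  have h8 : (P.C : ℝ) ≤ P.mt i := by exact_mod_cast P.C_le_sz (P.tp i)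
  have h9 : (P.n : ℝ) ^ (P.lvl i - 1) ≤ 16 * (P.Blk i).card := by exact_mod_cast (P.card_Blk i).1
  have h10 : Real.sqrt ((P.node i).card * (P.node (i + 1)).card) ^ 2 =
      P.ms i * (P.Blk i).card * (P.mt i * (P.n : ℝ) ^ (P.lvl i - 1)) := by
    rw [Real.sq_sqrt (by positivity)]
    have := P.gl_card_pair i
    rw [(P.card_Blk i).2, P.card_node (P.tp i)] at this
    exact_mod_cast this
  have ha : 0 < P.rho i / P.mb i := div_pos (P.rho_mem i).1 h3
  have hl := P.lam_pos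
  have hnm : (0 : ℝ) < (P.n : ℝ) ^ (P.lvl i - 1) := by positivity
  rw [div_eq_div_iff hnm.ne' h6.ne'] at h7
  rw [le_div_iff₀ (Real.sqrt_pos.2 h2)]
  refine (pow_le_pow_iff_left₀ (by positivity) (by positivity) two_ne_zero).1 ?_
  rw [mul_pow, mul_pow, mul_pow, mul_pow, Real.sq_sqrt h2.le, Real.sq_sqrt (by positivity),
    Real.sq_sqrt (by positivity)]
  generalize P.rho i / P.mb i = a at *
  generalize Real.sqrt ((P.node i).card * (P.node (i + 1)).card) = S at *
  generalize (P.n : ℝ) ^ (P.lvl i - 1) = nm at *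
  have hms : (0 : ℝ) ≤ P.ms i := Nat.cast_nonneg _
  have hT : (0 : ℝ) < (P.ports i).card := by linarith
  refine le_of_mul_le_mul_right ?_ (show 0 < nm ^ 2 by positivity)
  have e : (16 * P.lam) ^ 2 * nm ^ 2 = 256 * (a * (P.ports i).card) ^ 2 * S ^ 2 := by
    calc (16 * P.lam) ^ 2 * nm ^ 2 = 256 * (P.lam * nm) ^ 2 := by ring
      _ = _ := by rw [← h7]; ring
  rw [e, h10]
  have k : P.n * P.C * nm ≤ (4 * (P.ports i).card) * P.mt i * (16 * (P.Blk i).card) :=
    mul_le_mul (mul_le_mul h4 h8 h2.le (by positivity)) h9 hnm.le (by positivity)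
  calc a ^ 2 * (2 ^ 2 * ((P.ports i).card * P.n)) * P.ms i * P.C * nm ^ 2
      = (4 * a ^ 2 * (P.ports i).card * P.ms i * nm) * (P.n * P.C * nm) := by ring
    _ ≤ (4 * a ^ 2 * (P.ports i).card * P.ms i * nm) *
        ((4 * (P.ports i).card) * P.mt i * (16 * (P.Blk i).card)) :=
        mul_le_mul_of_nonneg_left k (by positivity)
    _ = _ := by ring

/-- `mean_bound` with `T = ports i`, `m = lvl i - 1`, `f` extended by zero, `g⁺ κ = ∑_{W : ty W = κ} g W` (`sum_sub`, `‖g⁺‖² ≤ ms ‖g‖²`); the main term is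
`rho/mb · |T| (∑f)(∑g) / n^m = lam (∑f)(∑g)/√(|N||N'|)` by definition of `kap`; the error is
`lam · 2 √(n/|T|) · √(n^m/(|Blk| mt)) ≤ 16 lam / √C` (`card_ports`, `card_Blk`, `C_le_sz`). -/
theorem mean_pair (i : ℤ) (f g : P.V → ℂ) :
    ‖∑ U ∈ P.node (P.tp i), ∑ W ∈ P.node (P.sub i), f U * g W *
        (((P.rho i / P.mb i * ((P.ports i).filter fun t => tau (P.psi ω) t U.2 = P.ty W).card -
          P.lam / Real.sqrt ((P.node i).card * (P.node (i + 1)).card) : ℝ)) : ℂ)‖ ≤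
      16 * P.lam / Real.sqrt P.C * Real.sqrt (∑ U ∈ P.node (P.tp i), ‖f U‖ ^ 2) *
        Real.sqrt (∑ W ∈ P.node (P.sub i), ‖g W‖ ^ 2) := by
  have h3 : (0 : ℝ) < P.mb i := by exact_mod_cast P.gl_mb_pos i
  have ha : 0 < P.rho i / P.mb i := div_pos (P.rho_mem i).1 h3
  let g' : List P.F → ℂ := fun κ => ∑ x ∈ Finset.range (P.ms i),
    g (P.sub i, if P.cross i then κ else P.es i x :: κ)
  have hmb := mean_bound (P.psi ω) (P.ports i) (P.lvl i - 1)
    (fun x => if x ∈ P.Nd (P.tp i) then f (P.tp i, x) else 0)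
    (fun κ => if κ ∈ P.Blk i then g' κ else 0)
  have e1 : ∀ κ, (if κ ∈ P.Blk i then g' κ else 0) =
      ∑ W ∈ P.node (P.sub i), g W * if κ = P.ty W then 1 else 0 := by
    intro κ
    rw [sum_sub]
    simp only [gm_ty]
    simp only [← Finset.sum_mul]
    simp only [mul_ite, mul_one, mul_zero]
    rw [Finset.sum_ite_eq]
  have e2 : ∑ t ∈ P.ports i, ∑ x ∈ lists Finset.univ (P.lvl i - 1 + 1),
      (if x ∈ P.Nd (P.tp i) then f (P.tp i, x) else 0) *
        (if tau (P.psi ω) t x ∈ P.Blk i then g' (tau (P.psi ω) t x) else 0) =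
      ∑ U ∈ P.node (P.tp i), ∑ W ∈ P.node (P.sub i), f U * g W *
        (((P.ports i).filter fun t => tau (P.psi ω) t U.2 = P.ty W).card : ℂ) := by
    simp only [e1, ite_mul, zero_mul]
    rw [Finset.sum_congr rfl fun t _ => P.gm_sum_tp i fun U => f U *
      ∑ W ∈ P.node (P.sub i), g W * if tau (P.psi ω) t U.2 = P.ty W then 1 else 0,
      Finset.sum_comm]
    refine Finset.sum_congr rfl fun U _ => ?_
    simp only [Finset.mul_sum]
    rw [Finset.sum_comm]
    refine Finset.sum_congr rfl fun W _ => ?_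
    rw [Finset.card_filter]
    push_cast
    rw [Finset.mul_sum]
    exact Finset.sum_congr rfl fun t _ => by ring
  have e3 : ∑ x ∈ lists Finset.univ (P.lvl i - 1 + 1),
      ‖if x ∈ P.Nd (P.tp i) then f (P.tp i, x) else 0‖ ^ 2 = ∑ U ∈ P.node (P.tp i), ‖f U‖ ^ 2 := by
    rw [← P.gm_sum_tp i fun U => ‖f U‖ ^ 2]
    refine Finset.sum_congr rfl fun x _ => ?_
    split_ifs <;> simp
  have e4 : ∑ x ∈ lists Finset.univ (P.lvl i - 1), ‖if x ∈ P.Blk i then g' x else 0‖ ^ 2 ≤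
      P.ms i * ∑ W ∈ P.node (P.sub i), ‖g W‖ ^ 2 := by
    rw [Finset.sum_congr rfl (g := fun x => if x ∈ P.Blk i then ‖g' x‖ ^ 2 else 0)
      fun x _ => by split_ifs <;> simp, gm_sum_blk, sum_sub, Finset.mul_sum]
    refine Finset.sum_le_sum fun κ _ => ?_
    refine (pow_le_pow_left₀ (norm_nonneg _) (norm_sum_le _ _) 2).trans ?_
    refine sq_sum_le_card_mul_sum_sq.trans (le_of_eq ?_)
    rw [Finset.card_range]
  rw [e2, e3, gm_sum_tp, gm_sum_blk, ← sum_sub, ZMod.card] at hmb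
  have e5 : ∑ U ∈ P.node (P.tp i), ∑ W ∈ P.node (P.sub i), f U * g W *
      (((P.rho i / P.mb i * ((P.ports i).filter fun t => tau (P.psi ω) t U.2 = P.ty W).card -
        P.lam / Real.sqrt ((P.node i).card * (P.node (i + 1)).card) : ℝ)) : ℂ) =
      ((P.rho i / P.mb i : ℝ) : ℂ) * (∑ U ∈ P.node (P.tp i), ∑ W ∈ P.node (P.sub i), f U * g W *
        (((P.ports i).filter fun t => tau (P.psi ω) t U.2 = P.ty W).card : ℂ) -
        (P.ports i).card * (∑ U ∈ P.node (P.tp i), f U) * (∑ W ∈ P.node (P.sub i), g W) /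
          (P.n : ℂ) ^ (P.lvl i - 1)) := by
    rw [← P.gm_coef i, mul_assoc ((P.ports i).card : ℂ), Finset.sum_mul_sum]
    simp only [Finset.mul_sum, Finset.sum_div, ← Finset.sum_sub_distrib]
    refine Finset.sum_congr rfl fun U _ => Finset.sum_congr rfl fun W _ => ?_
    push_cast
    ring
  rw [e5, norm_mul, Complex.norm_real, Real.norm_of_nonneg ha.le]
  refine (mul_le_mul_of_nonneg_left hmb ha.le).trans ?_
  have e6 := Real.sqrt_le_sqrt e4
  rw [Real.sqrt_mul (Nat.cast_nonneg _)] at e6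
  have e7 := P.gm_err i
  have e8 := Real.sqrt_nonneg ((P.ports i).card * P.n : ℝ)
  have e9 := Real.sqrt_nonneg (∑ U ∈ P.node (P.tp i), ‖f U‖ ^ 2)
  have e10 := Real.sqrt_nonneg (∑ W ∈ P.node (P.sub i), ‖g W‖ ^ 2)
  exact gm_fin ha.le e8 e9 e10 e6 e7


open Classical in
theorem gm_bad (i : ℤ) (f : P.V → ℂ) :
    ‖∑ U ∈ P.node i, f U - ∑ U ∈ P.node i, (if P.Good ω U then f U else 0)‖ ≤
      Real.sqrt (3 / P.n) * Real.sqrt (P.node i).card * Real.sqrt (∑ U ∈ P.node i, ‖f U‖ ^ 2) := by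
  have h1 : (0 : ℝ) < P.n := by exact_mod_cast P.prime.pos
  have e : ∑ U ∈ P.node i, f U - ∑ U ∈ P.node i, (if P.Good ω U then f U else 0) =
      ∑ U ∈ (P.node i).filter fun U => ¬ P.Good ω U, f U := by
    rw [Finset.sum_filter, ← Finset.sum_sub_distrib]
    refine Finset.sum_congr rfl fun U _ => ?_
    by_cases h : P.Good ω U <;> simp [h]
  rw [e]
  refine (gm_cs _ _).trans (mul_le_mul ?_ (Real.sqrt_le_sqrt ?_) (Real.sqrt_nonneg _)
    (by positivity))
  · rw [← Real.sqrt_mul (by positivity)]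
    refine Real.sqrt_le_sqrt ?_
    rw [div_mul_eq_mul_div, le_div_iff₀ h1]
    exact_mod_cast P.card_bad_le i
  · exact Finset.sum_le_sum_of_subset_of_nonneg (Finset.filter_subset _ _)
      fun _ _ _ => sq_nonneg _

open Classical in
theorem gm_norm_le (s : Finset P.V) (f : P.V → ℂ) :
    Real.sqrt (∑ U ∈ s, ‖if P.Good ω U then f U else 0‖ ^ 2) ≤ Real.sqrt (∑ U ∈ s, ‖f U‖ ^ 2) := by
  refine Real.sqrt_le_sqrt (Finset.sum_le_sum fun U _ => ?_)
  split_ifs
  · exact le_rfl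
  · rw [norm_zero, zero_pow two_ne_zero]; positivity

open Classical in
/-- apply `mean_pair` to `1_Good f`, `1_Good g`; the rank-one term changes by at most `2 lam √(3/n)` (`card_bad_le`, Cauchy–Schwarz) -/
theorem mean_pair_good (i : ℤ) (f g : P.V → ℂ) :
    ‖∑ U ∈ P.node (P.tp i), ∑ W ∈ P.node (P.sub i), f U * g W *
        (((P.rho i / P.mb i * ((P.ports i).filter fun t => P.SameBlk ω i t U W).card -
          P.lam / Real.sqrt ((P.node i).card * (P.node (i + 1)).card) : ℝ)) : ℂ)‖ ≤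
      (16 * P.lam / Real.sqrt P.C + 2 * P.lam * Real.sqrt (3 / P.n)) *
        Real.sqrt (∑ U ∈ P.node (P.tp i), ‖f U‖ ^ 2) * Real.sqrt (∑ W ∈ P.node (P.sub i), ‖g W‖ ^ 2) := by
  have hl := P.lam_pos
  have h6 := P.gm_pos i
  have h1 := P.mean_pair ω i (fun U => if P.Good ω U then f U else 0)
    (fun W => if P.Good ω W then g W else 0)
  set c := P.lam / Real.sqrt ((P.node i).card * (P.node (i + 1)).card) with hc
  have hc0 : 0 < c := by positivity
  have hcS : c * (Real.sqrt (P.node (P.tp i)).card * Real.sqrt (P.node (P.sub i)).card) =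
      P.lam := by
    have : ((P.node (P.tp i)).card : ℝ) * (P.node (P.sub i)).card =
        (P.node i).card * (P.node (i + 1)).card := by
      have := P.gl_card_pair i
      rw [mul_comm (P.node (P.sub i)).card] at this
      exact_mod_cast this.symm
    rw [← Real.sqrt_mul (Nat.cast_nonneg _), this, hc, div_mul_cancel₀ _ h6.ne']
  have e : ∑ U ∈ P.node (P.tp i), ∑ W ∈ P.node (P.sub i), f U * g W *
        (((P.rho i / P.mb i * ((P.ports i).filter fun t => P.SameBlk ω i t U W).card -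
          c : ℝ)) : ℂ) =
      ∑ U ∈ P.node (P.tp i), ∑ W ∈ P.node (P.sub i),
        (if P.Good ω U then f U else 0) * (if P.Good ω W then g W else 0) *
        (((P.rho i / P.mb i * ((P.ports i).filter fun t => tau (P.psi ω) t U.2 = P.ty W).card -
          c : ℝ)) : ℂ) -
      (c : ℂ) * ((∑ U ∈ P.node (P.tp i), f U -
          ∑ U ∈ P.node (P.tp i), (if P.Good ω U then f U else 0)) * ∑ W ∈ P.node (P.sub i), g W +
        (∑ U ∈ P.node (P.tp i), (if P.Good ω U then f U else 0)) * (∑ W ∈ P.node (P.sub i), g W -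
          ∑ W ∈ P.node (P.sub i), (if P.Good ω W then g W else 0))) := by
    rw [show ∀ a b x y : ℂ, (a - b) * x + b * (x - y) = a * x - b * y from fun _ _ _ _ => by ring,
      Finset.sum_mul_sum, Finset.sum_mul_sum]
    simp only [Finset.mul_sum, ← Finset.sum_sub_distrib]
    refine Finset.sum_congr rfl fun U hU => Finset.sum_congr rfl fun W hW => ?_
    by_cases hg : P.Good ω U ∧ P.Good ω W
    · rw [if_pos hg.1, if_pos hg.2, Finset.filter_congr (q := fun t =>
        tau (P.psi ω) t U.2 = P.ty W) fun t ht => ⟨fun h => h.2.2.2.2.2,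
          fun h => ⟨ht, hU, hW, hg.1, hg.2, h⟩⟩]
      ring
    · have z : (if P.Good ω U then f U else 0) * (if P.Good ω W then g W else 0) = 0 := by
        split_ifs with a b
        · exact absurd ⟨a, b⟩ hg
        all_goals simp
      rw [z, Finset.filter_eq_empty_iff.2 fun t _ h => hg ⟨h.2.2.2.1, h.2.2.2.2.1⟩]
      push_cast
      simp [mul_comm]
  rw [e]
  have a1 := P.gm_bad ω (P.tp i) f
  have a2 := P.gm_bad ω (P.sub i) g
  have a3 := gm_cs (P.node (P.sub i)) g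
  have a4 := (gm_cs (P.node (P.tp i)) fun U => if P.Good ω U then f U else 0).trans
    (mul_le_mul_of_nonneg_left (P.gm_norm_le ω _ f) (Real.sqrt_nonneg _))
  have a0 : 0 ≤ 16 * P.lam / Real.sqrt P.C := by positivity
  have a5 := h1.trans (mul_le_mul (mul_le_mul_of_nonneg_left (P.gm_norm_le ω _ f) a0)
    (P.gm_norm_le ω _ g) (Real.sqrt_nonneg _) (mul_nonneg a0 (Real.sqrt_nonneg _)))
  exact gm_fin2 hc0.le (Real.sqrt_nonneg _) (Real.sqrt_nonneg _) (Real.sqrt_nonneg _) hcS a5 a1 a3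
    a4 a2


end Par
end Crest.Agent.R129
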