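import Crest.Agent.R129.TyDefs

/-! # Digit strings: basic facts and pieces (task R129/Ty). Statements frozen; add lemmas freely. -/

set_option autoImplicit false
open scoped BigOperators

namespace Crest.Agent.R129
variable {F : Type} [Field F] {ψ ψ' : F → List F → Equiv.Perm F}

theorem length_tau (t : F) (x : List F) : (tau ψ t x).length = x.length - 1 := by
  induction x using List.twoStepInduction with
  | nil => rfl
  | singleton => rfl
  | cons_cons β α κ ih _ =>
    cases κ with
    | nil => rfl
    | cons γ κ => simp only [tau, List.length_cons, ih]; omega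

theorem ty_cons_cons (t β α : F) (κ : List F) :
    tau ψ t (β :: α :: κ) = fib ψ t κ (ψ t κ (α + β * t)) := by
  cases κ <;> simp only [tau, fib]

theorem ty_fib_tau (t β : F) (x : List F)
    (h : ∀ α κ, x = α :: κ → ∀ y, tau ψ t (fib ψ t κ y) = κ) :
    fib ψ t (tau ψ t (β :: x)) β = β :: x := by
  cases x with
  | nil => rfl
  | cons α κ =>
    have h1 := h α κ rfl (ψ t κ (α + β * t))
    rw [ty_cons_cons]
    obtain ⟨r, hr⟩ : ∃ r, fib ψ t κ (ψ t κ (α + β * t)) = ψ t κ (α + β * t) :: r := by
      cases κ <;> exact ⟨_, rfl⟩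
    rw [hr] at h1 ⊢
    rw [fib, h1, Equiv.symm_apply_apply, add_sub_cancel_right]

theorem ty_tau_fib (t : F) (κ : List F) : ∀ β : F, tau ψ t (fib ψ t κ β) = κ := by
  induction κ using List.twoStepInduction with
  | nil => intro β; rfl
  | singleton γ =>
    intro β
    rw [fib, ty_cons_cons, sub_add_cancel, Equiv.apply_symm_apply]
    rfl
  | cons_cons γ α κ ih _ =>
    intro β
    rw [fib, ty_cons_cons, sub_add_cancel, Equiv.apply_symm_apply]
    refine ty_fib_tau t γ _ fun α' κ' e => ?_
    rw [← (List.cons.inj e).2]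
    exact ih

theorem tau_tau (t : F) (x : List F) : tau ψ t (tau ψ t x) = x.drop 2 := by
  match x with
  | [] => rfl
  | [_] => rfl
  | β :: α :: κ => rw [ty_cons_cons, ty_tau_fib]; rfl

theorem tau_drop (t : F) (x : List F) : (tau ψ t x).drop 2 = tau ψ t (x.drop 2) := by
  match x with
  | [] => rfl
  | [_] => rfl
  | [_, _] => rfl
  | β :: α :: γ :: κ => rw [tau]; rfl

theorem tau_drop_even (t : F) (x : List F) {r : ℕ} (hr : Even r) :
    (tau ψ t x).drop r = tau ψ t (x.drop r) := by
  obtain ⟨k, rfl⟩ := hr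
  induction k generalizing x with
  | zero => rfl
  | succ k ih =>
    rw [show k + 1 + (k + 1) = 2 + (k + k) by ring, ← List.drop_drop, tau_drop, ih,
      List.drop_drop]

theorem tau_cons_cons (t β α : F) (κ : List F) :
    tau ψ t (β :: α :: κ) = fib ψ t κ (ψ t κ (α + β * t)) := ty_cons_cons t β α κ

theorem length_fib (t : F) (κ : List F) (β : F) : (fib ψ t κ β).length = κ.length + 1 := by
  cases κ with
  | nil => rfl
  | cons γ κ => simp only [fib, List.length_cons, length_tau]; omega

theorem head_fib (t : F) (κ : List F) (β : F) : (fib ψ t κ β).head? = some β := by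
  cases κ <;> rfl

theorem tau_fib (t : F) (κ : List F) (β : F) : tau ψ t (fib ψ t κ β) = κ := ty_tau_fib t κ β

theorem fib_tau (t β : F) (x : List F) : fib ψ t (tau ψ t (β :: x)) β = β :: x := ty_fib_tau t β x fun _ κ _ => ty_tau_fib t κ

/-- locality in `ψ` -/
theorem tau_congr (t : F) (x : List F) (h : ∀ κ : List F, κ.length + 2 ≤ x.length → ψ t κ = ψ' t κ) :
    tau ψ t x = tau ψ' t x := by
  induction x using List.twoStepInduction with
  | nil => rfl
  | singleton => rfl
  | cons_cons β α κ ih _ =>
    cases κ with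
    | nil => rw [tau, tau, h [] le_rfl]
    | cons γ κ =>
      have h1 := ih fun κ' hκ' => h κ' (by simp only [List.length_cons] at hκ' ⊢; omega)
      rw [tau, tau, h (γ :: κ) le_rfl, ← h1, h (tau ψ t (γ :: κ))
        (by simp only [length_tau, List.length_cons]; omega)]

theorem length_tauL (u x : List F) : (tauL ψ u x).length = x.length - u.length := by
  induction u generalizing x with
  | nil => rfl
  | cons t u ih => rw [tauL, ih, length_tau, List.length_cons]; omega

theorem tauL_append (u u' x : List F) : tauL ψ (u ++ u') x = tauL ψ u' (tauL ψ u x) := by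
  induction u generalizing x with
  | nil => rfl
  | cons t u ih => rw [List.cons_append, tauL, tauL, ih]

theorem tauL_drop_even (u x : List F) {r : ℕ} (hr : Even r) :
    (tauL ψ u x).drop r = tauL ψ u (x.drop r) := by
  induction u generalizing x with
  | nil => rfl
  | cons t u ih => rw [tauL, tauL, ih, tau_drop_even t x hr]

theorem tauL_congr (u x : List F) (h : ∀ t (κ : List F), κ.length + 2 ≤ x.length → ψ t κ = ψ' t κ) :
    tauL ψ u x = tauL ψ' u x := by
  induction u generalizing x with
  | nil => rfl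
  | cons t u ih =>
    rw [tauL, tauL, ← tau_congr t x (h t)]
    exact ih _ fun t' κ hκ => h t' κ (by rw [length_tau] at hκ; omega)

theorem Spec_congr (G : ℕ) (x : List F)
    (h : ∀ t (κ : List F), κ.length + 2 ≤ x.length → ψ t κ = ψ' t κ) : Spec ψ G x ↔ Spec ψ' G x := by
  unfold Spec Spec0
  have : ∀ u, tauL ψ u (x.drop 2) = tauL ψ' u (x.drop 2) := fun u =>
    tauL_congr u _ fun t κ hκ => h t κ (by rw [List.length_drop] at hκ; omega)
  simp only [this]


theorem sum_fib [Fintype F] [DecidableEq F] {M : Type} [AddCommMonoid M] (t : F) (m : ℕ) (f : List F → M) :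
    ∑ x ∈ lists Finset.univ (m + 1), f x =
      ∑ κ ∈ lists Finset.univ m, ∑ β : F, f (fib ψ t κ β) := by
  rw [← Finset.sum_product']
  symm
  refine Finset.sum_bij' (fun p _ => fib ψ t p.1 p.2) (fun x _ => (tau ψ t x, x.headD 0))
    ?_ ?_ ?_ ?_ fun _ _ => rfl
  · intro p hp
    refine mem_lists.2 ⟨?_, fun _ _ => Finset.mem_univ _⟩
    rw [length_fib, (mem_lists.1 (Finset.mem_product.1 hp).1).1]
  · intro x hx
    refine Finset.mem_product.2 ⟨mem_lists.2 ⟨?_, fun _ _ => Finset.mem_univ _⟩, Finset.mem_univ _⟩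
    rw [length_tau, (mem_lists.1 hx).1]; rfl
  · intro p _
    refine Prod.ext (tau_fib _ _ _) ?_
    simp only [List.headD_eq_head?_getD, head_fib, Option.getD_some]
  · intro x hx
    cases x with
    | nil => simpa using (mem_lists.1 hx).1
    | cons β x => exact fib_tau t β x


theorem length_pre (x : List F) (m : ℕ) : (pre x m).length = m := by
  unfold pre
  split_ifs with h
  · rw [List.length_drop]; omega
  · rw [List.length_append, List.length_replicate]; omega

theorem pre_length (x : List F) : pre x x.length = x := by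
  simp [pre]

theorem ty_pre_of_le (x : List F) {m : ℕ} (h : x.length ≤ m) :
    pre x m = List.replicate (m - x.length) 0 ++ x := by
  unfold pre
  split_ifs with h'
  · rw [le_antisymm h' h]; simp
  · rfl

theorem tail_pre (x : List F) (m : ℕ) : (pre x (m + 1)).tail = pre x m := by
  by_cases h : m + 1 ≤ x.length
  · unfold pre
    rw [if_pos h, if_pos (by omega), List.tail_drop]
    congr 1; omega
  · rw [ty_pre_of_le x (by omega), ty_pre_of_le x (by omega),
      show m + 1 - x.length = (m - x.length) + 1 by omega, List.replicate_succ]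
    rfl

theorem drop_pre (x : List F) (m r : ℕ) : (pre x (m + r)).drop r = pre x m := by
  induction r with
  | zero => rfl
  | succ r ih => rw [← List.drop_tail, ← add_assoc, tail_pre, ih]

theorem pre_succ_of_le (x : List F) {m : ℕ} (h : x.length ≤ m) : pre x (m + 1) = 0 :: pre x m := by
  rw [ty_pre_of_le x h, ty_pre_of_le x (by omega),
    show m + 1 - x.length = (m - x.length) + 1 by omega, List.replicate_succ]
  rfl

theorem pre_pre (x : List F) {m k : ℕ} (h : k ≤ m) : pre (pre x m) k = pre x k := by
  obtain ⟨r, rfl⟩ := Nat.exists_eq_add_of_le h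
  rw [← drop_pre x k r]
  generalize hy : pre x (k + r) = y
  have hl : y.length = k + r := by rw [← hy, length_pre]
  unfold pre
  rw [if_pos (by omega), hl, Nat.add_sub_cancel_left]


theorem ty_spec {G : ℕ} {x u : List F} {r : ℕ} (hne : u ≠ []) (hc : u.IsChain (· ≠ ·))
    (hu : Even u.length) (hl : u.length + r ≤ G)
    (h : (tauL ψ u x).drop r = x.drop (u.length + r)) : Spec ψ G x := by
  refine ⟨u, hne, hc, hu, by omega, ?_⟩
  rw [← tauL_drop_even u x even_two, List.drop_drop, List.drop_drop,
    show 2 + (G - u.length) = r + (2 + G - u.length - r) by omega, ← List.drop_drop, h,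
    List.drop_drop]
  congr 1; omega

/-- Non-special strings: strong induction on `|u|`; if `u` has two equal neighbours cancel them (`tau_tau`, `pw_cancel`,
`r ↦ r + 2`), otherwise `u = []` or `x` is special. -/
theorem pw_eq_one_of_not_spec {G : ℕ} (hG : Even G) {x : List F} (hx : ¬ Spec ψ G x) (β : Bool)
    (u : List F) (r : ℕ) (hu : Even u.length) (hr : Even r) (hl : u.length + r ≤ G)
    (h : (tauL ψ u x).drop r = x.drop (u.length + r)) : pw β u = 1 := by
  induction hn : u.length using Nat.strong_induction_on generalizing u r with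
  | _ n ih =>
    by_cases hc : u.IsChain (· ≠ ·)
    · by_cases hne : u = []
      · rw [hne]; rfl
      · exact absurd (ty_spec hne hc hu hl h) hx
    · rw [List.isChain_iff_forall_rel_of_append_cons_cons] at hc
      push Not at hc
      obtain ⟨a, b, l₁, l₂, rfl, rfl⟩ := hc
      rw [pw_cancel]
      have e : (l₁ ++ a :: a :: l₂).length = (l₁ ++ l₂).length + 2 := by
        simp only [List.length_append, List.length_cons]; omega
      rw [e] at hu hl hn h
      refine ih _ (by omega) (l₁ ++ l₂) (r + 2) ((Nat.even_add.1 hu).2 even_two)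
        (hr.add even_two) (by omega) ?_ rfl
      rw [tauL_append, tauL, tauL, tau_tau, ← tauL_drop_even _ _ even_two, ← tauL_append,
        List.drop_drop] at h
      rw [add_comm r 2, h, add_assoc]


theorem not_chain_of_not_spec {G : ℕ} (hG : Even G) {x : List F} (hx : ¬ Spec ψ G x)
    {u : List F} (hne : u ≠ []) (hc : u.IsChain (· ≠ ·)) (hu : Even u.length) (hl : u.length ≤ G) :
    tauL ψ u x ≠ x.drop u.length := fun h =>
  hx (ty_spec (r := 0) hne hc hu hl h)


/-- Pieces.  `p s m`, `p' s m` are the level-`m` types at time `s`; the levels of time `s` are the `m` with `m + s + e` odd.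
Induction on `m`: for `m ≥ 2`, `p s m = β :: α :: κ`, `p' s m = β' :: α' :: κ` (level `m - 2` at time `s`), and level `m - 1` at times
`s ± 1` gives `ψ t κ (α + β t) = ψ t κ (α' + β' t)` for the two different ports `t (s-1) ≠ t s`. -/
theorem agree_of_common (p p' : ℕ → ℕ → List F) (t : ℕ → F) (ℓ e : ℕ) (hℓ : 0 < ℓ)
    (hlen : ∀ s m, (p s m).length = m ∧ (p' s m).length = m)
    (hdrop : ∀ s m, (p s (m + 2)).drop 2 = p s m ∧ (p' s (m + 2)).drop 2 = p' s m)
    (hnb : ∀ s, s + 1 < ℓ → t s ≠ t (s + 1))
    (hf : ∀ s m, s < ℓ → Odd (m + 1 + s + e) →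
      tau ψ (t s) (p s (m + 1)) = p (s + 1) m ∧ tau ψ (t s) (p' s (m + 1)) = p' (s + 1) m)
    (hb : ∀ s m, s < ℓ → Even (m + 1 + s + e) →
      tau ψ (t s) (p (s + 1) (m + 1)) = p s m ∧ tau ψ (t s) (p' (s + 1) (m + 1)) = p' s m)
    (hz : ∀ s, s ≤ ℓ → Even (s + e) → p s 1 = p' s 1) :
    ∀ m s, s ≤ ℓ → Odd (m + s + e) → m ≤ s + 1 → m + s ≤ ℓ + 1 → p s m = p' s m := by
  intro m
  induction m using Nat.strong_induction_on with
  | _ m ih =>
    intro s hs ho h1 h2
    match m with
    | 0 => rw [List.length_eq_zero_iff.1 (hlen s 0).1, List.length_eq_zero_iff.1 (hlen s 0).2]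
    | 1 =>
      refine hz s hs ?_
      rw [Nat.odd_iff] at ho
      rw [Nat.even_iff]; omega
    | k + 2 =>
      obtain ⟨s, rfl⟩ : ∃ s', s = s' + 1 := ⟨s - 1, by omega⟩
      rw [Nat.odd_iff] at ho
      have a0 := ih k (by omega) (s + 1) hs (by rw [Nat.odd_iff]; omega) (by omega) (by omega)
      have a1 := ih (k + 1) (by omega) (s + 1 + 1) (by omega) (by rw [Nat.odd_iff]; omega)
        (by omega) (by omega)
      have a2 := ih (k + 1) (by omega) s (by omega) (by rw [Nat.odd_iff]; omega)
        (by omega) (by omega)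
      obtain ⟨b1, b1'⟩ := hf (s + 1) (k + 1) (by omega) (by rw [Nat.odd_iff]; omega)
      obtain ⟨b2, b2'⟩ := hb s (k + 1) (by omega) (by rw [Nat.even_iff]; omega)
      obtain ⟨c1, c1'⟩ := hdrop (s + 1) k
      obtain ⟨d1, d1'⟩ := hlen (s + 1) (k + 2)
      rw [← b1, ← b1'] at a1
      rw [← b2, ← b2'] at a2
      rw [← c1, ← c1'] at a0
      change tau ψ _ (p (s + 1) (k + 2)) = tau ψ _ (p' (s + 1) (k + 2)) at a1 a2
      generalize p (s + 1) (k + 2) = y at a0 a1 a2 d1
      generalize p' (s + 1) (k + 2) = y' at a0 a1 a2 d1'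
      match y, y', d1, d1' with
      | β :: α :: κ, β' :: α' :: κ', _, _ =>
        have hκ : κ = κ' := a0
        subst hκ
        rw [tau_cons_cons, tau_cons_cons] at a1 a2
        have e1 := congrArg List.head? a1
        have e2 := congrArg List.head? a2
        rw [head_fib, head_fib, Option.some_inj, Equiv.apply_eq_iff_eq] at e1 e2
        have hne := hnb s (by omega)
        have e3 : (β - β') * (t s - t (s + 1)) = 0 := by linear_combination e2 - e1
        have e4 : β = β' := sub_eq_zero.1 ((mul_eq_zero.1 e3).resolve_right (sub_ne_zero.2 hne))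
        subst e4
        rw [add_right_cancel e1]


theorem extP_spec {α : Type} [Finite α] {Rl : α → α → Prop}
    (h₁ : ∀ γ β β', Rl γ β → Rl γ β' → β = β') (h₂ : ∀ γ γ' β, Rl γ β → Rl γ' β → γ = γ')
    {γ β : α} (h : Rl γ β) : extP Rl γ = β := by
  have hex : ∃ σ : Equiv.Perm α, ∀ γ β, Rl γ β → σ γ = β := by
    obtain ⟨σ, hσ⟩ := Equiv.Perm.exists_extending_pair (α := {p : α × α // Rl p.1 p.2})
      (f := fun p => p.1.1) (g := fun p => p.1.2)
      (fun p q e => Subtype.ext (Prod.ext e (h₁ _ _ _ p.2 (by
        have e' : p.1.1 = q.1.1 := e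
        rw [e']; exact q.2))))
      (fun p q e => Subtype.ext (Prod.ext (h₂ _ _ _ p.2 (by
        have e' : p.1.2 = q.1.2 := e
        rw [e']; exact q.2)) e))
    exact ⟨σ, fun γ β h => hσ ⟨(γ, β), h⟩⟩
  unfold extP
  rw [dif_pos hex]
  exact hex.choose_spec γ β h


end Crest.Agent.R129
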