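import Crest.Agent.R129.GDefs
import Crest.Agent.R129.Ty

/-! # Arithmetic of nodes and pairs, laws (task R129/GNode). Statements frozen; add lemmas freely. -/

set_option autoImplicit false
open scoped BigOperators

namespace Crest.Agent.R129
namespace Par
variable (P : Par)

theorem J_pos : 0 < P.J := by have := P.hJ; omega

theorem mod_lt (i : ℤ) : pos i % P.J < P.J := Nat.mod_lt _ P.J_pos

theorem sz_pos (i : ℤ) : 0 < P.sz i := by
  have := P.hC
  unfold sz; positivity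

theorem C_le_sz (i : ℤ) : P.C ≤ P.sz i := by
  exact Nat.le_mul_of_pos_right _ (by positivity)

theorem sz_le (i : ℤ) : 8 * P.sz i ≤ P.n := by
  refine le_trans ?_ P.lo_n
  have h : 2 ^ (pos i % P.J + 3) ≤ 2 ^ (P.J + 2) :=
    Nat.pow_le_pow_right (by norm_num) (by have := P.mod_lt i; omega)
  calc 8 * P.sz i = P.C * 2 ^ (pos i % P.J + 3) := by unfold sz; ring
    _ ≤ _ := Nat.mul_le_mul_left _ h

theorem cast_inj {a b : ℕ} (ha : a < P.n) (hb : b < P.n) (h : (a : P.F) = (b : P.F)) : a = b := by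
  have := congrArg ZMod.val h
  rwa [ZMod.val_cast_of_lt ha, ZMod.val_cast_of_lt hb] at this

theorem cast_ne_zero {a : ℕ} (h0 : 0 < a) (ha : a < P.n) : (a : P.F) ≠ 0 := fun h =>
  h0.ne' (P.cast_inj ha (h0.trans ha) (by rw [h, Nat.cast_zero]))

theorem em_inj (i : ℤ) {x y : ℕ} (hx : x < P.sz i) (hy : y < P.sz i) (h : P.em i x = P.em i y) : x = y := by
  have h1 := P.sz_le i
  unfold em at h
  have : P.sz i + x = P.sz i + y := by
    split_ifs at h
    · exact P.cast_inj (by omega) (by omega) h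
    · exact P.cast_inj (by omega) (by omega) (neg_injective h)
  omega

theorem em_ne_zero (i : ℤ) {x : ℕ} (hx : x < P.sz i) : P.em i x ≠ 0 := by
  have h1 := P.sz_le i
  have := P.cast_ne_zero (a := P.sz i + x) (by omega) (by omega)
  unfold em
  split_ifs
  · exact this
  · exact neg_ne_zero.2 this

theorem mod_le_of {i i' : ℤ} {x y : ℕ} (hx : x < P.sz i) (e : P.sz i + x = P.sz i' + y) :
    pos i' % P.J ≤ pos i % P.J := by
  by_contra hc
  have h : 2 ^ (pos i % P.J + 1) ≤ 2 ^ (pos i' % P.J) :=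
    Nat.pow_le_pow_right (by norm_num) (by omega)
  have h2 : 2 * P.sz i ≤ P.sz i' := by
    calc 2 * P.sz i = P.C * 2 ^ (pos i % P.J + 1) := by unfold sz; ring
      _ ≤ _ := Nat.mul_le_mul_left _ h
  omega

/-- the intervals `±[C 2^a, C 2^(a+1))` are disjoint in `ZMod n`; stage, `a` and the sign determine `i` -/
theorem eq_of_em_eq {i i' : ℤ} {x y : ℕ} (hs : P.stg i = P.stg i') (hx : x < P.sz i) (hy : y < P.sz i')
    (h : P.em i x = P.em i' y) : i = i' := by
  have h1 := P.sz_le i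
  have h2 := P.sz_le i'
  have key : P.sz i + x = P.sz i' + y → pos i = pos i' := by
    intro e
    have a1 := P.mod_le_of hx e
    have a2 := P.mod_le_of hy e.symm
    have a3 : pos i / P.J = pos i' / P.J := by unfold stg at hs; omega
    rw [← Nat.div_add_mod (pos i) P.J, ← Nat.div_add_mod (pos i') P.J, a3, le_antisymm a2 a1]
  have opp : ((P.sz i + x : ℕ) : P.F) + ((P.sz i' + y : ℕ) : P.F) ≠ 0 := by
    rw [← Nat.cast_add]
    exact P.cast_ne_zero (by omega) (by omega)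
  unfold em at h
  split_ifs at h with c1 c2 c2
  · have := key (P.cast_inj (by omega) (by omega) h)
    unfold pos at this; omega
  · exact (opp (by rw [h, neg_add_cancel])).elim
  · exact (opp (by rw [← h, add_neg_cancel])).elim
  · have := key (P.cast_inj (by omega) (by omega) (neg_injective h))
    unfold pos at this; omega

theorem card_Gs (i : ℤ) : (P.Gs i).card = P.sz i := by
  rw [Gs, Finset.card_image_of_injOn, Finset.card_range]
  intro x hx y hy h
  exact P.em_inj i (by simpa using hx) (by simpa using hy) h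

theorem one_le_stg (i : ℤ) : 1 ≤ P.stg i := by
  have := P.hj
  exact le_trans (by omega) (Nat.le_add_right P.j₀ _)

theorem mem_Nd {i : ℤ} {x : List P.F} : x ∈ P.Nd i ↔
    ∃ y κ, y < P.sz i ∧ κ.length + 1 = P.stg i ∧ x = P.em i y :: κ := by
  have := P.one_le_stg i
  simp only [Nd, Gs, Finset.mem_image, Finset.mem_product, Finset.mem_range, mem_lists,
    Finset.mem_univ, implies_true, and_true]
  constructor
  · rintro ⟨⟨_, κ⟩, ⟨⟨y, hy, rfl⟩, h⟩, rfl⟩
    exact ⟨y, κ, hy, by simp only at h; omega, rfl⟩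
  · rintro ⟨y, κ, hy, h, rfl⟩
    exact ⟨(_, κ), ⟨⟨y, hy, rfl⟩, by simp only; omega⟩, rfl⟩

theorem mem_node {i : ℤ} {v : P.V} : v ∈ P.node i ↔ v.1 = i ∧ v.2 ∈ P.Nd i := by
  simp only [node, Finset.mem_image]
  constructor
  · rintro ⟨x, hx, rfl⟩; exact ⟨rfl, hx⟩
  · rintro ⟨rfl, h⟩; exact ⟨v.2, h, rfl⟩

theorem card_Nd (i : ℤ) : (P.Nd i).card = P.sz i * P.n ^ (P.stg i - 1) := by
  rw [Nd, Finset.card_image_of_injective, Finset.card_product, card_Gs, card_lists,
    Finset.card_univ, ZMod.card]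
  intro p q h
  exact Prod.ext (List.cons.inj h).1 (List.cons.inj h).2

theorem card_node (i : ℤ) : (P.node i).card = P.sz i * P.n ^ (P.stg i - 1) := by
  rw [node, Finset.card_image_of_injective _ (Prod.mk_right_injective i), card_Nd]

theorem node_nonempty (i : ℤ) : (P.node i).Nonempty := by
  rw [← Finset.card_pos, card_node]
  exact Nat.mul_pos (P.sz_pos i) (pow_pos P.prime.pos _)

theorem node_disjoint (i j : ℤ) (h : i ≠ j) : Disjoint (P.node i) (P.node j) := by
  refine Finset.disjoint_left.2 fun v h1 h2 => h ?_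
  rw [← (P.mem_node.1 h1).1, (P.mem_node.1 h2).1]

theorem sum_node' {M : Type} [AddCommMonoid M] (i : ℤ) (f : P.V → M) :
    ∑ v ∈ P.node i, f v = ∑ x ∈ P.Nd i, f (i, x) := by
  rw [node, Finset.sum_image fun x _ y _ h => Prod.mk_right_injective i h]

theorem sum_node {M : Type} [AddCommMonoid M] (i : ℤ) (f : P.V → M) : ∑ v ∈ P.node i, f v =
    ∑ y ∈ Finset.range (P.sz i), ∑ κ ∈ lists Finset.univ (P.stg i - 1), f (i, P.em i y :: κ) := by
  rw [sum_node', Nd, Finset.sum_image, Finset.sum_product, Gs, Finset.sum_image]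
  · intro x hx y hy h
    exact P.em_inj i (by simpa using hx) (by simpa using hy) h
  · intro p _ q _ h
    exact Prod.ext (List.cons.inj h).1 (List.cons.inj h).2

theorem j₀_le_stg (i : ℤ) : P.j₀ ≤ P.stg i := by
  exact Nat.le_add_right _ _

theorem natAbs_le (i : ℤ) : i.natAbs + 1 ≤ P.J * (P.stg i - P.j₀ + 1) := by
  have h1 := Nat.div_add_mod (pos i) P.J
  have h2 := P.mod_lt i
  rw [stg, Nat.add_sub_cancel_left, Nat.mul_add, Nat.mul_one]
  change pos i ≤ _
  omega

theorem pos_hi (i : ℤ) : pos (hi i) = pos (lo i) + 1 := by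
  unfold pos hi lo
  split_ifs <;> omega

theorem sub_tp (i : ℤ) : (P.sub i = i ∧ P.tp i = i + 1) ∨ (P.sub i = i + 1 ∧ P.tp i = i) := by
  unfold sub tp hi lo
  split_ifs <;> simp

theorem hi_of_cross {i : ℤ} (h : P.cross i) :
    pos (hi i) % P.J = 0 ∧ pos (hi i) / P.J = pos (lo i) / P.J + 1 := by
  have h0 := P.J_pos
  have h1 := Nat.div_add_mod (pos (lo i)) P.J
  have e : pos (hi i) = P.J * (pos (lo i) / P.J + 1) := by
    rw [pos_hi, Nat.mul_add]; unfold cross at h; omega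
  rw [e, Nat.mul_mod_right, Nat.mul_div_cancel_left _ h0]
  exact ⟨rfl, rfl⟩

theorem hi_of_not_cross {i : ℤ} (h : ¬ P.cross i) :
    pos (hi i) % P.J = pos (lo i) % P.J + 1 ∧ pos (hi i) / P.J = pos (lo i) / P.J := by
  have h0 := P.J_pos
  have h1 := Nat.div_add_mod (pos (lo i)) P.J
  have h2 := P.mod_lt (lo i)
  have h3 : pos (lo i) % P.J + 1 < P.J := by unfold cross at h; omega
  have e : pos (hi i) = pos (lo i) % P.J + 1 + P.J * (pos (lo i) / P.J) := by
    rw [pos_hi]; omega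
  rw [e, Nat.add_mul_mod_self_left, Nat.add_mul_div_left _ _ h0, Nat.mod_eq_of_lt h3,
    Nat.div_eq_of_lt h3, Nat.zero_add]
  exact ⟨rfl, rfl⟩

theorem top_tp (i : ℤ) : P.top (P.tp i) := by
  unfold tp
  split_ifs with h1 h2
  · rw [top, (P.hi_of_cross h1).1]; exact Even.zero
  · exact h2
  · rw [top, (P.hi_of_not_cross h1).1, Nat.even_add_one]; exact h2

theorem of_cross {i : ℤ} (h : P.cross i) : P.sub i = lo i ∧ P.top (P.sub i) ∧
    P.stg (P.sub i) + 1 = P.lvl i ∧ P.mt i = P.C ∧ P.n ≤ 16 * P.sz (P.sub i) := by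
  obtain ⟨h1, h2⟩ := P.hi_of_cross h
  have h0 := P.J_pos
  have e1 : P.sub i = lo i := if_pos h
  have e2 : P.tp i = hi i := if_pos h
  have h3 : pos (lo i) % P.J = P.J - 1 := h
  refine ⟨e1, ?_, ?_, ?_, ?_⟩
  · rw [e1, top, h3]
    exact Nat.Odd.sub_odd P.oddJ odd_one
  · rw [e1, lvl, e2, stg, stg, h2, add_assoc]
  · rw [mt, e2, sz, h1, pow_zero, mul_one]
  · rw [e1, sz, h3]
    refine P.hi_n.trans_eq ?_
    rw [show P.J + 3 = P.J - 1 + 4 by omega]; ring

theorem of_not_cross {i : ℤ} (h : ¬ P.cross i) : ¬ P.top (P.sub i) ∧ P.stg (P.sub i) = P.lvl i ∧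
    (P.ms i = 2 * P.mt i ∨ P.mt i = 2 * P.ms i) := by
  obtain ⟨h1, h2⟩ := P.hi_of_not_cross h
  have e0 : P.ms i = P.sz (P.sub i) := if_neg h
  rw [e0, mt, lvl]
  unfold sub tp
  rw [if_neg h, if_neg h]
  split_ifs with h3
  · refine ⟨?_, by rw [stg, stg, h2], Or.inl (by rw [sz, sz, h1]; ring)⟩
    rw [top, h1, Nat.even_add_one]; exact not_not.2 h3
  · exact ⟨h3, by rw [stg, stg, h2], Or.inr (by rw [sz, sz, h1]; ring)⟩

theorem stg_lo_le (i : ℤ) : P.stg (lo i) ≤ P.stg i ∧ P.stg (lo i) ≤ P.stg (i + 1) ∧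
    P.stg i ≤ P.stg (lo i) + 1 ∧ P.stg (i + 1) ≤ P.stg (lo i) + 1 := by
  have h : P.stg (lo i) ≤ P.stg (hi i) ∧ P.stg (hi i) ≤ P.stg (lo i) + 1 := by
    unfold stg
    by_cases h : P.cross i
    · rw [(P.hi_of_cross h).2]; omega
    · rw [(P.hi_of_not_cross h).2]; omega
  unfold lo hi at *
  split_ifs at h ⊢ <;> omega

/-- `H`-nodes (even `i`) have odd levels -/
theorem parity (i : ℤ) : Even i ↔ (P.top i ↔ Odd (P.stg i)) := by
  have h1 := Nat.div_add_mod (pos i) P.J
  obtain ⟨k, hk⟩ := P.oddJ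
  obtain ⟨l, hl⟩ := P.evj
  rw [top, stg, ← Int.natAbs_even, hl]
  generalize pos i % P.J = a at *
  generalize pos i / P.J = q at *
  rw [hk, Nat.add_mul, Nat.mul_assoc, pos] at h1
  simp only [Nat.even_iff, Nat.odd_iff]
  omega

theorem length_ty {v : P.V} (hv : v ∈ P.node v.1) :
    (Even v.1 ↔ Odd (P.ty v).length) ∧ P.ty v = pre v.2 (P.ty v).length ∧
      (P.ty v).length ≤ P.stg v.1 ∧ P.stg v.1 ≤ (P.ty v).length + 1 := by
  obtain ⟨y, κ, -, h1, h2⟩ := P.mem_Nd.1 (P.mem_node.1 hv).2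
  have hp := P.parity v.1
  unfold ty
  split_ifs with h
  · have e : v.2.length = P.stg v.1 := by rw [h2, List.length_cons, h1]
    refine ⟨?_, (pre_length _).symm, e.le, by omega⟩
    rw [hp, e]; simp [h]
  · rw [h2, List.tail_cons]
    refine ⟨?_, ?_, by omega, by omega⟩
    · rw [hp, ← h1, Nat.odd_add_one]; simp [h]
    · simp [pre]

theorem ty_mem_Blk {i : ℤ} {W : P.V} (hW : W ∈ P.node (P.sub i)) : P.ty W ∈ P.Blk i := by
  obtain ⟨e, hW2⟩ := P.mem_node.1 hW
  unfold ty Blk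
  rw [e]
  by_cases h : P.cross i
  · obtain ⟨h1, h2, -⟩ := P.of_cross h
    rw [if_pos h, if_pos h2, ← h1]; exact hW2
  · obtain ⟨h1, h2, -⟩ := P.of_not_cross h
    obtain ⟨y, κ, -, h3, h4⟩ := P.mem_Nd.1 hW2
    rw [if_neg h, if_neg h1, h4, List.tail_cons, mem_lists]
    exact ⟨by omega, fun _ _ => Finset.mem_univ _⟩

theorem length_of_mem_Blk {i : ℤ} {κ : List P.F} (h : κ ∈ P.Blk i) : κ.length + 1 = P.lvl i := by
  unfold Blk at h
  split_ifs at h with c
  · obtain ⟨h1, -, h2, -⟩ := P.of_cross c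
    obtain ⟨y, κ', -, h3, rfl⟩ := P.mem_Nd.1 h
    rw [List.length_cons, h3, ← h2, h1]
  · have := P.one_le_stg (P.tp i)
    rw [(mem_lists.1 h).1, lvl]; omega

/-- the block side is `Blk i × range (ms i)` -/
theorem sum_sub {M : Type} [AddCommMonoid M] (i : ℤ) (f : P.V → M) : ∑ W ∈ P.node (P.sub i), f W =
    ∑ κ ∈ P.Blk i, ∑ x ∈ Finset.range (P.ms i),
      f (P.sub i, if P.cross i then κ else P.es i x :: κ) := by
  unfold Blk ms es
  by_cases h : P.cross i
  · simp only [if_pos h, Finset.sum_range_one]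
    rw [sum_node', (P.of_cross h).1]
  · simp only [if_neg h]
    rw [sum_node, Finset.sum_comm, (P.of_not_cross h).2.1]

theorem card_Blk (i : ℤ) : P.n ^ (P.lvl i - 1) ≤ 16 * (P.Blk i).card ∧
    (P.node (P.sub i)).card = P.ms i * (P.Blk i).card := by
  refine ⟨?_, ?_⟩
  · unfold Blk
    split_ifs with h
    · obtain ⟨h1, -, h2, -, h3⟩ := P.of_cross h
      have := P.one_le_stg (lo i)
      rw [h1] at h2 h3
      rw [card_Nd, ← Nat.mul_assoc, show P.lvl i - 1 = P.stg (lo i) - 1 + 1 by omega, pow_succ']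
      exact Nat.mul_le_mul_right _ h3
    · rw [card_lists, Finset.card_univ, ZMod.card]; omega
  · rw [Finset.card_eq_sum_ones, sum_sub]
    simp [mul_comm]

theorem es_inj (i : ℤ) {x y : ℕ} (hx : x < P.ms i) (hy : y < P.ms i) (h : P.es i x = P.es i y) : x = y := by
  unfold ms at hx hy
  unfold es at h
  split_ifs at hx hy h
  · omega
  · exact P.em_inj _ hx hy h

theorem six_mem {i : ℤ} {W : P.V} (hW : W ∈ P.node (P.sub i)) : ∃ x, x < P.ms i ∧ P.six i W.2 = P.es i x := by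
  unfold ms six es
  split_ifs
  · exact ⟨0, one_pos, rfl⟩
  · obtain ⟨y, κ, h1, -, h2⟩ := P.mem_Nd.1 (P.mem_node.1 hW).2
    exact ⟨y, h1, by rw [h2]; rfl⟩

theorem eq_of_six {i : ℤ} {W W' : P.V} (hW : W ∈ P.node (P.sub i)) (hW' : W' ∈ P.node (P.sub i))
    (h : P.ty W = P.ty W') (h' : P.six i W.2 = P.six i W'.2) : W = W' := by
  obtain ⟨e, hW2⟩ := P.mem_node.1 hW
  obtain ⟨e', hW2'⟩ := P.mem_node.1 hW'
  refine Prod.ext (e.trans e'.symm) ?_
  unfold ty at h
  unfold six at h'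
  rw [e, e'] at h
  by_cases c : P.cross i
  · simpa only [if_pos (P.of_cross c).2.1] using h
  · obtain ⟨y, κ, -, -, h2⟩ := P.mem_Nd.1 hW2
    obtain ⟨y', κ', -, -, h2'⟩ := P.mem_Nd.1 hW2'
    simp only [if_neg (P.of_not_cross c).1, if_neg c, h2, h2', List.tail_cons, List.headD_cons]
      at h h'
    rw [h2, h2', h, h']

end Par
end Crest.Agent.R129
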