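import Crest.Agent.R129.GMean
import Crest.Agent.R129.WQ

/-! # The operator inequality (task R129/GOp). Statements frozen. -/

set_option autoImplicit false
set_option linter.unusedSectionVars false
open scoped BigOperators

namespace Crest.Agent.R129

theorem gop_schur {A V : Type} [Group A] (h : V → V → A → ℂ) (N : Finset V)
    (hN : ∀ u w f, h u w f ≠ 0 → u ∈ N ∧ w ∈ N) (c : ℝ) (hc0 : 0 ≤ c)
    (hc : ∀ u w (s : Finset A), ∑ f ∈ s, ‖h u w f‖ ≤ c) (p q : A × V) :
    mat (kop fun p q : A × V => h p.2 q.2 (p.1 * q.1⁻¹)) p q = h p.2 q.2 (p.1 * q.1⁻¹) := by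
  classical
  have key : ∀ (g : A × V → ℂ) (s : Finset (A × V)), (∀ x, g x ≠ 0 → x.2 ∈ N) →
      (∀ w (s' : Finset A), ∑ a ∈ s', ‖g (a, w)‖ ≤ c) → ∑ x ∈ s, ‖g x‖ ≤ N.card * c := by
    intro g s h1 h2
    calc ∑ x ∈ s, ‖g x‖ = ∑ x ∈ s.filter (fun x => x.2 ∈ N), ‖g x‖ := by
          symm
          refine Finset.sum_subset (Finset.filter_subset _ _) fun x hx hx' => ?_
          by_contra hne
          exact hx' (Finset.mem_filter.2 ⟨hx, h1 x fun h0 => hne (by rw [h0, norm_zero])⟩)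
      _ ≤ ∑ x ∈ (s.image Prod.fst) ×ˢ N, ‖g x‖ := by
          refine Finset.sum_le_sum_of_subset_of_nonneg (fun x hx => ?_) fun _ _ _ => norm_nonneg _
          obtain ⟨h3, h4⟩ := Finset.mem_filter.1 hx
          exact Finset.mem_product.2 ⟨Finset.mem_image_of_mem _ h3, h4⟩
      _ = ∑ w ∈ N, ∑ a ∈ s.image Prod.fst, ‖g (a, w)‖ := Finset.sum_product_right _ _ _
      _ ≤ ∑ _w ∈ N, c := Finset.sum_le_sum fun w _ => h2 w _
      _ = _ := by simp
  refine (schur₁ _ (N.card * c) (N.card * c) (by positivity) (by positivity) ?_ ?_).1 p q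
  · intro p s
    refine key (fun q => h p.2 q.2 (p.1 * q.1⁻¹)) s (fun x hx => (hN _ _ _ hx).2) fun w s' => ?_
    have := hc p.2 w (s'.image fun a => p.1 * a⁻¹)
    rwa [Finset.sum_image fun a _ b _ hab => inv_injective (mul_left_cancel hab)] at this
  · intro q s
    refine key (fun p => h p.2 q.2 (p.1 * q.1⁻¹)) s (fun x hx => (hN _ _ _ hx).1) fun w s' => ?_
    have := hc w q.2 (s'.image fun a => a * q.1⁻¹)
    rwa [Finset.sum_image fun a _ b _ hab => mul_right_cancel hab] at this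

theorem gop_blocks {I J C : Type} (T : L2 I →L[ℂ] L2 J) (c : I → C) (c' : J → C)
    (Tx : C → L2 I →L[ℂ] L2 J) (a : ℝ) (ha : 0 ≤ a)
    (hT : ∀ j i, mat T j i ≠ 0 → c' j = c i)
    (he : ∀ j i, c' j = c i → mat T j i = mat (Tx (c i)) j i) (hb : ∀ x, ‖Tx x‖ ≤ a) :
    ‖T‖ ≤ a := by
  classical
  refine norm_le_of_blocks T c c' hT a ha fun x ξ hξ => ?_
  have e : T ξ = prj {j | c' j = x} (Tx x ξ) := by
    ext j
    rw [prj_apply]
    refine (hasSum_apply T ξ j).unique ?_
    by_cases hj : j ∈ {j | c' j = x}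
    · rw [if_pos hj]
      have e1 : (fun i => mat T j i * (ξ : I → ℂ) i) = fun i => mat (Tx x) j i * (ξ : I → ℂ) i := by
        funext i
        by_cases h0 : (ξ : I → ℂ) i = 0
        · rw [h0, mul_zero, mul_zero]
        · have := hξ i h0
          rw [he j i (Eq.trans hj this.symm), this]
      rw [e1]
      exact hasSum_apply _ _ _
    · rw [if_neg hj]
      have e1 : (fun i => mat T j i * (ξ : I → ℂ) i) = fun _ => 0 := by
        funext i
        by_cases h0 : (ξ : I → ℂ) i = 0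
        · rw [h0, mul_zero]
        · by_cases h1 : mat T j i = 0
          · rw [h1, zero_mul]
          · exact absurd ((hT j i h1).trans (hξ i h0)) hj
      rw [e1]
      exact hasSum_zero
  rw [e]
  calc ‖prj {j | c' j = x} (Tx x ξ)‖ ≤ ‖prj {j | c' j = x}‖ * ‖Tx x ξ‖ :=
        ContinuousLinearMap.le_opNorm _ _
    _ ≤ 1 * (a * ‖ξ‖) := mul_le_mul (norm_prj_le _)
        (((Tx x).le_opNorm ξ).trans (mul_le_mul_of_nonneg_right (hb x) (norm_nonneg _)))
        (norm_nonneg _) zero_le_one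
    _ = _ := one_mul _

/-- a bidiagonal operator is the sum of two block diagonal ones -/
theorem gop_split {I : Type} (Z : L2 I →L[ℂ] L2 I) (d : I → ℤ) (Zx : ℤ → L2 I →L[ℂ] L2 I)
    (b : ℝ) (hb0 : 0 ≤ b) (hb : ∀ x, ‖Zx x‖ ≤ b)
    (hs : ∀ p q, mat Z p q ≠ 0 → Even (d p) ∧ (d q = d p + 1 ∨ d q + 1 = d p))
    (h1 : ∀ p q, d q = d p + 1 → mat Z p q = mat (Zx (d p)) p q)
    (h2 : ∀ p q, d q + 1 = d p → mat Z p q = mat (Zx (d q)) p q) : ‖Z‖ ≤ 2 * b := by
  classical
  set Z₀ := prj {p | d p % 4 = 0} ∘L Z ∘L prj {p | d p % 4 = 1}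
    + prj {p | d p % 4 = 2} ∘L Z ∘L prj {p | d p % 4 = 3} with hZ₀
  have m0 : ∀ p q, mat Z₀ p q = if d q = d p + 1 then mat Z p q else 0 := by
    intro p q
    rw [hZ₀, mat_add, mat_prj_comp, mat_prj_comp]
    by_cases h0 : mat Z p q = 0
    · simp [h0]
    · obtain ⟨⟨k, hk⟩, h4⟩ := hs p q h0
      simp only [Set.mem_ofPred_eq]
      split_ifs <;> first | omega | simp
  have m1 : ∀ p q, mat (Z - Z₀) p q = if d q + 1 = d p then mat Z p q else 0 := by
    intro p q
    rw [mat_sub, m0]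
    by_cases h0 : mat Z p q = 0
    · simp [h0]
    · obtain ⟨-, h4⟩ := hs p q h0
      split_ifs <;> first | omega | simp
  have n0 : ‖Z₀‖ ≤ b := by
    refine gop_blocks Z₀ (fun q => d q - 1) d Zx b hb0 (fun p q hne => ?_) (fun p q h => ?_) hb
    · rw [m0] at hne
      have : d q = d p + 1 := by by_contra hh; exact hne (if_neg hh)
      omega
    · have h' : d q = d p + 1 := by omega
      rw [m0, if_pos h', h1 p q h', h]
  have n1 : ‖Z - Z₀‖ ≤ b := by
    refine gop_blocks (Z - Z₀) d (fun p => d p - 1) Zx b hb0 (fun p q hne => ?_)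
      (fun p q h => ?_) hb
    · rw [m1] at hne
      have : d q + 1 = d p := by by_contra hh; exact hne (if_neg hh)
      omega
    · have h' : d q + 1 = d p := by omega
      rw [m1, if_pos h', h2 p q h']
  calc ‖Z‖ = ‖Z₀ + (Z - Z₀)‖ := by rw [add_sub_cancel]
    _ ≤ _ := norm_add_le _ _
    _ ≤ 2 * b := by linarith

open Classical in
theorem BG.gop_matW {F A K : Type} (Γ : BG F A) (node : ℤ → Finset Γ.V)
    (hd : ∀ i j, i ≠ j → Disjoint (node i) (node j)) (d : Γ.V → ℤ)
    (hdn : ∀ i v, v ∈ node i → d v = i) (Q : L2 (K × ℤ) →L[ℂ] L2 (K × ℤ)) (p q : K × Γ.V) :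
    mat (Γ.Wop K node ∘L Q ∘L adj (Γ.Wop K node)) p q =
      if p.2 ∈ node (d p.2) ∧ q.2 ∈ node (d q.2) then
        mat Q (p.1, d p.2) (q.1, d q.2) *
          (((Real.sqrt ((node (d p.2)).card * (node (d q.2)).card))⁻¹ : ℝ) : ℂ) else 0 := by
  have hW : ∀ (x : K × Γ.V) (y : K × ℤ), y ≠ (x.1, d x.2) → mat (Γ.Wop K node) x y = 0 := by
    intro x y hy
    rw [BG.mat_Wop Γ K node hd, if_neg]
    rintro ⟨h1, h2⟩
    exact hy (Prod.ext h1.symm (hdn _ _ h2).symm)
  have e1 : ∀ y, mat (Q ∘L adj (Γ.Wop K node)) y q =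
      mat Q y (q.1, d q.2) * mat (adj (Γ.Wop K node)) (q.1, d q.2) q := by
    intro y
    refine (hasSum_mat_comp _ _ y q).unique (hasSum_single (q.1, d q.2) fun z hz => ?_)
    rw [mat_adj, hW q z hz, map_zero, mul_zero]
  have e2 : mat (Γ.Wop K node ∘L Q ∘L adj (Γ.Wop K node)) p q =
      mat (Γ.Wop K node) p (p.1, d p.2) * mat (Q ∘L adj (Γ.Wop K node)) (p.1, d p.2) q := by
    refine (hasSum_mat_comp _ _ p q).unique (hasSum_single (p.1, d p.2) fun z hz => ?_)
    rw [hW p z hz, zero_mul]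
  rw [e2, e1, mat_adj, BG.mat_Wop Γ K node hd, BG.mat_Wop Γ K node hd]
  by_cases hp : p.2 ∈ node (d p.2) <;> by_cases hq : q.2 ∈ node (d q.2)
  · rw [if_pos ⟨rfl, hp⟩, if_pos ⟨rfl, hq⟩, if_pos ⟨hp, hq⟩, Complex.conj_ofReal,
      Real.sqrt_mul (Nat.cast_nonneg _), mul_inv]
    push_cast; ring
  · simp [hq]
  · simp [hp]
  · simp [hp]

namespace Par
variable (P : Par) {A : Type} [Group A] {μ : ℤ → (A × ZMod 4) →₀ ℝ} {on : ℤ → Prop} {ω : P.Om A}

/-- crude Schur test (finitely many `u, w, t`; `∑_f ‖cH … f‖ ≤ 2`) -/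
theorem mat_fluct (hμ : ∀ i, IsLaw (μ i)) (i : ℤ) (p q : A × P.V) :
    mat (P.fluct μ i ω) p q = ∑ t ∈ P.ports i, P.cH μ i ω ω p.2 t q.2 (p.1 * q.1⁻¹) := by
  classical
  unfold fluct
  refine gop_schur (fun u w f => ∑ t ∈ P.ports i, P.cH μ i ω ω u t w f)
    (P.node (P.tp i) ∪ P.node (P.sub i)) ?_ ((P.ports i).card * (1 + |P.rho i / P.mb i|))
    (by positivity) ?_ p q
  · intro u w f hne
    obtain ⟨t, -, ht⟩ := Finset.exists_ne_zero_of_sum_ne_zero hne
    unfold cH at ht
    have : Even u.1 ∧ (P.SameBlk ω i t u w ∨ P.SameBlk ω i t w u) := by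
      by_contra hh; exact ht (if_neg hh)
    rcases this.2 with h | h
    · exact ⟨Finset.mem_union_left _ h.2.1, Finset.mem_union_right _ h.2.2.1⟩
    · exact ⟨Finset.mem_union_right _ h.2.2.1, Finset.mem_union_left _ h.2.1⟩
  · intro u w s
    refine (Finset.sum_le_sum fun f _ => norm_sum_le _ _).trans ?_
    rw [Finset.sum_comm]
    refine (Finset.sum_le_sum (g := fun _ => 1 + |P.rho i / P.mb i|) fun t _ => ?_).trans
      (by rw [Finset.sum_const, nsmul_eq_mul])
    have hb : ∀ f, ‖P.cH μ i ω ω u t w f‖ ≤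
        ‖(if (ω (.inr (u.1, u.2, t))).2.1 = f then (1 : ℂ) else 0)‖ +
          |P.rho i / P.mb i| * ‖qco (μ i) f‖ := by
      intro f
      unfold cH
      split_ifs with h1 h2 h3 h3 h3
      · refine (norm_sub_le _ _).trans (le_of_eq ?_)
        rw [norm_ph, norm_one, norm_mul, Complex.norm_real, Real.norm_eq_abs]
      · exact absurd h2.2 h3
      · rw [zero_sub, norm_neg, norm_mul, Complex.norm_real, Real.norm_eq_abs, norm_one]
        linarith
      · rw [zero_sub, norm_neg, norm_mul, Complex.norm_real, Real.norm_eq_abs, norm_zero, zero_add]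
      · rw [norm_zero]; positivity
      · rw [norm_zero]; positivity
    refine (Finset.sum_le_sum fun f _ => hb f).trans ?_
    rw [Finset.sum_add_distrib, ← Finset.mul_sum]
    have h1 := wq_sum_one (fun f => if (ω (.inr (u.1, u.2, t))).2.1 = f then (1 : ℂ) else 0)
      (fun f => by split_ifs <;> simp) (fun f f' hf hf' => by
        have a1 : (ω (.inr (u.1, u.2, t))).2.1 = f := by by_contra hh; exact hf (if_neg hh)
        have a2 : (ω (.inr (u.1, u.2, t))).2.1 = f' := by by_contra hh; exact hf' (if_neg hh)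
        exact a1.symm.trans a2) s
    have h2 := mul_le_mul_of_nonneg_left (sum_norm_qco_le (hμ i) s) (abs_nonneg (P.rho i / P.mb i))
    linarith

open Classical in
/-- the bracket of `mean_pair_good`, cut to the pair -/
noncomputable def Ebr (ω : P.Om A) (i : ℤ) (U W : P.V) : ℂ :=
  if U ∈ P.node (P.tp i) ∧ W ∈ P.node (P.sub i) then
    (((P.rho i / P.mb i * ((P.ports i).filter fun t => P.SameBlk ω i t U W).card -
      P.lam / Real.sqrt ((P.node i).card * (P.node (i + 1)).card) : ℝ)) : ℂ)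
  else 0

theorem Ebr_ne {i : ℤ} {U W : P.V} (h : P.Ebr ω i U W ≠ 0) :
    U ∈ P.node (P.tp i) ∧ W ∈ P.node (P.sub i) := by
  by_contra hh
  exact h (if_neg hh)

theorem Ebr_bound (i : ℤ) (f g : P.V → ℂ) :
    ‖∑ U ∈ P.node (P.tp i), ∑ W ∈ P.node (P.sub i), f U * g W * P.Ebr ω i U W‖ ≤
      (16 * P.lam / Real.sqrt P.C + 2 * P.lam * Real.sqrt (3 / P.n)) *
        Real.sqrt (∑ U ∈ P.node (P.tp i), ‖f U‖ ^ 2) *
        Real.sqrt (∑ W ∈ P.node (P.sub i), ‖g W‖ ^ 2) := by
  classical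
  refine le_of_eq_of_le ?_ (P.mean_pair_good ω i f g)
  refine congrArg norm (Finset.sum_congr rfl fun U hU => Finset.sum_congr rfl fun W hW => ?_)
  unfold Ebr
  rw [if_pos ⟨hU, hW⟩]

theorem adj_iff_pair {i : ℤ} {t : P.F} {u w : P.V}
    (hi : (u.1 = i ∧ w.1 = i + 1) ∨ (u.1 = i + 1 ∧ w.1 = i)) :
    P.Adj ω on t u w ↔ P.PE ω on i t u w ∨ P.PE ω on i t w u := by
  refine ⟨?_, fun h => ⟨i, h⟩⟩
  rintro ⟨j, hj⟩
  have : j = i := by
    have h3 := P.sub_tp j
    rcases hj with h | h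
    · have h1 := P.fst_of_mem h.2.1.2.1
      have h2 := P.fst_of_mem h.2.1.2.2.1
      omega
    · have h1 := P.fst_of_mem h.2.1.2.1
      have h2 := P.fst_of_mem h.2.1.2.2.1
      omega
  rwa [this] at hj

open Classical in
theorem mat_B (p q : A × P.V) :
    mat ((P.graph ω on).Bop (P.graph ω on).a) p q = ∑ t : P.F,
      if (Even p.2.1 ∧ P.Adj ω on t p.2 q.2) ∧ (ω (.inr (p.2.1, p.2.2, t))).2.1 = p.1 * q.1⁻¹
      then ph (ω (.inr (p.2.1, p.2.2, t))).2.2 else 0 := by
  refine (BG.mat_Bop (P.graph ω on) (P.graph ω on).a p q).trans ?_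
  refine Finset.sum_congr rfl fun t _ => ?_
  exact if_congr (and_congr P.nbr_eq_some Iff.rfl) rfl rfl

open Classical in
theorem mat_X (hμ : ∀ i, IsLaw (μ i)) (p q : A × P.V) :
    mat ((P.graph ω on).Wop A P.node ∘L Qop μ on ∘L adj ((P.graph ω on).Wop A P.node)) p q =
      if p.2 ∈ P.node p.2.1 ∧ q.2 ∈ P.node q.2.1 then
        (if Even p.2.1 then
          (if q.2.1 = p.2.1 + 1 ∧ on p.2.1 then qco (μ p.2.1) (p.1 * q.1⁻¹) else 0) +
          (if q.2.1 = p.2.1 - 1 ∧ on (p.2.1 - 1) then qco (μ (p.2.1 - 1)) (p.1 * q.1⁻¹) else 0)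
        else 0) *
          (((Real.sqrt ((P.node p.2.1).card * (P.node q.2.1).card))⁻¹ : ℝ) : ℂ) else 0 := by
  refine (BG.gop_matW (P.graph ω on) P.node P.node_disjoint (fun v : P.V => v.1)
    (fun i v hv => P.fst_of_mem hv) (Qop μ on) p q).trans ?_
  rw [mat_Qop hμ]
  by_cases h : p.2 ∈ P.node p.2.1 ∧ q.2 ∈ P.node q.2.1
  · rw [if_pos h]
    exact if_pos h
  · rw [if_neg h]
    exact if_neg h

open Classical in
theorem sum_cH {i : ℤ} (hon : on i) {u w : P.V} (hu : Even u.1)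
    (hi : (u.1 = i ∧ w.1 = i + 1) ∨ (u.1 = i + 1 ∧ w.1 = i)) (f : A) :
    ∑ t ∈ P.ports i, P.cH μ i ω ω u t w f =
      (∑ t : P.F, if (Even u.1 ∧ P.Adj ω on t u w) ∧ (ω (.inr (u.1, u.2, t))).2.1 = f
        then ph (ω (.inr (u.1, u.2, t))).2.2 else 0) -
      ((P.rho i / P.mb i : ℝ) : ℂ) * qco (μ i) f *
        (((P.ports i).filter fun t => P.SameBlk ω i t u w ∨ P.SameBlk ω i t w u).card : ℂ) := by
  rw [← Finset.sum_subset (Finset.subset_univ (P.ports i)), Finset.card_filter, Nat.cast_sum,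
    Finset.mul_sum, ← Finset.sum_sub_distrib]
  · refine Finset.sum_congr rfl fun t _ => ?_
    unfold cH
    rw [P.adj_iff_pair hi]
    unfold PE
    by_cases hS : P.SameBlk ω i t u w ∨ P.SameBlk ω i t w u
    · rw [if_pos ⟨hu, hS⟩, if_pos hS]
      simp only [hu, hon, true_and, Nat.cast_one, mul_one]
    · rw [if_neg fun hh => hS hh.2, if_neg hS, if_neg]
      · simp
      · rintro ⟨⟨-, hh | hh⟩, -⟩
        · exact hS (Or.inl hh.2.1)
        · exact hS (Or.inr hh.2.1)
  · intro t _ ht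
    rw [if_neg]
    rintro ⟨⟨-, hh⟩, -⟩
    rcases (P.adj_iff_pair hi).1 hh with hh | hh
    · exact ht hh.2.1.1
    · exact ht hh.2.1.1

open Classical in
theorem mat_Z (hμ : ∀ i, IsLaw (μ i)) (p q : A × P.V) :
    (mat ((P.graph ω on).Bop (P.graph ω on).a - (P.lam : ℂ) • ((P.graph ω on).Wop A P.node ∘L
        Qop μ on ∘L adj ((P.graph ω on).Wop A P.node))) p q ≠ 0 →
      Even p.2.1 ∧ (q.2.1 = p.2.1 + 1 ∨ q.2.1 + 1 = p.2.1)) ∧
    ∀ i, (p.2.1 = i ∧ q.2.1 = i + 1) ∨ (p.2.1 = i + 1 ∧ q.2.1 = i) →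
      mat ((P.graph ω on).Bop (P.graph ω on).a - (P.lam : ℂ) • ((P.graph ω on).Wop A P.node ∘L
        Qop μ on ∘L adj ((P.graph ω on).Wop A P.node))) p q =
      if on i then ∑ t ∈ P.ports i, P.cH μ i ω ω p.2 t q.2 (p.1 * q.1⁻¹) +
        (if Even (P.tp i) then qco (μ i) (p.1 * q.1⁻¹) * P.Ebr ω i p.2 q.2
         else qco (μ i) (p.1 * q.1⁻¹) * P.Ebr ω i q.2 p.2)
      else 0 := by
  have e0 : mat ((P.graph ω on).Bop (P.graph ω on).a - (P.lam : ℂ) •
      ((P.graph ω on).Wop A P.node ∘L Qop μ on ∘L adj ((P.graph ω on).Wop A P.node))) p q =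
      mat ((P.graph ω on).Bop (P.graph ω on).a) p q - (P.lam : ℂ) *
        mat ((P.graph ω on).Wop A P.node ∘L Qop μ on ∘L adj ((P.graph ω on).Wop A P.node)) p q :=
    rfl
  rw [e0, P.mat_B, P.mat_X hμ]
  obtain ⟨a, u⟩ := p
  obtain ⟨a', w⟩ := q
  simp only
  constructor
  · intro hne
    by_contra hh
    apply hne
    rw [Finset.sum_eq_zero, zero_sub, neg_eq_zero, mul_eq_zero]
    · right
      split_ifs with h1 h2 h3 h4 h4
      · exact absurd ⟨h2, Or.inl h3.1⟩ hh
      · exact absurd ⟨h2, Or.inl h3.1⟩ hh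
      · exact absurd ⟨h2, Or.inr (by omega)⟩ hh
      · simp
      · simp
      · rfl
    · intro t _
      rw [if_neg]
      rintro ⟨⟨h1, h2⟩, -⟩
      refine hh ⟨h1, ?_⟩
      rcases (Adj.pair P h2).2.2.2.1 with h3 | h3
      · exact Or.inl h3.2
      · exact Or.inr h3.2
  · intro i hi
    have hst := P.sub_tp i
    by_cases hon : on i
    swap
    · rw [if_neg hon, Finset.sum_eq_zero, zero_sub, neg_eq_zero, mul_eq_zero]
      · right
        split_ifs with h1 h2 h3 h4 h4
        · omega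
        · exact absurd (show on i by rw [show i = u.1 by omega]; exact h3.2) hon
        · exact absurd (show on i by rw [show i = u.1 - 1 by omega]; exact h4.2) hon
        · simp
        · simp
        · rfl
      · intro t _
        rw [if_neg]
        rintro ⟨⟨-, h2⟩, -⟩
        rcases (P.adj_iff_pair hi).1 h2 with h3 | h3
        · exact hon h3.1
        · exact hon h3.1
    rw [if_pos hon]
    by_cases hu : Even u.1
    swap
    · have z1 : ∑ t ∈ P.ports i, P.cH μ i ω ω u t w (a * a'⁻¹) = 0 :=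
        Finset.sum_eq_zero fun t _ => by unfold cH; exact if_neg fun hh => hu hh.1
      have z2 : (if Even (P.tp i) then qco (μ i) (a * a'⁻¹) * P.Ebr ω i u w
          else qco (μ i) (a * a'⁻¹) * P.Ebr ω i w u) = 0 := by
        split_ifs with h1
        · rw [mul_eq_zero]; right
          by_contra hne
          exact hu (by rw [P.fst_of_mem (P.Ebr_ne hne).1]; exact h1)
        · rw [mul_eq_zero]; right
          by_contra hne
          have h2 := P.fst_of_mem (P.Ebr_ne hne).2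
          rw [Int.not_even_iff_odd] at h1 hu
          obtain ⟨k, hk⟩ := h1
          obtain ⟨k', hk'⟩ := hu
          omega
      rw [z1, z2, Finset.sum_eq_zero fun t _ => if_neg fun hh => hu hh.1.1]
      simp [hu]
    rw [P.sum_cH (on := on) hon hu hi, if_pos hu]
    have eq : ((if w.1 = u.1 + 1 ∧ on u.1 then qco (μ u.1) (a * a'⁻¹) else 0) +
        (if w.1 = u.1 - 1 ∧ on (u.1 - 1) then qco (μ (u.1 - 1)) (a * a'⁻¹) else 0))
        = qco (μ i) (a * a'⁻¹) := by
      rcases hi with ⟨h1, h2⟩ | ⟨h1, h2⟩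
      · rw [if_pos ⟨by omega, by rw [h1]; exact hon⟩, if_neg fun hh => by have := hh.1; omega,
          add_zero, h1]
      · have h3 : u.1 - 1 = i := by omega
        rw [if_neg fun hh => by have := hh.1; omega, if_pos ⟨by omega, by rw [h3]; exact hon⟩,
          zero_add, h3]
    have es : Real.sqrt ((P.node u.1).card * (P.node w.1).card)
        = Real.sqrt ((P.node i).card * (P.node (i + 1)).card) := by
      rcases hi with ⟨h1, h2⟩ | ⟨h1, h2⟩
      · rw [h1, h2]
      · rw [h1, h2, mul_comm]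
    rw [eq, es, sub_add, sub_right_inj]
    by_cases hev : Even (P.tp i)
    · have h1 : u.1 = P.tp i := by
        obtain ⟨k, hk⟩ := hev
        obtain ⟨k', hk'⟩ := hu
        omega
      have h2 : w.1 = P.sub i := by omega
      have e1 : ((P.ports i).filter fun t => P.SameBlk ω i t u w ∨ P.SameBlk ω i t w u)
          = (P.ports i).filter fun t => P.SameBlk ω i t u w := by
        refine Finset.filter_congr fun t _ => or_iff_left fun hh => ?_
        have := P.fst_of_mem hh.2.1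
        omega
      rw [if_pos hev, e1, h1, h2]
      unfold Ebr
      split_ifs with h3
      · push_cast; ring
      · rw [Finset.filter_eq_empty_iff.2 fun t _ hh => h3 ⟨hh.2.1, hh.2.2.1⟩]
        simp
    · have h1 : u.1 = P.sub i := by
        rw [Int.not_even_iff_odd] at hev
        obtain ⟨k, hk⟩ := hev
        obtain ⟨k', hk'⟩ := hu
        omega
      have h2 : w.1 = P.tp i := by omega
      have e1 : ((P.ports i).filter fun t => P.SameBlk ω i t u w ∨ P.SameBlk ω i t w u)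
          = (P.ports i).filter fun t => P.SameBlk ω i t w u := by
        refine Finset.filter_congr fun t _ => or_iff_right fun hh => ?_
        have := P.fst_of_mem hh.2.1
        omega
      rw [if_neg hev, e1, h1, h2]
      unfold Ebr
      by_cases h3 : w ∈ P.node (P.tp i) ∧ u ∈ P.node (P.sub i)
      · rw [if_pos h3, if_pos h3.symm]
        push_cast; ring
      · rw [if_neg h3, if_neg fun hh => h3 hh.symm,
          Finset.filter_eq_empty_iff.2 fun t _ hh => h3 ⟨hh.2.1, hh.2.2.1⟩]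
        simp

/-- `Z = B - lam W Q W*`.  For `u ∈ node iu` (even), `w ∈ node (iu ± 1)` in the pair `i` with `on i`:
`mat Z (a,u) (a',w) = mat (fluct i) + qco (μ i) (a a'⁻¹) · E_i u w`, `E_i` the bracket of `mean_pair_good` (in the order `tp`/`sub`); all other entries
vanish (`mat_Bop`, `nbr_eq_some`, `Adj.pair`, `mat_Wop`, `mat_Qop`, `hasSum_mat_comp`).  So `Z_i := fluct i + kop(q ⊗ E_i)` has norm `≤ b` (`tensor_bound`).
Split `Z = prj{even pairs} + prj{odd pairs}`: e.g. `Z₀ = ∑` over entries with `q.2.1 = p.2.1 + 1`, `Z₁` with `q.2.1 = p.2.1 - 1`; they exist by Schur (or as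
`kop` with row/column bounds), each is block diagonal (`norm_le_of_blocks`, `c' p = p.2.1`, `c q = q.2.1 ∓ 1`) and on a block it acts as `Z_i`. -/
theorem op_bound (hμ : ∀ i, IsLaw (μ i)) (h : ∀ i, ¬ P.badT μ on i ω) :
    ‖(P.graph ω on).Bop (P.graph ω on).a - (P.lam : ℂ) • ((P.graph ω on).Wop A P.node ∘L Qop μ on ∘L
        adj ((P.graph ω on).Wop A P.node))‖ ≤
      2 * (16 * Real.sqrt (P.n * Real.sqrt P.n) + 16 * P.lam / Real.sqrt P.C +
        2 * P.lam * Real.sqrt (3 / P.n)) := by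
  classical
  set Z := (P.graph ω on).Bop (P.graph ω on).a - (P.lam : ℂ) •
    ((P.graph ω on).Wop A P.node ∘L Qop μ on ∘L adj ((P.graph ω on).Wop A P.node)) with hZ
  have hlam := P.lam_pos
  have he0 : 0 ≤ 16 * P.lam / Real.sqrt P.C + 2 * P.lam * Real.sqrt (3 / P.n) := by positivity
  have hT1 := fun i => tensor_bound (qco (μ i)) (sum_norm_qco_le (hμ i)) (P.node (P.tp i))
    (P.node (P.sub i)) (P.Ebr ω i) (fun u w => P.Ebr_ne) _ he0 (fun f g => P.Ebr_bound i f g)
  have hT2 := fun i => tensor_bound (qco (μ i)) (sum_norm_qco_le (hμ i)) (P.node (P.sub i))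
    (P.node (P.tp i)) (fun u w => P.Ebr ω i w u) (fun u w h => (P.Ebr_ne h).symm) _ he0
    (fun f g => by
      have := P.Ebr_bound (ω := ω) i g f
      rw [Finset.sum_comm, mul_right_comm]
      simpa only [mul_comm (g _) (f _)] using this)
  let Zx : ℤ → L2 (A × P.V) →L[ℂ] L2 (A × P.V) := fun i =>
    if on i then P.fluct μ i ω +
      (if Even (P.tp i) then kop fun p p' : A × P.V => qco (μ i) (p.1 * p'.1⁻¹) * P.Ebr ω i p.2 p'.2
       else kop fun p p' : A × P.V => qco (μ i) (p.1 * p'.1⁻¹) * P.Ebr ω i p'.2 p.2)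
    else 0
  have hmat := P.mat_Z (on := on) (ω := ω) hμ
  have hkey : ∀ (p q : A × P.V) i, (p.2.1 = i ∧ q.2.1 = i + 1) ∨ (p.2.1 = i + 1 ∧ q.2.1 = i) →
      mat Z p q = mat (Zx i) p q := by
    intro p q i hi
    have e := (hmat p q).2 i hi
    refine e.trans ?_
    by_cases hon : on i
    · simp only [Zx, if_pos hon]
      rw [mat_add, P.mat_fluct hμ]
      by_cases hev : Even (P.tp i)
      · rw [if_pos hev, if_pos hev, (hT1 i).1]
      · rw [if_neg hev, if_neg hev, (hT2 i).1]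
    · simp only [Zx, if_neg hon]
      rfl
  have := gop_split (I := A × P.V) Z (fun p => p.2.1) Zx
    (16 * Real.sqrt (P.n * Real.sqrt P.n) +
      (16 * P.lam / Real.sqrt P.C + 2 * P.lam * Real.sqrt (3 / P.n))) (by positivity)
    (fun i => by
      by_cases hon : on i
      · simp only [Zx, if_pos hon]
        refine (norm_add_le _ _).trans (add_le_add ?_ ?_)
        · by_contra hlt
          exact h i ⟨hon, not_le.1 hlt⟩
        · split_ifs
          · exact (hT1 i).2
          · exact (hT2 i).2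
      · simp only [Zx, if_neg hon, norm_zero]
        positivity)
    (fun p q hne => (hmat p q).1 hne)
    (fun p q hpq => hkey p q _ (Or.inl ⟨rfl, hpq⟩))
    (fun p q hpq => hkey p q _ (Or.inr ⟨hpq.symm, rfl⟩))
  rw [add_assoc]
  exact this

end Par
end Crest.Agent.R129
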