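import Crest.Agent.R129.GLaw

/-! # The permutations `psi`, adjacency, compatibility of edges with `tau` (task R129/GPsi). Statements frozen. -/

set_option autoImplicit false
open scoped BigOperators

namespace Crest.Agent.R129
namespace Par
variable (P : Par) {A : Type} {ω ω' : P.Om A} {on : ℤ → Prop}

theorem sub_or (i : ℤ) : P.sub i = i ∨ P.sub i = i + 1 := by
  rcases P.sub_tp i with h | h
  · exact Or.inl h.1
  · exact Or.inr h.1

theorem tp_or (i : ℤ) : P.tp i = i ∨ P.tp i = i + 1 := by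
  rcases P.sub_tp i with h | h
  · exact Or.inr h.2
  · exact Or.inl h.2

theorem sub_ne_tp (i : ℤ) : P.sub i ≠ P.tp i := by
  rcases P.sub_tp i with h | h <;> omega

/-- two pairs with a common port and a common node coincide -/
theorem pair_eq {i i' j : ℤ} {t : P.F} (h : t ∈ P.ports i) (h' : t ∈ P.ports i')
    (hj : j = i ∨ j = i + 1) (hj' : j = i' ∨ j = i' + 1) : i = i' := by
  rw [← P.pairOf_eq h hj, P.pairOf_eq h' hj']

theorem lvl_eq_of_Blk {i i' : ℤ} {κ : List P.F} (h : κ ∈ P.Blk i) (h' : κ ∈ P.Blk i') :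
    P.lvl i = P.lvl i' := by
  rw [← P.length_of_mem_Blk h, P.length_of_mem_Blk h']

theorem Nd_eq {i i' : ℤ} {x : List P.F} (h : x ∈ P.Nd i) (h' : x ∈ P.Nd i') : i = i' := by
  obtain ⟨y, κ, hy, hκ, rfl⟩ := P.mem_Nd.1 h
  obtain ⟨y', κ', hy', hκ', he⟩ := P.mem_Nd.1 h'
  obtain ⟨h1, rfl⟩ := List.cons.inj he
  exact P.eq_of_em_eq (hκ.symm.trans hκ') hy hy' h1

theorem Blk_cross {i : ℤ} (h : P.cross i) : P.Blk i = P.Nd (P.sub i) := by
  rw [Blk, if_pos h, (P.of_cross h).1]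

theorem es_eq {i i' : ℤ} {t : P.F} {κ : List P.F} (ht : t ∈ P.ports i) (ht' : t ∈ P.ports i')
    (hκ : κ ∈ P.Blk i) (hκ' : κ ∈ P.Blk i') {x x' : ℕ} (hx : x < P.ms i) (hx' : x' < P.ms i')
    (he : P.es i x = P.es i' x') : i = i' := by
  by_cases hc : P.cross i <;> by_cases hc' : P.cross i'
  · rw [P.Blk_cross hc] at hκ; rw [P.Blk_cross hc'] at hκ'
    have := P.Nd_eq hκ hκ'
    exact P.pair_eq ht ht' (P.sub_or i) (this ▸ P.sub_or i')
  · exfalso
    simp only [es, ms, if_pos hc, if_neg hc'] at he hx'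
    exact P.em_ne_zero _ hx' he.symm
  · exfalso
    simp only [es, ms, if_neg hc, if_pos hc'] at he hx
    exact P.em_ne_zero _ hx he
  · simp only [es, ms, if_neg hc, if_neg hc'] at he hx hx'
    have hs : P.stg (P.sub i) = P.stg (P.sub i') := by
      rw [(P.of_not_cross hc).2.1, (P.of_not_cross hc').2.1, P.lvl_eq_of_Blk hκ hκ']
    have := P.eq_of_em_eq hs hx hx' he
    exact P.pair_eq ht ht' (P.sub_or i) (this ▸ P.sub_or i')

theorem et_eq {i i' : ℤ} {t : P.F} {κ : List P.F} (ht : t ∈ P.ports i) (ht' : t ∈ P.ports i')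
    (hκ : κ ∈ P.Blk i) (hκ' : κ ∈ P.Blk i') {y y' : ℕ} (hy : y < P.mt i) (hy' : y' < P.mt i')
    (he : P.em (P.tp i) y = P.em (P.tp i') y') : i = i' := by
  have := P.eq_of_em_eq (i := P.tp i) (i' := P.tp i') (P.lvl_eq_of_Blk hκ hκ') hy hy' he
  exact P.pair_eq ht ht' (P.tp_or i) (this ▸ P.tp_or i')

theorem psi_spec {t : P.F} {κ : List P.F} {γ β : P.F} (h : P.Rel ω t κ γ β) : P.psi ω t κ γ = β := by
  refine extP_spec ?_ ?_ h
  · rintro γ β β' (⟨i, x, y, ht, hκ, hm, rfl, rfl⟩ | ⟨rfl, rfl, hn⟩)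
      (⟨i', x', y', ht', hκ', hm', he, rfl⟩ | ⟨he, rfl, hn'⟩)
    · obtain rfl := P.es_eq ht ht' hκ hκ' hm.1 hm'.1 he
      rw [(P.match_unique i hm hm').1 (P.es_inj i hm.1 hm'.1 he)]
    · exfalso
      by_cases hc : P.cross i
      · exact hn' ⟨i, hc, ht, hκ⟩
      · have h1 := hm.1
        simp only [es, ms, if_neg hc] at he h1
        exact P.em_ne_zero _ h1 he
    · exfalso
      by_cases hc : P.cross i'
      · exact hn ⟨i', hc, ht', hκ'⟩
      · have h1 := hm'.1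
        simp only [es, ms, if_neg hc] at he h1
        exact P.em_ne_zero _ h1 he.symm
    · rfl
  · rintro γ γ' β (⟨i, x, y, ht, hκ, hm, rfl, rfl⟩ | ⟨rfl, rfl, hn⟩)
      (⟨i', x', y', ht', hκ', hm', rfl, he⟩ | ⟨rfl, he, hn'⟩)
    · obtain rfl := P.et_eq ht ht' hκ hκ' hm.2.1 hm'.2.1 he
      rw [(P.match_unique i hm hm').2 (P.em_inj _ hm.2.1 hm'.2.1 he)]
    · exact absurd he (P.em_ne_zero _ hm.2.1)
    · exact absurd he.symm (P.em_ne_zero _ hm'.2.1)
    · rfl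

theorem psi_congr {t : P.F} {κ : List P.F}
    (h : ∀ i, κ ∈ P.Blk i → (ω (.inl (i, κ, t))).1 = (ω' (.inl (i, κ, t))).1) :
    P.psi ω t κ = P.psi ω' t κ := by
  unfold psi
  congr 1
  funext γ β
  unfold Rel
  apply propext
  refine or_congr_left (exists_congr fun i => exists_congr fun x => exists_congr fun y =>
    and_congr_right fun _ => and_congr_right fun hκ => ?_)
  rw [h i hκ]

theorem Good_congr {v : P.V} (hv : v ∈ P.node v.1)
    (h : ∀ i κ t, κ ∈ P.Blk i → κ.length + 2 ≤ (P.ty v).length →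
      (ω (.inl (i, κ, t))).1 = (ω' (.inl (i, κ, t))).1) : P.Good ω v ↔ P.Good ω' v := by
  unfold Good
  rw [Spec_congr (ψ := P.psi ω) (ψ' := P.psi ω') _ _
    fun t κ hκ => P.psi_congr fun i hi => h i κ t hi hκ]

theorem fst_of_mem {i : ℤ} {v : P.V} (h : v ∈ P.node i) : v.1 = i := (P.mem_node.1 h).1

theorem mem_node_self {i : ℤ} {v : P.V} (h : v ∈ P.node i) : v ∈ P.node v.1 := by
  rw [P.fst_of_mem h]; exact h

theorem length_of_mem {i : ℤ} {v : P.V} (h : v ∈ P.node i) : v.2.length = P.stg i := by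
  obtain ⟨y, κ, -, hκ, he⟩ := P.mem_Nd.1 (P.mem_node.1 h).2
  rw [he, List.length_cons, hκ]

theorem ty_tp {i : ℤ} {U : P.V} (h : U ∈ P.node (P.tp i)) : P.ty U = U.2 := by
  rw [ty, P.fst_of_mem h, if_pos (P.top_tp i)]

theorem SameBlk_congr {i : ℤ} (h : ∀ i' κ t, κ ∈ P.Blk i' → κ.length + 2 ≤ P.lvl i →
      (ω (.inl (i', κ, t))).1 = (ω' (.inl (i', κ, t))).1) (t : P.F) (U W : P.V) :
    P.SameBlk ω i t U W ↔ P.SameBlk ω' i t U W := by
  unfold SameBlk
  refine and_congr_right fun _ => and_congr_right fun hU => and_congr_right fun hW => ?_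
  have hlU : U.2.length = P.lvl i := P.length_of_mem hU
  have hlW := P.length_of_mem_Blk (P.ty_mem_Blk hW)
  rw [P.Good_congr (ω := ω) (ω' := ω') (P.mem_node_self hU)
      (fun i' κ t h1 h2 => h i' κ t h1 (by rwa [P.ty_tp hU, hlU] at h2)),
    P.Good_congr (ω := ω) (ω' := ω') (P.mem_node_self hW)
      (fun i' κ t h1 h2 => h i' κ t h1 (by omega)),
    tau_congr (ψ := P.psi ω) (ψ' := P.psi ω') t U.2
      fun κ hκ => P.psi_congr fun i' hi => h i' κ t hi (by omega)]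

theorem natAbs_le_of_Blk {i : ℤ} {κ : List P.F} (h : κ ∈ P.Blk i) : i.natAbs ≤ P.J * (κ.length + 2) := by
  have h1 := P.length_of_mem_Blk h
  have h2 := P.natAbs_le (P.tp i)
  have h3 : P.J * (P.stg (P.tp i) - P.j₀ + 1) ≤ P.J * (κ.length + 2) :=
    Nat.mul_le_mul_left _ (by unfold lvl at h1; omega)
  rcases P.tp_or i with h4 | h4 <;> omega

theorem Adj.symm {t : P.F} {v v' : P.V} (h : P.Adj ω on t v v') : P.Adj ω on t v' v := by
  obtain ⟨i, h⟩ := h
  exact ⟨i, h.symm⟩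

theorem Adj.pair {t : P.F} {v v' : P.V} (h : P.Adj ω on t v v') :
    on (P.pairOf v.1 t) ∧ t ∈ P.ports (P.pairOf v.1 t) ∧ P.pairOf v'.1 t = P.pairOf v.1 t ∧
    ((v.1 = P.pairOf v.1 t ∧ v'.1 = v.1 + 1) ∨ (v.1 = P.pairOf v.1 t + 1 ∧ v'.1 + 1 = v.1)) ∧
    v ∈ P.node v.1 ∧ v' ∈ P.node v'.1 ∧ P.Good ω v ∧ P.Good ω v' ∧
    (P.PE ω on (P.pairOf v.1 t) t v v' ∨ P.PE ω on (P.pairOf v.1 t) t v' v) := by
  obtain ⟨i, h | h⟩ := h
  · obtain ⟨ho, ⟨ht, hU, hW, gU, gW, -⟩, -⟩ := id h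
    have e1 := P.fst_of_mem hU
    have e2 := P.fst_of_mem hW
    have p1 : P.pairOf v.1 t = i := P.pairOf_eq ht (e1 ▸ P.tp_or i)
    have p2 : P.pairOf v'.1 t = i := P.pairOf_eq ht (e2 ▸ P.sub_or i)
    rw [p1, p2]
    refine ⟨ho, ht, rfl, ?_, P.mem_node_self hU, P.mem_node_self hW, gU, gW, Or.inl h⟩
    rcases P.sub_tp i with h | h <;> omega
  · obtain ⟨ho, ⟨ht, hU, hW, gU, gW, -⟩, -⟩ := id h
    have e1 := P.fst_of_mem hU
    have e2 := P.fst_of_mem hW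
    have p1 : P.pairOf v'.1 t = i := P.pairOf_eq ht (e1 ▸ P.tp_or i)
    have p2 : P.pairOf v.1 t = i := P.pairOf_eq ht (e2 ▸ P.sub_or i)
    rw [p1, p2]
    refine ⟨ho, ht, rfl, ?_, P.mem_node_self hW, P.mem_node_self hU, gW, gU, Or.inr h⟩
    rcases P.sub_tp i with h | h <;> omega

theorem Adj.parity {t : P.F} {v v' : P.V} (h : P.Adj ω on t v v') : Even v.1 ↔ ¬ Even v'.1 := by
  rcases (Adj.pair P h).2.2.2.1 with h | h
  · rw [h.2, Int.even_add_one, not_not]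
  · rw [← h.2, Int.even_add_one]

theorem PE.right_unique {i : ℤ} {t : P.F} {U W W' : P.V} (h : P.PE ω on i t U W)
    (h' : P.PE ω on i t U W') : W = W' := by
  obtain ⟨-, ⟨-, -, hW, -, -, e⟩, x, y, hm, hx, hy⟩ := h
  obtain ⟨-, ⟨-, -, hW', -, -, e'⟩, x', y', hm', hx', hy'⟩ := h'
  have hty : P.ty W = P.ty W' := e.symm.trans e'
  rw [← hty] at hm'
  have := (P.match_unique i hm hm').2 (P.em_inj _ hm.2.1 hm'.2.1 (hy.symm.trans hy'))
  exact P.eq_of_six hW hW' hty (by rw [hx, hx', this])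

theorem eq_fib {ψ : P.F → List P.F → Equiv.Perm P.F} {i : ℤ} {U : P.V} (h : U ∈ P.node i) (t : P.F) :
    U.2 = fib ψ t (tau ψ t U.2) (U.2.headD 0) := by
  obtain ⟨y, κ, -, -, he⟩ := P.mem_Nd.1 (P.mem_node.1 h).2
  rw [he, List.headD_cons, fib_tau]

theorem PE.left_unique {i : ℤ} {t : P.F} {U U' W : P.V} (h : P.PE ω on i t U W)
    (h' : P.PE ω on i t U' W) : U = U' := by
  obtain ⟨-, ⟨-, hU, -, -, -, e⟩, x, y, hm, hx, hy⟩ := h
  obtain ⟨-, ⟨-, hU', -, -, -, e'⟩, x', y', hm', hx', hy'⟩ := h'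
  have := (P.match_unique i hm hm').1 (P.es_inj _ hm.1 hm'.1 (hx.symm.trans hx'))
  refine Prod.ext ((P.fst_of_mem hU).trans (P.fst_of_mem hU').symm) ?_
  rw [P.eq_fib (ψ := P.psi ω) hU t, P.eq_fib (ψ := P.psi ω) hU' t, e, e', hy, hy', this]

theorem Adj.unique {t : P.F} {v w w' : P.V} (h : P.Adj ω on t v w) (h' : P.Adj ω on t v w') : w = w' := by
  rcases (Adj.pair P h).2.2.2.2.2.2.2.2 with a | a <;>
    rcases (Adj.pair P h').2.2.2.2.2.2.2.2 with b | b
  · exact PE.right_unique P a b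
  · exact absurd ((P.fst_of_mem b.2.1.2.2.1).symm.trans (P.fst_of_mem a.2.1.2.1)) (P.sub_ne_tp _)
  · exact absurd ((P.fst_of_mem a.2.1.2.2.1).symm.trans (P.fst_of_mem b.2.1.2.1)) (P.sub_ne_tp _)
  · exact PE.left_unique P a b

theorem nbr_eq_some {u w : P.V} {t : P.F} : P.nbr ω on u t = some w ↔ Even u.1 ∧ P.Adj ω on t u w := by
  unfold nbr
  split_ifs with h
  · constructor
    · intro e
      obtain rfl := Option.some.inj e
      exact ⟨h.1, h.2.choose_spec⟩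
    · intro e
      rw [Adj.unique P h.2.choose_spec e.2]
  · constructor
    · intro e; cases e
    · intro e; exact absurd ⟨e.1, w, e.2⟩ h

theorem psi_zero {t : P.F} {κ : List P.F} (h : ¬ ∃ i, P.cross i ∧ t ∈ P.ports i ∧ κ ∈ P.Blk i) :
    P.psi ω t κ 0 = 0 := P.psi_spec (Or.inr ⟨rfl, rfl, h⟩)

theorem psi_zero_cons (t : P.F) (κ : List P.F) : P.psi ω t (0 :: κ) 0 = 0 := by
  refine P.psi_zero ?_
  rintro ⟨i, hc, -, hκ⟩
  rw [P.Blk_cross hc] at hκ
  obtain ⟨y, κ', hy, -, he⟩ := P.mem_Nd.1 hκ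
  exact P.em_ne_zero _ hy (List.cons.inj he).1.symm

/-- one step up -/
theorem tau_up {ψ : P.F → List P.F → Equiv.Perm P.F} {t α : P.F} {x y : List P.F}
    (h : tau ψ t (0 :: α :: y) = x) (h0 : ψ t x 0 = 0) : tau ψ t (0 :: 0 :: x) = 0 :: α :: y := by
  rw [tau_cons_cons, zero_mul, add_zero, h0, ← h, fib_tau]

theorem PE.levels {i : ℤ} {t : P.F} {U W : P.V} (h : P.PE ω on i t U W) (k : ℕ) :
    tau (P.psi ω) t (pre W.2 (P.lvl i + 2 * k + 1)) = pre U.2 (P.lvl i + 2 * k) ∧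
    tau (P.psi ω) t (pre U.2 (P.lvl i + 2 * k + 2)) = pre W.2 (P.lvl i + 2 * k + 1) := by
  obtain ⟨-, ⟨ht, hU, hW, -, -, e⟩, x, y, hm, hx, hy⟩ := h
  have hlU : U.2.length = P.lvl i := P.length_of_mem hU
  have hB := P.ty_mem_Blk hW
  have hlκ := P.length_of_mem_Blk hB
  have hlW : W.2.length ≤ P.lvl i := by
    rw [P.length_of_mem hW]
    by_cases hc : P.cross i
    · have := (P.of_cross hc).2.2.1; omega
    · exact (P.of_not_cross hc).2.1.le
  have hpW : pre W.2 (P.lvl i) = P.six i W.2 :: P.ty W := by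
    by_cases hc : P.cross i
    · have h1 : P.ty W = W.2 := by rw [ty, P.fst_of_mem hW, if_pos (P.of_cross hc).2.1]
      rw [six, if_pos hc, ← hlκ, h1, pre_succ_of_le _ le_rfl, pre_length]
    · have h1 : P.ty W = W.2.tail := by rw [ty, P.fst_of_mem hW, if_neg (P.of_not_cross hc).1]
      have h2 : W.2.length = P.lvl i := (P.length_of_mem hW).trans (P.of_not_cross hc).2.1
      obtain ⟨y, κ, -, -, he⟩ := P.mem_Nd.1 (P.mem_node.1 hW).2
      rw [six, if_neg hc, h1, ← h2, pre_length, he]; rfl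
  have hpsi : P.psi ω t (P.ty W) (P.six i W.2) = U.2.headD 0 :=
    P.psi_spec (Or.inl ⟨i, x, y, ht, hB, hm, hx, hy⟩)
  have hU0 : P.psi ω t U.2 0 = 0 := by
    refine P.psi_zero ?_
    rintro ⟨i', hc, ht', hκ⟩
    rw [P.Blk_cross hc] at hκ
    have h1 := P.Nd_eq hκ (P.mem_node.1 hU).2
    obtain rfl := P.pair_eq ht' ht (P.sub_or i') (h1 ▸ P.tp_or i)
    exact P.sub_ne_tp _ h1
  induction k with
  | zero =>
    have h1 : tau (P.psi ω) t (0 :: P.six i W.2 :: P.ty W) = U.2 := by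
      rw [tau_cons_cons, zero_mul, add_zero, hpsi, ← e, ← P.eq_fib hU t]
    simp only [mul_zero, add_zero]
    rw [pre_succ_of_le _ hlW, hpW, pre_succ_of_le U.2 (m := P.lvl i + 1) (by omega),
      pre_succ_of_le U.2 hlU.le, ← hlU, pre_length]
    exact ⟨h1, P.tau_up h1 hU0⟩
  | succ k ih =>
    have e1 : P.lvl i + 2 * (k + 1) = P.lvl i + 2 * k + 2 := by ring
    rw [e1]
    have a1 : pre U.2 (P.lvl i + 2 * k + 2) = 0 :: 0 :: pre U.2 (P.lvl i + 2 * k) := by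
      rw [pre_succ_of_le U.2 (m := P.lvl i + 2 * k + 1) (by omega), pre_succ_of_le U.2 (by omega)]
    have a2 : pre W.2 (P.lvl i + 2 * k + 1) = 0 :: pre W.2 (P.lvl i + 2 * k) :=
      pre_succ_of_le _ (by omega)
    have a3 : pre W.2 (P.lvl i + 2 * k + 2 + 1) = 0 :: 0 :: pre W.2 (P.lvl i + 2 * k + 1) := by
      rw [pre_succ_of_le W.2 (m := P.lvl i + 2 * k + 2) (by omega), pre_succ_of_le W.2 (by omega)]
    have a4 : pre U.2 (P.lvl i + 2 * k + 2 + 2) = 0 :: 0 :: pre U.2 (P.lvl i + 2 * k + 2) := by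
      rw [pre_succ_of_le U.2 (m := P.lvl i + 2 * k + 2 + 1) (by omega),
        pre_succ_of_le U.2 (m := P.lvl i + 2 * k + 2) (by omega)]
    have b1 : tau (P.psi ω) t (pre W.2 (P.lvl i + 2 * k + 2 + 1)) = pre U.2 (P.lvl i + 2 * k + 2) := by
      rw [a3, a1]
      refine P.tau_up (a1 ▸ ih.2) ?_
      rw [a2]; exact P.psi_zero_cons t _
    refine ⟨b1, ?_⟩
    rw [a4, a3]
    refine P.tau_up (a3 ▸ b1) ?_
    rw [a1]; exact P.psi_zero_cons t _

theorem tau_pre_down {ψ : P.F → List P.F → Equiv.Perm P.F} {t : P.F} {x y : List P.F} {m r : ℕ}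
    (hr : Even r) (h : tau ψ t (pre x (m + r + 1)) = pre y (m + r)) :
    tau ψ t (pre x (m + 1)) = pre y m := by
  have := congrArg (List.drop r) h
  rwa [tau_drop_even _ _ hr, drop_pre, show m + r + 1 = m + 1 + r by ring, drop_pre] at this

theorem Adj.tau_pre {t : P.F} {v v' : P.V} (h : P.Adj ω on t v v') (m : ℕ) (hm : Even v.1 ↔ Even m) :
    tau (P.psi ω) t (pre v.2 (m + 1)) = pre v'.2 m := by
  have hpar := Adj.parity P h
  obtain ⟨i, h | h⟩ := h
  · have hU := h.2.1.2.1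
    have h1 := P.parity (P.tp i)
    rw [← P.fst_of_mem hU] at h1
    have h2 : Even v.1 ↔ Odd (P.lvl i) := by
      rw [h1, P.fst_of_mem hU]; simp [P.top_tp i, lvl]
    have h3 : Even (P.lvl i + m + 1) := by
      rw [Nat.even_add_one, Nat.even_add, ← hm, h2, ← Nat.not_odd_iff_even]; tauto
    refine P.tau_pre_down (r := P.lvl i + m + 1) h3 ?_
    have := (PE.levels P h m).2
    rwa [show P.lvl i + 2 * m + 2 = m + (P.lvl i + m + 1) + 1 by ring,
      show P.lvl i + 2 * m + 1 = m + (P.lvl i + m + 1) by ring] at this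
  · have hU := h.2.1.2.1
    have h1 := P.parity (P.tp i)
    rw [← P.fst_of_mem hU] at h1
    have h2 : Even v'.1 ↔ Odd (P.lvl i) := by
      rw [h1, P.fst_of_mem hU]; simp [P.top_tp i, lvl]
    have h3 : Even (P.lvl i + m) := by
      rw [Nat.even_add, ← hm, hpar, h2, Nat.not_odd_iff_even]
    refine P.tau_pre_down (r := P.lvl i + m) h3 ?_
    have := (PE.levels P h m).1
    rwa [show P.lvl i + 2 * m = m + (P.lvl i + m) by ring] at this

end Par
end Crest.Agent.R129
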