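import Crest.Agent.R129.Ty

/-! # Few special strings, few zero runs (task R129/TyCount). Statements frozen. -/

set_option autoImplicit false
open scoped BigOperators

namespace Crest.Agent.R129
variable {F : Type} [Field F] [Fintype F] [DecidableEq F] {ψ : F → List F → Equiv.Perm F}

omit [Fintype F] [DecidableEq F] in
theorem head_tauL_fib (u : List F) : ∀ (t₀ : F) (κ : List F) (b : F → F), Function.Injective b →
    (t₀ :: u).IsChain (· ≠ ·) → u.length ≤ κ.length →
    Function.Injective fun α => (tauL ψ u (fib ψ t₀ κ (b α))).head? := by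
  induction u with
  | nil =>
    intro t₀ κ b hb _ _ a a' h
    simp only [tauL, head_fib] at h
    exact hb (Option.some.inj h)
  | cons t u ih =>
    intro t₀ κ b hb hc hl
    obtain ⟨hne, hc⟩ := List.isChain_cons_cons.1 hc
    match κ, hl with
    | γ :: κ, hl =>
      simp only [tauL, fib, tau_cons_cons]
      refine ih t _ (fun α => ψ t _ (_ - b α * t₀ + b α * t)) (fun a a' h => hb ?_) hc
        (by rw [length_tau]; simpa using hl)
      have h1 := (ψ t _).injective h
      have h2 : (b a - b a') * (t - t₀) = 0 := by linear_combination h1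
      exact sub_eq_zero.1 ((mul_eq_zero.1 h2).resolve_right (sub_ne_zero.2 hne.symm))

omit [Fintype F] [DecidableEq F] in
/-- Invariant (induction on `u` from the right or generalising the data): `tauL u (β :: α :: κ) = fib t_last (tauL u' κ) (b α)` with `b`
injective, where `u = u' ++ [t_last]`; for the next port `t ≠ t_last`, if `tauL u' κ = γ :: _` the new top digit is
`ψ t _ (c κ + b α * (t - t_last))`. -/
theorem head_tauL_injective {u : List F} (hne : u ≠ []) (hc : u.IsChain (· ≠ ·)) (β : F) (κ : List F)
    (hl : u.length ≤ κ.length + 1) :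
    Function.Injective fun α => (tauL ψ u (β :: α :: κ)).head? := by
  obtain ⟨t, u, rfl⟩ := List.exists_cons_of_ne_nil hne
  simp only [tauL, tau_cons_cons]
  refine head_tauL_fib u t κ (fun α => ψ t κ (α + β * t)) ?_ hc (by simpa using hl)
  exact fun a a' h => add_right_cancel ((ψ t κ).injective h)

/-- Induction on `k` in steps of two: `β :: α :: κ` fixed implies `κ` fixed (`tauL_drop_even`), and if `k + 2 > |u|` the head of
`(β :: α :: κ).drop |u|` depends only on `κ`, so `α` is determined by `β, κ`. -/
theorem card_fix_le {u : List F} (hne : u ≠ []) (hc : u.IsChain (· ≠ ·)) (hu : Even u.length) (k : ℕ) :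
    ((lists Finset.univ k).filter fun y => tauL ψ u y = y.drop u.length).card *
      Fintype.card F ^ ((k - u.length) / 2) ≤ Fintype.card F ^ k := by
  have h2 : 2 ≤ u.length := by
    have := List.length_pos_iff.2 hne
    obtain ⟨r, hr⟩ := hu
    omega
  induction k using Nat.strong_induction_on with
  | _ k ih =>
  by_cases hk : k < u.length + 2
  · rw [show (k - u.length) / 2 = 0 by omega, pow_zero, mul_one]
    exact (Finset.card_filter_le _ _).trans (by rw [card_lists, Finset.card_univ])
  obtain ⟨k, rfl⟩ : ∃ k', k = k' + 2 := ⟨k - 2, by omega⟩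
  obtain ⟨r, hr⟩ : ∃ r, u.length = r + 2 := ⟨u.length - 2, by omega⟩
  have key : ((lists Finset.univ (k + 2)).filter fun y => tauL ψ u y = y.drop u.length).card ≤
      ((Finset.univ : Finset F) ×ˢ
        (lists Finset.univ k).filter fun y => tauL ψ u y = y.drop u.length).card := by
    refine Finset.card_le_card_of_injOn (fun y => (y.headD 0, y.drop 2)) (fun y hy => ?_)
      fun y hy y' hy' he => ?_
    · simp only [Finset.coe_filter, mem_lists, Finset.mem_univ, implies_true, and_true,
        Set.mem_ofPred_eq, Finset.coe_product, Finset.coe_univ, Set.mem_prod, Set.mem_univ,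
        true_and] at hy ⊢
      refine ⟨by simp [hy.1], ?_⟩
      rw [← tauL_drop_even u y even_two, hy.2, List.drop_drop, List.drop_drop, add_comm]
    · simp only [Finset.coe_filter, mem_lists, Finset.mem_univ, implies_true, and_true,
        Set.mem_ofPred_eq] at hy hy'
      match y, y', hy, hy', he with
      | β :: α :: κ, β' :: α' :: κ', hy, hy', he =>
        simp only [List.headD_cons, List.drop_succ_cons, List.drop_zero, Prod.mk.injEq] at he
        obtain ⟨rfl, rfl⟩ := he
        have hl : κ.length = k := by simpa using hy.1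
        have := head_tauL_injective (ψ := ψ) hne hc β κ (by omega) (a₁ := α) (a₂ := α') (by
          simp only [hy.2, hy'.2, hr, List.drop_succ_cons])
        rw [this]
  rw [Finset.card_product, Finset.card_univ] at key
  have := ih k (by omega)
  rw [show (k + 2 - u.length) / 2 = (k - u.length) / 2 + 1 by omega]
  calc _ ≤ Fintype.card F * ((lists Finset.univ k).filter
        fun y => tauL ψ u y = y.drop u.length).card *
          Fintype.card F ^ ((k - u.length) / 2 + 1) := by gcongr
    _ = ((lists Finset.univ k).filter fun y => tauL ψ u y = y.drop u.length).card *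
          Fintype.card F ^ ((k - u.length) / 2) * Fintype.card F ^ 2 := by ring
    _ ≤ Fintype.card F ^ k * Fintype.card F ^ 2 := by gcongr
    _ = _ := by ring

open Classical in
/-- at most `(G+1) n^G` words; for each, `y.drop (G - |u|)` is a fixed string -/
theorem card_spec0_le {G : ℕ} (hG : Even G) (k : ℕ) (hk : G ≤ k) :
    ((lists Finset.univ k).filter fun y => Spec0 ψ G y).card * Fintype.card F ^ ((k - G) / 2) ≤
      (G + 1) * Fintype.card F ^ G * Fintype.card F ^ k := by
  set U : Finset (List F) := ((Finset.range (G + 1)).biUnion fun l => lists Finset.univ l).filter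
    fun u => u ≠ [] ∧ u.IsChain (· ≠ ·) ∧ Even u.length ∧ u.length ≤ G with hU
  have hn : 0 < Fintype.card F := Fintype.card_pos
  have h1 : U.card ≤ (G + 1) * Fintype.card F ^ G := by
    refine (Finset.card_filter_le _ _).trans (Finset.card_biUnion_le.trans ?_)
    refine (Finset.sum_le_card_nsmul _ _ (Fintype.card F ^ G) fun l hl => ?_).trans (by simp)
    rw [card_lists, Finset.card_univ]
    exact Nat.pow_le_pow_right hn (Nat.lt_succ_iff.1 (Finset.mem_range.1 hl))
  have h2 : ((lists Finset.univ k).filter fun y => Spec0 ψ G y) ⊆ U.biUnion fun u =>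
      (lists Finset.univ (G - u.length) ×ˢ (lists Finset.univ (k - (G - u.length))).filter
        fun y => tauL ψ u y = y.drop u.length).image fun p => p.1 ++ p.2 := by
    intro y hy
    obtain ⟨hy, u, a1, a2, a3, a4, a5⟩ := Finset.mem_filter.1 hy
    have hl := (mem_lists.1 hy).1
    refine Finset.mem_biUnion.2 ⟨u, ?_, Finset.mem_image.2
      ⟨(y.take (G - u.length), y.drop (G - u.length)), ?_, List.take_append_drop _ _⟩⟩
    · simp only [hU, Finset.mem_filter, Finset.mem_biUnion, Finset.mem_range, mem_lists,
        Finset.mem_univ, implies_true, and_true]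
      exact ⟨⟨_, by omega, rfl⟩, a1, a2, a3, a4⟩
    · simp only [Finset.mem_product, Finset.mem_filter, mem_lists, Finset.mem_univ, implies_true,
        and_true, List.length_take, List.length_drop]
      refine ⟨by omega, by omega, ?_⟩
      rw [← tauL_drop_even u y ((Nat.even_sub a4).2 (by simp [hG, a3])), a5, List.drop_drop]
      congr 1; omega
  refine le_trans (Nat.mul_le_mul_right _ ((Finset.card_le_card h2).trans Finset.card_biUnion_le)) ?_
  rw [Finset.sum_mul]
  refine (Finset.sum_le_card_nsmul _ _ (Fintype.card F ^ k) fun u hu => ?_).trans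
    (by rw [smul_eq_mul]; gcongr)
  obtain ⟨-, a1, a2, a3, a4⟩ := Finset.mem_filter.1 hu
  have h3 := card_fix_le (ψ := ψ) a1 a2 a3 (k - (G - u.length))
  rw [show k - (G - u.length) - u.length = k - G by omega] at h3
  refine (Nat.mul_le_mul_right _ Finset.card_image_le).trans ?_
  rw [Finset.card_product, card_lists, Finset.card_univ, mul_assoc]
  refine (Nat.mul_le_mul_left _ h3).trans (le_of_eq ?_)
  rw [← pow_add]; congr 1; omega

open Classical in
/-- for `γ ≠ 0` a zero run of `γ :: κ` needs `2 s ≤ k`; each `s` costs a factor `n^s` -/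
theorem card_zeroRun_le (j₀ k : ℕ) {γ : F} (hγ : γ ≠ 0) :
    ((lists Finset.univ k).filter fun κ => ZeroRun j₀ (γ :: κ)).card * Fintype.card F ^ j₀ ≤
      2 * Fintype.card F ^ k := by
  have hn : 2 ≤ Fintype.card F := Fintype.one_lt_card
  have h2 : ((lists Finset.univ k).filter fun κ => ZeroRun j₀ (γ :: κ)) ⊆
      (Finset.Icc j₀ (k / 2)).biUnion fun s =>
        (lists Finset.univ (k - 2 * s) ×ˢ lists Finset.univ s).image
          fun p => p.1 ++ (List.replicate s 0 ++ p.2) := by
    intro κ hκ
    obtain ⟨hκ, s, a1, a2, a3⟩ := Finset.mem_filter.1 hκ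
    have hl := (mem_lists.1 hκ).1
    simp only [List.length_cons, hl] at a2
    have hs : 2 * s ≤ k := by
      by_contra hs
      have e1 : pre (γ :: κ) (2 * s) = List.replicate (2 * s - (k + 1)) 0 ++ γ :: κ := by
        unfold pre
        simp only [List.length_cons, hl]
        split_ifs with h
        · rw [show k + 1 - 2 * s = 0 by omega, show 2 * s - (k + 1) = 0 by omega]; simp
        · rfl
      obtain ⟨r, hr⟩ : ∃ r, s = (2 * s - (k + 1)) + (r + 1) := ⟨s - (2 * s - (k + 1)) - 1, by omega⟩
      rw [e1] at a3
      conv_rhs at a3 => rw [show List.replicate s (0 : F) =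
        List.replicate (2 * s - (k + 1) + (r + 1)) 0 by rw [← hr]]
      rw [List.replicate_add, List.append_assoc, List.append_cancel_left_eq,
        List.replicate_succ, List.cons_append] at a3
      exact hγ (List.cons.inj a3).1
    have e1 : ∀ m, m ≤ k → pre (γ :: κ) m = κ.drop (k - m) := fun m hm => by
      unfold pre
      simp only [List.length_cons, hl]
      rw [if_pos (by omega), show k + 1 - m = k - m + 1 by omega, List.drop_succ_cons]
    rw [e1 _ hs, e1 _ (by omega)] at a3
    refine Finset.mem_biUnion.2 ⟨s, Finset.mem_Icc.2 ⟨a1, by omega⟩, Finset.mem_image.2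
      ⟨(κ.take (k - 2 * s), κ.drop (k - s)), ?_, by rw [← a3, List.take_append_drop]⟩⟩
    simp only [Finset.mem_product, mem_lists, Finset.mem_univ, implies_true,
      and_true, List.length_take, List.length_drop]
    omega
  refine le_trans (Nat.mul_le_mul_right _ ((Finset.card_le_card h2).trans Finset.card_biUnion_le)) ?_
  rw [Finset.sum_mul]
  calc _ ≤ ∑ s ∈ Finset.Icc j₀ (k / 2), Fintype.card F ^ (k - s + j₀) := by
        refine Finset.sum_le_sum fun s hs => ?_
        have := Finset.mem_Icc.1 hs
        refine (Nat.mul_le_mul_right _ Finset.card_image_le).trans (le_of_eq ?_)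
        rw [Finset.card_product, card_lists, card_lists, Finset.card_univ, ← pow_add, ← pow_add]
        congr 1; omega
    _ = ∑ i ∈ (Finset.Icc j₀ (k / 2)).image fun s => k - s + j₀, Fintype.card F ^ i := by
        rw [Finset.sum_image]
        intro s hs s' hs' h
        simp only [Finset.coe_Icc, Set.mem_Icc] at hs hs' h
        omega
    _ ≤ ∑ i ∈ Finset.range (k + 1), Fintype.card F ^ i := by
        refine Finset.sum_le_sum_of_subset fun i hi => ?_
        obtain ⟨s, hs, rfl⟩ := Finset.mem_image.1 hi
        have := Finset.mem_Icc.1 hs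
        simp only [Finset.mem_range]; omega
    _ ≤ _ := by
        have := Nat.geomSum_lt hn (s := Finset.range k) (n := k) fun i hi => Finset.mem_range.1 hi
        rw [Finset.sum_range_succ]; omega

end Crest.Agent.R129
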