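import Crest.Agent.R129.GGraph
import Crest.Agent.R129.TyCount

/-! # Pieces, base girth, bad vertices (task R129/GSC). Statements frozen. -/

set_option autoImplicit false
open scoped BigOperators

namespace Crest.Agent.R129
namespace Par
variable (P : Par) {A : Type} {ω : P.Om A} {on : ℤ → Prop}

theorem gs_zr {x y : List P.F} {j₀ m : ℕ} (h1 : x.length < y.length) (h2 : j₀ ≤ x.length)
    (h3 : 2 * x.length ≤ m) (h : pre x m = pre y m) : ZeroRun j₀ y := by
  refine ⟨x.length, h2, h1, ?_⟩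
  rw [← pre_pre y h3, ← pre_pre y (show x.length ≤ m by omega), ← h, pre_pre x h3,
    pre_pre x (show x.length ≤ m by omega), pre_length, ty_pre_of_le x (by omega)]
  congr 2; omega

/-- Good vertices of the same type that agree up to level `m` are equal or `m < 2 stg`.  Equal stages: agreement at level `≥ stg`
gives equal strings, then `eq_of_em_eq`.  Stages `j < j'`: agreement at level `2j` is a zero run of the longer string (`s = j`).
(Use the smaller stage; it is `≤ stg v.1`.) -/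
theorem lt_of_agree {v v' : P.V} (hv : v ∈ P.node v.1) (hv' : v' ∈ P.node v'.1) (hg : P.Good ω v)
    (hg' : P.Good ω v') (hne : v ≠ v') {m : ℕ} (h : pre v.2 m = pre v'.2 m) : m < 2 * P.stg v.1 := by
  by_contra hm
  have l1 := P.length_of_mem hv
  have l2 := P.length_of_mem hv'
  have j1 := P.j₀_le_stg v.1
  have j2 := P.j₀_le_stg v'.1
  rcases lt_trichotomy v.2.length v'.2.length with hl | hl | hl
  · exact hg'.2 (P.gs_zr hl (by omega) (by omega) h)
  · have e : v.2 = v'.2 := by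
      rw [← pre_length v.2, ← pre_pre v.2 (show v.2.length ≤ m by omega), h,
        pre_pre v'.2 (show v.2.length ≤ m by omega), hl, pre_length]
    refine hne (Prod.ext (P.Nd_eq (P.mem_node.1 hv).2 ?_) e)
    rw [e]; exact (P.mem_node.1 hv').2
  · exact hg.2 (P.gs_zr hl (by omega) (by omega) h.symm)


theorem gs_adj {v : ℕ → P.V} {t : ℕ → P.F} {ℓ : ℕ} (h : (P.graph ω on).NBWalk v t ℓ) {s : ℕ}
    (hs : s < ℓ) : P.Adj ω on (t s) (v s) (v (s + 1)) := P.edge_iff.1 (h.1 s hs)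

theorem gs_par {v : ℕ → P.V} {t : ℕ → P.F} {ℓ : ℕ} (h : (P.graph ω on).NBWalk v t ℓ) {s : ℕ}
    (hs : s ≤ ℓ) : Even (v s).1 ↔ (Even (v 0).1 ↔ Even s) := by
  induction s with
  | zero => simp
  | succ s ih =>
    have h1 := Adj.parity P (P.gs_adj h (show s < ℓ by omega))
    have h2 := ih (by omega)
    rw [Nat.even_add_one]
    tauto

theorem gs_pos_adj {t : P.F} {v v' : P.V} (h : P.Adj ω on t v v') : pos v'.1 ≤ pos v.1 + 1 := by
  have := (Adj.pair P h).2.2.2.1
  unfold pos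
  omega

theorem gs_pos {v : ℕ → P.V} {t : ℕ → P.F} {ℓ : ℕ} (h : (P.graph ω on).NBWalk v t ℓ) {s : ℕ}
    (hs : s ≤ ℓ) : pos (v s).1 ≤ pos (v 0).1 + s := by
  induction s with
  | zero => simp
  | succ s ih =>
    have h1 := P.gs_pos_adj (P.gs_adj h (show s < ℓ by omega))
    have h2 := ih (by omega)
    omega

theorem gs_pre_one (x : List P.F) : pre x 1 = [x.getLastD 0] := by
  induction x using List.reverseRecOn with
  | nil => rfl
  | append_singleton x a _ =>
    unfold pre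
    rw [if_pos (by simp)]
    simp

theorem gs_hEnd_pos {v : ℕ → P.V} {s : ℕ} (h : Even (v s).1) :
    (P.graph ω on).z ((P.graph ω on).hEnd v s) = (v s).2.getLastD 0 := by
  have : (P.graph ω on).hEnd v s = v s := if_pos h
  rw [this]; rfl

theorem gs_hEnd_neg {v : ℕ → P.V} {s : ℕ} (h : ¬ Even (v s).1) :
    (P.graph ω on).z ((P.graph ω on).hEnd v s) = (v (s + 1)).2.getLastD 0 := by
  have : (P.graph ω on).hEnd v s = v (s + 1) := if_neg h
  rw [this]; rfl

theorem gs_L (v : P.V) : (P.graph ω on).L v = 5 * (P.j₀ + (pos v.1 : ℝ) / P.J) := rfl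

/-- `agree_of_common` with `p s m = pre (v s).2 m`, `e = 0` or `1` by the type of `v 0` (`Adj.tau_pre`, `Adj.parity`; `pre x 1 = [getLastD x 0]` for
`x ≠ []`); `v s ≠ v' s` by `Adj.unique` backwards.  At `s = ℓ / 2` the strings agree at level `s` or `s + 1`, so `s < 2 stg (v s).1 ≤ 2 (j₀ + (pos (v 0).1 + s)/J)`. -/
theorem piece (v v' : ℕ → P.V) (t : ℕ → P.F) (ℓ : ℕ) (h : (P.graph ω on).NBWalk v t ℓ)
    (h' : (P.graph ω on).NBWalk v' t ℓ) (h0 : Even (v 0).1 ↔ Even (v' 0).1)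
    (hz : ∀ s, s < ℓ → (P.graph ω on).z ((P.graph ω on).hEnd v s) = (P.graph ω on).z ((P.graph ω on).hEnd v' s))
    (hne : v 0 ≠ v' 0) : (ℓ : ℝ) ≤ (P.graph ω on).L (v 0) := by
  have hJ : (1000 : ℝ) ≤ P.J := by exact_mod_cast P.hJ
  have hj : (1000 : ℝ) ≤ P.j₀ := by exact_mod_cast P.hj
  have hX : (0 : ℝ) ≤ (pos (v 0).1 : ℝ) / P.J := by positivity
  rw [gs_L]
  rcases Nat.eq_zero_or_pos ℓ with rfl | hℓ
  · push_cast; linarith
  obtain ⟨e, he1, he⟩ : ∃ e, e ≤ 1 ∧ (Even (v 0).1 ↔ Even e) := by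
    by_cases h1 : Even (v 0).1
    · exact ⟨0, by omega, by simp [h1]⟩
    · exact ⟨1, le_rfl, by simp [h1]⟩
  have p1 : ∀ s, s ≤ ℓ → (Even (v s).1 ↔ (s + e) % 2 = 0) := fun s hs => by
    rw [P.gs_par h hs, he, Nat.even_iff, Nat.even_iff]; omega
  have p2 : ∀ s, s ≤ ℓ → (Even (v' s).1 ↔ (s + e) % 2 = 0) := fun s hs => by
    rw [P.gs_par h' hs, ← h0, he, Nat.even_iff, Nat.even_iff]; omega
  have hag := agree_of_common (ψ := P.psi ω) (fun s m => pre (v s).2 m) (fun s m => pre (v' s).2 m)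
    t ℓ e hℓ (fun s m => ⟨length_pre _ _, length_pre _ _⟩)
    (fun s m => ⟨drop_pre _ _ _, drop_pre _ _ _⟩) h.2 ?_ ?_ ?_ (ℓ / 2 + 1 - e) (ℓ / 2)
    (by omega) (by rw [Nat.odd_iff]; omega) (by omega) (by omega)
  · have hne' : ∀ s, s ≤ ℓ → v s ≠ v' s := by
      intro s
      induction s with
      | zero => exact fun _ => hne
      | succ s ih =>
        intro hs e'
        have a1 := Adj.symm P (P.gs_adj h (show s < ℓ by omega))
        have a2 := Adj.symm P (P.gs_adj h' (show s < ℓ by omega))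
        rw [← e'] at a2
        exact ih (by omega) (Adj.unique P a1 a2)
    have hs : ℓ / 2 < ℓ := by omega
    obtain ⟨-, -, -, -, a1, -, a2, -⟩ := Adj.pair P (P.gs_adj h hs)
    obtain ⟨-, -, -, -, b1, -, b2, -⟩ := Adj.pair P (P.gs_adj h' hs)
    have c1 := P.lt_of_agree a1 b1 a2 b2 (hne' _ hs.le) hag
    have c2 := P.gs_pos h hs.le
    have c3 : ((pos (v (ℓ / 2)).1 / P.J : ℕ) : ℝ) ≤ ((pos (v 0).1 : ℝ) + (ℓ / 2 : ℕ)) / P.J := by
      refine Nat.cast_div_le.trans (div_le_div_of_nonneg_right ?_ (by linarith))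
      exact_mod_cast c2
    have c4 : ((ℓ / 2 : ℕ) : ℝ) ≤ 2 * (P.j₀ + (pos (v (ℓ / 2)).1 / P.J : ℕ)) := by
      have : ℓ / 2 ≤ 2 * (P.j₀ + pos (v (ℓ / 2)).1 / P.J) := by unfold stg at c1; omega
      exact_mod_cast this
    have c5 : (ℓ : ℝ) ≤ 2 * (ℓ / 2 : ℕ) + 1 := by
      have : ℓ ≤ 2 * (ℓ / 2) + 1 := by omega
      exact_mod_cast this
    have c6 : ((ℓ / 2 : ℕ) : ℝ) / P.J ≤ (ℓ / 2 : ℕ) / 1000 :=
      div_le_div_of_nonneg_left (by positivity) (by norm_num) hJ
    rw [add_div] at c3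
    linarith
  · intro s m hs ho
    rw [Nat.odd_iff] at ho
    exact ⟨Adj.tau_pre P (P.gs_adj h hs) m (by rw [p1 s hs.le, Nat.even_iff]; omega),
      Adj.tau_pre P (P.gs_adj h' hs) m (by rw [p2 s hs.le, Nat.even_iff]; omega)⟩
  · intro s m hs ho
    rw [Nat.even_iff] at ho
    exact ⟨Adj.tau_pre P (Adj.symm P (P.gs_adj h hs)) m
        (by rw [p1 (s + 1) hs, Nat.even_iff]; omega),
      Adj.tau_pre P (Adj.symm P (P.gs_adj h' hs)) m (by rw [p2 (s + 1) hs, Nat.even_iff]; omega)⟩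
  · intro s hs ho
    rw [Nat.even_iff] at ho
    simp only [gs_pre_one]
    congr 1
    rcases lt_or_eq_of_le hs with hs' | rfl
    · have := hz s hs'
      rw [P.gs_hEnd_pos ((p1 s hs).2 ho), P.gs_hEnd_pos ((p2 s hs).2 ho)] at this
      exact this
    · obtain ⟨r, rfl⟩ : ∃ r, s = r + 1 := ⟨s - 1, by omega⟩
      have := hz r (by omega)
      rw [P.gs_hEnd_neg fun h1 => by have := (p1 r (by omega)).1 h1; omega,
        P.gs_hEnd_neg fun h1 => by have := (p2 r (by omega)).1 h1; omega] at this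
      exact this


/-- `ℓ` is even (`Adj.parity`); if `ℓ ≤ gir`, iterate `Adj.tau_pre` from `ty (v 0) = pre _ m` (`length_ty`, `m ≥ ℓ`): `tauL ports (ty (v 0)) = pre (v ℓ).2 (m - ℓ)`,
contradicting `not_chain_of_not_spec`. -/
theorem base_girth (v : ℕ → P.V) (t : ℕ → P.F) (ℓ : ℕ) (h : (P.graph ω on).NBWalk v t ℓ) (hℓ : 0 < ℓ)
    (hc : v ℓ = v 0) : gir (P.stg (v 0).1) < ℓ := by
  by_contra hle
  obtain ⟨-, -, -, -, a1, -, a2, -⟩ := Adj.pair P (P.gs_adj h hℓ)
  obtain ⟨b1, b2, -, b4⟩ := P.length_ty a1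
  have hev : Even ℓ := by
    have := P.gs_par h le_rfl
    rw [hc] at this
    tauto
  have hj := P.j₀_le_stg (v 0).1
  have hj' := P.hj
  have hm : ℓ ≤ (P.ty (v 0)).length := by unfold gir at hle; omega
  generalize hm' : (P.ty (v 0)).length = m at b1 b2 b4 hm
  have key : ∀ s, s ≤ ℓ → tauL (P.psi ω) ((List.range s).map t) (pre (v 0).2 m) =
      pre (v s).2 (m - s) := by
    intro s
    induction s with
    | zero => intro _; rfl
    | succ s ih =>
      intro hs
      rw [List.range_succ, List.map_append, tauL_append, ih (by omega),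
        show m - s = (m - (s + 1)) + 1 by omega]
      refine Adj.tau_pre P (P.gs_adj h (show s < ℓ by omega)) _ ?_
      rw [P.gs_par h (show s ≤ ℓ by omega), b1, Nat.odd_iff, Nat.even_iff, Nat.even_iff]
      omega
  have hlen : ((List.range ℓ).map t).length = ℓ := by simp
  refine not_chain_of_not_spec (G := gir (P.stg (v 0).1)) (even_two_mul _) a2.1
    (u := (List.range ℓ).map t) (fun e => by rw [e] at hlen; simp at hlen; omega) ?_
    (by rw [hlen]; exact hev) (by omega) ?_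
  · rw [List.isChain_iff_getElem]
    intro i hi
    simp only [List.getElem_map, List.getElem_range]
    exact h.2 i (by rwa [hlen] at hi)
  · rw [b2, key ℓ le_rfl, hc, hlen, ← drop_pre (v 0).2 (m - ℓ) ℓ, Nat.sub_add_cancel hm]


theorem scHyp [Group A] (h : ∀ i, ¬ P.badG on i ω) : (P.graph ω on).SCHyp := by
  have hJ : (1000 : ℝ) ≤ P.J := by exact_mod_cast P.hJ
  have hj : (1000 : ℝ) ≤ P.j₀ := by exact_mod_cast P.hj
  refine ⟨fun v => ?_, fun v t v' he => ?_, P.piece, fun v t ℓ h1 h2 h3 h4 => ?_⟩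
  · have hX : (0 : ℝ) ≤ (pos v.1 : ℝ) / P.J := by positivity
    refine le_of_le_of_eq ?_ (P.gs_L v).symm
    linarith
  · have h1 : (pos v'.1 : ℝ) ≤ pos v.1 + 1 := by exact_mod_cast P.gs_pos_adj (P.edge_iff.1 he)
    have h2 : (pos v'.1 : ℝ) / P.J ≤ (pos v.1 + 1) / P.J :=
      div_le_div_of_nonneg_right h1 (by linarith)
    have h3 : (1 : ℝ) / P.J ≤ 1 / 1000 := one_div_le_one_div_of_le (by norm_num) hJ
    rw [add_div] at h2
    have e1 := P.gs_L (ω := ω) (on := on) v
    have e2 := P.gs_L (ω := ω) (on := on) v'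
    linarith
  · by_contra hlt
    exact h (v 0).1 ⟨v, t, ℓ, h1, h2, h3, rfl, h4, not_le.1 hlt⟩


theorem gs_card_drop (Q : List P.F → Prop) [DecidablePred Q] (r k : ℕ) :
    ((lists Finset.univ (r + k)).filter fun κ => Q (κ.drop r)).card =
      P.n ^ r * ((lists Finset.univ k).filter Q).card := by
  rw [Finset.card_filter, sum_lists_add, Finset.card_filter,
    Finset.sum_congr rfl (g := fun _ => ∑ κ ∈ lists Finset.univ k, if Q κ then 1 else 0),
    Finset.sum_const, card_lists, Finset.card_univ, ZMod.card, smul_eq_mul]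
  intro l hl
  refine Finset.sum_congr rfl fun κ _ => ?_
  rw [List.drop_left' (mem_lists.1 hl).1]

open Classical in
theorem gs_spec (ψ : P.F → List P.F → Equiv.Perm P.F) {j r : ℕ} (hj : 1000 ≤ j) (hr : r ≤ 2) :
    ((lists Finset.univ (j - 1)).filter fun κ => Spec0 ψ (gir j) (κ.drop r)).card * P.n ≤
      P.n ^ (j - 1) := by
  have h2 := P.prime.two_le
  have e : j - 1 = r + (j - 1 - r) := by omega
  rw [e, P.gs_card_drop (fun y => Spec0 ψ (gir j) y), pow_add, mul_assoc]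
  refine Nat.mul_le_mul_left _ ?_
  have h1 := card_spec0_le (ψ := ψ) (G := gir j) (even_two_mul _) (j - 1 - r)
    (by unfold gir; omega)
  rw [ZMod.card] at h1
  have h3 : gir j + 1 ≤ P.n ^ gir j :=
    (Nat.succ_le_of_lt Nat.lt_two_pow_self).trans (Nat.pow_le_pow_left h2 _)
  have h4 : (gir j + 1) * P.n ^ gir j * P.n ≤ P.n ^ ((j - 1 - r - gir j) / 2) := by
    calc (gir j + 1) * P.n ^ gir j * P.n ≤ P.n ^ gir j * P.n ^ gir j * P.n :=
          Nat.mul_le_mul_right _ (Nat.mul_le_mul_right _ h3)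
      _ = P.n ^ (gir j + gir j + 1) := by rw [pow_succ, pow_add]
      _ ≤ _ := Nat.pow_le_pow_right (by omega) (by unfold gir; omega)
  refine Nat.le_of_mul_le_mul_left (c := (gir j + 1) * P.n ^ gir j) ?_ (by positivity)
  refine le_trans ?_ h1
  rw [mul_left_comm]
  exact Nat.mul_le_mul_left _ h4

open Classical in
/-- `sum_node`; `Spec` depends on `(ty v).drop 2`, uniformly distributed on strings of length `k ≥ stg - 3`: fraction
`≤ (G+1) n^G / n^((k-G)/2) ≤ 1/n` as `G ≤ stg/8`, `G + 1 ≤ n^G`, `stg ≥ 1000`; zero runs: `≤ 2 / n^j₀ ≤ 2/n`. -/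
theorem card_bad_le (i : ℤ) :
    ((P.node i).filter fun v => ¬ P.Good ω v).card * P.n ≤ 3 * (P.node i).card := by
  have hj := P.j₀_le_stg i
  have hj' := P.hj
  rw [Finset.card_filter, sum_node, card_node, Finset.sum_mul, ← mul_assoc, mul_comm 3, mul_assoc]
  refine (Finset.sum_le_card_nsmul _ _ (3 * P.n ^ (P.stg i - 1)) fun y hy => ?_).trans
    (by rw [Finset.card_range, smul_eq_mul])
  obtain ⟨r, hr, hr'⟩ : ∃ r, r ≤ 2 ∧ ∀ κ, (P.ty (i, P.em i y :: κ)).drop 2 = κ.drop r := by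
    by_cases ht : P.top i
    · exact ⟨1, by omega, fun κ => by unfold ty; rw [if_pos ht]; rfl⟩
    · exact ⟨2, le_rfl, fun κ => by unfold ty; rw [if_neg ht]; rfl⟩
  have a1 := P.gs_spec (P.psi ω) (j := P.stg i) (by omega) hr
  have a2 := card_zeroRun_le P.j₀ (P.stg i - 1) (P.em_ne_zero i (Finset.mem_range.1 hy))
  rw [ZMod.card] at a2
  have a3 : P.n ≤ P.n ^ P.j₀ := Nat.le_self_pow (by omega) _
  have a4 := (Nat.mul_le_mul_left _ a3).trans a2
  refine le_trans (Nat.mul_le_mul_right _ ?_) ((add_mul _ _ _).le.trans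
    ((Nat.add_le_add a1 a4).trans (by omega)))
  rw [Finset.card_filter, Finset.card_filter, ← Finset.sum_add_distrib]
  refine Finset.sum_le_sum fun κ _ => ?_
  by_cases h1 : Spec0 (P.psi ω) (gir (P.stg i)) (κ.drop r)
  · rw [if_pos h1]; split_ifs <;> omega
  · by_cases h2 : ZeroRun P.j₀ (P.em i y :: κ)
    · rw [if_pos h2]; split_ifs <;> omega
    · rw [if_neg]
      · exact Nat.zero_le _
      · exact not_not.2 ⟨fun h => h1 (by rw [← hr']; exact h), h2⟩


end Par
end Crest.Agent.R129
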