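import Crest.Agent.R129.TrDefs

/-! # Weighted walk counts (task R129/TrSeg). Statements frozen. `z = (√d)⁻¹`. -/

set_option autoImplicit false
set_option linter.unusedSectionVars false
open scoped BigOperators

namespace Crest.Agent.R129
namespace TrStr
variable {V F Bl A : Type} [DecidableEq V] [DecidableEq F] [DecidableEq Bl] [Group A] [DecidableEq A]
  (X : TrStr V F Bl A) {c : V → F → V → A → ℂ}

theorem seg_wwt_append (c : V → F → V → A → ℂ) (v : V) (l₁ l₂ : List (F × V × A)) :
    wwt c v (l₁ ++ l₂) = wwt c v l₁ * wwt c (wend v l₁) l₂ := by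
  induction l₁ generalizing v with
  | nil => simp [wwt, wend]
  | cons σ l ih => simp [wwt, wend, ih, mul_assoc]

theorem seg_wend_append (v : V) (l₁ l₂ : List (F × V × A)) :
    wend v (l₁ ++ l₂) = wend (wend v l₁) l₂ := by
  induction l₁ generalizing v with
  | nil => simp [wend]
  | cons σ l ih => simp [wend, ih]

theorem seg_blocks_append (v : V) (l₁ l₂ : List (F × V × A)) :
    X.blocks v (l₁ ++ l₂) = X.blocks v l₁ ++ X.blocks (wend v l₁) l₂ := by
  induction l₁ generalizing v with
  | nil => simp [blocks, wend]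
  | cons σ l ih => simp [blocks, wend, ih]

theorem seg_blocks_length (v : V) (l : List (F × V × A)) : (X.blocks v l).length = l.length := by
  induction l generalizing v with
  | nil => simp [blocks]
  | cons σ l ih => simp [blocks, ih]

theorem seg_side (hc : X.Adm c) {v : V} {l : List (F × V × A)} (hw : wwt c v l ≠ 0) :
    X.side (wend v l) = if Even l.length then X.side v else !X.side v := by
  induction l generalizing v with
  | nil => simp [wend]
  | cons σ l ih =>
    simp only [wwt, ne_eq, mul_eq_zero, not_or] at hw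
    rw [wend, ih hw.2, (hc.supp _ _ _ _ hw.1).2.2.2.2.1, List.length_cons]
    by_cases h : Even l.length <;> simp [h, Nat.even_add_one]

theorem seg_pw_append (hc : X.Adm c) {v : V} {l₁ : List (F × V × A)} (hw : wwt c v l₁ ≠ 0)
    (l₂ : List (F × V × A)) : pw (X.side v) ((l₁ ++ l₂).map Prod.fst) =
      pw (X.side v) (l₁.map Prod.fst) * pw (X.side (wend v l₁)) (l₂.map Prod.fst) := by
  rw [List.map_append, pw_append, List.length_map, X.seg_side hc hw]

theorem seg_seq (hc : X.Adm c) (t₀ : F) {v : V} {l : List (F × V × A)} (hw : wwt c v l ≠ 0)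
    (hv : v ∈ X.Vs) : ∃ (x : ℕ → V) (tt : ℕ → F), x 0 = v ∧ x l.length = wend v l ∧
      (List.range l.length).map tt = l.map Prod.fst ∧ (∀ p, p ≤ l.length → x p ∈ X.Vs) ∧
      ∀ p, p < l.length → tt p ∈ X.T ∧ X.side (x (p + 1)) = !X.side (x p) ∧
        X.bl (x p) (tt p) = X.bl (x (p + 1)) (tt p) := by
  induction l generalizing v with
  | nil => exact ⟨fun _ => v, fun _ => t₀, rfl, rfl, rfl, fun _ _ => hv, fun p hp => by simp at hp⟩
  | cons σ l ih =>
    simp only [wwt, ne_eq, mul_eq_zero, not_or] at hw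
    obtain ⟨-, h2, h3, -, h5, h6⟩ := hc.supp _ _ _ _ hw.1
    obtain ⟨x, tt, e0, e1, e2, e3, e4⟩ := ih hw.2 h2
    refine ⟨fun p => Nat.casesOn p v x, fun p => Nat.casesOn p σ.1 tt, rfl, e1, ?_, ?_, ?_⟩
    · rw [List.length_cons, List.range_succ_eq_map, List.map_cons, List.map_map, List.map_cons,
        ← e2]
      rfl
    · intro p hp
      cases p with
      | zero => exact hv
      | succ p => exact e3 p (by simpa using hp)
    · intro p hp
      cases p with
      | zero =>
        change σ.1 ∈ X.T ∧ X.side (x 0) = !X.side v ∧ X.bl v σ.1 = X.bl (x 0) σ.1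
        rw [e0]
        exact ⟨h3, h5, h6⟩
      | succ p => exact e4 p (by simpa using hp)

theorem seg_cg (hc : X.Adm c) {v : V} {l : List (F × V × A)} (hl : l.length ≤ 2 * X.g)
    (hw : wwt c v l ≠ 0) (hv : v ∈ X.Vs) {t : F} (ht : t ∈ X.T)
    (hb : X.bl v t = X.bl (wend v l) t) :
    pw (X.side v) (l.map Prod.fst) = if Even l.length then 1 else sg (t, X.side v) := by
  obtain ⟨x, tt, e0, e1, e2, e3, e4⟩ := X.seg_seq hc t hw hv
  have := X.cg x tt l.length hl e3 e4 t ht (by rw [e0, e1]; exact hb)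
  rwa [e0, e2] at this

theorem seg_rev (hc : X.Adm c) {v : V} {l : List (F × V × A)} (hw : wwt c v l ≠ 0) :
    ∃ r : List (F × V × A), r.length = l.length ∧ wwt c (wend v l) r ≠ 0 ∧
      wend (wend v l) r = v ∧
      pw (X.side (wend v l)) (r.map Prod.fst) = (pw (X.side v) (l.map Prod.fst))⁻¹ := by
  induction l generalizing v with
  | nil => exact ⟨[], rfl, by simp [wwt], rfl, by simp [pw]⟩
  | cons σ l ih =>
    simp only [wwt, ne_eq, mul_eq_zero, not_or] at hw
    obtain ⟨r, e1, e2, e3, e4⟩ := ih hw.2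
    have h5 := (hc.supp _ _ _ _ hw.1).2.2.2.2.1
    refine ⟨r ++ [(σ.1, v, σ.2.2⁻¹)], by simp [e1], ?_, ?_, ?_⟩
    · rw [wend, seg_wwt_append, e3]
      refine mul_ne_zero e2 ?_
      simp only [wwt, mul_one]
      rw [hc.sym]
      simpa using hw.1
    · rw [wend, seg_wend_append]
      rfl
    · rw [wend, X.seg_pw_append hc e2, e3, e4, h5]
      simp [pw, sg_inv]

/-- induction on `s` (generalising `v`, `φ`), `Adm.wt` -/
theorem sum_ports_le (hc : X.Adm c) (s : ℕ) (v : V) (φ : List F → ℝ) (hφ : ∀ u, 0 ≤ φ u) :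
    ∑ l ∈ lists X.St s, φ (l.map Prod.fst) * ‖wwt c v l‖ ≤ 2 ^ s * ∑ u ∈ lists X.T s, φ u := by
  induction s generalizing v φ with
  | zero => simp [sum_lists_zero, wwt]
  | succ s ih =>
    rw [sum_lists_succ, sum_lists_succ, St, Finset.sum_product, Finset.mul_sum]
    refine Finset.sum_le_sum fun t _ => ?_
    have h0 : 0 ≤ (2 : ℝ) ^ s * ∑ u ∈ lists X.T s, φ (t :: u) :=
      mul_nonneg (by positivity) (Finset.sum_nonneg fun u _ => hφ _)
    calc _ ≤ ∑ y ∈ X.Vs ×ˢ X.Fs, ‖c v t y.1 y.2‖ * (2 ^ s * ∑ u ∈ lists X.T s, φ (t :: u)) := by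
          refine Finset.sum_le_sum fun y _ => ?_
          refine le_trans (le_of_eq ?_) (mul_le_mul_of_nonneg_left
            (ih y.1 (fun u => φ (t :: u)) fun u => hφ _) (norm_nonneg _))
          rw [Finset.mul_sum]
          refine Finset.sum_congr rfl fun l _ => ?_
          simp only [wwt, List.map_cons, norm_mul]
          ring
      _ ≤ 2 * (2 ^ s * ∑ u ∈ lists X.T s, φ (t :: u)) := by
          rw [← Finset.sum_mul, Finset.sum_product]
          exact mul_le_mul_of_nonneg_right (hc.wt v t) h0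
      _ = _ := by ring

/-- With `x p = pw β (first p ports)`, equal blocks at times `p < q` give equal unordered tree edges (`port`, `cg` on the
sub-walk from time `p` to `q`), so `td_le_card_edges` applies. -/
theorem norm_pw_le_blocks (hc : X.Adm c) {v : V} {l : List (F × V × A)} (hl : l.length ≤ 2 * X.g)
    (hw : wwt c v l ≠ 0) :
    (pw (X.side v) (l.map Prod.fst)).norm ≤ (X.blocks v l).toFinset.card := by
  classical
  have hpre : ∀ p, wwt c v (l.take p) ≠ 0 := by
    intro p h
    apply hw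
    rw [← List.take_append_drop p l, seg_wwt_append, h, zero_mul]
  have hstep : ∀ p (hp : p < l.length),
      c (wend v (l.take p)) (l[p]).1 (l[p]).2.1 (l[p]).2.2 ≠ 0 := by
    intro p hp h
    apply hpre (p + 1)
    rw [List.take_succ_eq_append_getElem hp, seg_wwt_append]
    simp [wwt, h]
  set x : ℕ → FreeGroup F := fun p => pw (X.side v) ((l.take p).map Prod.fst) with hx
  have hsucc : ∀ p (hp : p < l.length),
      x (p + 1) = x p * sg ((l[p]).1, X.side (wend v (l.take p))) := by
    intro p hp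
    simp only [hx]
    rw [List.take_succ_eq_append_getElem hp, X.seg_pw_append hc (hpre p)]
    simp [pw]
  have h1 := td_le_card_edges x l.length fun p hp => by rw [hsucc p hp, td_sg]
  have h2 : td (x 0) (x l.length) = (pw (X.side v) (l.map Prod.fst)).norm := by
    simp only [hx, List.take_zero, List.take_length, List.map_nil, pw, td_one]
  rw [h2] at h1
  refine h1.trans ?_
  have key : ∀ p q (hp : p < l.length) (hq : q < l.length), p ≤ q →
      X.bl (wend v (l.take p)) (l[p]).1 = X.bl (wend v (l.take q)) (l[q]).1 →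
      s(x p, x (p + 1)) = s(x q, x (q + 1)) := by
    intro p q hp hq hpq hb
    have ht : (l[p]).1 = (l[q]).1 := X.port _ _ _ _ hb
    obtain ⟨k, rfl⟩ := Nat.exists_eq_add_of_le hpq
    set m := (l.drop p).take k with hm
    have htk : l.take (p + k) = l.take p ++ m := List.take_add
    have hmw : wwt c (wend v (l.take p)) m ≠ 0 := by
      intro h
      apply hpre (p + k)
      rw [htk, seg_wwt_append, h, mul_zero]
    have hml : m.length ≤ 2 * X.g := by
      rw [hm, List.length_take, List.length_drop]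
      omega
    obtain ⟨a1, -, a3, -⟩ := hc.supp _ _ _ _ (hstep p hp)
    have hend : wend v (l.take (p + k)) = wend (wend v (l.take p)) m := by
      rw [htk, seg_wend_append]
    have hcg := X.seg_cg hc hml hmw a1 a3 (by rw [hb, ← ht, hend])
    have hxq : x (p + k) = x p * pw (X.side (wend v (l.take p))) (m.map Prod.fst) := by
      simp only [hx]
      rw [htk, X.seg_pw_append hc (hpre p)]
    rw [hsucc p hp, hsucc _ hq, hxq, hcg, hend, X.seg_side hc hmw, ← ht]
    by_cases he : Even m.length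
    · simp [he]
    · simp only [if_neg he]
      rw [Sym2.eq_swap, mul_assoc, ← sg_inv (_, _), mul_inv_cancel, mul_one]
  refine Finset.card_le_card_of_forall_subsingleton
    (fun e b => ∃ p, ∃ hp : p < l.length, e = s(x p, x (p + 1)) ∧
      b = X.bl (wend v (l.take p)) (l[p]).1) ?_ ?_
  · intro e he
    obtain ⟨p, hp, rfl⟩ := Finset.mem_image.1 he
    have hp' : p < l.length := Finset.mem_range.1 hp
    refine ⟨_, ?_, p, hp', rfl, rfl⟩
    rw [List.mem_toFinset]
    have : l = l.take p ++ l[p] :: l.drop (p + 1) := by simp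
    have e := X.seg_blocks_append v (l.take p) (l[p] :: l.drop (p + 1))
    rw [← this] at e
    rw [e]
    simp [blocks]
  · rintro b - e ⟨-, p, hp, rfl, hb⟩ e' ⟨-, q, hq, rfl, hb'⟩
    rcases le_total p q with h | h
    · exact key p q hp hq h (hb.symm.trans hb')
    · exact (key q p hq hp h (hb'.symm.trans hb)).symm

/-- concatenate one walk with the reverse of the other and use `cg` -/
theorem pw_eq_of_end (hc : X.Adm c) {v : V} {l l' : List (F × V × A)} (hl : l.length ≤ X.g)
    (hl' : l'.length = l.length) (hw : wwt c v l ≠ 0) (hw' : wwt c v l' ≠ 0) (he : wend v l = wend v l') :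
    pw (X.side v) (l.map Prod.fst) = pw (X.side v) (l'.map Prod.fst) := by
  cases l with
  | nil =>
    rw [List.length_nil, List.length_eq_zero_iff] at hl'
    rw [hl']
  | cons σ l₀ =>
    have hσ : c v σ.1 σ.2.1 σ.2.2 ≠ 0 := left_ne_zero_of_mul hw
    obtain ⟨a1, -, a3, -⟩ := hc.supp _ _ _ _ hσ
    generalize σ :: l₀ = l at *
    obtain ⟨r, e1, e2, e3, e4⟩ := X.seg_rev hc hw'
    rw [← he] at e2 e3 e4
    have hlen : (l ++ r).length = 2 * l.length := by
      rw [List.length_append, e1, hl']; ring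
    have h := X.seg_cg hc (v := v) (l := l ++ r) (by omega)
      (by rw [seg_wwt_append]; exact mul_ne_zero hw e2) a1 a3 (by rw [seg_wend_append, e3])
    rw [X.seg_pw_append hc hw, e4, hlen, if_pos (even_two_mul _)] at h
    exact mul_inv_eq_one.1 h

theorem seg_free (hc : X.Adm c) (s : ℕ) (v : V) :
    ∑ l ∈ lists X.St s, ((Real.sqrt X.d)⁻¹) ^ (pw (X.side v) (l.map Prod.fst)).norm * ‖wwt c v l‖ ≤
      (4 * Real.sqrt X.d) ^ s := by
  refine (X.sum_ports_le hc s v (fun u => ((Real.sqrt X.d)⁻¹) ^ (pw (X.side v) u).norm)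
    fun u => by positivity).trans ?_
  refine (mul_le_mul_of_nonneg_left (sum_pow_norm_le X.T X.d X.one_le_d X.card_T s _)
    (by positivity)).trans (le_of_eq ?_)
  rw [← mul_pow]
  congr 1
  ring

theorem seg_end (hc : X.Adm c) (s : ℕ) (hs : s ≤ X.g) (v y : V) :
    ∑ l ∈ lists X.St s, (if wend v l = y then ‖wwt c v l‖ else 0) ≤ (4 * Real.sqrt X.d) ^ s := by
  classical
  by_cases h : ∃ l₀ ∈ lists X.St s, wend v l₀ = y ∧ wwt c v l₀ ≠ 0
  · obtain ⟨l₀, hl₀, h1, h2⟩ := h
    have h3 := X.sum_ports_le hc s v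
      (fun u => if pw (X.side v) u = pw (X.side v) (l₀.map Prod.fst) then 1 else 0)
      (fun u => by split_ifs <;> norm_num)
    have h4 := card_pw_eq_le X.T X.d X.one_le_d X.card_T s (X.side v)
      (pw (X.side v) (l₀.map Prod.fst))
    rw [Finset.sum_boole] at h3
    refine le_trans (Finset.sum_le_sum fun l hl => ?_) (h3.trans ?_)
    · by_cases hw : wwt c v l = 0
      · simp [hw]
      split_ifs with e1 e2 e2
      · simp
      · exact absurd (X.pw_eq_of_end hc (by rw [(mem_lists.1 hl).1]; exact hs)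
          (by rw [(mem_lists.1 hl).1, (mem_lists.1 hl₀).1]) hw h2 (e1.trans h1.symm)) e2
      · simp
      · simp
    · refine (mul_le_mul_of_nonneg_left h4 (by positivity)).trans (le_of_eq ?_)
      rw [← mul_pow]
      congr 1
      ring
  · rw [Finset.sum_eq_zero]
    · positivity
    · intro l hl
      split_ifs with e
      · by_contra hne
        exact h ⟨l, hl, e, fun h0 => hne (by rw [h0, norm_zero])⟩
      · rfl

theorem seg_count (O : Finset Bl) :
    ∑ y ∈ X.Vs, ((X.T.filter fun t => X.bl y t ∈ O).card : ℝ) ≤ O.card * X.m := by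
  classical
  have h1 : ∑ y ∈ X.Vs, (X.T.filter fun t => X.bl y t ∈ O).card =
      ((X.Vs ×ˢ X.T).filter fun p => X.bl p.1 p.2 ∈ O).card := by
    simp only [Finset.card_filter]
    rw [Finset.sum_product]
  have h2 : ((X.Vs ×ˢ X.T).filter fun p => X.bl p.1 p.2 ∈ O).card ≤ X.m * O.card := by
    refine Finset.card_le_mul_card_image_of_maps_to (f := fun p : V × F => X.bl p.1 p.2)
      (fun p hp => (Finset.mem_filter.1 hp).2) _ fun b _ => ?_
    rcases Finset.eq_empty_or_nonempty (Finset.filter (fun p : V × F => X.bl p.1 p.2 = b)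
      ((X.Vs ×ˢ X.T).filter fun p => X.bl p.1 p.2 ∈ O)) with h | ⟨p₀, hp₀⟩
    · rw [h]; simp
    · refine le_trans ?_ (X.size b p₀.2)
      have hb₀ := (Finset.mem_filter.1 hp₀).2
      refine Finset.card_le_card_of_injOn Prod.fst (fun p hp => ?_) fun p hp p' hp' e => ?_
      · have hp1 := Finset.mem_filter.1 hp
        have ht : p.2 = p₀.2 := X.port _ _ _ _ (hp1.2.trans hb₀.symm)
        refine Finset.mem_filter.2 ⟨(Finset.mem_product.1 (Finset.mem_filter.1 hp1.1).1).1, ?_⟩
        rw [← ht]
        exact hp1.2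
      · exact Prod.ext e (X.port _ _ _ _
          ((Finset.mem_filter.1 hp).2.trans (Finset.mem_filter.1 hp').2.symm))
  rw [← h1, mul_comm] at h2
  exact_mod_cast h2

theorem seg_step (hc : X.Adm c) (O : Finset Bl) (y : V) :
    ∑ σ ∈ X.St, (if X.bl y σ.1 ∈ O then ‖c y σ.1 σ.2.1 σ.2.2‖ else 0) ≤
      ∑ y' ∈ X.Vs, if y = y' then 2 * ((X.T.filter fun t => X.bl y' t ∈ O).card : ℝ) else 0 := by
  rw [Finset.sum_ite_eq]
  split_ifs with hy
  · rw [St, Finset.sum_product, Finset.card_filter]
    push_cast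
    rw [Finset.mul_sum]
    refine Finset.sum_le_sum fun t _ => ?_
    by_cases ht : X.bl y t ∈ O
    · simp only [if_pos ht, mul_one]
      rw [Finset.sum_product]
      exact hc.wt y t
    · simp [ht]
  · refine le_of_eq (Finset.sum_eq_zero fun σ _ => ?_)
    split_ifs
    · by_contra hne
      exact hy (hc.supp _ _ _ _ fun h0 => hne (by rw [h0, norm_zero])).1
    · rfl

/-- the contribution of the walks whose last old block is met at the first step of `r` -/
noncomputable def segH (c : V → F → V → A → ℂ) (O : Finset Bl) (v : V) (l₀ : List (F × V × A)) :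
    List (F × V × A) → ℝ
  | [] => 0
  | σ :: l₂ => ‖wwt c v l₀‖ *
      ((if X.bl (wend v l₀) σ.1 ∈ O then ‖c (wend v l₀) σ.1 σ.2.1 σ.2.2‖ else 0) *
        (((Real.sqrt X.d)⁻¹) ^ (pw (X.side σ.2.1) (l₂.map Prod.fst)).norm * ‖wwt c σ.2.1 l₂‖))

theorem segH_nonneg (O : Finset Bl) (v : V) (l₀ r : List (F × V × A)) :
    0 ≤ X.segH c O v l₀ r := by
  cases r with
  | nil => exact le_rfl
  | cons σ l₂ =>
    simp only [segH]
    split_ifs <;> positivity

theorem seg_sumH (hc : X.Adm c) (p k : ℕ) (hp : p ≤ X.g) (v : V) (O : Finset Bl) :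
    ∑ l ∈ lists X.St (p + (k + 1)), X.segH c O v (l.take p) (l.drop p) ≤
      (O.card * X.m : ℝ) * (4 * Real.sqrt X.d) ^ (p + (k + 1)) := by
  have hd : (1 : ℝ) ≤ Real.sqrt X.d := Real.one_le_sqrt.2 (by exact_mod_cast X.one_le_d)
  rw [sum_lists_add]
  calc _ ≤ ∑ l₀ ∈ lists X.St p, ∑ y' ∈ X.Vs, (if wend v l₀ = y' then ‖wwt c v l₀‖ else 0) *
          (2 * ((X.T.filter fun t => X.bl y' t ∈ O).card : ℝ) * (4 * Real.sqrt X.d) ^ k) := by
        refine Finset.sum_le_sum fun l₀ hl₀ => ?_
        have hlen := (mem_lists.1 hl₀).1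
        simp only [List.take_left' hlen, List.drop_left' hlen]
        rw [sum_lists_succ]
        calc _ ≤ ∑ σ ∈ X.St, ‖wwt c v l₀‖ * ((if X.bl (wend v l₀) σ.1 ∈ O then
              ‖c (wend v l₀) σ.1 σ.2.1 σ.2.2‖ else 0) * (4 * Real.sqrt X.d) ^ k) := by
              refine Finset.sum_le_sum fun σ _ => ?_
              simp only [segH]
              rw [← Finset.mul_sum, ← Finset.mul_sum]
              refine mul_le_mul_of_nonneg_left (mul_le_mul_of_nonneg_left
                (X.seg_free hc k σ.2.1) ?_) (norm_nonneg _)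
              split_ifs <;> positivity
          _ ≤ _ := by
              rw [← Finset.mul_sum, ← Finset.sum_mul]
              refine (mul_le_mul_of_nonneg_left (mul_le_mul_of_nonneg_right
                (X.seg_step hc O (wend v l₀)) (by positivity)) (norm_nonneg _)).trans
                (le_of_eq ?_)
              rw [Finset.sum_mul, Finset.mul_sum]
              refine Finset.sum_congr rfl fun y' _ => ?_
              split_ifs <;> simp
    _ ≤ ∑ y' ∈ X.Vs, (4 * Real.sqrt X.d) ^ p *
          (2 * ((X.T.filter fun t => X.bl y' t ∈ O).card : ℝ) * (4 * Real.sqrt X.d) ^ k) := by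
        rw [Finset.sum_comm]
        refine Finset.sum_le_sum fun y' _ => ?_
        rw [← Finset.sum_mul]
        exact mul_le_mul_of_nonneg_right (X.seg_end hc p hp v y') (by positivity)
    _ = (∑ y' ∈ X.Vs, ((X.T.filter fun t => X.bl y' t ∈ O).card : ℝ)) *
          ((4 * Real.sqrt X.d) ^ p * ((4 * Real.sqrt X.d) ^ k * 2)) := by
        rw [Finset.sum_mul]
        exact Finset.sum_congr rfl fun y' _ => by ring
    _ ≤ _ := by
        refine mul_le_mul (X.seg_count O) ?_ (by positivity) (by positivity)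
        rw [pow_add, pow_succ]
        gcongr
        linarith

theorem seg_last (O : Finset Bl) (v : V) (l : List (F × V × A)) :
    (∀ b ∈ X.blocks v l, b ∉ O) ∨ ∃ l₀ σ l₂, l = l₀ ++ σ :: l₂ ∧ X.bl (wend v l₀) σ.1 ∈ O ∧
      ∀ b ∈ X.blocks σ.2.1 l₂, b ∉ O := by
  induction l generalizing v with
  | nil => left; simp [blocks]
  | cons σ l ih =>
    rcases ih σ.2.1 with h | ⟨l₀, τ, l₂, rfl, h1, h2⟩
    · by_cases hb : X.bl v σ.1 ∈ O
      · exact Or.inr ⟨[], σ, l, rfl, hb, h⟩
      · left
        intro b hb'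
        rcases List.mem_cons.1 hb' with rfl | hb'
        · exact hb
        · exact h b hb'
    · exact Or.inr ⟨σ :: l₀, τ, l₂, rfl, h1, h2⟩

theorem seg_pow_le (hc : X.Adm c) {v : V} {l : List (F × V × A)} (hl : l.length ≤ 2 * X.g)
    {B : Finset Bl} (hB : (X.blocks v l).toFinset ⊆ B) :
    ((Real.sqrt X.d)⁻¹) ^ B.card * ‖wwt c v l‖ ≤
      ((Real.sqrt X.d)⁻¹) ^ (pw (X.side v) (l.map Prod.fst)).norm * ‖wwt c v l‖ := by
  have hd : (1 : ℝ) ≤ Real.sqrt X.d := Real.one_le_sqrt.2 (by exact_mod_cast X.one_le_d)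
  by_cases hw : wwt c v l = 0
  · simp [hw]
  refine mul_le_mul_of_nonneg_right (pow_le_pow_of_le_one (by positivity)
    (inv_le_one_of_one_le₀ hd) ?_) (norm_nonneg _)
  exact (X.norm_pw_le_blocks hc hl hw).trans (Finset.card_le_card hB)

/-- One segment.  Let `p` be the last time whose block is in `O` (`0` if none), `l = l₁ ++ l₂`, `|l₁| = p`: the exponent is
`≥ ‖pw (ports l₂)‖`, so the `l₂`-sum is `≤ (4√d)^(s-p)` (`sum_ports_le`, `sum_pow_norm_le`).  For `p ≥ 1`, `l₁ = l₀ ++ [σ]`
with `bl (wend v l₀) σ.1 ∈ O`: at most `|O| m` pairs `(y,t)` (`port`, `size`); walks `l₀` ending at `y` weigh at most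
`(4√d)^(p-1)` (`pw_eq_of_end`, `card_pw_eq_le`, `sum_ports_le`), the last step at most `2`. -/
theorem segment_le (hc : X.Adm c) (s : ℕ) (hs : s ≤ X.g) (v : V) (O : Finset Bl) :
    ∑ l ∈ lists X.St s, ((Real.sqrt X.d)⁻¹) ^ ((X.blocks v l).toFinset \ O).card * ‖wwt c v l‖ ≤
      ((X.g + 1) * (O.card * X.m + 1) : ℝ) * (4 * Real.sqrt X.d) ^ s := by
  have hpt : ∀ l ∈ lists X.St s,
      ((Real.sqrt X.d)⁻¹) ^ ((X.blocks v l).toFinset \ O).card * ‖wwt c v l‖ ≤
        ((Real.sqrt X.d)⁻¹) ^ (pw (X.side v) (l.map Prod.fst)).norm * ‖wwt c v l‖ +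
          ∑ p ∈ Finset.range s, X.segH c O v (l.take p) (l.drop p) := by
    intro l hl
    have hlen := (mem_lists.1 hl).1
    rcases X.seg_last O v l with h | ⟨l₀, σ, l₂, rfl, h1, h2⟩
    · refine le_add_of_le_of_nonneg (X.seg_pow_le hc (by omega) fun b hb => ?_)
        (Finset.sum_nonneg fun p _ => X.segH_nonneg _ _ _ _)
      exact Finset.mem_sdiff.2 ⟨hb, h b (List.mem_toFinset.1 hb)⟩
    · rw [List.length_append, List.length_cons] at hlen
      refine le_add_of_nonneg_of_le (by positivity) (le_trans ?_ (Finset.single_le_sum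
        (f := fun p => X.segH c O v ((l₀ ++ σ :: l₂).take p) ((l₀ ++ σ :: l₂).drop p))
        (fun p _ => X.segH_nonneg _ _ _ _) (Finset.mem_range.2 (by omega : l₀.length < s))))
      simp only [List.take_left', List.drop_left', segH, if_pos h1]
      have h3 := X.seg_pow_le hc (v := σ.2.1) (l := l₂) (by omega)
        (B := (X.blocks v (l₀ ++ σ :: l₂)).toFinset \ O) fun b hb => by
          refine Finset.mem_sdiff.2 ⟨?_, h2 b (List.mem_toFinset.1 hb)⟩
          rw [seg_blocks_append, List.mem_toFinset]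
          exact List.mem_append_right _ (List.mem_cons_of_mem _ (List.mem_toFinset.1 hb))
      rw [seg_wwt_append, wwt, norm_mul, norm_mul]
      refine le_trans (le_of_eq ?_) (mul_le_mul_of_nonneg_left
        (mul_le_mul_of_nonneg_left h3 (norm_nonneg _)) (norm_nonneg _))
      ring
  refine (Finset.sum_le_sum hpt).trans ?_
  rw [Finset.sum_add_distrib, Finset.sum_comm]
  have h1 := X.seg_free hc s v
  have h2 : ∑ p ∈ Finset.range s, ∑ l ∈ lists X.St s, X.segH c O v (l.take p) (l.drop p) ≤
      ∑ _p ∈ Finset.range s, (O.card * X.m : ℝ) * (4 * Real.sqrt X.d) ^ s := by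
    refine Finset.sum_le_sum fun p hp => ?_
    obtain ⟨k, hk⟩ := Nat.exists_eq_add_of_lt (Finset.mem_range.1 hp)
    have := X.seg_sumH hc p k (by omega) v O
    rwa [← add_assoc, ← hk] at this
  rw [Finset.sum_const, Finset.card_range, nsmul_eq_mul] at h2
  have h3 : (s : ℝ) ≤ X.g := by exact_mod_cast hs
  have h4 : (0 : ℝ) ≤ (4 * Real.sqrt X.d) ^ s := by positivity
  have h5 : (0 : ℝ) ≤ O.card * X.m := by positivity
  have h6 : (0 : ℝ) ≤ X.g := by positivity
  have h7 : (1 + s * (O.card * X.m) : ℝ) ≤ (X.g + 1) * (O.card * X.m + 1) := by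
    nlinarith [mul_le_mul_of_nonneg_right h3 h5]
  nlinarith [mul_le_mul_of_nonneg_right h7 h4]

/-- cut into `k` segments of length `≤ g` (induction on `k`, `sum_lists_add`, new old-set `O ∪ blocks l₁`) -/
theorem walks_le (hc : X.Adm c) (N₀ k s : ℕ) (hs : s ≤ k * X.g) (v : V) (O : Finset Bl)
    (hO : O.card + s ≤ N₀) :
    ∑ l ∈ lists X.St s, ((Real.sqrt X.d)⁻¹) ^ ((X.blocks v l).toFinset \ O).card * ‖wwt c v l‖ ≤
      ((X.g + 1) * (N₀ * X.m + 1) : ℝ) ^ k * (4 * Real.sqrt X.d) ^ s := by
  induction k generalizing s v O with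
  | zero =>
    obtain rfl : s = 0 := by omega
    simp [sum_lists_zero, wwt, blocks]
  | succ k ih =>
    obtain ⟨s₁, s₂, rfl, h1, h2⟩ : ∃ s₁ s₂, s = s₁ + s₂ ∧ s₁ ≤ X.g ∧ s₂ ≤ k * X.g := by
      rw [Nat.succ_mul] at hs
      exact ⟨min s X.g, s - min s X.g, by omega, by omega, by omega⟩
    rw [sum_lists_add]
    calc _ ≤ ∑ l₁ ∈ lists X.St s₁,
          ((Real.sqrt X.d)⁻¹) ^ ((X.blocks v l₁).toFinset \ O).card * ‖wwt c v l₁‖ *
            (((X.g + 1) * (N₀ * X.m + 1) : ℝ) ^ k * (4 * Real.sqrt X.d) ^ s₂) := by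
          refine Finset.sum_le_sum fun l₁ hl₁ => ?_
          have hlen := (mem_lists.1 hl₁).1
          have hO' : (O ∪ (X.blocks v l₁).toFinset).card + s₂ ≤ N₀ := by
            have a1 := Finset.card_union_le O (X.blocks v l₁).toFinset
            have a2 := List.toFinset_card_le (X.blocks v l₁)
            rw [seg_blocks_length] at a2
            omega
          refine le_trans (le_of_eq ?_) (mul_le_mul_of_nonneg_left
            (ih s₂ h2 (wend v l₁) _ hO') (by positivity))
          rw [Finset.mul_sum]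
          refine Finset.sum_congr rfl fun l₂ _ => ?_
          have e : ((X.blocks v (l₁ ++ l₂)).toFinset \ O).card =
              ((X.blocks v l₁).toFinset \ O).card +
                ((X.blocks (wend v l₁) l₂).toFinset \ (O ∪ (X.blocks v l₁).toFinset)).card := by
            rw [← Finset.card_union_of_disjoint, seg_blocks_append, List.toFinset_append]
            · congr 1
              ext b
              simp only [Finset.mem_sdiff, Finset.mem_union]
              tauto
            · rw [Finset.disjoint_left]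
              intro b hb hb'
              simp only [Finset.mem_sdiff, Finset.mem_union] at hb hb'
              tauto
          rw [e, seg_wwt_append, norm_mul, pow_add]
          ring
      _ ≤ ((X.g + 1) * (N₀ * X.m + 1) : ℝ) * (4 * Real.sqrt X.d) ^ s₁ *
            (((X.g + 1) * (N₀ * X.m + 1) : ℝ) ^ k * (4 * Real.sqrt X.d) ^ s₂) := by
          rw [← Finset.sum_mul]
          refine mul_le_mul_of_nonneg_right ((X.segment_le hc s₁ h1 v O).trans ?_) (by positivity)
          have : (O.card : ℝ) ≤ N₀ := by exact_mod_cast (by omega : O.card ≤ N₀)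
          gcongr
      _ = _ := by ring

end TrStr
end Crest.Agent.R129
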