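import Crest.Agent.R129.TrWalk
import Crest.Agent.R129.TrSeg

/-! # The trace method (task R129/TrMain). Statements frozen. -/

set_option autoImplicit false
set_option linter.unusedSectionVars false
open scoped BigOperators

namespace Crest.Agent.R129
namespace TrStr
variable {V F Bl A : Type} [DecidableEq V] [DecidableEq F] [DecidableEq Bl] [Group A] [DecidableEq A]
  (X : TrStr V F Bl A) {Co Val : Type} [DecidableEq Co] {ν : Co → Val →₀ ℝ}

/-- random centred coefficients, independent from block to block -/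
structure Rand (ν : Co → Val →₀ ℝ) (D : Finset Co) (Db : Bl → Finset Co)
    (c : (Co → Val) → V → F → V → A → ℂ) : Prop where
  adm : ∀ ω, (∀ x ∈ D, ω x ∈ (ν x).support) → X.Adm (c ω)
  sub : ∀ v ∈ X.Vs, ∀ t ∈ X.T, Db (X.bl v t) ⊆ D
  disj : ∀ b b', b ≠ b' → Disjoint (Db b) (Db b')
  dep : ∀ v t w f ω ω', (∀ x ∈ Db (X.bl v t), ω x = ω' x) → c ω v t w f = c ω' v t w f
  mean : ∀ v t w f ω, Ex ν (Db (X.bl v t)) (fun ω => c ω v t w f) ω = 0

variable {X} in
theorem Rand.trm_dep {D : Finset Co} {Db : Bl → Finset Co} {c : (Co → Val) → V → F → V → A → ℂ}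
    (h : X.Rand ν D Db c) {b : Bl} {ω ω' : Co → Val} (hω : ∀ x, x ∉ Db b → ω x = ω' x) {v : V}
    {t : F} (hb : X.bl v t ≠ b) (w : V) (f : A) : c ω v t w f = c ω' v t w f :=
  h.dep v t w f ω ω' fun x hx => hω x (Finset.disjoint_left.1 (h.disj _ _ hb) hx)

variable {X} in
theorem Rand.trm_wwt {D : Finset Co} {Db : Bl → Finset Co} {c : (Co → Val) → V → F → V → A → ℂ}
    (h : X.Rand ν D Db c) {b : Bl} {ω ω' : Co → Val} (hω : ∀ x, x ∉ Db b → ω x = ω' x) (v : V)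
    (l : List (F × V × A)) (hb : b ∉ X.blocks v l) : wwt (c ω) v l = wwt (c ω') v l := by
  induction l generalizing v with
  | nil => rfl
  | cons σ l ih =>
    rw [blocks, List.mem_cons, not_or] at hb
    rw [wwt, wwt, ih _ hb.2, h.trm_dep hω (Ne.symm hb.1)]

variable {X} in
theorem Rand.trm_split {D : Finset Co} {Db : Bl → Finset Co} {c : (Co → Val) → V → F → V → A → ℂ}
    (h : X.Rand ν D Db c) {v : V} (hv : v ∈ X.Vs) {l : List (F × V × A)} (hl : ∀ σ ∈ l, σ ∈ X.St)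
    {b : Bl} (hb : (X.blocks v l).count b = 1) :
    ∃ (u : V) (t : F) (w : V) (f : A) (g : (Co → Val) → ℂ), u ∈ X.Vs ∧ t ∈ X.T ∧ X.bl u t = b ∧
      (∀ ω ω', (∀ x, x ∉ Db b → ω x = ω' x) → g ω = g ω') ∧
      ∀ ω, wwt (c ω) v l = g ω * c ω u t w f := by
  induction l generalizing v with
  | nil => simp [blocks] at hb
  | cons σ l ih =>
    obtain ⟨h1, h2⟩ := Finset.mem_product.1 (hl σ List.mem_cons_self)
    by_cases h3 : X.bl v σ.1 = b
    · rw [blocks, h3, List.count_cons_self, Nat.add_eq_right, List.count_eq_zero] at hb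
      exact ⟨v, σ.1, σ.2.1, σ.2.2, fun ω => wwt (c ω) σ.2.1 l, hv, h1, h3,
        fun ω ω' hω => h.trm_wwt hω _ _ hb, fun ω => mul_comm _ _⟩
    · rw [blocks, List.count_cons_of_ne h3] at hb
      obtain ⟨u, t, w, f, g, a1, a2, a3, a4, a5⟩ :=
        ih (Finset.mem_product.1 h2).1 (fun τ hτ => hl τ (List.mem_cons_of_mem _ hτ)) hb
      refine ⟨u, t, w, f, fun ω => c ω v σ.1 σ.2.1 σ.2.2 * g ω, a1, a2, a3, fun ω ω' hω => ?_,
        fun ω => by rw [wwt, a5, mul_assoc]⟩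
      beta_reduce
      rw [a4 ω ω' hω, h.trm_dep hω h3]

omit [DecidableEq A] in
theorem trm_length (v : V) (l : List (F × V × A)) : (X.blocks v l).length = l.length := by
  induction l generalizing v with
  | nil => rfl
  | cons σ l ih => rw [blocks, List.length_cons, List.length_cons, ih]

theorem trm_card {β : Type} [DecidableEq β] {L : List β} (h : ∀ b, L.count b ≠ 1) :
    2 * L.toFinset.card ≤ L.length := by
  rw [← List.sum_toFinset_count_eq_length, mul_comm, ← smul_eq_mul]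
  refine Finset.card_nsmul_le_sum _ _ _ fun b hb => ?_
  have h1 := List.count_pos_iff.2 (List.mem_toFinset.1 hb)
  have h2 := h b
  omega

/-- split `l` at the step in the block met once; `Ex_mul_eq_zero` -/
theorem Ex_wwt_eq_zero {D : Finset Co} {Db : Bl → Finset Co} {c : (Co → Val) → V → F → V → A → ℂ}
    (h : X.Rand ν D Db c) {v : V} (hv : v ∈ X.Vs) {l : List (F × V × A)} (hl : ∀ σ ∈ l, σ ∈ X.St) {b : Bl}
    (hb : (X.blocks v l).count b = 1) (ω₀ : Co → Val) : Ex ν D (fun ω => wwt (c ω) v l) ω₀ = 0 := by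
  obtain ⟨u, t, w, f, g, a1, a2, rfl, a4, a5⟩ := h.trm_split hv hl hb
  simp only [a5]
  exact Ex_mul_eq_zero (h.sub u a1 t a2) a4 (h.mean u t w f) ω₀

open Classical in
theorem trm_trace (hν : ∀ x, IsLaw (ν x)) {D : Finset Co} {Db : Bl → Finset Co}
    {c : (Co → Val) → V → F → V → A → ℂ} (h : X.Rand ν D Db c) (N k : ℕ) (hk : 2 * N ≤ k * X.g)
    (ω₀ : Co → Val) {v : V} (hv : v ∈ X.Vs) :
    Ex ν D (fun ω => (mat (X.op (c ω) ^ (2 * N)) (1, v) (1, v)).re) ω₀ ≤ Real.sqrt X.d ^ N *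
      (((X.g + 1) * ((2 * N : ℕ) * X.m + 1) : ℝ) ^ k * (4 * Real.sqrt X.d) ^ (2 * N)) := by
  have hs : 1 ≤ Real.sqrt X.d := Real.one_le_sqrt.2 (by exact_mod_cast X.one_le_d)
  have h1 : ∀ l ∈ lists X.St (2 * N),
      ‖Ex ν D (fun ω => if wend v l = v ∧ wprod l = 1 * 1⁻¹ then wwt (c ω) v l else 0) ω₀‖ ≤
      Ex ν D (fun ω => Real.sqrt X.d ^ N *
        ((Real.sqrt X.d)⁻¹ ^ ((X.blocks v l).toFinset \ ∅).card * ‖wwt (c ω) v l‖)) ω₀ := by
    intro l hl
    obtain ⟨h2, h3⟩ := mem_lists.1 hl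
    have h4 : 0 ≤ Ex ν D (fun ω => Real.sqrt X.d ^ N *
        ((Real.sqrt X.d)⁻¹ ^ ((X.blocks v l).toFinset \ ∅).card * ‖wwt (c ω) v l‖)) ω₀ :=
      (Ex_const hν D 0 ω₀).ge.trans (Ex_mono hν fun ω _ _ => by positivity)
    by_cases h5 : wend v l = v ∧ wprod l = 1 * 1⁻¹
    · simp only [if_pos h5]
      by_cases h6 : ∃ b, (X.blocks v l).count b = 1
      · obtain ⟨b, hb⟩ := h6
        rwa [X.Ex_wwt_eq_zero h hv h3 hb, norm_zero]
      · have h7 := trm_card (not_exists.1 h6)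
        rw [trm_length, h2] at h7
        refine (norm_Ex_le hν D _ ω₀).trans (Ex_mono hν fun ω _ _ => ?_)
        rw [← mul_assoc, Finset.sdiff_empty, inv_pow, ← div_eq_mul_inv]
        refine le_mul_of_one_le_left (norm_nonneg _) ?_
        rw [one_le_div (by positivity)]
        exact pow_le_pow_right₀ hs (by omega)
    · simp only [if_neg h5]
      rwa [Ex_const hν, norm_zero]
  rw [Ex_re, Ex_congr (g := fun ω => ∑ l ∈ lists X.St (2 * N),
    if wend v l = v ∧ wprod l = 1 * 1⁻¹ then wwt (c ω) v l else 0)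
    fun ω _ hω => X.mat_pow (h.adm ω hω) (2 * N) (1, v) (1, v), Ex_sum]
  refine (Complex.re_le_norm _).trans ((norm_sum_le _ _).trans ((Finset.sum_le_sum h1).trans ?_))
  rw [← Ex_sum]
  refine (Ex_mono hν fun ω _ hω => ?_).trans (Ex_const hν D _ ω₀).le
  rw [← Finset.mul_sum]
  exact mul_le_mul_of_nonneg_left (X.walks_le (h.adm ω hω) (2 * N) k (2 * N) hk v ∅ (by simp))
    (by positivity)

open Classical in
/-- Markov with `norm_pow_le_trace`; expand with `mat_pow`; walks of length `2N` (`N = 2^r`) with every block met at least twice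
meet `≤ N` blocks, so `1 ≤ √d^N z^{#blocks}`; `walks_le` with `O = ∅`, `N₀ = 2N`.  Note `θ² = 256 d √d`, so
`√d^N (4√d)^(2N) / θ^(2N) = 16^(-N)`. -/
theorem prob_norm_gt (hν : ∀ x, IsLaw (ν x)) {D : Finset Co} {Db : Bl → Finset Co}
    {c : (Co → Val) → V → F → V → A → ℂ} (h : X.Rand ν D Db c) (r k : ℕ) (hk : 2 * 2 ^ r ≤ k * X.g)
    (FN : Finset A) (hFN : ∀ l : List A, l.length ≤ 2 ^ r → (∀ x ∈ l, x ∈ X.Fs) → l.prod ∈ FN)
    (ω₀ : Co → Val) :
    Ex ν D (fun ω => if 16 * Real.sqrt (X.d * Real.sqrt X.d) < ‖X.op (c ω)‖ then (1 : ℝ) else 0) ω₀ ≤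
      (X.Vs.card : ℝ) ^ 2 * FN.card * ((X.g + 1) * (2 * 2 ^ r * X.m + 1) : ℝ) ^ k / 16 ^ 2 ^ r := by
  have hs : 1 ≤ Real.sqrt X.d := Real.one_le_sqrt.2 (by exact_mod_cast X.one_le_d)
  have hθ : (16 * Real.sqrt (X.d * Real.sqrt X.d)) ^ 2 = 256 * Real.sqrt X.d ^ 3 := by
    rw [mul_pow, Real.sq_sqrt (by positivity), pow_succ _ 2, Real.sq_sqrt (Nat.cast_nonneg _)]
    norm_num
  have h1 : ∀ ω, (∀ x ∈ D, ω x ∈ (ν x).support) →
      (if 16 * Real.sqrt (X.d * Real.sqrt X.d) < ‖X.op (c ω)‖ then (1 : ℝ) else 0) ≤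
      X.Vs.card * FN.card / (256 * Real.sqrt X.d ^ 3) ^ 2 ^ r *
        ∑ v ∈ X.Vs, (mat (X.op (c ω) ^ (2 * 2 ^ r)) (1, v) (1, v)).re := by
    intro ω hω
    have h2 := X.norm_pow_le_trace (h.adm ω hω) r FN hFN
    rw [div_mul_eq_mul_div, le_div_iff₀ (by positivity)]
    refine le_trans ?_ h2
    split_ifs with h3
    · rw [one_mul, ← hθ, ← pow_mul]
      exact pow_le_pow_left₀ (by positivity) h3.le _
    · rw [zero_mul]
      positivity
  refine (Ex_mono hν fun ω _ hω => h1 ω hω).trans ?_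
  rw [Ex_mul_left, Ex_sum]
  refine (mul_le_mul_of_nonneg_left (Finset.sum_le_card_nsmul _ _ _
    fun v hv => X.trm_trace hν h (2 ^ r) k hk ω₀ hv) (by positivity)).trans (le_of_eq ?_)
  have e1 : (256 * Real.sqrt X.d ^ 3) ^ 2 ^ r =
      16 ^ 2 ^ r * (Real.sqrt X.d ^ 2 ^ r * (4 * Real.sqrt X.d) ^ (2 * 2 ^ r)) := by
    rw [pow_mul, ← mul_pow, ← mul_pow]
    congr 1
    ring
  rw [e1, nsmul_eq_mul]
  push_cast
  field_simp

end TrStr
end Crest.Agent.R129
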