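import Crest.Agent.R129.GGraph
import Crest.Agent.R129.TrMain

/-! # Block structure of a pair (task R129/GTr1: the two sorries). Definitions and statements frozen. -/

set_option autoImplicit false
open scoped BigOperators

namespace Crest.Agent.R129
namespace Par
variable (P : Par) {A : Type}

open Classical in
noncomputable def Vs (ω₀ : P.Om A) (i : ℤ) : Finset P.V := (P.node i ∪ P.node (i + 1)).filter (P.Good ω₀)

noncomputable def bl (ω₀ : P.Om A) (i : ℤ) (v : P.V) (t : P.F) : List P.F × P.F :=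
  (if v.1 = P.tp i then tau (P.psi ω₀) t v.2 else P.ty v, t)

theorem mem_Vs {ω₀ : P.Om A} {i : ℤ} {v : P.V} : v ∈ P.Vs ω₀ i ↔
    (v ∈ P.node (P.tp i) ∨ v ∈ P.node (P.sub i)) ∧ P.Good ω₀ v := by
  classical
  unfold Vs
  rw [Finset.mem_filter, Finset.mem_union]
  rcases P.sub_tp i with h | h
  · rw [h.1, h.2, or_comm]
  · rw [h.1, h.2]

theorem bl_tp {ω₀ : P.Om A} {i : ℤ} {v : P.V} (h : v ∈ P.node (P.tp i)) (t : P.F) :
    P.bl ω₀ i v t = (tau (P.psi ω₀) t (P.ty v), t) := by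
  rw [bl, if_pos (P.fst_of_mem h), P.ty_tp h]

theorem bl_sub {ω₀ : P.Om A} {i : ℤ} {v : P.V} (h : v ∈ P.node (P.sub i)) (t : P.F) :
    P.bl ω₀ i v t = (P.ty v, t) := by
  rw [bl, if_neg (by rw [P.fst_of_mem h]; exact P.sub_ne_tp i)]

theorem ms_le (i : ℤ) : 8 * P.ms i ≤ P.n := by
  unfold ms
  split_ifs
  · have := P.sz_le i; have := P.sz_pos i; omega
  · exact P.sz_le _

theorem card_tp_le (ψ : P.F → List P.F → Equiv.Perm P.F) (i : ℤ) (κ : List P.F) (t : P.F) :
    ((P.node (P.tp i)).filter fun v => tau ψ t v.2 = κ).card ≤ P.mt i := by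
  classical
  rw [← Finset.card_range (P.mt i)]
  refine le_trans (Finset.card_le_card (t := (Finset.range (P.mt i)).image
    fun y => (P.tp i, fib ψ t κ (P.em (P.tp i) y))) ?_) Finset.card_image_le
  intro v hv
  obtain ⟨h1, h2⟩ := Finset.mem_filter.1 hv
  obtain ⟨y, κ', hy, -, he⟩ := P.mem_Nd.1 (P.mem_node.1 h1).2
  refine Finset.mem_image.2 ⟨y, Finset.mem_range.2 hy, Prod.ext (P.fst_of_mem h1).symm ?_⟩
  rw [P.eq_fib (ψ := ψ) h1 t, h2, he]; rfl

theorem card_sub_le (i : ℤ) (κ : List P.F) :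
    ((P.node (P.sub i)).filter fun v => P.ty v = κ).card ≤ P.ms i := by
  classical
  refine le_trans (Finset.card_le_card_of_injOn (t := (Finset.range (P.ms i)).image (P.es i))
    (fun v => P.six i v.2) ?_ ?_) (Finset.card_image_le.trans (Finset.card_range _).le)
  · intro v hv
    obtain ⟨x, hx, he⟩ := P.six_mem (Finset.mem_filter.1 (Finset.mem_coe.1 hv)).1
    exact Finset.mem_coe.2 (Finset.mem_image.2 ⟨x, Finset.mem_range.2 hx, he.symm⟩)
  · intro v hv w hw h
    obtain ⟨h1, h2⟩ := Finset.mem_filter.1 (Finset.mem_coe.1 hv)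
    obtain ⟨h3, h4⟩ := Finset.mem_filter.1 (Finset.mem_coe.1 hw)
    exact P.eq_of_six h1 h3 (h2.trans h4.symm) h

theorem bl_size (ω₀ : P.Om A) (i : ℤ) (b : List P.F × P.F) (t : P.F) :
    ((P.Vs ω₀ i).filter fun v => P.bl ω₀ i v t = b).card ≤ P.n := by
  classical
  have h1 := P.card_tp_le (P.psi ω₀) i b.1 t
  have h2 := P.card_sub_le i b.1
  have h3 := P.ms_le i
  have h4 : 8 * P.mt i ≤ P.n := P.sz_le _
  refine le_trans (Finset.card_le_card (t := ((P.node (P.tp i)).filter fun v => tau (P.psi ω₀) t v.2 = b.1) ∪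
    ((P.node (P.sub i)).filter fun v => P.ty v = b.1)) ?_) ((Finset.card_union_le _ _).trans (by omega))
  intro v hv
  obtain ⟨hv1, hv2⟩ := Finset.mem_filter.1 hv
  rcases (P.mem_Vs.1 hv1).1 with h | h
  · rw [P.bl_tp h, P.ty_tp h] at hv2
    exact Finset.mem_union_left _ (Finset.mem_filter.2 ⟨h, congrArg Prod.fst hv2⟩)
  · rw [P.bl_sub h] at hv2
    exact Finset.mem_union_right _ (Finset.mem_filter.2 ⟨h, congrArg Prod.fst hv2⟩)

theorem sides {ω₀ : P.Om A} {i : ℤ} {v w : P.V} (hv : v ∈ P.Vs ω₀ i) (hw : w ∈ P.Vs ω₀ i)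
    (h : decide (Even w.1) = !decide (Even v.1)) :
    (v ∈ P.node (P.tp i) ∧ w ∈ P.node (P.sub i)) ∨ (v ∈ P.node (P.sub i) ∧ w ∈ P.node (P.tp i)) := by
  rcases (P.mem_Vs.1 hv).1 with a | a <;> rcases (P.mem_Vs.1 hw).1 with b | b
  · rw [P.fst_of_mem a, P.fst_of_mem b] at h; simp at h
  · exact Or.inl ⟨a, b⟩
  · exact Or.inr ⟨a, b⟩
  · rw [P.fst_of_mem a, P.fst_of_mem b] at h; simp at h

theorem not_both {i : ℤ} {v : P.V} (a : v ∈ P.node (P.tp i)) (b : v ∈ P.node (P.sub i)) : False :=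
  P.sub_ne_tp i ((P.fst_of_mem b).symm.trans (P.fst_of_mem a))

theorem bl_walk (ω₀ : P.Om A) (i : ℤ) (x : ℕ → P.V) (tt : ℕ → P.F) (s : ℕ)
    (hx : ∀ p, p ≤ s → x p ∈ P.Vs ω₀ i)
    (hp : ∀ p, p < s → tt p ∈ P.ports i ∧ decide (Even (x (p + 1)).1) = !decide (Even (x p).1) ∧
      P.bl ω₀ i (x p) (tt p) = P.bl ω₀ i (x (p + 1)) (tt p)) :
    ∃ e, Even e ∧ tauL (P.psi ω₀) ((List.range s).map tt) (P.ty (x 0)) = (P.ty (x s)).drop e ∧
      ((x 0 ∈ P.node (P.tp i) ∧ x s ∈ P.node (P.tp i) ∧ e = s) ∨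
       (x 0 ∈ P.node (P.tp i) ∧ x s ∈ P.node (P.sub i) ∧ e + 1 = s) ∨
       (x 0 ∈ P.node (P.sub i) ∧ x s ∈ P.node (P.tp i) ∧ e = s + 1) ∨
       (x 0 ∈ P.node (P.sub i) ∧ x s ∈ P.node (P.sub i) ∧ e = s)) := by
  induction s with
  | zero =>
    refine ⟨0, Even.zero, rfl, ?_⟩
    rcases (P.mem_Vs.1 (hx 0 le_rfl)).1 with a | a
    · exact Or.inl ⟨a, a, rfl⟩
    · exact Or.inr (Or.inr (Or.inr ⟨a, a, rfl⟩))
  | succ s ih =>
    obtain ⟨e, he, h1, h2⟩ := ih (fun p h => hx p (by omega)) (fun p h => hp p (by omega))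
    obtain ⟨-, hs, hb⟩ := hp s (by omega)
    have hst : tauL (P.psi ω₀) ((List.range (s + 1)).map tt) (P.ty (x 0)) =
        (tau (P.psi ω₀) (tt s) (P.ty (x s))).drop e := by
      rw [List.range_succ, List.map_append, tauL_append, h1, tau_drop_even _ _ he]; rfl
    rcases P.sides (hx s (by omega)) (hx (s + 1) le_rfl) hs with ⟨a, b⟩ | ⟨a, b⟩
    · rw [P.bl_tp a, P.bl_sub b] at hb
      refine ⟨e, he, by rw [hst, (Prod.mk.inj hb).1], ?_⟩
      rcases h2 with h | h | h | h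
      · exact Or.inr (Or.inl ⟨h.1, b, by omega⟩)
      · exact (P.not_both a h.2.1).elim
      · exact Or.inr (Or.inr (Or.inr ⟨h.1, b, by omega⟩))
      · exact (P.not_both a h.2.1).elim
    · rw [P.bl_sub a, P.bl_tp b] at hb
      refine ⟨e + 2, he.add (by decide), ?_, ?_⟩
      · rw [hst, (Prod.mk.inj hb).1, tau_tau, List.drop_drop, add_comm]
      rcases h2 with h | h | h | h
      · exact (P.not_both h.2.1 a).elim
      · exact Or.inl ⟨h.1, b, by omega⟩
      · exact (P.not_both h.2.1 a).elim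
      · exact Or.inr (Or.inr (Or.inl ⟨h.1, b, by omega⟩))

theorem bl_cg (ω₀ : P.Om A) (i : ℤ) (x : ℕ → P.V) (tt : ℕ → P.F) (s : ℕ) (hs : s ≤ 2 * (P.stg (lo i) / 16))
    (hx : ∀ p, p ≤ s → x p ∈ P.Vs ω₀ i)
    (hp : ∀ p, p < s → tt p ∈ P.ports i ∧ decide (Even (x (p + 1)).1) = !decide (Even (x p).1) ∧
      P.bl ω₀ i (x p) (tt p) = P.bl ω₀ i (x (p + 1)) (tt p))
    (t : P.F) (ht : t ∈ P.ports i) (h : P.bl ω₀ i (x 0) t = P.bl ω₀ i (x s) t) :
    pw (decide (Even (x 0).1)) ((List.range s).map tt) =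
      if Even s then 1 else sg (t, decide (Even (x 0).1)) := by
  obtain ⟨e, he, h1, h2⟩ := P.bl_walk ω₀ i x tt s hx hp
  obtain ⟨h0, hg, -⟩ := P.mem_Vs.1 (hx 0 (Nat.zero_le _))
  have hG : Even (gir (P.stg (x 0).1)) := even_two_mul _
  have hle : 2 * (P.stg (lo i) / 16) ≤ gir (P.stg (x 0).1) := by
    have h3 := P.stg_lo_le i
    have h4 : P.stg (lo i) ≤ P.stg (x 0).1 := by
      rcases h0 with a | a <;> rw [P.fst_of_mem a]
      · rcases P.tp_or i with b | b <;> rw [b] <;> omega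
      · rcases P.sub_or i with b | b <;> rw [b] <;> omega
    exact Nat.mul_le_mul_left 2 (Nat.div_le_div_right h4)
  have hlen : ((List.range s).map tt).length = s := by simp
  have even_case : Even s → tauL (P.psi ω₀) ((List.range s).map tt) (P.ty (x 0)) = (P.ty (x 0)).drop s →
      pw (decide (Even (x 0).1)) ((List.range s).map tt) =
        if Even s then 1 else sg (t, decide (Even (x 0).1)) := fun hes hh => by
    rw [if_pos hes]
    exact pw_eq_one_of_not_spec hG hg _ _ 0 (by rwa [hlen]) Even.zero (by omega) (by simpa using hh)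
  have odd_case : Even (s + 1) →
      tau (P.psi ω₀) t (tauL (P.psi ω₀) ((List.range s).map tt) (P.ty (x 0))) = (P.ty (x 0)).drop (s + 1) →
      pw (decide (Even (x 0).1)) ((List.range s).map tt) =
        if Even s then 1 else sg (t, decide (Even (x 0).1)) := fun hes hh => by
    have hns : ¬ Even s := Nat.even_add_one.1 hes
    rw [if_neg hns]
    have h5 := pw_eq_one_of_not_spec hG hg (decide (Even (x 0).1)) ((List.range s).map tt ++ [t]) 0
      (by simpa using hes) Even.zero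
      (by
        obtain ⟨k, hk⟩ := hes
        simp only [List.length_append, hlen, List.length_singleton]; omega)
      (by rw [tauL_append]; simpa [tauL] using hh)
    rw [pw_append, hlen, if_neg hns] at h5
    simp only [pw, mul_one] at h5
    rw [eq_inv_of_mul_eq_one_left h5, sg_inv]; simp
  rcases h2 with ⟨a, b, c⟩ | ⟨a, b, c⟩ | ⟨a, b, c⟩ | ⟨a, b, c⟩
  · subst c
    refine even_case he ?_
    rcases Nat.eq_zero_or_pos e with rfl | hpos
    · rfl
    rw [P.bl_tp a, P.bl_tp b] at h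
    have h6 := congrArg (tau (P.psi ω₀) t) (Prod.mk.inj h).1
    simp only [tau_tau] at h6
    obtain ⟨k, hk⟩ := he
    have h7 : ∀ y : List P.F, y.drop e = (y.drop 2).drop (e - 2) := fun y => by
      rw [List.drop_drop]; congr 1; omega
    rw [h1, h7, h7, h6]
  · rw [P.bl_tp a, P.bl_sub b] at h
    refine odd_case (by rw [← c]; exact he.add (b := 2) (by decide)) ?_
    rw [h1, ← tau_drop_even _ _ he, ← (Prod.mk.inj h).1]
    simp only [tau_tau, List.drop_drop]
    congr 1; omega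
  · rw [P.bl_sub a, P.bl_tp b] at h
    refine odd_case (c ▸ he) ?_
    rw [h1, ← tau_drop_even _ _ he, c]
    exact congrArg _ (Prod.mk.inj h).1.symm
  · subst c
    rw [P.bl_sub a, P.bl_sub b] at h
    refine even_case he ?_
    rw [h1]
    exact congrArg _ (Prod.mk.inj h).1.symm

variable [Group A] [DecidableEq A]

/-- symmetric support -/
def Fs (ν : (A × ZMod 4) →₀ ℝ) : Finset A :=
  ν.support.image Prod.fst ∪ ν.support.image fun x => x.1⁻¹

noncomputable def trS (μ : ℤ → (A × ZMod 4) →₀ ℝ) (ω₀ : P.Om A) (i : ℤ) :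
    TrStr P.V P.F (List P.F × P.F) A where
  Vs := P.Vs ω₀ i
  side v := decide (Even v.1)
  T := P.ports i
  bl := P.bl ω₀ i
  Fs := Fs (μ i)
  d := P.n
  m := P.n
  g := P.stg (lo i) / 16
  one_le_d := P.prime.one_lt.le
  one_le_g := by
    have := P.j₀_le_stg (lo i); have := P.hj; omega
  card_T := (P.card_ports i).2
  Fs_inv f hf := by
    simp only [Fs, Finset.mem_union, Finset.mem_image] at hf ⊢
    rcases hf with ⟨x, hx, rfl⟩ | ⟨x, hx, rfl⟩
    · exact Or.inr ⟨x, hx, rfl⟩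
    · exact Or.inl ⟨x, hx, by simp⟩
  port v t w t' h := congrArg Prod.snd h
  size := P.bl_size ω₀ i
  cg := P.bl_cg ω₀ i

/-- the coordinates of a block -/
noncomputable def Db (ω₀ : P.Om A) (i : ℤ) (b : List P.F × P.F) : Finset P.Co :=
  insert (Sum.inl (i, b.1, b.2))
    (((P.Vs ω₀ i).filter fun v => Even v.1 ∧ P.bl ω₀ i v b.2 = b).image fun v => Sum.inr (v.1, v.2, b.2))

/-- symmetrised coefficients -/
noncomputable def cS (μ : ℤ → (A × ZMod 4) →₀ ℝ) (i : ℤ) (ω₀ ω : P.Om A) (v : P.V) (t : P.F) (w : P.V)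
    (f : A) : ℂ :=
  if Even v.1 then P.cH μ i ω₀ ω v t w f else (starRingEnd ℂ) (P.cH μ i ω₀ ω w t v f⁻¹)

end Par
end Crest.Agent.R129
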