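import Crest.Agent.R129.GTr1
import Crest.Agent.R129.GOp

/-! # The fluctuation is small with high probability (task R129/GTr2). Statements frozen. -/

set_option autoImplicit false
open scoped BigOperators

namespace Crest.Agent.R129

theorem Ex_conj {Co Val : Type} [DecidableEq Co] {ν : Co → Val →₀ ℝ} (D : Finset Co)
    (f : (Co → Val) → ℂ) (ω₀ : Co → Val) :
    Ex ν D (fun ω => (starRingEnd ℂ) (f ω)) ω₀ = (starRingEnd ℂ) (Ex ν D f ω₀) := by
  unfold Ex
  rw [map_sum]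
  refine Finset.sum_congr rfl fun x _ => ?_
  rw [Complex.real_smul, Complex.real_smul, map_mul, Complex.conj_ofReal]

theorem Ex_two {Co Val : Type} [DecidableEq Co] {ν : Co → Val →₀ ℝ} (hν : ∀ c, IsLaw (ν c))
    {D : Finset Co} {c₁ c₂ : Co} (h₁ : c₁ ∈ D) (h₂ : c₂ ∈ D) (hne : c₁ ≠ c₂) (G : Val → Val → ℂ)
    (ω₀ : Co → Val) : Ex ν D (fun ω => G (ω c₁) (ω c₂)) ω₀ =
      (ν c₁).sum fun x p => p • (ν c₂).sum fun y q => q • G x y := by
  rw [Ex_sdiff hν (D' := D \ {c₁, c₂}) (fun ω ω' h => by rw [h c₁ (by simp), h c₂ (by simp)]),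
    Finset.sdiff_sdiff_eq_self (by intro c hc; simp at hc; rcases hc with rfl | rfl <;> assumption),
    Ex_insert (by simpa using hne)]
  refine Finsupp.sum_congr fun x _ => ?_
  rw [Ex_singleton]
  congr 1
  refine Finsupp.sum_congr fun y _ => ?_
  rw [Function.update_self, Function.update_of_ne hne, Function.update_self]

open Classical in
theorem qco_eq_sum {A : Type} (ν : (A × ZMod 4) →₀ ℝ) (f : A) :
    (ν.sum fun x p => p • (if x.1 = f then ph x.2 else 0)) = qco ν f := by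
  rw [← Finsupp.linearCombination_apply ℝ]
  induction ν using Finsupp.induction_linear with
  | zero => simp [qco]
  | add a b ha hb =>
    rw [map_add, ha, hb]
    simp only [qco, Finsupp.add_apply, Complex.ofReal_add, add_mul, Finset.sum_add_distrib]
  | single x p =>
    obtain ⟨a, ω⟩ := x
    rw [Finsupp.linearCombination_single]
    simp only [qco, Finsupp.single_apply, Prod.mk.injEq]
    by_cases h : a = f
    · simp only [h, true_and, if_true]
      rw [Finset.sum_eq_single ω]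
      · simp
      · intro b _ hb; simp [Ne.symm hb]
      · simp
    · simp [h]

namespace Par
variable (P : Par) {A : Type}

theorem sum_shLaw [One A] (m : ℕ) (g : ℕ → ℂ) :
    ((shLaw m : Val A →₀ ℝ).sum fun x p => p • g x.1) = ∑ s ∈ Finset.range m, ((m : ℝ)⁻¹) • g s := by
  rw [← Finsupp.linearCombination_apply ℝ, shLaw, map_sum]
  simp only [Finsupp.linearCombination_single]

/-- same block, either orientation -/
def SB (ω₀ : P.Om A) (i : ℤ) (t : P.F) (u w : P.V) : Prop := P.SameBlk ω₀ i t u w ∨ P.SameBlk ω₀ i t w u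

/-- matched -/
def Mt (ω₀ ω : P.Om A) (i : ℤ) (t : P.F) (u w : P.V) : Prop :=
  (P.SameBlk ω₀ i t u w ∧ P.MatchV i (ω (.inl (i, P.ty w, t))).1 u w) ∨
    (P.SameBlk ω₀ i t w u ∧ P.MatchV i (ω (.inl (i, P.ty u, t))).1 w u)

variable {μ : ℤ → (A × ZMod 4) →₀ ℝ} {i : ℤ} {ω₀ ω : P.Om A} {u w : P.V} {t : P.F} {f : A}

theorem cH_zero (h : ¬ (Even u.1 ∧ P.SB ω₀ i t u w)) : P.cH μ i ω₀ ω u t w f = 0 := if_neg h

open Classical in
theorem cH_eq (h : Even u.1 ∧ P.SB ω₀ i t u w) : P.cH μ i ω₀ ω u t w f =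
    (if P.Mt ω₀ ω i t u w ∧ (ω (.inr (u.1, u.2, t))).2.1 = f then ph (ω (.inr (u.1, u.2, t))).2.2 else 0) -
      ((P.rho i / P.mb i : ℝ) : ℂ) * qco (μ i) f := by
  unfold cH
  rw [if_pos (show Even u.1 ∧ (P.SameBlk ω₀ i t u w ∨ P.SameBlk ω₀ i t w u) from h)]
  congr

theorem SB.symm (h : P.SB ω₀ i t u w) : P.SB ω₀ i t w u := Or.symm h
theorem Mt.symm (h : P.Mt ω₀ ω i t u w) : P.Mt ω₀ ω i t w u := Or.symm h

theorem SameBlk.facts (h : P.SameBlk ω₀ i t u w) : u ∈ P.Vs ω₀ i ∧ w ∈ P.Vs ω₀ i ∧ t ∈ P.ports i ∧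
    P.bl ω₀ i u t = (P.ty w, t) ∧ P.bl ω₀ i w t = (P.ty w, t) ∧ (Even u.1 ↔ ¬ Even w.1) := by
  obtain ⟨ht, hU, hW, gU, gW, e⟩ := h
  refine ⟨P.mem_Vs.2 ⟨Or.inl hU, gU⟩, P.mem_Vs.2 ⟨Or.inr hW, gW⟩, ht, ?_, P.bl_sub hW t, ?_⟩
  · rw [P.bl_tp hU, P.ty_tp hU, e]
  · rw [P.fst_of_mem hU, P.fst_of_mem hW]
    rcases P.sub_tp i with h | h <;> rw [h.1, h.2, Int.even_add_one]
    rw [not_not]

theorem SB.facts (h : P.SB ω₀ i t u w) : u ∈ P.Vs ω₀ i ∧ w ∈ P.Vs ω₀ i ∧ t ∈ P.ports i ∧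
    P.bl ω₀ i u t = P.bl ω₀ i w t ∧ (Even u.1 ↔ ¬ Even w.1) := by
  rcases h with h | h
  · obtain ⟨a, b, c, d, e, g⟩ := SameBlk.facts P h
    exact ⟨a, b, c, d.trans e.symm, g⟩
  · obtain ⟨a, b, c, d, e, g⟩ := SameBlk.facts P h
    exact ⟨b, a, c, e.trans d.symm, by tauto⟩

theorem matchV_iff {U W : P.V} (hU : U ∈ P.node (P.tp i)) (hW : W ∈ P.node (P.sub i)) :
    ∃ x y, x < P.ms i ∧ y < P.mt i ∧ ∀ sh, P.MatchV i sh U W ↔ P.Match i sh x y := by
  obtain ⟨x, hx, ex⟩ := P.six_mem hW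
  obtain ⟨y, κ, hy, -, ey⟩ := P.mem_Nd.1 (P.mem_node.1 hU).2
  have ey' : U.2.headD 0 = P.em (P.tp i) y := by rw [ey]; rfl
  refine ⟨x, y, hx, hy, fun sh => ⟨?_, fun h => ⟨x, y, h, ex, ey'⟩⟩⟩
  rintro ⟨x', y', hm, e1, e2⟩
  rw [P.es_inj i hx hm.1 (ex.symm.trans e1), P.em_inj _ hy hm.2.1 (ey'.symm.trans e2)]
  exact hm

theorem SB.mt_iff (h : P.SB ω₀ i t u w) : ∃ x y, x < P.ms i ∧ y < P.mt i ∧ ∀ ω : P.Om A,
    P.Mt ω₀ ω i t u w ↔ P.Match i (ω (.inl (i, (P.bl ω₀ i u t).1, t))).1 x y := by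
  rcases h with h | h
  · obtain ⟨x, y, hx, hy, e⟩ := P.matchV_iff h.2.1 h.2.2.1
    refine ⟨x, y, hx, hy, fun ω => ?_⟩
    rw [(SameBlk.facts P h).2.2.2.1, ← e]
    exact ⟨fun a => a.elim (fun a => a.2) fun a => (P.not_both h.2.1 a.1.2.2.1).elim,
      fun a => Or.inl ⟨h, a⟩⟩
  · obtain ⟨x, y, hx, hy, e⟩ := P.matchV_iff h.2.1 h.2.2.1
    refine ⟨x, y, hx, hy, fun ω => ?_⟩
    rw [(SameBlk.facts P h).2.2.2.2.1, ← e]
    exact ⟨fun a => a.elim (fun a => (P.not_both a.1.2.1 h.2.2.1).elim) fun a => a.2,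
      fun a => Or.inr ⟨h, a⟩⟩

theorem Mt.unique {w' : P.V} (h : P.Mt ω₀ ω i t u w) (h' : P.Mt ω₀ ω i t u w') : w = w' := by
  rcases h with ⟨⟨-, hU, hW, -, -, e⟩, x, y, hm, hx, hy⟩ | ⟨⟨-, hU, hW, -, -, e⟩, x, y, hm, hx, hy⟩ <;>
    rcases h' with ⟨⟨-, hU', hW', -, -, e'⟩, x', y', hm', hx', hy'⟩ |
      ⟨⟨-, hU', hW', -, -, e'⟩, x', y', hm', hx', hy'⟩
  · have hty : P.ty w = P.ty w' := e.symm.trans e'
    rw [← hty] at hm'
    have := (P.match_unique i hm hm').2 (P.em_inj _ hm.2.1 hm'.2.1 (hy.symm.trans hy'))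
    exact P.eq_of_six hW hW' hty (by rw [hx, hx', this])
  · exact (P.not_both hU hW').elim
  · exact (P.not_both hU' hW).elim
  · have := (P.match_unique i hm hm').1 (P.es_inj _ hm.1 hm'.1 (hx.symm.trans hx'))
    refine Prod.ext ((P.fst_of_mem hU).trans (P.fst_of_mem hU').symm) ?_
    rw [P.eq_fib (ψ := P.psi ω₀) hU t, P.eq_fib (ψ := P.psi ω₀) hU' t, e, e', hy, hy', this]

open Classical in
theorem card_SB_le (s : Finset P.V) : (s.filter fun w => P.SB ω₀ i t u w).card ≤ P.mb i := by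
  by_cases hu : u ∈ P.node (P.tp i)
  · refine le_trans (Finset.card_le_card ?_)
      ((P.card_sub_le i (tau (P.psi ω₀) t u.2)).trans (le_max_left _ _))
    intro w hw
    rcases (Finset.mem_filter.1 hw).2 with h | h
    · exact Finset.mem_filter.2 ⟨h.2.2.1, h.2.2.2.2.2.symm⟩
    · exact (P.not_both hu h.2.2.1).elim
  · refine le_trans (Finset.card_le_card ?_)
      ((P.card_tp_le (P.psi ω₀) i (P.ty u) t).trans (le_max_right _ _))
    intro w hw
    rcases (Finset.mem_filter.1 hw).2 with h | h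
    · exact (hu h.2.1).elim
    · exact Finset.mem_filter.2 ⟨h.2.1, h.2.2.2.2.2⟩

theorem mb_pos (i : ℤ) : 0 < P.mb i := lt_of_lt_of_le (P.sz_pos _) (le_max_right _ _)

open Classical in
theorem sum_cH_le (hμ : IsLaw (μ i)) (s : Finset A) :
    ∑ f ∈ s, ‖P.cH μ i ω₀ ω u t w f‖ ≤
      (if P.Mt ω₀ ω i t u w then 1 else 0) + (if P.SB ω₀ i t u w then ((P.mb i : ℝ))⁻¹ else 0) := by
  by_cases h : Even u.1 ∧ P.SB ω₀ i t u w
  · have hr := P.rho_mem i
    have hm : (0 : ℝ) < P.mb i := by exact_mod_cast P.mb_pos i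
    rw [if_pos h.2]
    simp only [P.cH_eq h]
    refine (Finset.sum_le_sum fun f _ => norm_sub_le _ _).trans ?_
    rw [Finset.sum_add_distrib]
    refine add_le_add ?_ ?_
    · split_ifs with hM
      · simp only [hM, true_and]
        refine le_trans (Finset.sum_le_sum (g := fun f => if (ω (.inr (u.1, u.2, t))).2.1 = f then 1 else 0)
          fun f _ => ?_) ?_
        · split_ifs <;> simp [norm_ph]
        · rw [Finset.sum_ite_eq]; split_ifs <;> norm_num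
      · simp [hM]
    · simp only [norm_mul, ← Finset.mul_sum]
      rw [Complex.norm_real, Real.norm_of_nonneg (div_nonneg hr.1.le hm.le)]
      calc P.rho i / P.mb i * ∑ f ∈ s, ‖qco (μ i) f‖ ≤ 1 / P.mb i * 1 :=
            mul_le_mul (div_le_div_of_nonneg_right hr.2 hm.le) (sum_norm_qco_le hμ s)
              (Finset.sum_nonneg fun _ _ => norm_nonneg _) (by positivity)
        _ = _ := by simp
  · simp only [P.cH_zero h, norm_zero, Finset.sum_const_zero]
    split_ifs <;> positivity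

open Classical in
theorem sum_ind_le (s : Finset P.V) :
    ∑ w ∈ s, ((if P.Mt ω₀ ω i t u w then (1 : ℝ) else 0) +
      (if P.SB ω₀ i t u w then ((P.mb i : ℝ))⁻¹ else 0)) ≤ 2 := by
  have hm : (0 : ℝ) < P.mb i := by exact_mod_cast P.mb_pos i
  rw [Finset.sum_add_distrib, ← one_add_one_eq_two]
  refine add_le_add ?_ ?_
  · rw [Finset.sum_boole]
    exact_mod_cast Finset.card_le_one.2 fun a ha b hb =>
      Mt.unique P (Finset.mem_filter.1 ha).2 (Finset.mem_filter.1 hb).2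
  · rw [← Finset.sum_filter, Finset.sum_const, nsmul_eq_mul, mul_inv_le_iff₀ hm, one_mul]
    exact_mod_cast P.card_SB_le s

theorem mem_DT_inr {v : P.V} (hv : v ∈ P.Vs ω₀ i) (ht : t ∈ P.ports i) :
    Sum.inr (v.1, v.2, t) ∈ P.DT i := by
  classical
  exact Finset.mem_union_right _ (Finset.mem_image.2
    ⟨(v, t), Finset.mem_product.2 ⟨(Finset.mem_filter.1 hv).1, ht⟩, rfl⟩)

theorem pairOf_Vs {v : P.V} (hv : v ∈ P.Vs ω₀ i) (ht : t ∈ P.ports i) : P.pairOf v.1 t = i := by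
  refine P.pairOf_eq ht ?_
  rcases (P.mem_Vs.1 hv).1 with h | h <;> rw [P.fst_of_mem h]
  · exact P.tp_or i
  · exact P.sub_or i

variable [Group A]

theorem cH_supp [DecidableEq A] (hω : ∀ x ∈ P.DT i, ω x ∈ (P.law μ x).support)
    (h : P.cH μ i ω₀ ω u t w f ≠ 0) : (Even u.1 ∧ P.SB ω₀ i t u w) ∧ f ∈ Fs (μ i) := by
  have h1 : Even u.1 ∧ P.SB ω₀ i t u w := by
    by_contra hc; exact h (P.cH_zero hc)
  refine ⟨h1, Finset.mem_union_left _ ?_⟩
  obtain ⟨a, -, c, -⟩ := SB.facts P h1.2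
  by_cases hq : qco (μ i) f = 0
  · rw [P.cH_eq h1, hq, mul_zero, sub_zero] at h
    have h2 : (ω (.inr (u.1, u.2, t))).2.1 = f := by
      by_contra hc; exact h (if_neg fun a => hc a.2)
    have h3 := hω _ (P.mem_DT_inr a c)
    simp only [law, P.pairOf_Vs a c] at h3
    classical
    obtain ⟨y, hy, e⟩ := Finset.mem_image.1 (Finsupp.mapDomain_support h3)
    obtain ⟨ω', hω'⟩ := supp_damp hy
    refine Finset.mem_image.2 ⟨_, hω', ?_⟩
    rw [← h2, ← e]
  · obtain ⟨ω', -, hω'⟩ := Finset.exists_ne_zero_of_sum_ne_zero hq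
    refine Finset.mem_image.2 ⟨(f, ω'), Finsupp.mem_support_iff.2 fun h0 => hω' ?_, rfl⟩
    rw [h0]; simp

omit [Group A] in
theorem cH_dep {ω' : P.Om A} {b : List P.F × P.F} (hb : P.SB ω₀ i t u w → P.bl ω₀ i u t = b)
    (h : ∀ x ∈ P.Db ω₀ i b, ω x = ω' x) : P.cH μ i ω₀ ω u t w f = P.cH μ i ω₀ ω' u t w f := by
  by_cases h1 : Even u.1 ∧ P.SB ω₀ i t u w
  · obtain rfl := hb h1.2
    obtain ⟨x, y, -, -, e⟩ := SB.mt_iff P h1.2
    have e1 : ω (.inl (i, (P.bl ω₀ i u t).1, t)) = ω' (.inl (i, (P.bl ω₀ i u t).1, t)) :=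
      h _ (Finset.mem_insert_self _ _)
    have e2 : ω (.inr (u.1, u.2, t)) = ω' (.inr (u.1, u.2, t)) :=
      h _ (Finset.mem_insert_of_mem (Finset.mem_image.2
        ⟨u, Finset.mem_filter.2 ⟨(SB.facts P h1.2).1, h1.1, rfl⟩, rfl⟩))
    rw [P.cH_eq h1, P.cH_eq h1, e2]
    have : P.Mt ω₀ ω i t u w ↔ P.Mt ω₀ ω' i t u w := by rw [e, e, e1]
    rw [propext this]
  · rw [P.cH_zero h1, P.cH_zero h1]

theorem cH_mean (hμ : ∀ i, IsLaw (μ i)) {b : List P.F × P.F} (hb : P.SB ω₀ i t u w → P.bl ω₀ i u t = b)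
    (ω : P.Om A) : Ex (P.law μ) (P.Db ω₀ i b) (fun ω => P.cH μ i ω₀ ω u t w f) ω = 0 := by
  classical
  have hlaw := P.isLaw_law hμ
  by_cases h1 : Even u.1 ∧ P.SB ω₀ i t u w
  · obtain rfl := hb h1.2
    obtain ⟨x, y, hx, hy, e⟩ := SB.mt_iff P h1.2
    obtain ⟨a, -, c, -⟩ := SB.facts P h1.2
    simp only [P.cH_eq h1, e]
    rw [Ex_sub, Ex_const hlaw, sub_eq_zero]
    have key := Ex_two hlaw (D := P.Db ω₀ i (P.bl ω₀ i u t)) (c₁ := .inl (i, (P.bl ω₀ i u t).1, t))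
      (c₂ := .inr (u.1, u.2, t)) (Finset.mem_insert_self _ _)
      (Finset.mem_insert_of_mem (Finset.mem_image.2 ⟨u, Finset.mem_filter.2 ⟨a, h1.1, rfl⟩, rfl⟩))
      (by simp) (fun p q => if P.Match i p.1 x y ∧ q.2.1 = f then ph q.2.2 else 0) ω
    refine key.trans ?_
    simp only [law, P.pairOf_Vs a c]
    have inner : ∀ p : Val A, (((damp (P.rho i) (μ i)).mapDomain fun y => ((0 : ℕ), y)).sum
        fun q r => r • (if P.Match i p.1 x y ∧ q.2.1 = f then ph q.2.2 else 0)) =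
        if P.Match i p.1 x y then (P.rho i : ℂ) * qco (μ i) f else 0 := fun p => by
      rw [Finsupp.sum_mapDomain_index (by simp) (fun _ _ _ => add_smul _ _ _)]
      split_ifs with hm
      · simp only [hm, true_and]
        rw [← qco_damp, ← qco_eq_sum]
      · simp [hm]
    simp only [inner]
    rw [sum_shLaw (P.mb i) fun s => if P.Match i s x y then (P.rho i : ℂ) * qco (μ i) f else 0]
    obtain ⟨s₀, hs₀, hs⟩ := P.card_match i hx hy
    rw [Finset.sum_eq_single s₀]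
    · rw [if_pos hs₀.2, Complex.real_smul]; push_cast; ring
    · intro s h h'
      rw [if_neg fun hm => h' (hs s ⟨Finset.mem_range.1 h, hm⟩), smul_zero]
    · intro h; exact absurd (Finset.mem_range.2 hs₀.1) h
  · simp only [P.cH_zero h1]
    exact Ex_const hlaw _ _ _

end Par

namespace Par
variable (P : Par) {A : Type} [Group A] {μ : ℤ → (A × ZMod 4) →₀ ℝ} {on : ℤ → Prop}

theorem rand [DecidableEq A] (hμ : ∀ i, IsLaw (μ i)) (ω₀ : P.Om A) (i : ℤ) :
    (P.trS μ ω₀ i).Rand (P.law μ) (P.DT i) (P.Db ω₀ i) (P.cS μ i ω₀) := by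
  classical
  refine ⟨fun ω hω => ⟨?_, ?_, ?_⟩, ?_, ?_, ?_, ?_⟩
  · intro v t w f h
    unfold cS at h
    split_ifs at h with hv
    · obtain ⟨h1, h2⟩ := P.cH_supp hω h
      obtain ⟨a, b, c, d, e⟩ := SB.facts P h1.2
      refine ⟨a, b, c, h2, ?_, d⟩
      change decide (Even w.1) = !decide (Even v.1)
      simp [hv, e.1 hv]
    · obtain ⟨h1, h2⟩ := P.cH_supp hω (fun h0 => h (by rw [h0, map_zero]))
      obtain ⟨a, b, c, d, e⟩ := SB.facts P h1.2
      refine ⟨b, a, c, ?_, ?_, d.symm⟩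
      · simpa using (P.trS μ ω₀ i).Fs_inv _ h2
      · change decide (Even w.1) = !decide (Even v.1)
        simp [hv, h1.1]
  · intro v t w f
    unfold cS
    by_cases hv : Even v.1 <;> by_cases hw : Even w.1
    · rw [if_pos hv, if_pos hw, P.cH_zero fun h => (SB.facts P h.2).2.2.2.2.1 hw hv,
        P.cH_zero fun h => (SB.facts P h.2).2.2.2.2.1 hv hw, map_zero]
    · rw [if_pos hv, if_neg hw, inv_inv]
    · rw [if_neg hv, if_pos hw, Complex.conj_conj]
    · rw [if_neg hv, if_neg hw, P.cH_zero fun h => hv h.1, P.cH_zero fun h => hw h.1, map_zero, map_zero]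
  · intro v t
    refine le_trans (Finset.sum_le_sum fun w _ => ?_) (P.sum_ind_le (ω₀ := ω₀) (ω := ω) (i := i) (t := t) (u := v) _)
    unfold cS
    by_cases hv : Even v.1
    · simp only [if_pos hv]
      exact P.sum_cH_le (hμ i) _
    · simp only [if_neg hv, RCLike.norm_conj]
      have h1 := P.sum_cH_le (μ := μ) (ω₀ := ω₀) (ω := ω) (u := w) (w := v) (t := t) (hμ i)
        ((P.trS μ ω₀ i).Fs.image fun f => f⁻¹)
      rw [Finset.sum_image (fun a _ b _ h => inv_injective h)] at h1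
      refine h1.trans (le_of_eq ?_)
      congr 1
      · exact if_congr ⟨Mt.symm P, Mt.symm P⟩ rfl rfl
      · exact if_congr ⟨SB.symm P, SB.symm P⟩ rfl rfl
  · intro v hv t ht x hx
    change v ∈ P.Vs ω₀ i at hv
    change t ∈ P.ports i at ht
    change x ∈ P.Db ω₀ i (P.bl ω₀ i v t) at hx
    rcases Finset.mem_insert.1 hx with rfl | hx
    · refine Finset.mem_union_left _ (Finset.mem_image.2 ⟨((P.bl ω₀ i v t).1, t),
        Finset.mem_product.2 ⟨mem_lists.2 ⟨?_, fun _ _ => Finset.mem_univ _⟩, ht⟩, rfl⟩)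
      rcases (P.mem_Vs.1 hv).1 with h | h
      · rw [P.bl_tp h, P.ty_tp h, length_tau, P.length_of_mem h]; rfl
      · rw [P.bl_sub h, ← P.length_of_mem_Blk (P.ty_mem_Blk h)]; rfl
    · obtain ⟨w, hw, rfl⟩ := Finset.mem_image.1 hx
      exact P.mem_DT_inr (Finset.mem_filter.1 hw).1 ht
  · intro b b' hne
    rw [Finset.disjoint_left]
    intro x hx hx'
    rcases Finset.mem_insert.1 hx with rfl | hx
    · rcases Finset.mem_insert.1 hx' with h | h
      · simp only [Sum.inl.injEq, Prod.mk.injEq, true_and] at h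
        exact hne (Prod.ext h.1 h.2)
      · obtain ⟨w, -, h⟩ := Finset.mem_image.1 h
        cases h
    · obtain ⟨w, hw, rfl⟩ := Finset.mem_image.1 hx
      rcases Finset.mem_insert.1 hx' with h | h
      · cases h
      · obtain ⟨w', hw', h⟩ := Finset.mem_image.1 h
        simp only [Sum.inr.injEq, Prod.mk.injEq] at h
        obtain rfl : w' = w := Prod.ext h.1 h.2.1
        apply hne
        rw [← (Finset.mem_filter.1 hw).2.2, ← (Finset.mem_filter.1 hw').2.2, h.2.2]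
  · intro v t w f ω ω' h
    unfold cS
    split_ifs
    · exact P.cH_dep (fun _ => rfl) h
    · rw [P.cH_dep (fun hs => (SB.facts P hs).2.2.2.1) h]
  · intro v t w f ω
    unfold cS
    split_ifs
    · exact P.cH_mean hμ (fun _ => rfl) ω
    · rw [Ex_conj]
      change (starRingEnd ℂ) (Ex (P.law μ) (P.Db ω₀ i (P.bl ω₀ i v t)) _ ω) = 0
      rw [P.cH_mean hμ (fun hs => (SB.facts P hs).2.2.2.1) ω, map_zero]

omit [Group A] in
theorem cH_congr {i : ℤ} {ω₁ ω₂ : P.Om A} (h : ∀ t U W, P.SameBlk ω₁ i t U W ↔ P.SameBlk ω₂ i t U W)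
    (ω : P.Om A) : P.cH μ i ω₁ ω = P.cH μ i ω₂ ω := by
  have : P.SameBlk ω₁ i = P.SameBlk ω₂ i := by
    funext t U W; exact propext (h t U W)
  funext u t w f
  unfold cH
  rw [this]

omit [Group A] in
theorem card_Vs_le (ω₀ : P.Om A) (i : ℤ) : (P.Vs ω₀ i).card ≤ P.n ^ (P.stg (lo i) + 1) := by
  classical
  have h := P.stg_lo_le i
  have hn : 0 < P.n := P.prime.pos
  have key : ∀ j, P.stg j ≤ P.stg (lo i) + 1 → 2 * (P.node j).card ≤ P.n ^ (P.stg (lo i) + 1) := fun j hj => by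
    rw [P.card_node, pow_succ', ← mul_assoc]
    exact Nat.mul_le_mul (by have := P.sz_le j; omega) (Nat.pow_le_pow_right hn (by omega))
  have h1 := key i h.2.2.1
  have h2 := key (i + 1) h.2.2.2
  have h3 : (P.Vs ω₀ i).card ≤ (P.node i).card + (P.node (i + 1)).card :=
    (Finset.card_filter_le _ _).trans (Finset.card_union_le _ _)
  omega

open Classical in
theorem prob_badT (hμ : ∀ i, IsLaw (μ i)) {CA M₀ : ℕ} (hg : Growth μ on CA M₀) (i : ℤ) (r k : ℕ)
    (hk : 2 * 2 ^ r ≤ k * (P.stg (lo i) / 16)) (ω₀ : P.Om A) :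
    Ex (P.law μ) (P.DT i) (fun ω => if P.badT μ on i ω then (1 : ℝ) else 0) ω₀ ≤
      ((P.n : ℝ) ^ (P.stg (lo i) + 1)) ^ 2 * ((M₀ * 2 ^ i.natAbs * 2 ^ r : ℕ) : ℝ) ^ CA *
        ((((P.stg (lo i) / 16 : ℕ) : ℝ) + 1) * (2 * 2 ^ r * P.n + 1)) ^ k / 16 ^ 2 ^ r := by
  have hlaw := P.isLaw_law hμ
  by_cases hon : on i
  swap
  · have : (fun ω => if P.badT μ on i ω then (1 : ℝ) else 0) = fun _ => 0 :=
      funext fun ω => if_neg fun h => hon h.1
    rw [this, Ex_const hlaw]; positivity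
  obtain ⟨FN, hF1, hF2⟩ := hg i hon (2 ^ r) Nat.one_le_two_pow
  have hR := P.rand hμ ω₀ i
  have key := (P.trS μ ω₀ i).prob_norm_gt hlaw hR r k hk FN (fun l hl hx => hF1 l hl fun x h => by
    rcases Finset.mem_union.1 (hx x h) with h | h
    · obtain ⟨y, hy, rfl⟩ := Finset.mem_image.1 h
      exact ⟨y.2, Or.inl hy⟩
    · obtain ⟨y, hy, rfl⟩ := Finset.mem_image.1 h
      exact ⟨y.2, Or.inr (by simpa using hy)⟩) ω₀
  refine le_trans (Ex_mono hlaw fun ω h1 h2 => ?_) (key.trans ?_)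
  · have hc : P.cH μ i ω ω = P.cH μ i ω₀ ω := P.cH_congr (P.SameBlk_congr fun i' κ t _ hl => by
      rw [h1]
      intro hx
      rcases Finset.mem_union.1 hx with hx | hx
      · obtain ⟨c, hc, e⟩ := Finset.mem_image.1 hx
        simp only [Sum.inl.injEq, Prod.mk.injEq] at e
        have := (mem_lists.1 (Finset.mem_product.1 hc).1).1
        rw [e.2.1] at this
        omega
      · obtain ⟨c, -, e⟩ := Finset.mem_image.1 hx
        cases e) ω
    have he : P.fluct μ i ω = prj {p : A × P.V | Even p.2.1} ∘L (P.trS μ ω₀ i).op (P.cS μ i ω₀ ω) := by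
      refine mat_ext fun p q => ?_
      rw [P.mat_fluct hμ, hc]
      change _ = (prj {p : A × P.V | Even p.2.1} ((P.trS μ ω₀ i).op (P.cS μ i ω₀ ω) (dl q)) : A × P.V → ℂ) p
      rw [prj_apply]
      split_ifs with hp
      · change _ = mat _ p q
        rw [(P.trS μ ω₀ i).mat_op (hR.adm ω h2)]
        exact Finset.sum_congr rfl fun t _ => (if_pos hp).symm
      · exact Finset.sum_eq_zero fun t _ => P.cH_zero fun h => hp h.1
    have hn : ‖P.fluct μ i ω‖ ≤ ‖(P.trS μ ω₀ i).op (P.cS μ i ω₀ ω)‖ := by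
      rw [he]
      exact (ContinuousLinearMap.opNorm_comp_le _ _).trans
        (mul_le_of_le_one_left (norm_nonneg _) (norm_prj_le _))
    split_ifs with a b b
    · exact le_rfl
    · exact absurd (lt_of_lt_of_le a.2 hn) b
    · norm_num
    · exact le_rfl
  · have a1 : (((P.trS μ ω₀ i).Vs.card : ℕ) : ℝ) ≤ (P.n : ℝ) ^ (P.stg (lo i) + 1) := by
      exact_mod_cast P.card_Vs_le ω₀ i
    have a2 : (FN.card : ℝ) ≤ ((M₀ * 2 ^ i.natAbs * 2 ^ r : ℕ) : ℝ) ^ CA := by exact_mod_cast hF2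
    change _ * _ * ((((P.stg (lo i) / 16 : ℕ) : ℝ) + 1) * (2 * 2 ^ r * P.n + 1)) ^ k / _ ≤ _
    gcongr

theorem badT_dep (i : ℤ) : ∃ B, ∀ ω ω' : P.Om A, (∀ c ∈ P.Dep B, ω c = ω' c) →
    P.badT μ on i ω → P.badT μ on i ω' := by
  refine ⟨P.J * (P.lvl i + 2) + i.natAbs + 1, fun ω ω' h hb => ⟨hb.1, ?_⟩⟩
  have hJ : P.lvl i + 2 ≤ P.J * (P.lvl i + 2) := Nat.le_mul_of_pos_left _ (by have := P.hJ; omega)
  have hc : P.cH μ i ω ω = P.cH μ i ω' ω := P.cH_congr (P.SameBlk_congr fun i' κ t a b => by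
    have h1 := P.natAbs_le_of_Blk a
    have h2 : P.J * (κ.length + 2) ≤ P.J * (P.lvl i + 2) := Nat.mul_le_mul_left _ (by omega)
    rw [h _ (P.mem_Dep (by omega) (by omega)).1]) ω
  have : P.fluct μ i ω' = P.fluct μ i ω := by
    unfold fluct
    congr 1
    funext p q
    refine Finset.sum_congr rfl fun t _ => ?_
    rw [hc]
    by_cases hs : Even p.2.1 ∧ P.SB ω' i t p.2 q.2
    swap
    · rw [P.cH_zero hs, P.cH_zero hs]
    refine (P.cH_dep (fun _ => rfl) fun x hx => h x ?_).symm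
    have hlen : ∀ v ∈ P.Vs ω' i, v.1.natAbs ≤ i.natAbs + 1 ∧ v.2.length ≤ P.lvl i ∧
        (P.bl ω' i v t).1.length ≤ P.lvl i := fun v hv => by
      rcases (P.mem_Vs.1 hv).1 with a | a
      · rw [P.bl_tp a, P.ty_tp a, length_tau, P.length_of_mem a, P.fst_of_mem a]
        refine ⟨?_, le_rfl, Nat.sub_le _ _⟩
        rcases P.tp_or i with b | b <;> omega
      · have := P.length_of_mem_Blk (P.ty_mem_Blk a)
        rw [P.bl_sub a, P.length_of_mem a, P.fst_of_mem a]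
        refine ⟨?_, ?_, by simp only; omega⟩
        · rcases P.sub_or i with b | b <;> omega
        · by_cases hc : P.cross i
          · have := (P.of_cross hc).2.2.1; omega
          · exact (P.of_not_cross hc).2.1.le
    rcases Finset.mem_insert.1 hx with rfl | hx
    · have := hlen _ (SB.facts P hs.2).1
      exact (P.mem_Dep (by omega) (by omega)).1
    · obtain ⟨w, hw, rfl⟩ := Finset.mem_image.1 hx
      have := hlen _ (Finset.mem_filter.1 hw).1
      exact (P.mem_Dep (by omega) (by omega)).2.1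
  rw [this]; exact hb.2

end Par
end Crest.Agent.R129
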