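import Crest.Agent.R129.Bridge
import Crest.Agent.R129.Cons2
import Crest.Agent.R129.Cons3

/-! # Dictionary between the group `Grp` and the small cancellation data (task R129/GeoA) -/

set_option autoImplicit false
set_option linter.unusedSectionVars false

namespace Crest.Agent.R129
namespace BG
variable {F A : Type} [DecidableEq F] [Group A] {Γ : BG F A}

variable (Γ) in
/-- the output of `exists_SC` -/
structure Dict (𝒮 : SC (Let F)) (cls : FreeGroup (Let F) → Γ.V → 𝒮.M) : Prop where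
  surj : ∀ Y y, y ∈ 𝒮.mem Y → ∃ b, Y = cls y b
  mem_iff : ∀ x b y, y ∈ 𝒮.mem (cls x b) ↔ ∃ b' m, Γ.Path Γ.fl b (x⁻¹ * y) b' m
  eq_iff : ∀ x b y b', cls x b = cls y b' ↔ ∃ m, Γ.Path Γ.fl b (x⁻¹ * y) b' m
  sm_cls : ∀ g x b, 𝒮.sm g (cls x b) = cls (g * x) b
  L_cls : ∀ x b, 𝒮.L (cls x b) x = Γ.L b
  R_iff : ∀ x b r, r ∈ 𝒮.R (cls x b) ↔ ∃ m, Γ.Path (fun u t => (Γ.fl u t, Γ.a u t)) b
      ((x⁻¹ * r * x, 1) : FreeGroup (Let F) × A) b m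
  N_eq : 𝒮.N = Γ.Nrm

theorem exists_dict (h : Γ.SCHyp) : ∃ 𝒮 cls, Γ.Dict 𝒮 cls := by
  obtain ⟨𝒮, cls, h1, h2, h3, h4, h5, h6, h7⟩ := exists_SC h
  exact ⟨𝒮, cls, h1, h2, h3, h4, h5, h6, h7⟩

theorem mkG_eq_one {w : FreeGroup (Let F)} : Γ.mkG w = 1 ↔ w ∈ Γ.Nrm :=
  QuotientGroup.eq_one_iff w

theorem mkG_eq_iff {w w' : FreeGroup (Let F)} :
    Γ.mkG w = Γ.mkG w' ↔ ∃ h ∈ Γ.Nrm, w' = h * w := by
  constructor
  · intro e
    refine ⟨w' * w⁻¹, mkG_eq_one.1 ?_, by group⟩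
    rw [map_mul, map_inv, e, mul_inv_cancel]
  · rintro ⟨h, hh, rfl⟩
    rw [map_mul, mkG_eq_one.2 hh, one_mul]

theorem len_le {w : FreeGroup (Let F)} {g : Γ.Grp} (h : Γ.mkG w = g) : Γ.len g ≤ w.norm :=
  Nat.sInf_le ⟨w, h, rfl⟩

theorem exists_len (g : Γ.Grp) : ∃ w, Γ.mkG w = g ∧ w.norm = Γ.len g := by
  obtain ⟨w, hw⟩ := QuotientGroup.mk'_surjective Γ.Nrm g
  exact Nat.sInf_mem (s := {m | ∃ w, Γ.mkG w = g ∧ w.norm = m}) ⟨_, w, hw, rfl⟩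

theorem norm_sg (σ : Let F × Bool) : (sg σ).norm = 1 := by
  have := td_sg 1 σ
  rwa [one_mul, td_one] at this

theorem even_of_mem_Nrm {w : FreeGroup (Let F)} (hw : w ∈ Γ.Nrm) : w.norm % 2 = 0 := by
  let E : Subgroup (FreeGroup (Let F)) :=
    { carrier := {w | w.norm % 2 = 0}
      one_mem' := by simp
      mul_mem' := by
        intro a b ha hb
        have ha' : a.norm % 2 = 0 := ha
        have hb' : b.norm % 2 = 0 := hb
        have := norm_mul_mod_two a b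
        change (a * b).norm % 2 = 0
        omega
      inv_mem' := by
        intro a ha
        change (a⁻¹).norm % 2 = 0
        rw [FreeGroup.norm_inv_eq]; exact ha }
  have hE : E.Normal := ⟨fun a ha g => by
    have ha' : a.norm % 2 = 0 := ha
    have h1 := norm_mul_mod_two (g * a) g⁻¹
    have h2 := norm_mul_mod_two g a
    rw [FreeGroup.norm_inv_eq] at h1
    change (g * a * g⁻¹).norm % 2 = 0
    omega⟩
  refine Subgroup.normalClosure_le_normal (N := E) ?_ hw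
  rintro w ⟨v, m, hm⟩
  have h1 : Γ.Path Γ.fl v w v m := hm.map (MonoidHom.fst _ _)
  have h2 := h1.norm_le.2
  have h3 := h1.parity.1 Iff.rfl
  change w.norm % 2 = 0
  omega

theorem len_step' (σ : Let F × Bool) (g : Γ.Grp) :
    Γ.len ((Γ.mkG (sg σ))⁻¹ * g) + 1 = Γ.len g ∨ Γ.len ((Γ.mkG (sg σ))⁻¹ * g) = Γ.len g + 1 := by
  obtain ⟨w, hw, hwl⟩ := exists_len g
  obtain ⟨u, hu, hul⟩ := exists_len ((Γ.mkG (sg σ))⁻¹ * g)
  have e1 : Γ.mkG (sg σ * u) = g := by rw [map_mul, hu, mul_inv_cancel_left]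
  have e2 : Γ.mkG ((sg σ)⁻¹ * w) = (Γ.mkG (sg σ))⁻¹ * g := by rw [map_mul, map_inv, hw]
  have a1 := (len_le e1).trans (FreeGroup.norm_mul_le _ _)
  have a2 := (len_le e2).trans (FreeGroup.norm_mul_le _ _)
  rw [FreeGroup.norm_inv_eq] at a2
  rw [norm_sg] at a1 a2
  obtain ⟨k, hk, e⟩ := mkG_eq_iff.1 (e1.trans hw.symm)
  have a3 := even_of_mem_Nrm hk
  have a4 := norm_mul_mod_two k (sg σ * u)
  have a5 := norm_mul_mod_two (sg σ) u
  rw [← e] at a4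
  rw [norm_sg] at a5
  omega

theorem down_iff {σ : Let F × Bool} {g : Γ.Grp} :
    Γ.Down σ g ↔ ∃ w, Γ.mkG w = g ∧ w.norm = Γ.len g ∧ Btw 1 (sg σ) w := by
  unfold Down
  constructor
  · intro h
    obtain ⟨u, hu, hul⟩ := exists_len ((Γ.mkG (sg σ))⁻¹ * g)
    have e1 : Γ.mkG (sg σ * u) = g := by rw [map_mul, hu, mul_inv_cancel_left]
    have a1 := len_le e1
    have a2 := FreeGroup.norm_mul_le (sg σ) u
    rw [norm_sg] at a2
    refine ⟨sg σ * u, e1, by omega, ?_⟩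
    unfold Btw
    rw [td_one, td_one, norm_sg]
    unfold td
    rw [inv_mul_cancel_left]
    omega
  · rintro ⟨w, hw, hwl, hb⟩
    have e2 : Γ.mkG ((sg σ)⁻¹ * w) = (Γ.mkG (sg σ))⁻¹ * g := by rw [map_mul, map_inv, hw]
    have a1 := len_le e2
    unfold Btw at hb
    rw [td_one, td_one, norm_sg] at hb
    unfold td at hb
    omega

theorem len_down {σ : Let F × Bool} {g : Γ.Grp} {w : FreeGroup (Let F)}
    (hwl : w.norm = Γ.len g) (hσ : Γ.Down σ g) (hb : Btw 1 (sg σ) w) :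
    ((sg σ)⁻¹ * w).norm = Γ.len ((Γ.mkG (sg σ))⁻¹ * g) := by
  have := len_step' σ g
  unfold Down at hσ
  unfold Btw at hb
  rw [td_one, td_one, norm_sg] at hb
  unfold td at hb
  omega

namespace Dict
variable {𝒮 : SC (Let F)} {cls : FreeGroup (Let F) → Γ.V → 𝒮.M} (D : Γ.Dict 𝒮 cls)
include D

theorem mkG_eq {w w' : FreeGroup (Let F)} (h : Γ.mkG w = Γ.mkG w') : ∃ h ∈ 𝒮.N, w' = h * w := by
  rw [D.N_eq]; exact mkG_eq_iff.1 h

theorem mkG_mul {k : FreeGroup (Let F)} (hk : k ∈ 𝒮.N) (w : FreeGroup (Let F)) :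
    Γ.mkG (k * w) = Γ.mkG w := by
  rw [D.N_eq] at hk
  exact (mkG_eq_iff.2 ⟨k, hk, rfl⟩).symm

theorem min_of {w : FreeGroup (Let F)} {g : Γ.Grp} (hw : Γ.mkG w = g) (hl : w.norm = Γ.len g) :
    𝒮.Min w := fun k hk => by
  rw [hl]
  exact len_le ((D.mkG_mul hk w).trans hw)

theorem mem_one {b : Γ.V} {y : FreeGroup (Let F)} :
    y ∈ 𝒮.mem (cls 1 b) ↔ ∃ b' m, Γ.Path Γ.fl b y b' m := by
  rw [D.mem_iff, inv_one, one_mul]

theorem eq_one {b b' : Γ.V} {y : FreeGroup (Let F)} {m : ℕ} (h : Γ.Path Γ.fl b y b' m) :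
    cls 1 b = cls y b' := by
  rw [D.eq_iff, inv_one, one_mul]; exact ⟨m, h⟩

theorem one_mem (b : Γ.V) : 1 ∈ 𝒮.mem (cls 1 b) := D.mem_one.2 ⟨b, 0, Path.refl b⟩

theorem R_one {b : Γ.V} {r : FreeGroup (Let F)} : r ∈ 𝒮.R (cls 1 b) ↔
    ∃ m, Γ.Path (fun u t => (Γ.fl u t, Γ.a u t)) b ((r, 1) : FreeGroup (Let F) × A) b m := by
  rw [D.R_iff, inv_one, one_mul, mul_one]

theorem cls_inj {b b' : Γ.V} (h : cls 1 b = cls 1 b') : b = b' := by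
  obtain ⟨m, hm⟩ := (D.eq_iff _ _ _ _).1 h
  rw [inv_mul_cancel] at hm
  exact (Path.refl b).det' hm

theorem deep_iff {c : ℝ} {g : Γ.Grp} {b : Γ.V} :
    Γ.Deep c g b ↔ ∃ w, Γ.mkG w = g ∧ w.norm = Γ.len g ∧ 𝒮.ADeep c w (cls 1 b) := by
  constructor
  · rintro ⟨w, x, h1, h2, h3, h4, h5⟩
    exact ⟨w, h1, h2, D.one_mem b, x, D.mem_one.2 h4, h3, by rw [D.L_cls]; exact h5⟩
  · rintro ⟨w, h1, h2, -, x, h4, h3, h5⟩
    exact ⟨w, x, h1, h2, h3, D.mem_one.1 h4, by rw [D.L_cls] at h5; exact h5⟩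

theorem sm_sedge {b b' : Γ.V} {σ : Let F × Bool} (h : Γ.SEdge b σ b') :
    𝒮.sm (sg σ)⁻¹ (cls 1 b) = cls 1 b' := by
  rw [D.eq_one h.path, D.sm_cls, inv_mul_cancel]

theorem sedge_of_mem {b : Γ.V} {σ : Let F × Bool} (h : sg σ ∈ 𝒮.mem (cls 1 b)) :
    ∃ b', Γ.SEdge b σ b' := by
  obtain ⟨b', m, hm⟩ := D.mem_one.1 h
  exact ⟨b', hm.sedge⟩

/-- one step down along a deep word -/
theorem deep_step {c c' : ℝ} (hc : c' + 2 ≤ c) (hc' : 0 ≤ c') (hc'' : c' ≤ 100) {g : Γ.Grp}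
    {b b' : Γ.V} {σ : Let F × Bool} {w : FreeGroup (Let F)} (hw : Γ.mkG w = g)
    (hl : w.norm = Γ.len g) (hd : 𝒮.ADeep c w (cls 1 b)) (hσ : Γ.Down σ g) (hb : Btw 1 (sg σ) w)
    (he : Γ.SEdge b σ b') : Γ.Deep c' ((Γ.mkG (sg σ))⁻¹ * g) b' := by
  have := (SC.ADeep.step 𝒮 hc hc' hc'' hd hb).2
  rw [D.sm_sedge he] at this
  exact D.deep_iff.2 ⟨_, by rw [map_mul, map_inv, hw], len_down hl hσ hb, this⟩

end Dict

end BG
end Crest.Agent.R129
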