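import Crest.Agent.R129.Bridge
import Crest.Agent.R129.Cons2
import Crest.Agent.R129.Cons3
import Crest.Agent.R129.GeoD

/-! # Geometry exports (tasks R129/GeoA: all but the last three theorems; R129/GeoB: `exists_root`,
`exists_height`, `torsionFree`, proved in `R129/GeoB.lean` under primed names and then cited here).
Statements frozen.

Dictionary (`exists_SC`): `mkG w = mkG w' ↔ ∃ h ∈ N, w' = h * w`; `w.norm = len (mkG w) ↔ 𝒮.Min w`;
`Deep c g b ↔ ∃ w, mkG w = g ∧ 𝒮.Min w ∧ 𝒮.ADeep c w (cls 1 b)`;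
`Down σ g ↔ ∃ w, mkG w = g ∧ w.norm = len g ∧ Btw 1 (sg σ) w` (take `w = sg σ * w'`, `len_step`);
`sg σ ∈ mem (cls 1 b) ↔ ∃ b', SEdge b σ b'` (`Path.sedge`), and then `sm (sg σ)⁻¹ (cls 1 b) = cls 1 b'`;
`cls 1 b = cls 1 b' → b = b'` (`Path.det'`). -/

set_option autoImplicit false

namespace Crest.Agent.R129
namespace BG
variable {F A : Type} [DecidableEq F] [Group A] {Γ : BG F A}

/-- (g0) every relator has even length (`Path.parity`, `Path.norm_le`, `norm_mul_mod_two`; the even-norm elements form a normal subgroup) -/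
theorem len_step (σ : Let F × Bool) (g : Γ.Grp) :
    Γ.len ((Γ.mkG (sg σ))⁻¹ * g) + 1 = Γ.len g ∨ Γ.len ((Γ.mkG (sg σ))⁻¹ * g) = Γ.len g + 1 := by
  exact len_step' σ g

/-- (g1) signed letters stay distinct (`SC.N_long`) -/
theorem mkG_sg_injective (h : Γ.SCHyp) : Function.Injective fun σ : Let F × Bool => Γ.mkG (sg σ) := by
  obtain ⟨𝒮, cls, D⟩ := exists_dict h
  intro σ σ' e
  obtain ⟨k, hk, e'⟩ := D.mkG_eq e
  by_cases h1 : k = 1
  · rw [h1, one_mul] at e'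
    exact sg_injective e'.symm
  · exfalso
    have a1 := 𝒮.N_long hk h1 (sg σ)
    have a2 := td_triangle (sg σ) 1 (sg σ')
    rw [td_comm (sg σ) 1, td_one, td_one, norm_sg, norm_sg] at a2
    rw [← e'] at a1
    omega

/-- (D1) `SC.deep_unique` -/
theorem deep_unique (h : Γ.SCHyp) {g : Γ.Grp} {b b' : Γ.V} (hb : Γ.Deep 3 g b)
    (hb' : Γ.Deep 3 g b') : b = b' := by
  obtain ⟨𝒮, cls, D⟩ := exists_dict h
  obtain ⟨w, h1, h2, h3⟩ := D.deep_iff.1 hb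
  obtain ⟨w', h1', h2', h3'⟩ := D.deep_iff.1 hb'
  obtain ⟨k, hk, rfl⟩ := D.mkG_eq (h1.trans h1'.symm)
  exact D.cls_inj (𝒮.deep_unique (D.min_of h1 h2) hk (h2'.trans h2.symm) h3 h3')

/-- (D2) `SC.deep_first` -/
theorem deep_down_edge (h : Γ.SCHyp) {g : Γ.Grp} {b : Γ.V} {σ : Let F × Bool} (hb : Γ.Deep 3 g b)
    (hσ : Γ.Down σ g) : ∃ b', Γ.SEdge b σ b' := by
  obtain ⟨𝒮, cls, D⟩ := exists_dict h
  obtain ⟨w, h1, h2, h3⟩ := D.deep_iff.1 hb
  obtain ⟨w', h1', h2', h3'⟩ := down_iff.1 hσ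
  obtain ⟨k, hk, rfl⟩ := D.mkG_eq (h1.trans h1'.symm)
  exact D.sedge_of_mem (𝒮.deep_first (D.min_of h1 h2) hk (h2'.trans h2.symm) h3 h3')

/-- (D3) `SC.two_first`, `SC.ADeep.step` -/
theorem two_down (h : Γ.SCHyp) {g : Γ.Grp} {σ σ' : Let F × Bool} (hσ : Γ.Down σ g)
    (hσ' : Γ.Down σ' g) (hne : σ ≠ σ') :
    ∃ b b', Γ.Deep 5 g b ∧ Γ.SEdge b σ b' ∧ Γ.Deep 5 ((Γ.mkG (sg σ))⁻¹ * g) b' := by
  obtain ⟨𝒮, cls, D⟩ := exists_dict h
  obtain ⟨w, h1, h2, h3⟩ := down_iff.1 hσ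
  obtain ⟨w', h1', h2', h3'⟩ := down_iff.1 hσ'
  obtain ⟨k, hk, rfl⟩ := D.mkG_eq (h1.trans h1'.symm)
  obtain ⟨Z, hZ, -⟩ := 𝒮.two_first (D.min_of h1 h2) hk (h2'.trans h2.symm) h3 h3' hne
  obtain ⟨b, rfl⟩ := D.surj Z 1 hZ.1
  obtain ⟨b', hb'⟩ := D.sedge_of_mem
    (SC.ADeep.step 𝒮 (c' := 5) (by norm_num) (by norm_num) (by norm_num) hZ h3).1
  exact ⟨b, b', D.deep_iff.2 ⟨w, h1, h2, SC.ADeep.mono 𝒮 (by norm_num) hZ⟩, hb',
    D.deep_step (by norm_num) (by norm_num) (by norm_num) h1 h2 hZ hσ h3 hb'⟩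

/-- (D4) if the witness word starts with `σ`: `ADeep.step`; else `two_first`, `deep_unique`, `ADeep.step` -/
theorem deep_down_semi (h : Γ.SCHyp) {g : Γ.Grp} {b b' : Γ.V} {σ : Let F × Bool}
    (hb : Γ.Deep 5 g b) (hσ : Γ.Down σ g) (he : Γ.SEdge b σ b') :
    Γ.Deep 3 ((Γ.mkG (sg σ))⁻¹ * g) b' := by
  obtain ⟨𝒮, cls, D⟩ := exists_dict h
  obtain ⟨w, h1, h2, h3⟩ := D.deep_iff.1 hb
  obtain ⟨w', h1', h2', h3'⟩ := down_iff.1 hσ
  obtain ⟨k, hk, rfl⟩ := D.mkG_eq (h1.trans h1'.symm)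
  have hpos : 1 ≤ td 1 w := by
    rw [td_one, h2]
    unfold Down at hσ
    omega
  obtain ⟨z, hz, hz1⟩ := exists_btw 1 w hpos
  obtain ⟨σ', rfl⟩ := exists_sg_of_td hz1
  rw [one_mul] at hz
  by_cases hne : σ' = σ
  · subst hne
    exact D.deep_step (by norm_num) (by norm_num) (by norm_num) h1 h2 h3 hσ hz he
  · obtain ⟨Z, hZ, hZ'⟩ := 𝒮.two_first (D.min_of h1 h2) hk (h2'.trans h2.symm) hz h3' hne
    have e := 𝒮.deep_unique (D.min_of h1 h2) 𝒮.N.one_mem (by rw [one_mul])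
      (SC.ADeep.mono 𝒮 (by norm_num) h3) (Y' := Z)
      (by rw [one_mul]; exact SC.ADeep.mono 𝒮 (by norm_num) hZ)
    subst e
    exact D.deep_step (by norm_num) (by norm_num) (by norm_num) h1' h2' hZ' hσ h3' he

/-- (embedding) a path whose label dies in the group is closed and has trivial voltage
(`Path.lift` along `mkG × id`, `SC.emb` with `y = 1`, `Path.det`) -/
theorem embed (h : Γ.SCHyp) {v v' : Γ.V} {α : A} {m : ℕ}
    (hp : Γ.Path (fun u t => (Γ.gl u t, Γ.a u t)) v ((1, α) : Γ.Grp × A) v' m) :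
    v' = v ∧ α = 1 := by
  obtain ⟨𝒮, cls, D⟩ := exists_dict h
  obtain ⟨⟨w, β⟩, hk, h1⟩ := Path.lift (κ := fun u t => (Γ.fl u t, Γ.a u t))
    (Γ.mkG.prodMap (MonoidHom.id A)) hp
  have e1 : Γ.mkG w = 1 := congrArg Prod.fst hk
  have e2 : β = α := congrArg Prod.snd hk
  subst e2
  have hw : w ∈ 𝒮.N := by rw [D.N_eq]; exact mkG_eq_one.1 e1
  have h2 : Γ.Path Γ.fl v w v' m := h1.map (MonoidHom.fst _ _)
  obtain ⟨m', h3⟩ := D.R_one.1 (𝒮.emb (D.one_mem v) hw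
    (by rw [mul_one]; exact D.mem_one.2 ⟨v', m, h2⟩))
  exact h1.det h3

/-- (definition of the group) closed paths with trivial voltage die in the group -/
theorem embed' {v : Γ.V} {g : Γ.Grp} {m : ℕ}
    (hp : Γ.Path (fun u t => (Γ.gl u t, Γ.a u t)) v ((g, 1) : Γ.Grp × A) v m) : g = 1 := by
  obtain ⟨⟨w, β⟩, hk, h1⟩ := Path.lift (κ := fun u t => (Γ.fl u t, Γ.a u t))
    (Γ.mkG.prodMap (MonoidHom.id A)) hp
  have e1 : Γ.mkG w = g := congrArg Prod.fst hk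
  have e2 : β = 1 := congrArg Prod.snd hk
  subst e2
  rw [← e1]
  exact mkG_eq_one.2 (Subgroup.subset_normalClosure ⟨v, m, h1⟩)

omit [DecidableEq F] [Group A] in
theorem geo_conn_symm {K : Type} [Group K] {κ : Γ.V → F → K} {p q : K × Γ.V}
    (h : Γ.Conn κ p q) : Γ.Conn κ q p := by
  obtain ⟨m, h⟩ := h
  refine ⟨m, ?_⟩
  have := h.symm
  rwa [mul_inv_rev, inv_inv] at this

omit [DecidableEq F] [Group A] in
theorem geo_conn_trans {K : Type} [Group K] {κ : Γ.V → F → K} {p q r : K × Γ.V}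
    (h : Γ.Conn κ p q) (h' : Γ.Conn κ q r) : Γ.Conn κ p r := by
  obtain ⟨m, h⟩ := h
  obtain ⟨m', h'⟩ := h'
  refine ⟨m + m', ?_⟩
  have := h.trans h'
  rwa [mul_assoc, inv_mul_cancel_left] at this

/-- (D5) every component of the cover `Grp × V` has a root such that all shallow vertices are
within `8 L(root)` of it.  Choose in each `Conn`-class a vertex `(g₀,b₀)` with least `len g₀`.  For `p = (g,b)` let
`Y = cls 1 b`, `w` shortest for `g`; among `y` with `Path fl b y b₀`, `mkG y = g g₀⁻¹` take `y₀` of least norm, `w₀` shortest for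
`g₀`, `x = y₀ w₀`; `deep_of_far` applies (for `y ∈ Y` the vertex `((mkG y)⁻¹ g, ·)` is in the class and
`len ≤ td y x`), so `‖y₀‖ < 7 L b ≤ 7 (L b₀ + ‖y₀‖/100)`; finish with `Path.prefix`, `Path.map`. -/
theorem exists_root (h : Γ.SCHyp) : ∃ root : Γ.Grp × Γ.V → Γ.Grp × Γ.V,
    (∀ p, Γ.Conn Γ.gl p (root p)) ∧ (∀ p q, Γ.Conn Γ.gl p q → root p = root q) ∧
    ∀ p, ¬ Γ.Deep 5 p.1 p.2 →
      ∃ m : ℕ, (m : ℝ) ≤ 8 * Γ.L (root p).2 ∧ Γ.Path Γ.gl p.2 (p.1 * (root p).1⁻¹) (root p).2 m := by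
  obtain ⟨𝒮, cls, D⟩ := exists_dict h
  have key : ∀ T : Set (Γ.Grp × Γ.V), T.Nonempty → ∃ q ∈ T, ∀ q' ∈ T, Γ.len q.1 ≤ Γ.len q'.1 :=
    fun T hT => (measure fun q : Γ.Grp × Γ.V => Γ.len q.1).wf.has_min T hT |>.imp
      fun q hq => ⟨hq.1, fun q' hq' => not_lt.1 (hq.2 q' hq')⟩
  choose pick hp1 hp2 using key
  have hcongr : ∀ T T' hT hT', T = T' → pick T hT = pick T' hT' := by
    intro T T' _ _ e
    subst e
    rfl
  refine ⟨fun p => pick {q | Γ.Conn Γ.gl p q} ⟨p, Conn.refl _ p⟩,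
    fun p => hp1 {q | Γ.Conn Γ.gl p q} ⟨p, Conn.refl _ p⟩,
    fun p q hpq => hcongr _ _ _ _ ?_, ?_⟩
  · ext r
    exact ⟨fun hr => geo_conn_trans (geo_conn_symm hpq) hr, fun hr => geo_conn_trans hpq hr⟩
  · rintro ⟨g, b⟩ hnd
    have a1 := hp1 {q | Γ.Conn Γ.gl (g, b) q} ⟨(g, b), Conn.refl _ _⟩
    have a2 := hp2 {q | Γ.Conn Γ.gl (g, b) q} ⟨(g, b), Conn.refl _ _⟩
    simp only
    generalize pick {q | Γ.Conn Γ.gl (g, b) q} ⟨(g, b), Conn.refl _ _⟩ = ρ at a1 a2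
    obtain ⟨g₀, b₀⟩ := ρ
    obtain ⟨m, hm⟩ := a1
    simp only at hm hnd a2 ⊢
    obtain ⟨y, hy, hm'⟩ := Path.lift (κ := Γ.fl) Γ.mkG hm
    obtain ⟨y₀, ⟨hy₀, m₀, hm₀⟩, hmin⟩ := (measure fun y : FreeGroup (Let F) => y.norm).wf.has_min
      {y | Γ.mkG y = g * g₀⁻¹ ∧ ∃ m, Γ.Path Γ.fl b y b₀ m} ⟨y, hy, m, hm'⟩
    obtain ⟨w, hw, hwl⟩ := exists_len g
    obtain ⟨w₀, hw₀, hwl₀⟩ := exists_len g₀
    have hx : Γ.mkG (y₀ * w₀) = g := by rw [map_mul, hy₀, hw₀, inv_mul_cancel_right]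
    obtain ⟨k, hk, hwk⟩ := D.mkG_eq (hx.trans hw.symm)
    have htd : td y₀ (y₀ * w₀) = Γ.len g₀ := by
      unfold td
      rw [inv_mul_cancel_left, hwl₀]
    have hlt : (y₀.norm : ℝ) < 7 * Γ.L b := by
      by_contra hle
      refine hnd (D.deep_iff.2 ⟨w, hw, hwl, 𝒮.deep_of_far (D.one_mem b)
        (D.mem_one.2 ⟨b₀, m₀, hm₀⟩) (D.min_of hw hwl) hk hwk ?_ ?_ ?_ ?_⟩)
      · intro y' hy'
        obtain ⟨b', m', hm'⟩ := D.mem_one.1 hy'
        rw [htd]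
        refine (a2 ((Γ.mkG y')⁻¹ * g, b') ⟨m', ?_⟩).trans (len_le ?_)
        · have e : g * ((Γ.mkG y')⁻¹ * g)⁻¹ = Γ.mkG y' := by group
          simp only [e]
          exact hm'.map Γ.mkG
        · rw [map_mul, map_inv, hx]
      · intro k' hk'
        rw [htd]
        refine len_le ?_
        rw [map_mul, map_inv, D.mkG_mul hk', hx, hy₀]
        group
      · intro r hr
        obtain ⟨m', hm'⟩ := D.R_one.1 hr
        have h1 : Γ.Path Γ.fl b r b m' := hm'.map (MonoidHom.fst _ _)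
        exact not_lt.1 (hmin (r * y₀) ⟨(D.mkG_mul (𝒮.R_le_N _ hr) _).trans hy₀, _, h1.trans hm₀⟩)
      · rw [D.L_cls]
        exact not_lt.1 hle
    have hL := hm₀.short.symm.L_le h
    have hL1 := h.one_le b₀
    refine ⟨y₀.norm, by linarith, ?_⟩
    rw [← hy₀]
    exact hm₀.short.map Γ.mkG

/-- (g7) edges of the cover with a shallow endpoint form a forest oriented by a height.
`ht p` = least length of a path from `p` to `root p` (`sInf`); neighbours differ by parity (`Path.parity`).  In the second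
clause `ht (g,b) ≤ 8 L(root) + 1`; the two shortest paths through `σ`, `σ'` lift to `y = sg σ * _`, `y' = sg σ' * _` in
`Y = cls 1 b` with `y' = r y`, `r ∈ N`, so `r ∈ R Y` (`emb`), `td y y' ≤ 2 ht < 100 L`, so `r = 1`; `‖y‖ ≥ ht (g,b)` by
`Path.prefix`, hence `Btw 1 (sg σ) y`, `Btw 1 (sg σ') y`, `Btw.unique`. -/
theorem exists_height (h : Γ.SCHyp) : ∃ ht : Γ.Grp × Γ.V → ℕ,
    (∀ g b σ b', Γ.SEdge b σ b' → ht ((Γ.mkG (sg σ))⁻¹ * g, b') ≠ ht (g, b)) ∧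
    ∀ g b σ σ' b' b'', Γ.SEdge b σ b' → Γ.SEdge b σ' b'' →
      (¬ Γ.Deep 5 g b ∨ ¬ Γ.Deep 5 ((Γ.mkG (sg σ))⁻¹ * g) b') →
      ht ((Γ.mkG (sg σ))⁻¹ * g, b') < ht (g, b) → ht ((Γ.mkG (sg σ'))⁻¹ * g, b'') < ht (g, b) →
      σ = σ' := by
  obtain ⟨𝒮, cls, D⟩ := exists_dict h
  obtain ⟨root, hr1, hr2, hr3⟩ := exists_root h
  have hedge : ∀ (g : Γ.Grp) {b σ b'}, Γ.SEdge b σ b' →
      root ((Γ.mkG (sg σ))⁻¹ * g, b') = root (g, b) := by
    intro g b σ b' he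
    refine (hr2 _ _ ⟨1, ?_⟩).symm
    have e : g * ((Γ.mkG (sg σ))⁻¹ * g)⁻¹ = Γ.mkG (sg σ) := by group
    simp only [e]
    exact he.path.map Γ.mkG
  let ht : Γ.Grp × Γ.V → ℕ := fun p =>
    sInf {m | Γ.Path Γ.gl p.2 (p.1 * (root p).1⁻¹) (root p).2 m}
  have hmem : ∀ p, Γ.Path Γ.gl p.2 (p.1 * (root p).1⁻¹) (root p).2 (ht p) := fun p =>
    Nat.sInf_mem (s := {m | Γ.Path Γ.gl p.2 (p.1 * (root p).1⁻¹) (root p).2 m}) (hr1 p)
  have hle : ∀ p m, Γ.Path Γ.gl p.2 (p.1 * (root p).1⁻¹) (root p).2 m → ht p ≤ m :=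
    fun p m hm => Nat.sInf_le hm
  have hlift : ∀ (g : Γ.Grp) {b σ b'}, Γ.SEdge b σ b' → ∃ u,
      u.norm ≤ ht ((Γ.mkG (sg σ))⁻¹ * g, b') ∧ Γ.mkG (sg σ * u) = g * (root (g, b)).1⁻¹ ∧
      Γ.Path Γ.fl b (sg σ * u) (root (g, b)).2 (1 + ht ((Γ.mkG (sg σ))⁻¹ * g, b')) := by
    intro g b σ b' he
    have h1 := hmem ((Γ.mkG (sg σ))⁻¹ * g, b')
    rw [hedge g he] at h1
    obtain ⟨u, hu, h2⟩ := Path.lift (κ := Γ.fl) Γ.mkG h1
    refine ⟨u, h2.norm_le.1, ?_, he.path.trans h2⟩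
    rw [map_mul, hu]
    group
  refine ⟨ht, fun g b σ b' he e => ?_, fun g b σ σ' b' b'' he he' hnd hlt hlt' => ?_⟩
  · obtain ⟨u, -, -, h1⟩ := hlift g he
    have a1 := h1.parity
    have a2 := (hmem (g, b)).parity
    have a3 := a1.symm.trans a2
    rw [e] at a3
    omega
  · obtain ⟨u, hu1, hu2, hu3⟩ := hlift g he
    obtain ⟨u', hu1', hu2', hu3'⟩ := hlift g he'
    have hlow : ∀ y m, Γ.mkG y = g * (root (g, b)).1⁻¹ → Γ.Path Γ.fl b y (root (g, b)).2 m →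
        ht (g, b) ≤ y.norm := by
      intro y m hy hm
      refine hle (g, b) _ ?_
      simp only
      rw [← hy]
      exact hm.short.map Γ.mkG
    have b1 := hlow _ _ hu2 hu3
    have b1' := hlow _ _ hu2' hu3'
    have b2 := FreeGroup.norm_mul_le (sg σ) u
    have b2' := FreeGroup.norm_mul_le (sg σ') u'
    rw [norm_sg] at b2 b2'
    have hbd : (ht (g, b) : ℝ) ≤ 8 * Γ.L (root (g, b)).2 + 1 := by
      rcases hnd with hnd | hnd
      · obtain ⟨m, hm1, hm2⟩ := hr3 (g, b) hnd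
        have : (ht (g, b) : ℝ) ≤ m := by exact_mod_cast hle _ _ hm2
        linarith
      · obtain ⟨m, hm1, hm2⟩ := hr3 (_, b') hnd
        have h1 := hle _ _ hm2
        rw [hedge g he] at hm1
        have : (ht (g, b) : ℝ) ≤ m + 1 := by
          have : ht (g, b) ≤ m + 1 := by omega
          exact_mod_cast this
        linarith
    obtain ⟨r, hr, e⟩ := D.mkG_eq (hu2.trans hu2'.symm)
    have hy := D.mem_one.2 ⟨_, _, hu3⟩
    have hrR := 𝒮.emb hy hr (by rw [← e]; exact D.mem_one.2 ⟨_, _, hu3'⟩)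
    have hr1 : r = 1 := by
      by_contra hne
      have c1 := 𝒮.girth _ r _ hrR hne hy
      rw [← e, D.eq_one hu3, D.L_cls] at c1
      have c2 := td_triangle (sg σ * u) 1 (sg σ' * u')
      rw [td_comm _ 1, td_one, td_one] at c2
      have c3 : (td (sg σ * u) (sg σ' * u') : ℝ) ≤ 2 * ht (g, b) := by
        have : td (sg σ * u) (sg σ' * u') ≤ 2 * ht (g, b) := by omega
        exact_mod_cast this
      have c4 := h.one_le (root (g, b)).2
      linarith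
    rw [hr1, one_mul] at e
    have d1 : Btw 1 (sg σ) (sg σ * u) := by
      unfold Btw
      rw [td_one, td_one, norm_sg]
      unfold td
      rw [inv_mul_cancel_left]
      omega
    have d2 : Btw 1 (sg σ') (sg σ' * u') := by
      unfold Btw
      rw [td_one, td_one, norm_sg]
      unfold td
      rw [inv_mul_cancel_left]
      omega
    rw [e] at d2
    exact sg_injective (d1.unique d2 (by rw [td_one, td_one, norm_sg, norm_sg]))

/-- torsion-freeness passes from `A` to the group: `SC.torsionFree`; if `g` fixes `cls y b`, lift the closed path with label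
`y⁻¹ g y` to a voltage `α`; its `p`-th power has voltage `α ^ p = 1` by `Path.det` -/
theorem torsionFree (h : Γ.SCHyp) (hA : ∀ a : A, IsOfFinOrder a → a = 1) :
    ∀ g : Γ.Grp, IsOfFinOrder g → g = 1 := by
  obtain ⟨𝒮, cls, D⟩ := exists_dict h
  intro g hg
  obtain ⟨p, hp, hgp⟩ := isOfFinOrder_iff_pow_eq_one.1 hg
  obtain ⟨w, rfl, -⟩ := exists_len g
  rw [← map_pow, mkG_eq_one, ← D.N_eq] at hgp
  rw [mkG_eq_one, ← D.N_eq]
  refine 𝒮.torsionFree (fun Y x q hY hq hxq => ?_) hp hgp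
  obtain ⟨y, hy⟩ := 𝒮.ne Y
  obtain ⟨b, rfl⟩ := D.surj Y y hy
  rw [D.sm_cls] at hY
  obtain ⟨m, hm⟩ := (D.eq_iff _ _ _ _).1 hY.symm
  obtain ⟨⟨k, α⟩, hk, h2⟩ := Path.lift (κ := fun u t => (Γ.fl u t, Γ.a u t))
    (MonoidHom.fst _ _) hm
  have hk' : k = y⁻¹ * (x * y) := hk
  subst hk'
  have hpow : ∀ n : ℕ, ∃ m', Γ.Path (fun u t => (Γ.fl u t, Γ.a u t)) b
      ((y⁻¹ * x ^ n * y, α ^ n) : FreeGroup (Let F) × A) b m' := by
    intro n
    induction n with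
    | zero => exact ⟨0, by rw [pow_zero, pow_zero, mul_one, inv_mul_cancel]; exact Path.refl _⟩
    | succ n ih =>
      obtain ⟨m', hm'⟩ := ih
      refine ⟨m' + m, ?_⟩
      have := hm'.trans h2
      have e : y⁻¹ * x ^ n * y * (y⁻¹ * (x * y)) = y⁻¹ * x ^ (n + 1) * y := by group
      rwa [Prod.mk_mul_mk, e, ← pow_succ] at this
  obtain ⟨m₁, h3⟩ := hpow q
  obtain ⟨m₂, h4⟩ := (D.R_iff _ _ _).1 hxq
  have hα : α = 1 := hA α (isOfFinOrder_iff_pow_eq_one.2 ⟨q, hq, (h3.det h4).2⟩)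
  subst hα
  refine (D.R_iff _ _ _).2 ⟨m, ?_⟩
  rw [mul_assoc]
  exact h2

end BG
end Crest.Agent.R129
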