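import Crest.Agent.R129.Tree

/-! # Finite sets of lists, port words (task R129/Lists). Statements frozen. -/

set_option autoImplicit false
open scoped BigOperators

namespace Crest.Agent.R129

/-- lists of length `m` with entries in `s` -/
def lists {α : Type} [DecidableEq α] (s : Finset α) : ℕ → Finset (List α)
  | 0 => {[]}
  | m + 1 => (s ×ˢ lists s m).image fun p => p.1 :: p.2

section
variable {α : Type} [DecidableEq α] {M : Type} [AddCommMonoid M]

theorem mem_lists {s : Finset α} {m : ℕ} {l : List α} :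
    l ∈ lists s m ↔ l.length = m ∧ ∀ x ∈ l, x ∈ s := by
  induction m generalizing l with
  | zero =>
    simp only [lists, Finset.mem_singleton, List.length_eq_zero_iff]
    exact ⟨fun h => ⟨h, by simp [h]⟩, fun h => h.1⟩
  | succ m ih =>
    simp only [lists, Finset.mem_image, Finset.mem_product]
    constructor
    · rintro ⟨⟨x, l⟩, ⟨h1, h2⟩, rfl⟩
      obtain ⟨h3, h4⟩ := ih.1 h2
      refine ⟨by simp [h3], fun y hy => ?_⟩
      rcases List.mem_cons.1 hy with rfl | hy
      · exact h1
      · exact h4 y hy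
    · rintro ⟨h1, h2⟩
      cases l with
      | nil => simp at h1
      | cons x l =>
        exact ⟨(x, l), ⟨h2 x List.mem_cons_self,
          ih.2 ⟨by simpa using h1, fun y hy => h2 y (List.mem_cons_of_mem _ hy)⟩⟩, rfl⟩


theorem sum_lists_zero (s : Finset α) (f : List α → M) : ∑ l ∈ lists s 0, f l = f [] := by
  simp [lists]


theorem sum_lists_succ (s : Finset α) (m : ℕ) (f : List α → M) :
    ∑ l ∈ lists s (m + 1), f l = ∑ x ∈ s, ∑ l ∈ lists s m, f (x :: l) := by
  rw [lists, Finset.sum_image, Finset.sum_product]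
  intro p _ q _ h
  exact Prod.ext (List.cons.inj h).1 (List.cons.inj h).2


theorem sum_lists_add (s : Finset α) (m k : ℕ) (f : List α → M) :
    ∑ l ∈ lists s (m + k), f l = ∑ l₁ ∈ lists s m, ∑ l₂ ∈ lists s k, f (l₁ ++ l₂) := by
  induction m generalizing f with
  | zero => rw [Nat.zero_add, sum_lists_zero]; rfl
  | succ m ih =>
    rw [show m + 1 + k = (m + k) + 1 by ring, sum_lists_succ, sum_lists_succ]
    exact Finset.sum_congr rfl fun x _ => ih fun l => f (x :: l)


theorem card_lists (s : Finset α) (m : ℕ) : (lists s m).card = s.card ^ m := by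
  induction m with
  | zero => rfl
  | succ m ih =>
    rw [Finset.card_eq_sum_ones, sum_lists_succ]
    simp [ih, pow_succ']

end

/-- the alternating word of a list of ports; `β` is the sign of the first letter -/
def pw {F : Type} : Bool → List F → FreeGroup F
  | _, [] => 1
  | β, t :: u => sg (t, β) * pw (!β) u

theorem pw_append {F : Type} (β : Bool) (u u' : List F) :
    pw β (u ++ u') = pw β u * pw (if Even u.length then β else !β) u' := by
  induction u generalizing β with
  | nil => simp [pw]
  | cons t u ih =>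
    rw [List.cons_append, pw, pw, ih, mul_assoc, List.length_cons]
    by_cases h : Even u.length
    · rw [if_pos h, if_neg (by rw [Nat.even_add_one]; exact not_not.2 h)]
    · rw [if_neg h, if_pos (Nat.even_add_one.2 h), Bool.not_not]


theorem pw_cancel {F : Type} (β : Bool) (u u' : List F) (t : F) :
    pw β (u ++ t :: t :: u') = pw β (u ++ u') := by
  rw [pw_append, pw_append]
  congr 1
  generalize (if Even u.length then β else !β) = γ
  rw [pw, pw, Bool.not_not]
  have := sg_inv (S := F) (t, γ)
  simp only at this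
  rw [← this, mul_inv_cancel_left]


theorem lists_step {F : Type} [DecidableEq F] (T : Finset F) (d : ℕ) (hd : 1 ≤ d) (hT : T.card ≤ d)
    (β : Bool) (x w : FreeGroup F) :
    ∑ t ∈ T, ((Real.sqrt d)⁻¹) ^ td (x * sg (t, β)) w ≤
      (2 * Real.sqrt d) * ((Real.sqrt d)⁻¹) ^ td x w := by
  have hd' : (0 : ℝ) < d := by exact_mod_cast hd
  have hs : 0 < Real.sqrt d := Real.sqrt_pos.2 hd'
  have hss : Real.sqrt d * Real.sqrt d = d := Real.mul_self_sqrt hd'.le
  set z := (Real.sqrt d)⁻¹ with hz
  have hz0 : 0 < z := inv_pos.2 hs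
  have hzs : Real.sqrt d * z = 1 := mul_inv_cancel₀ hs.ne'
  have key : ∀ t, td (x * sg (t, β)) w + 1 = td x w ∨ td (x * sg (t, β)) w = td x w + 1 := by
    intro t
    have h1 := td_triangle x (x * sg (t, β)) w
    have h2 := td_triangle (x * sg (t, β)) x w
    rw [td_comm _ x] at h2
    rw [td_sg] at h1 h2
    have h3 := norm_mul_mod_two (sg (t, β))⁻¹ (x⁻¹ * w)
    have h4 : (sg (t, β)).norm = 1 := by
      have := td_sg 1 (t, β)
      rwa [one_mul, td_one] at this
    rw [FreeGroup.norm_inv_eq, h4, ← mul_assoc, ← mul_inv_rev] at h3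
    unfold td at *
    omega
  have hA : (T.filter fun t => td (x * sg (t, β)) w + 1 = td x w).card ≤ 1 := by
    refine Finset.card_le_one.2 fun t ht t' ht' => ?_
    have a1 : Btw x (x * sg (t, β)) w := by
      have := (Finset.mem_filter.1 ht).2
      unfold Btw; rw [td_sg]; omega
    have a2 : Btw x (x * sg (t', β)) w := by
      have := (Finset.mem_filter.1 ht').2
      unfold Btw; rw [td_sg]; omega
    have := sg_injective (mul_left_cancel (a1.unique a2 (by rw [td_sg, td_sg])))
    exact (Prod.ext_iff.1 this).1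
  have h1 : ∀ t ∈ T, z ^ td (x * sg (t, β)) w ≤
      (if td (x * sg (t, β)) w + 1 = td x w then Real.sqrt d * z ^ td x w else 0) +
        z * z ^ td x w := by
    intro t _
    split_ifs with h
    · rw [← h, pow_succ', ← mul_assoc, hzs, one_mul]
      have : 0 ≤ z * (z * z ^ td (x * sg (t, β)) w) := by positivity
      linarith
    · rw [(key t).resolve_left h, pow_succ', zero_add]
  refine (Finset.sum_le_sum h1).trans ?_
  rw [Finset.sum_add_distrib, ← Finset.sum_filter, Finset.sum_const, Finset.sum_const,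
    nsmul_eq_mul, nsmul_eq_mul]
  have hA' : ((T.filter fun t => td (x * sg (t, β)) w + 1 = td x w).card : ℝ) ≤ 1 := by
    exact_mod_cast hA
  have hT' : (T.card : ℝ) ≤ d := by exact_mod_cast hT
  have hp : 0 < z ^ td x w := by positivity
  have b1 := mul_le_mul_of_nonneg_right hA' (show 0 ≤ Real.sqrt d * z ^ td x w by positivity)
  have b2 := mul_le_mul_of_nonneg_right hT' (show 0 ≤ z * z ^ td x w by positivity)
  have b3 : (d : ℝ) * (z * z ^ td x w) = Real.sqrt d * z ^ td x w := by
    calc (d : ℝ) * (z * z ^ td x w) = Real.sqrt d * (Real.sqrt d * z) * z ^ td x w := by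
          rw [← mul_assoc (Real.sqrt d), hss]; ring
      _ = _ := by rw [hzs, mul_one]
  linarith

/-- Among the `≤ d` neighbours `x * sg (t,β)` at most one is closer to `w` (`Btw.unique`), the others are farther by one, so
`∑_t z^{td} ≤ (√d + d/√d) z^{td x w}`; induct on `s`. -/
theorem sum_pow_td_le {F : Type} [DecidableEq F] (T : Finset F) (d : ℕ) (hd : 1 ≤ d) (hT : T.card ≤ d)
    (s : ℕ) (β : Bool) (x w : FreeGroup F) :
    ∑ u ∈ lists T s, ((Real.sqrt d)⁻¹) ^ td (x * pw β u) w ≤
      (2 * Real.sqrt d) ^ s * ((Real.sqrt d)⁻¹) ^ td x w := by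
  induction s generalizing β x with
  | zero => rw [sum_lists_zero, pw, mul_one, pow_zero, one_mul]
  | succ s ih =>
    rw [sum_lists_succ]
    simp only [pw, ← mul_assoc]
    refine (Finset.sum_le_sum fun t _ => ih _ _).trans ?_
    rw [← Finset.mul_sum, pow_succ, mul_assoc]
    exact mul_le_mul_of_nonneg_left (lists_step T d hd hT β x w) (by positivity)


theorem sum_pow_norm_le {F : Type} [DecidableEq F] (T : Finset F) (d : ℕ) (hd : 1 ≤ d) (hT : T.card ≤ d)
    (s : ℕ) (β : Bool) :
    ∑ u ∈ lists T s, ((Real.sqrt d)⁻¹) ^ (pw β u).norm ≤ (2 * Real.sqrt d) ^ s := by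
  have := sum_pow_td_le T d hd hT s β 1 1
  simp only [one_mul, td_self, pow_zero, mul_one, td_comm _ (1 : FreeGroup F), td_one] at this
  exact this


theorem card_pw_eq_le {F : Type} [DecidableEq F] (T : Finset F) (d : ℕ) (hd : 1 ≤ d) (hT : T.card ≤ d)
    (s : ℕ) (β : Bool) (w : FreeGroup F) :
    (((lists T s).filter fun u => pw β u = w).card : ℝ) ≤ (2 * Real.sqrt d) ^ s := by
  have hd' : (1 : ℝ) ≤ d := by exact_mod_cast hd
  have h1 := sum_pow_td_le T d hd hT s β 1 w
  have h2 : ((Real.sqrt d)⁻¹) ^ td 1 w ≤ 1 :=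
    pow_le_one₀ (by positivity) (inv_le_one_of_one_le₀ (Real.one_le_sqrt.2 hd'))
  have h3 : (((lists T s).filter fun u => pw β u = w).card : ℝ) ≤
      ∑ u ∈ lists T s, ((Real.sqrt d)⁻¹) ^ td (1 * pw β u) w := by
    rw [Finset.card_filter]
    push_cast
    refine Finset.sum_le_sum fun u _ => ?_
    split_ifs with h
    · rw [one_mul, h, td_self, pow_zero]
    · positivity
  refine h3.trans (h1.trans ?_)
  exact mul_le_of_le_one_right (by positivity) h2


end Crest.Agent.R129
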