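import Crest.Agent.R129.A.Main

/-! # Part A (owner helper8): the torsion-free symmetry group.  Statement frozen. -/

set_option autoImplicit false

namespace Crest.Agent.R129

theorem partA (c R : ℕ) (hR : 2 ≤ R) : ∃ (γ₀ r₀ : ℝ) (CA : ℕ), 0 < γ₀ ∧ 0 < r₀ ∧
    ∀ M₀ : ℕ, 2 ≤ M₀ → ∃ (A : Type) (_ : Group A) (μ : ℤ → (A × ZMod 4) →₀ ℝ),
      (∀ a : A, IsOfFinOrder a → a = 1) ∧ (∀ i, IsLaw (μ i)) ∧
      GenHyp μ (fun _ => True) c M₀ R ∧ Growth μ (fun _ => True) CA M₀ ∧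
      Gap (adj (Qop μ fun _ => True) ∘L Qop μ fun _ => True) γ₀ r₀ ∧
      γ₀ ≤ ‖Qop μ fun _ => True‖ ^ 2 :=
  A.partA' c R hR

end Crest.Agent.R129
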