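import Crest.Agent.R129.PartS
import Crest.Agent.R129.PartA
import Crest.Agent.R129.PartG
import Crest.Agent.R129.WQ

/-! # Assembly of S0174 (task R129/Main74) -/

set_option autoImplicit false
open Crest.OperatorAlgebra

namespace Crest.Agent.R129

theorem m74_adj_comp {I J K : Type} (S : L2 J →L[ℂ] L2 K) (T : L2 I →L[ℂ] L2 J) :
    adj (S ∘L T) = adj T ∘L adj S := ContinuousLinearMap.adjoint_comp S T

theorem m74_adj_adj {I J : Type} (T : L2 I →L[ℂ] L2 J) : adj (adj T) = T :=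
  ContinuousLinearMap.adjoint_adjoint T

theorem m74_norm_adj_comp {I J : Type} (T : L2 I →L[ℂ] L2 J) : ‖adj T ∘L T‖ = ‖T‖ * ‖T‖ :=
  ContinuousLinearMap.norm_adjoint_comp_self T

theorem m74_pert {I : Type} (B Y : L2 I →L[ℂ] L2 I) {e a : ℝ} (he : ‖B - Y‖ ≤ e) (ha : ‖Y‖ ≤ a) :
    ‖adj Y ∘L Y - adj B ∘L B‖ ≤ 2 * a * e + e ^ 2 := by
  have h0 : adj Y ∘L Y - adj B ∘L B =
      -(star (B - Y) * (B - Y) + star Y * (B - Y) + star (B - Y) * Y) := by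
    change star Y * Y - star B * B = _
    rw [star_sub]
    noncomm_ring
  have ns : ∀ T : L2 I →L[ℂ] L2 I, ‖star T‖ = ‖T‖ := fun T =>
    LinearIsometryEquiv.norm_map ContinuousLinearMap.adjoint T
  have he0 : 0 ≤ e := (norm_nonneg _).trans he
  have ha0 : 0 ≤ a := (norm_nonneg _).trans ha
  have h1 : ‖star (B - Y) * (B - Y)‖ ≤ e * e :=
    (norm_mul_le _ _).trans (by rw [ns]; exact mul_le_mul he he (norm_nonneg _) he0)
  have h2 : ‖star Y * (B - Y)‖ ≤ a * e :=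
    (norm_mul_le _ _).trans (by rw [ns]; exact mul_le_mul ha he (norm_nonneg _) ha0)
  have h3 : ‖star (B - Y) * Y‖ ≤ e * a :=
    (norm_mul_le _ _).trans (by rw [ns]; exact mul_le_mul he ha (norm_nonneg _) he0)
  rw [h0, norm_neg]
  have h4 := norm_add₃_le (a := star (B - Y) * (B - Y)) (b := star Y * (B - Y))
    (c := star (B - Y) * Y)
  nlinarith

theorem m74_norm_W {I J : Type} (W : L2 I →L[ℂ] L2 J) (hW : adj W ∘L W = 1) : ‖W‖ ≤ 1 :=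
  ContinuousLinearMap.opNorm_le_bound _ zero_le_one fun ξ => by
    rw [ker_norm_of_adj_comp W hW, one_mul]

theorem m74_norm_conj {I J : Type} (W : L2 I →L[ℂ] L2 J) (hW : adj W ∘L W = 1)
    (Q : L2 I →L[ℂ] L2 I) : ‖W ∘L Q ∘L adj W‖ = ‖Q‖ := by
  have h1 := m74_norm_W W hW
  have h2 : ‖adj W‖ ≤ 1 := by rw [LinearIsometryEquiv.norm_map]; exact h1
  have hWW : ∀ η, adj W (W η) = η := fun η => by
    have := congrArg (fun S : L2 I →L[ℂ] L2 I => S η) hW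
    simpa using this
  refine le_antisymm ?_ ?_
  · refine ContinuousLinearMap.opNorm_le_bound _ (norm_nonneg _) fun ξ => ?_
    rw [ContinuousLinearMap.comp_apply, ContinuousLinearMap.comp_apply, ker_norm_of_adj_comp W hW]
    refine (Q.le_opNorm _).trans (mul_le_mul_of_nonneg_left ?_ (norm_nonneg _))
    exact ((adj W).le_opNorm ξ).trans (by nlinarith [norm_nonneg ξ])
  · refine ContinuousLinearMap.opNorm_le_bound _ (norm_nonneg _) fun ξ => ?_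
    have := (W ∘L Q ∘L adj W).le_opNorm (W ξ)
    rwa [ContinuousLinearMap.comp_apply, ContinuousLinearMap.comp_apply, hWW,
      ker_norm_of_adj_comp W hW, ker_norm_of_adj_comp W hW] at this

theorem m74_large {C₀ C' r : ℝ} (_hC₀ : 0 < C₀) (hC' : 0 < C') (hr : 0 < r) :
    ∃ n₀ : ℕ, ∀ n : ℕ, n₀ ≤ n → C₀ * (n * Real.sqrt n) ≤ ((n : ℝ) / C') ^ 2 * r := by
  refine ⟨⌈(C₀ * C' ^ 2 / r) ^ 2⌉₊, fun n hn => ?_⟩
  have h1 : (C₀ * C' ^ 2 / r) ^ 2 ≤ n := (Nat.le_ceil _).trans (by exact_mod_cast hn)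
  have h2 : C₀ * C' ^ 2 / r ≤ Real.sqrt n := Real.le_sqrt_of_sq_le h1
  have h3 : Real.sqrt n * Real.sqrt n = n := Real.mul_self_sqrt (Nat.cast_nonneg _)
  have h4 : 0 ≤ Real.sqrt n := Real.sqrt_nonneg _
  rw [div_le_iff₀ hr] at h2
  rw [div_pow, div_mul_eq_mul_div, le_div_iff₀ (by positivity)]
  have h5 : (0 : ℝ) ≤ n * Real.sqrt n := by positivity
  calc C₀ * (n * Real.sqrt n) * C' ^ 2 = (C₀ * C' ^ 2) * (n * Real.sqrt n) := by ring
    _ ≤ (Real.sqrt n * r) * (n * Real.sqrt n) := mul_le_mul_of_nonneg_right h2 h5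
    _ = (Real.sqrt n * Real.sqrt n) * n * r := by ring
    _ = (n : ℝ) ^ 2 * r := by rw [h3]; ring

/-- Take `c R` from `partG`, `γ₀ r₀ CA` from `partA c R`, `r₁ = min r₀ γ₀`,
`ε = min 1 (r₁ / 20)`, `C'` from `partG CA ε`, `n₀` with `C₀ n √n ≤ (n/C')² r₁ / 2` for `n ≥ n₀`,
then `n, M₀`, `A, μ` from `partA`, `Γ, node`.  With `λ = n / C'`, `X = W Q W*`, `B = λ X + E`,
`‖E‖ ≤ ε λ`, `‖X‖ = ‖Q‖ ≤ 2` (`W` isometric): `X* X = W Q* Q W*` has `Gap γ₀ r₁` (`Gap.mono`,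
`Gap.conj`), `‖B* B - λ² X* X‖ ≤ 5 ε λ²`, so `Gap (B* B) (λ² γ₀) (λ² r₁ · 3/4)`, weaken to
`r = λ² r₁ / 2`; `‖B‖² ≥ λ² ‖Q‖² - 4 ε λ² ≥ λ² γ₀ - r / 2`.  Apply `partS74`. -/
theorem main74 : ∃ (G : Type) (_ : Group G), Group.FG G ∧ (∀ g : G, IsOfFinOrder g → g = 1) ∧
      ∃ e ∈ reducedGroupCStar G, e * e = e ∧ star e = e ∧
        0 < (canonicalTrace G e).re ∧ (canonicalTrace G e).re < 1 / 2 := by
  obtain ⟨C₀, hC₀, hS⟩ := partS74
  obtain ⟨c, R, hR, hG⟩ := partG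
  obtain ⟨γ₀, r₀, CA, hγ₀, hr₀, hA⟩ := partA c R hR
  set r₁ := min r₀ γ₀ with hr₁
  have hr₁0 : 0 < r₁ := lt_min hr₀ hγ₀
  set ε := min 1 (r₁ / 20) with hε
  have hε0 : 0 < ε := lt_min one_pos (by positivity)
  have hε1 : ε ≤ 1 := min_le_left _ _
  have hε2 : ε ≤ r₁ / 20 := min_le_right _ _
  obtain ⟨C', hC', hG⟩ := hG CA ε hε0
  obtain ⟨n₀, hn₀⟩ := m74_large hC₀ hC' (half_pos hr₁0)
  obtain ⟨n, hn, M₀, hnn, hM, hG⟩ := hG n₀
  obtain ⟨A, _, μ, htf, hlaw, hgen, hgr, hgap, hnorm⟩ := hA M₀ hM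
  obtain ⟨Γ, node, hsc, hne, hd, -, -, -, hB⟩ := hG A μ (fun _ => True) hlaw hgen hgr
  set lam : ℝ := (n : ℝ) / C' with hlam
  have hn0 : (0 : ℝ) < n := by exact_mod_cast hn.out.pos
  have hlam0 : 0 < lam := by positivity
  set W := Γ.Wop A node with hWdef
  set Q := Qop μ fun _ => True with hQ
  have hW : adj W ∘L W = 1 := Γ.adj_Wop_comp A node hne hd
  have hWW : ∀ η, adj W (W η) = η := fun η => by
    have := congrArg (fun S : L2 (A × ℤ) →L[ℂ] L2 (A × ℤ) => S η) hW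
    simpa using this
  set X := W ∘L Q ∘L adj W with hX
  have hXn : ‖X‖ = ‖Q‖ := m74_norm_conj W hW Q
  have hQ2 : ‖Q‖ ≤ 2 := norm_Qop_le hlaw _
  have hYn : ‖(lam : ℂ) • X‖ = lam * ‖Q‖ := by
    rw [norm_smul, Complex.norm_real, Real.norm_of_nonneg hlam0.le, hXn]
  have hp := m74_pert (Γ.Bop Γ.a) ((lam : ℂ) • X) hB (a := lam * 2)
    (by rw [hYn]; exact mul_le_mul_of_nonneg_left hQ2 hlam0.le)
  have hp' : ‖adj ((lam : ℂ) • X) ∘L ((lam : ℂ) • X) - adj (Γ.Bop Γ.a) ∘L Γ.Bop Γ.a‖ ≤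
      lam ^ 2 * r₁ / 4 := by
    refine hp.trans ?_
    have h1 : ε ^ 2 ≤ ε := by nlinarith
    have h2 : 0 < lam ^ 2 := by positivity
    nlinarith
  have hXX : adj X ∘L X = W ∘L (adj Q ∘L Q) ∘L adj W := by
    ext1 ξ
    rw [hX, m74_adj_comp, m74_adj_comp, m74_adj_adj]
    simp only [ContinuousLinearMap.comp_apply, hWW]
  have hYY : adj ((lam : ℂ) • X) ∘L ((lam : ℂ) • X) = ((lam ^ 2 : ℝ) : ℂ) • (adj X ∘L X) := by
    change star ((lam : ℂ) • X) * ((lam : ℂ) • X) = ((lam ^ 2 : ℝ) : ℂ) • (star X * X)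
    rw [star_smul, smul_mul_smul_comm]
    congr 1
    rw [Complex.star_def, Complex.conj_ofReal]
    push_cast; ring
  have hg1 : Gap (adj X ∘L X) γ₀ r₁ := by
    rw [hXX]
    exact (hgap.mono (min_le_left _ _)).conj (min_le_right _ _) W hW
  have hg2 := hg1.smul (c := lam ^ 2) (by positivity)
  rw [← hYY] at hg2
  have hg3 := (hg2.perturb hp').mono (r' := lam ^ 2 * (r₁ / 2)) (by
    have : 0 < lam ^ 2 * r₁ := by positivity
    nlinarith)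
  refine hS (ZMod n) A Γ hsc htf (lam ^ 2 * γ₀) (lam ^ 2 * (r₁ / 2)) ?_ ?_ hg3 ?_
  · rw [ZMod.card]
    exact hn₀ n hnn
  · refine mul_le_mul_of_nonneg_left ?_ (by positivity)
    have : r₁ ≤ γ₀ := min_le_right _ _
    linarith
  · have h3 := (norm_sub_norm_le (adj ((lam : ℂ) • X) ∘L ((lam : ℂ) • X))
      (adj (Γ.Bop Γ.a) ∘L Γ.Bop Γ.a)).trans hp'
    rw [m74_norm_adj_comp, m74_norm_adj_comp, hYn] at h3
    have h4 : lam ^ 2 * γ₀ ≤ lam ^ 2 * ‖Q‖ ^ 2 := mul_le_mul_of_nonneg_left hnorm (by positivity)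
    generalize ‖Γ.Bop Γ.a‖ = b at h3 ⊢
    generalize ‖Q‖ = q at h3 h4
    have e1 : lam * q * (lam * q) = lam ^ 2 * q ^ 2 := by ring
    have e2 : b * b = b ^ 2 := by ring
    have e3 : lam ^ 2 * (r₁ / 2) / 2 = lam ^ 2 * r₁ / 4 := by ring
    rw [e1, e2] at h3
    rw [e3]
    linarith

end Crest.Agent.R129
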