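import Crest.Agent.R129.PartS
import Crest.Agent.R129.PartG
import Crest.Agent.R129.WQ
import Crest.Agent.R129.Main74

/-! # Assembly of S0173 (task R129/Main73) -/

set_option autoImplicit false
open Crest.OperatorAlgebra

namespace Crest.Agent.R129

/-- Liouville-type lemma: a sum of unit fractions `1 / N r` with `N (r+1) > 4 (r+1) ∏_{s ≤ r} N s`
is irrational. -/
theorem irrational_of_lacunary (N : ℕ → ℕ) (hN : ∀ r, 1 ≤ N r)
    (h : ∀ r, 4 * (r + 1) * ∏ s ∈ Finset.range (r + 1), N s < N (r + 1)) (x : ℝ)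
    (hx : HasSum (fun r => ((N r : ℝ))⁻¹) x) : Irrational x := by
  rintro ⟨q, rfl⟩
  set r := q.den with hr
  have hr0 : 0 < r := q.den_pos
  have hNpos : ∀ s, (0 : ℝ) < N s := fun s => by exact_mod_cast hN s
  have hdouble : ∀ s, 2 * N s ≤ N (s + 1) := by
    intro s
    have h1 := h s
    rw [Finset.prod_range_succ] at h1
    have h2 : 1 ≤ ∏ t ∈ Finset.range s, N t := Finset.one_le_prod' fun t _ => hN t
    have h3 : N s ≤ (∏ t ∈ Finset.range s, N t) * N s := Nat.le_mul_of_pos_left _ h2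
    nlinarith
  have hgeo : ∀ k, 2 ^ k * N (r + 1) ≤ N (k + (r + 1)) := by
    intro k
    induction k with
    | zero => simp
    | succ k ih =>
      have := hdouble (k + (r + 1))
      rw [show k + 1 + (r + 1) = k + (r + 1) + 1 by ring, pow_succ]
      nlinarith
  have htail := (hasSum_nat_add_iff' (r + 1)).2 hx
  set S := ∑ i ∈ Finset.range (r + 1), ((N i : ℝ))⁻¹ with hS
  have hup : (q : ℝ) - S ≤ ((N (r + 1) : ℝ))⁻¹ * 2 := by
    refine hasSum_le (fun k => ?_) htail (hasSum_geometric_two.mul_left _)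
    have h1 : (2 : ℝ) ^ k * N (r + 1) ≤ N (k + (r + 1)) := by exact_mod_cast hgeo k
    have h2 := hNpos (r + 1)
    rw [one_div, inv_pow, ← mul_inv, mul_comm]
    exact inv_anti₀ (by positivity) h1
  have hlo : 0 < (q : ℝ) - S := by
    have := le_hasSum htail 0 fun k _ => (inv_pos.2 (hNpos _)).le
    exact (inv_pos.2 (hNpos _)).trans_le this
  set P := ∏ s ∈ Finset.range (r + 1), N s with hP
  have hP0 : (0 : ℝ) < P := by
    have : 1 ≤ P := Finset.one_le_prod' fun t _ => hN t
    exact_mod_cast this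
  obtain ⟨m, hm⟩ : ∃ m : ℕ, (P : ℝ) * S = m := by
    refine ⟨∑ i ∈ Finset.range (r + 1), P / N i, ?_⟩
    rw [hS, Finset.mul_sum, Nat.cast_sum]
    refine Finset.sum_congr rfl fun i hi => ?_
    rw [Nat.cast_div (Finset.dvd_prod_of_mem _ hi) (hNpos i).ne', div_eq_mul_inv]
  have hq : (r : ℝ) * q = q.num := by
    rw [hr]
    exact_mod_cast Rat.den_mul_eq_num q
  have hint : (r : ℝ) * P * ((q : ℝ) - S) = ((P * q.num - r * m : ℤ) : ℝ) := by
    push_cast
    rw [← hq, ← hm]; ring
  have hr0' : (0 : ℝ) < r := by exact_mod_cast hr0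
  have h1 : (0 : ℝ) < ((P * q.num - r * m : ℤ) : ℝ) := by rw [← hint]; positivity
  have h2 : ((P * q.num - r * m : ℤ) : ℝ) < 1 := by
    rw [← hint]
    have h3 : (4 * (r + 1) * P : ℝ) < N (r + 1) := by exact_mod_cast h r
    have h4 := hNpos (r + 1)
    calc (r : ℝ) * P * ((q : ℝ) - S) ≤ (r : ℝ) * P * (((N (r + 1) : ℝ))⁻¹ * 2) :=
          mul_le_mul_of_nonneg_left hup (by positivity)
      _ = 2 * r * P / N (r + 1) := by ring
      _ < 1 := by
          rw [div_lt_one h4]
          nlinarith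
  have h1' : (0 : ℤ) < P * q.num - r * m := by exact_mod_cast h1
  have h2' : (P * q.num - r * m : ℤ) < 1 := by exact_mod_cast h2
  omega

theorem m73_mem_box {R₀ : Type} [CommRing R₀] [DecidableEq R₀] [Fintype R₀] {c : ℕ}
    (m : Matrix (Fin (c + 1)) (Fin (c + 1)) R₀) :
    m ∈ box (fun _ _ => (Finset.univ : Finset R₀)) ↔ m.BlockTriangular id ∧ ∀ a, m a a = 1 := by
  have h0 : m ∈ box (fun _ _ => (Finset.univ : Finset R₀)) ↔ ∀ a b : Fin (c + 1),
      m a b ∈ (if a < b then (Finset.univ : Finset R₀) else if a = b then {1} else {0}) :=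
    Fintype.mem_piFinset.trans (forall_congr' fun _ => Fintype.mem_piFinset)
  rw [h0]
  constructor
  · intro h
    refine ⟨fun a b hab => ?_, fun a => ?_⟩
    · have := h a b
      have hab' : b < a := hab
      rw [if_neg (not_lt.2 hab'.le), if_neg hab'.ne'] at this
      simpa using this
    · have := h a a
      rw [if_neg (lt_irrefl _), if_pos rfl] at this
      simpa using this
  · rintro ⟨h1, h2⟩ a b
    split_ifs with hab hab'
    · exact Finset.mem_univ _
    · subst hab'; simp [h2]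
    · have : b < a := lt_of_le_of_ne (not_lt.1 hab) (Ne.symm hab')
      simp [h1 (show id b < id a from this)]

/-- the unitriangular matrices as a submonoid of the units -/
def m73_mon (R₀ : Type) [CommRing R₀] (c : ℕ) :
    Submonoid (Matrix (Fin (c + 1)) (Fin (c + 1)) R₀)ˣ where
  carrier := {u | u.val.BlockTriangular id ∧ ∀ a, u.val a a = 1}
  one_mem' := ⟨Matrix.blockTriangular_one, fun a => by simp⟩
  mul_mem' := by
    rintro u v ⟨hu1, hu2⟩ ⟨hv1, hv2⟩
    refine ⟨hu1.mul hv1, fun a => ?_⟩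
    rw [Units.val_mul, Matrix.mul_apply, Finset.sum_eq_single a, hu2, hv2, one_mul]
    · intro b _ hb
      rcases lt_or_gt_of_ne hb with h | h
      · rw [hu1 (show id b < id a from h), zero_mul]
      · rw [hv1 (show id a < id b from h), mul_zero]
    · intro h; exact absurd (Finset.mem_univ _) h

/-- the unitriangular group over a finite ring -/
def m73_sub (R₀ : Type) [CommRing R₀] [Finite R₀] (c : ℕ) :
    Subgroup (Matrix (Fin (c + 1)) (Fin (c + 1)) R₀)ˣ :=
  { m73_mon R₀ c with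
    inv_mem' := by
      intro u hu
      have : u⁻¹ ∈ Submonoid.powers u :=
        mem_powers_iff_mem_zpowers.2 (Subgroup.inv_mem _ (Subgroup.mem_zpowers u))
      obtain ⟨k, hk⟩ := this
      have h2 := (m73_mon R₀ c).pow_mem hu k
      simp only at hk
      rw [hk] at h2
      exact h2 }

theorem m73_grp (c p : ℕ) [Fact p.Prime] : ∃ (B : Type) (_ : Group B) (_ : Fintype B)
    (π : B →* Matrix (Fin (c + 1)) (Fin (c + 1)) (ZMod p)),
    p ≤ Fintype.card B ∧ Fintype.card B ≤ p ^ ((c + 1) ^ 2 + 1) ∧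
    ∀ φ : Matrix (Fin (c + 1)) (Fin (c + 1)) (ZMod p) → ℝ,
      ∑ b, (Fintype.card B : ℝ)⁻¹ * φ (π b) =
        (∑ m ∈ box (fun _ _ => (Finset.univ : Finset (ZMod p))), φ m) /
          (box (c := c) (fun _ _ => (Finset.univ : Finset (ZMod p)))).card := by
  classical
  let U := m73_sub (ZMod p) c
  let _ : Fintype U := Fintype.ofFinite _
  have hp : 0 < p := (Fact.out : p.Prime).pos
  have hbij : ∀ φ : Matrix (Fin (c + 1)) (Fin (c + 1)) (ZMod p) → ℝ,
      ∑ u : U, φ u.1.val = ∑ m ∈ box (fun _ _ => (Finset.univ : Finset (ZMod p))), φ m := by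
    intro φ
    refine Finset.sum_bij (fun u _ => u.1.val) (fun u _ => (m73_mem_box _).2 u.2) ?_ ?_
      (fun _ _ => rfl)
    · intro u _ v _ huv
      exact Subtype.ext (Units.ext huv)
    · intro m hm
      have hm' := (m73_mem_box m).1 hm
      have hu : IsUnit m := by
        rw [Matrix.isUnit_iff_isUnit_det, Matrix.det_of_isUpperTriangular hm'.1]
        simp [hm'.2]
      exact ⟨⟨hu.unit, hm'⟩, Finset.mem_univ _, rfl⟩
  have hcard : (Fintype.card U : ℝ) =
      (box (c := c) (fun _ _ => (Finset.univ : Finset (ZMod p)))).card := by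
    have := hbij fun _ => 1
    simpa using this
  have hU0 : 0 < Fintype.card U := Fintype.card_pos
  have hUle : Fintype.card U ≤ p ^ ((c + 1) ^ 2) := by
    have h1 : Fintype.card U ≤ Fintype.card (Fin (c + 1) → Fin (c + 1) → ZMod p) :=
      Fintype.card_le_of_injective (fun u : U => (u.1.val : Fin (c + 1) → Fin (c + 1) → ZMod p))
        fun u v huv => Subtype.ext (Units.ext huv)
    rw [Fintype.card_fun, Fintype.card_fun, ZMod.card, Fintype.card_fin, ← pow_mul, ← sq] at h1
    exact h1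
  have hcB : Fintype.card (U × Multiplicative (ZMod p)) = Fintype.card U * p := by
    rw [Fintype.card_prod, Fintype.card_multiplicative, ZMod.card]
  refine ⟨U × Multiplicative (ZMod p), inferInstance, inferInstance,
    ((Units.coeHom _).comp U.subtype).comp (MonoidHom.fst _ _), ?_, ?_, ?_⟩
  · rw [hcB]; exact Nat.le_mul_of_pos_left _ hU0
  · rw [hcB, pow_succ]; exact Nat.mul_le_mul_right _ hUle
  · intro φ
    rw [← Finset.mul_sum, Fintype.sum_prod_type, ← hbij, ← hcard, hcB]
    have e : ∀ u : U, ∑ y : Multiplicative (ZMod p),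
        φ ((((Units.coeHom _).comp U.subtype).comp (MonoidHom.fst _ _)) (u, y)) =
        p * φ u.1.val := by
      intro u
      have : ∀ y : Multiplicative (ZMod p),
          φ ((((Units.coeHom _).comp U.subtype).comp (MonoidHom.fst _ _)) (u, y)) = φ u.1.val :=
        fun _ => rfl
      simp only [this]
      rw [Finset.sum_const, Finset.card_univ, Fintype.card_multiplicative, ZMod.card, nsmul_eq_mul]
    simp only [e]
    rw [← Finset.mul_sum]
    have h1 : (p : ℝ) ≠ 0 := by exact_mod_cast hp.ne'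
    have h2 : (Fintype.card U : ℝ) ≠ 0 := by exact_mod_cast hU0.ne'
    push_cast
    field_simp

theorem m73_seq (N : ℕ → ℕ) (hN : ∀ m, m < N m) : ∃ e : ℕ → ℕ, StrictMono e ∧
    ∀ r, 4 * (r + 1) * ∏ s ∈ Finset.range (r + 1), N (e s) < N (e (r + 1)) := by
  let f : ℕ → ℕ × ℕ := fun r => Nat.rec (0, N 0)
    (fun r x => (x.1 + 1 + 4 * (r + 1) * x.2, x.2 * N (x.1 + 1 + 4 * (r + 1) * x.2))) r
  have hf1 : ∀ r, (f (r + 1)).1 = (f r).1 + 1 + 4 * (r + 1) * (f r).2 := fun _ => rfl
  have hf2 : ∀ r, (f (r + 1)).2 = (f r).2 * N (f (r + 1)).1 := fun _ => rfl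
  have hP : ∀ r, ∏ s ∈ Finset.range (r + 1), N (f s).1 = (f r).2 := by
    intro r
    induction r with
    | zero => rw [Finset.prod_range_one]; rfl
    | succ r ih => rw [Finset.prod_range_succ, ih, hf2]
  refine ⟨fun r => (f r).1, strictMono_nat_of_lt_succ fun r => ?_, fun r => ?_⟩
  · rw [hf1]; omega
  · rw [hP]
    refine lt_of_le_of_lt ?_ (hN _)
    show _ ≤ (f (r + 1)).1
    rw [hf1]; omega

/-- the uniform law on the image of a finite type -/
noncomputable def m73_law {A B : Type} [Fintype B] (f : B → A) : (A × ZMod 4) →₀ ℝ :=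
  ∑ b, Finsupp.single (f b, 0) (Fintype.card B : ℝ)⁻¹

theorem m73_law_sum {A B : Type} [Fintype B] (f : B → A) (φ : A × ZMod 4 → ℝ) :
    (m73_law f).sum (fun x p => p * φ x) = ∑ b, (Fintype.card B : ℝ)⁻¹ * φ (f b, 0) := by
  have h : ∀ ν : (A × ZMod 4) →₀ ℝ, ν.sum (fun x p => p * φ x) = Finsupp.linearCombination ℝ φ ν :=
    fun ν => by rw [Finsupp.linearCombination_apply]; rfl
  rw [h, m73_law, map_sum]
  simp only [Finsupp.linearCombination_single, smul_eq_mul]

open Classical in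
theorem m73_law_apply {A B : Type} [Fintype B] (f : B → A) (hf : Function.Injective f)
    (x : A) (ω : ZMod 4) :
    m73_law f (x, ω) = if x ∈ Set.range f ∧ ω = 0 then (Fintype.card B : ℝ)⁻¹ else 0 := by
  unfold m73_law
  rw [Finsupp.finsetSum_apply]
  split_ifs with h
  · obtain ⟨⟨b, rfl⟩, rfl⟩ := h
    rw [Finset.sum_eq_single b, Finsupp.single_eq_same]
    · intro b' _ hb'
      exact Finsupp.single_eq_of_ne fun e => hb' (hf (Prod.ext_iff.1 e).1).symm
    · intro h; exact absurd (Finset.mem_univ _) h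
  · refine Finset.sum_eq_zero fun b _ => Finsupp.single_eq_of_ne fun e => h ?_
    exact ⟨⟨b, (Prod.ext_iff.1 e).1.symm⟩, (Prod.ext_iff.1 e).2⟩

theorem m73_isLaw {A B : Type} [Fintype B] [Nonempty B] (f : B → A) (hf : Function.Injective f) :
    IsLaw (m73_law f) := by
  refine ⟨fun x => ?_, ?_⟩
  · rw [show x = (x.1, x.2) from rfl, m73_law_apply f hf]
    split_ifs <;> positivity
  · have := m73_law_sum f fun _ => 1
    simp only [mul_one] at this
    rw [this, Finset.sum_const, Finset.card_univ, nsmul_eq_mul]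
    exact mul_inv_cancel₀ (by exact_mod_cast Fintype.card_ne_zero)

theorem m73_supp {A B : Type} [Fintype B] (f : B → A) (hf : Function.Injective f) {x : A}
    {ω : ZMod 4} (h : (x, ω) ∈ (m73_law f).support) : x ∈ Set.range f := by
  rw [Finsupp.mem_support_iff, m73_law_apply f hf] at h
  by_contra hx
  exact h (if_neg fun h' => hx h'.1)

open Classical in
theorem m73_qco {A B : Type} [Fintype B] (f : B → A) (hf : Function.Injective f) (x : A) :
    qco (m73_law f) x = if x ∈ Set.range f then ((Fintype.card B : ℂ))⁻¹ else 0 := by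
  unfold qco
  rw [Finset.sum_eq_single 0]
  · rw [m73_law_apply f hf]
    have : ph 0 = 1 := by unfold ph; rw [ZMod.val_zero, pow_zero]
    rw [this, mul_one]
    by_cases hx : x ∈ Set.range f
    · rw [if_pos ⟨hx, rfl⟩, if_pos hx]; push_cast; rfl
    · rw [if_neg fun h => hx h.1, if_neg hx]; rfl
  · intro ω _ hω
    rw [m73_law_apply f hf, if_neg fun h => hω h.2]
    simp
  · intro h; exact absurd (Finset.mem_univ _) h

theorem m73_growth (K R M₀ m : ℕ) (hM : 2 ≤ M₀) :
    2 * (K * R * M₀ * (2 * R) ^ m) ≤ (M₀ * 2 ^ m) ^ (2 * K * R + 1 + 2 * R) := by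
  have h2m : 1 ≤ 2 ^ m := Nat.one_le_two_pow
  have hX : M₀ ≤ M₀ * 2 ^ m := Nat.le_mul_of_pos_right _ h2m
  have hX' : 2 ^ m ≤ M₀ * 2 ^ m := Nat.le_mul_of_pos_left _ (by omega)
  have h1 : 2 * K * R ≤ (M₀ * 2 ^ m) ^ (2 * K * R) :=
    (Nat.lt_two_pow_self).le.trans (Nat.pow_le_pow_left (hM.trans hX) _)
  have h3 : (2 * R) ^ m ≤ (M₀ * 2 ^ m) ^ (2 * R) := by
    calc (2 * R) ^ m ≤ (2 ^ (2 * R)) ^ m := Nat.pow_le_pow_left (Nat.lt_two_pow_self).le _
      _ = (2 ^ m) ^ (2 * R) := by rw [← pow_mul, ← pow_mul, mul_comm]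
      _ ≤ _ := Nat.pow_le_pow_left hX' _
  calc 2 * (K * R * M₀ * (2 * R) ^ m) = (2 * K * R) * M₀ * (2 * R) ^ m := by ring
    _ ≤ (M₀ * 2 ^ m) ^ (2 * K * R) * (M₀ * 2 ^ m) * (M₀ * 2 ^ m) ^ (2 * R) :=
        Nat.mul_le_mul (Nat.mul_le_mul h1 hX) h3
    _ = _ := by rw [pow_add, pow_add, pow_one]

/-- Take `ε C₀` from `partS73`, `c R` from `partG`; `K₁ = ⌈1/ε⌉₊`; choose `CA` with
`(2 K₁ R · M₀ (2R)^m)^((c+1)^2) ≤ (M₀ 2^m)^CA` for all `M₀ ≥ 2`, `m` (e.g.
`CA = (c+1)^2 (2 + 2 K₁ R + 2R)`); `C'` from `partG CA ε`, `n₀` with `C₀ n √n ≤ (n/C')²`; get `n, M₀`.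
If `c = 0` replace the matrix size: use `Fin (c+2)`-matrices?  NO: `partG` is used with its own `c`; to
make the groups large take `Ai i ≅ U(c+1, ZMod p) × Multiplicative (ZMod p)` (extra factor), so
`p ≤ card ≤ p^((c+1)^2+1)` in every case (adapt `CA`).
`p i` = a prime in `(K₁ R M₀ (2R)^|i|, 2 K₁ R M₀ (2R)^|i|]` (Bertrand, `Nat.exists_prime_lt_and_le_two_mul`);
`A = ∀ i : ℤ, (Matrix (Fin (c+1)) (Fin (c+1)) (ZMod (p i)))ˣ × Multiplicative (ZMod (p i))`;
`Ai i` = elements trivial off `i` whose matrix part lies in `box (fun _ _ => univ)` (a subgroup: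
unitriangular matrices; finite + closed under products); `μ i` = uniform law on `Ai i × {0}`;
`on i ↔ ∃ r, i = 2 * e r` for a strictly increasing `e : ℕ → ℕ` chosen recursively so that
`N r = card (Ai (2 e r))` is lacunary (`card (Ai i) ≥ p i ≥ 2^|i|`).  `GenHyp`: the window is `{i₀}` because
`on` holds only at even integers; `π` = matrix part of coordinate `i₀`, `Sx = univ`.  `Growth`: `Fk = Ai i`.
In `partG`'s edge clause `u` is an `H`-vertex and `i` is even, so `u ∈ node i`.  Finish with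
`partS73` and `irrational_of_lacunary` (reindex the sum along `r ↦ 2 e r`). -/
theorem main73 : ∃ (G : Type) (_ : Group G), Group.FG G ∧
      ∃ b ∈ reducedGroupCStar G, b * b = b ∧ star b = b ∧ Irrational (canonicalTrace G b).re := by
  classical
  obtain ⟨ε, C₀, hε, hC₀, hS⟩ := partS73
  obtain ⟨c, R, hR, hG⟩ := partG
  set K := ⌈1 / ε⌉₊ with hK
  have hKε : 1 ≤ ε * K := by
    have := Nat.le_ceil (1 / ε)
    rw [div_le_iff₀ hε] at this
    linarith
  have hK0 : 0 < K := Nat.ceil_pos.2 (by positivity)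
  obtain ⟨C', hC', hG⟩ := hG ((2 * K * R + 1 + 2 * R) * ((c + 1) ^ 2 + 1)) ε hε
  obtain ⟨n₀, hn₀⟩ := m74_large hC₀ hC' one_pos
  obtain ⟨n, hn, M₀, hnn, hM, hG⟩ := hG n₀
  have hpr : ∀ i : ℤ, ∃ p : ℕ, p.Prime ∧ K * R * M₀ * (2 * R) ^ i.natAbs < p ∧
      p ≤ 2 * (K * R * M₀ * (2 * R) ^ i.natAbs) := fun i =>
    Nat.exists_prime_lt_and_le_two_mul _ (by positivity)
  choose p hp hp1 hp2 using hpr
  have hfact : ∀ i, Fact (p i).Prime := fun i => ⟨hp i⟩
  choose B gB fB π hB1 hB2 hB3 using fun i => m73_grp c (p i)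
  let _ := gB
  let A : Type := ∀ i, B i
  let f : ∀ i, B i →* A := fun i => MonoidHom.mulSingle B i
  have hf : ∀ i, Function.Injective (f i) := fun i => Pi.mulSingle_injective i
  let μ : ℤ → (A × ZMod 4) →₀ ℝ := fun i => m73_law (f i)
  have hlow : ∀ i : ℤ, R * M₀ * (2 * R) ^ i.natAbs ≤ p i := fun i => by
    refine le_trans ?_ (hp1 i).le
    rw [mul_assoc K, mul_assoc K]
    exact Nat.le_mul_of_pos_left _ hK0
  have hN : ∀ m : ℕ, m < Fintype.card (B (2 * (m : ℤ))) := by
    intro m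
    refine lt_of_lt_of_le ?_ ((hlow _).trans (hB1 _))
    have e : (2 * (m : ℤ)).natAbs = 2 * m := by omega
    rw [e]
    have h1 : 2 * m < 2 ^ (2 * m) := Nat.lt_two_pow_self
    have h2 : 2 ^ (2 * m) ≤ (2 * R) ^ (2 * m) := Nat.pow_le_pow_left (by omega) _
    have h3 : (2 * R) ^ (2 * m) ≤ R * M₀ * (2 * R) ^ (2 * m) :=
      Nat.le_mul_of_pos_left _ (by positivity)
    omega
  obtain ⟨e, he, hlac⟩ := m73_seq _ hN
  let on : ℤ → Prop := fun i => ∃ r, i = 2 * (e r : ℤ)
  have hev : ∀ i, on i → Even i := by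
    rintro i ⟨r, rfl⟩
    exact even_two_mul _
  have hlaw : ∀ i, IsLaw (μ i) := fun i => m73_isLaw _ (hf i)
  have hcard : ∀ i, Nat.card (f i).range = Fintype.card (B i) := fun i => by
    rw [← Nat.card_eq_fintype_card]
    exact (Nat.card_congr ((f i).ofInjective (hf i)).toEquiv).symm
  have hgen : GenHyp μ on c M₀ R := by
    intro i₀ hi₀
    refine ⟨ZMod (p i₀), inferInstance, inferInstance, inferInstance,
      (π i₀).comp (Pi.evalMonoidHom B i₀), fun i hi => ?_⟩
    have hii : i = i₀ := by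
      by_contra hne
      have h0 := hev _ hi₀
      rcases lt_or_gt_of_ne hne with h | h
      · have h1 := hev _ (hi (i₀ - 1) (Set.mem_uIcc.2 (Or.inr ⟨by omega, by omega⟩)))
        rw [Int.even_sub_one] at h1
        exact h1 h0
      · have h1 := hev _ (hi (i₀ + 1) (Set.mem_uIcc.2 (Or.inl ⟨by omega, by omega⟩)))
        rw [Int.even_add_one] at h1
        exact h1 h0
    subst hii
    refine ⟨fun _ _ => Finset.univ, fun a b => ?_, fun φ => ?_⟩
    · rw [Finset.card_univ, ZMod.card, sub_self, Int.natAbs_zero, Nat.sub_zero]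
      refine le_trans ?_ (hlow i)
      refine Nat.mul_le_mul (Nat.le_mul_of_pos_left _ (by omega)) ?_
      exact Nat.pow_le_pow_left (by omega) _
    · rw [← hB3 i φ]
      have := m73_law_sum (f i) fun x => φ (((π i).comp (Pi.evalMonoidHom B i)) x.1)
      refine this.trans (Finset.sum_congr rfl fun b _ => ?_)
      congr 2
      change π i (Pi.mulSingle (M := B) i b i) = π i b
      rw [Pi.mulSingle_eq_same]
  have hgr : Growth μ on ((2 * K * R + 1 + 2 * R) * ((c + 1) ^ 2 + 1)) M₀ := by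
    intro i _ k hk
    refine ⟨Finset.univ.image (f i), fun l _ hl => ?_, ?_⟩
    · have : l.prod ∈ (f i).range := by
        refine Subgroup.list_prod_mem _ fun x hx => ?_
        obtain ⟨ω, h | h⟩ := hl x hx
        · exact m73_supp _ (hf i) h
        · exact (Subgroup.inv_mem_iff _).1 (m73_supp _ (hf i) h)
      obtain ⟨b, hb⟩ := this
      exact Finset.mem_image.2 ⟨b, Finset.mem_univ _, hb⟩
    · refine Finset.card_image_le.trans ?_
      rw [Finset.card_univ, pow_mul]
      refine (hB2 i).trans (Nat.pow_le_pow_left ?_ _)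
      refine (hp2 i).trans ((m73_growth K R M₀ _ hM).trans (Nat.pow_le_pow_left ?_ _))
      exact Nat.le_mul_of_pos_right _ hk
  obtain ⟨Γ, node, hsc, hne, hd, hH, hedge, hball, hB⟩ := hG A μ on hlaw hgen hgr
  have hn0 : (0 : ℝ) < n := by exact_mod_cast hn.out.pos
  obtain ⟨G, gG, hFG, b, hb, hb1, hb2, hsum⟩ := hS (ZMod n) A Γ node on μ (fun i => (f i).range)
    ((n : ℝ) / C') hsc hev hne hd hH hlaw (fun i _ => Finite.of_equiv _
      ((f i).ofInjective (hf i)).toEquiv) (fun i _ x => by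
        rw [hcard]
        have := m73_qco (f i) (hf i) x
        by_cases hx : x ∈ (f i).range
        · rw [if_pos hx]; rw [if_pos (show x ∈ Set.range (f i) from hx)] at this; exact this
        · rw [if_neg hx]; rw [if_neg (show x ∉ Set.range (f i) from hx)] at this; exact this)
    (fun u t w h => by
      obtain ⟨i, hi, h1, ω, hω⟩ := hedge u t w h
      refine ⟨i, hi, ?_⟩
      rcases h1 with h1 | h1
      · exact ⟨h1.1, h1.2, m73_supp _ (hf i) hω⟩
      · exfalso
        have h2 := (hH _ _ h1.1).1 (Γ.nb_typ _ _ _ h).1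
        rw [Int.even_add_one] at h2
        exact h2 (hev i hi))
    (fun i _ v hv => by
      rw [hcard, ZMod.card]
      have h1 : (n + 1) ^ (⌈8 * Γ.L v⌉₊ + 1) ≤ M₀ * R ^ (i.natAbs + 1) := by
        rcases hv with hv | hv
        · exact (hball _ _ hv).trans
            (Nat.mul_le_mul_left _ (Nat.pow_le_pow_right (by omega) (by omega)))
        · exact (hball _ _ hv).trans
            (Nat.mul_le_mul_left _ (Nat.pow_le_pow_right (by omega) (by omega)))
      have h2 : K * ((n + 1) ^ (⌈8 * Γ.L v⌉₊ + 1) * 2 ^ i.natAbs) ≤ Fintype.card (B i) := by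
        refine le_trans ?_ ((hp1 i).le.trans (hB1 i))
        calc K * ((n + 1) ^ (⌈8 * Γ.L v⌉₊ + 1) * 2 ^ i.natAbs)
            ≤ K * (M₀ * R ^ (i.natAbs + 1) * 2 ^ i.natAbs) :=
              Nat.mul_le_mul_left _ (Nat.mul_le_mul_right _ h1)
          _ = K * R * M₀ * (2 * R) ^ i.natAbs := by rw [mul_pow, pow_succ]; ring
      have h3 : (K : ℝ) * (((n : ℝ) + 1) ^ (⌈8 * Γ.L v⌉₊ + 1) * 2 ^ i.natAbs) ≤
          Fintype.card (B i) := by exact_mod_cast h2
      have h4 : (0 : ℝ) ≤ ((n : ℝ) + 1) ^ (⌈8 * Γ.L v⌉₊ + 1) * 2 ^ i.natAbs := by positivity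
      generalize ((n : ℝ) + 1) ^ (⌈8 * Γ.L v⌉₊ + 1) * 2 ^ i.natAbs = y at h3 h4
      nlinarith [mul_le_mul_of_nonneg_left h3 hε.le, mul_le_mul_of_nonneg_right hKε h4])
    (by positivity) (by rw [ZMod.card]; simpa using hn₀ n hnn) hB
  refine ⟨G, gG, hFG, b, hb, hb1, hb2, ?_⟩
  refine irrational_of_lacunary (fun r => Fintype.card (B (2 * (e r : ℤ))))
    (fun r => Fintype.card_pos) hlac _ ?_
  have hinj : Function.Injective fun r : ℕ => 2 * (e r : ℤ) := by
    intro r r' h
    refine he.injective ?_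
    simp only at h
    omega
  have h1 := (hinj.hasSum_iff (fun i hi => if_neg fun h => hi ⟨h.choose, h.choose_spec.symm⟩)).2 hsum
  convert h1 using 2 with r
  simp only [Function.comp]
  rw [if_pos ⟨r, rfl⟩, hcard]

end Crest.Agent.R129
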