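import Crest.Agent.R129.SDefs

/-!
# The model operator `X = W Q W*` for uniform voltages (task R129/SX).  Statements frozen.
-/

set_option autoImplicit false
open scoped BigOperators

namespace Crest.Agent.R129

theorem sx_row {I J K : Type} (S : L2 J →L[ℂ] L2 K) (T : L2 I →L[ℂ] L2 J) (k : K) (i : I) (j0 : J)
    (h : ∀ j, j ≠ j0 → mat S k j = 0) : mat (S ∘L T) k i = mat S k j0 * mat T j0 i :=
  (hasSum_mat_comp S T k i).unique (hasSum_single j0 fun j hj => by rw [h j hj, zero_mul])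

theorem sx_col {I J K : Type} (S : L2 J →L[ℂ] L2 K) (T : L2 I →L[ℂ] L2 J) (k : K) (i : I) (j0 : J)
    (h : ∀ j, j ≠ j0 → mat T j i = 0) : mat (S ∘L T) k i = mat S k j0 * mat T j0 i :=
  (hasSum_mat_comp S T k i).unique (hasSum_single j0 fun j hj => by rw [h j hj, mul_zero])

theorem sx_row0 {I J K : Type} (S : L2 J →L[ℂ] L2 K) (T : L2 I →L[ℂ] L2 J) (k : K) (i : I)
    (h : ∀ j, mat S k j = 0) : mat (S ∘L T) k i = 0 :=
  (hasSum_mat_comp S T k i).unique (by simp only [h, zero_mul]; exact hasSum_zero)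

theorem sx_col0 {I J K : Type} (S : L2 J →L[ℂ] L2 K) (T : L2 I →L[ℂ] L2 J) (k : K) (i : I)
    (h : ∀ j, mat T j i = 0) : mat (S ∘L T) k i = 0 :=
  (hasSum_mat_comp S T k i).unique (by simp only [h, mul_zero]; exact hasSum_zero)

open Classical in
theorem sx_matQ {A : Type} [Group A] {on : ℤ → Prop} {μ : ℤ → (A × ZMod 4) →₀ ℝ}
    {Ai : ℤ → Subgroup A} (he : ∀ i, on i → Even i) (hμ : ∀ i, IsLaw (μ i))
    (hq : ∀ i, on i → ∀ x, qco (μ i) x = if x ∈ Ai i then ((Nat.card (Ai i) : ℂ))⁻¹ else 0)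
    (p q : A × ℤ) : mat (Qop μ on) p q =
      if on p.2 ∧ q.2 = p.2 + 1 ∧ p.1 * q.1⁻¹ ∈ Ai p.2 then ((Nat.card (Ai p.2) : ℂ))⁻¹ else 0 := by
  rw [mat_Qop hμ]
  by_cases hp : Even p.2
  · have h2 : ¬ on (p.2 - 1) := fun h => by
      have := he _ h
      rw [Int.even_sub_one] at this
      exact this hp
    rw [if_pos hp, if_neg (fun h : q.2 = p.2 - 1 ∧ on (p.2 - 1) => h2 h.2), add_zero]
    by_cases h1 : q.2 = p.2 + 1 ∧ on p.2
    · rw [if_pos h1, hq _ h1.2]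
      by_cases h3 : p.1 * q.1⁻¹ ∈ Ai p.2
      · rw [if_pos h3, if_pos ⟨h1.2, h1.1, h3⟩]
      · rw [if_neg h3, if_neg fun h => h3 h.2.2]
    · rw [if_neg h1, if_neg fun h => h1 ⟨h.2.1, h.1⟩]
  · rw [if_neg hp, if_neg fun h => hp (he _ h.1)]

open Classical in
theorem sx_matQQ {A : Type} [Group A] {on : ℤ → Prop} {μ : ℤ → (A × ZMod 4) →₀ ℝ}
    {Ai : ℤ → Subgroup A} (he : ∀ i, on i → Even i) (hμ : ∀ i, IsLaw (μ i))
    (hf : ∀ i, on i → Finite (Ai i))
    (hq : ∀ i, on i → ∀ x, qco (μ i) x = if x ∈ Ai i then ((Nat.card (Ai i) : ℂ))⁻¹ else 0)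
    (a : A) (i : ℤ) (q : A × ℤ) : mat (adj (Qop μ on) ∘L Qop μ on) (a, i + 1) q =
      if on i ∧ q.2 = i + 1 ∧ a * q.1⁻¹ ∈ Ai i then ((Nat.card (Ai i) : ℂ))⁻¹ else 0 := by
  have h := hasSum_mat_comp (adj (Qop μ on)) (Qop μ on) (a, i + 1) q
  simp only [mat_adj, sx_matQ he hμ hq] at h
  refine h.unique ?_
  by_cases hc : on i ∧ q.2 = i + 1 ∧ a * q.1⁻¹ ∈ Ai i
  · rw [if_pos hc]
    obtain ⟨hi, hq2, ha⟩ := hc
    haveI := hf i hi
    haveI := Fintype.ofFinite (Ai i)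
    have hc0 : (Nat.card (Ai i) : ℂ) ≠ 0 := by exact_mod_cast Nat.card_pos.ne'
    set s : Finset (A × ℤ) := Finset.univ.image fun x : Ai i => ((x : A) * a, i) with hs
    have hinj : Function.Injective fun x : Ai i => (((x : A) * a, i) : A × ℤ) := by
      intro x y hxy
      exact Subtype.ext (mul_right_cancel (Prod.ext_iff.1 hxy).1)
    have hmem : ∀ r : A × ℤ, r ∈ s ↔ r.2 = i ∧ r.1 * a⁻¹ ∈ Ai i := by
      intro r
      rw [hs, Finset.mem_image]
      constructor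
      · rintro ⟨x, -, rfl⟩
        exact ⟨rfl, by simp⟩
      · rintro ⟨h1, h2⟩
        exact ⟨⟨_, h2⟩, Finset.mem_univ _, Prod.ext (by simp) h1.symm⟩
    have e : ((Nat.card (Ai i) : ℂ))⁻¹ =
        ∑ _r ∈ s, ((Nat.card (Ai i) : ℂ))⁻¹ * ((Nat.card (Ai i) : ℂ))⁻¹ := by
      rw [Finset.sum_const, hs, Finset.card_image_of_injective _ hinj, Finset.card_univ,
        ← Nat.card_eq_fintype_card, nsmul_eq_mul]
      field_simp
    have h2 : HasSum (fun r : A × ℤ => if r ∈ s then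
        ((Nat.card (Ai i) : ℂ))⁻¹ * ((Nat.card (Ai i) : ℂ))⁻¹ else 0) (∑ r ∈ s, if r ∈ s then
        ((Nat.card (Ai i) : ℂ))⁻¹ * ((Nat.card (Ai i) : ℂ))⁻¹ else 0) :=
      hasSum_sum_of_ne_finset_zero fun p hp => if_neg hp
    rw [Finset.sum_congr rfl fun p hp => if_pos hp, ← e] at h2
    convert h2 using 2 with r
    obtain ⟨b, j⟩ := r
    by_cases hr : (b, j) ∈ s
    · rw [if_pos hr]
      obtain ⟨h1, h3⟩ := (hmem _).1 hr
      simp only at h1 h3
      subst h1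
      have h4 : b * q.1⁻¹ ∈ Ai j := by
        have := (Ai j).mul_mem h3 ha
        rwa [mul_assoc, inv_mul_cancel_left] at this
      rw [if_pos ⟨hi, rfl, h3⟩, if_pos ⟨hi, hq2, h4⟩]
      simp
    · rw [if_neg hr, if_neg, map_zero, zero_mul]
      rintro ⟨-, h1, h3⟩
      have h5 : j = i := by simp only at h1; omega
      subst h5
      exact hr ((hmem _).2 ⟨rfl, h3⟩)
  · rw [if_neg hc]
    convert hasSum_zero using 2 with r
    obtain ⟨b, j⟩ := r
    split_ifs with h1 h2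
    · exfalso
      have h5 : j = i := by have := h1.2.1; simp only at this; omega
      subst h5
      refine hc ⟨h1.1, h2.2.1, ?_⟩
      have := (Ai j).mul_mem ((Ai j).inv_mem h1.2.2) h2.2.2
      simpa [mul_assoc] using this
    · simp
    · simp
    · simp

namespace BG
variable {F A : Type} [Group A] {Γ : BG F A} {node : ℤ → Finset Γ.V} {on : ℤ → Prop}
  {μ : ℤ → (A × ZMod 4) →₀ ℝ} {Ai : ℤ → Subgroup A}

open Classical in
/-- `X* X = W (Q* Q) W*` by `adj_Wop_comp`.  Since `on i → Even i`,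
`mat Q (a,i) (a',j) = if on i ∧ j = i + 1 ∧ a * a'⁻¹ ∈ Ai i then |Ai i|⁻¹ else 0` (`mat_Qop`), hence
`mat (Q* Q) (a,j) (a',j') = if on (j-1) ∧ j' = j ∧ a * a'⁻¹ ∈ Ai (j-1) then |Ai (j-1)|⁻¹ else 0`
(the sum runs over the coset `Ai (j-1) · a`).  For every operator `Z` on `L2 (A × ℤ)`:
`mat (W Z W*) (a,u) (a',u') = mat Z (a,j) (a',j') / (√|node j| √|node j'|)` if `u ∈ node j`,
`u' ∈ node j'`, and `0` if `u` or `u'` lies in no node (`mat_Wop`, `hasSum_mat_comp`). -/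
theorem mat_XX (hN : Γ.NodeHyp node on) (hμ : ∀ i, IsLaw (μ i)) (hf : ∀ i, on i → Finite (Ai i))
    (hq : ∀ i, on i → ∀ x, qco (μ i) x = if x ∈ Ai i then ((Nat.card (Ai i) : ℂ))⁻¹ else 0)
    (p q : A × Γ.V) :
    (∀ i, on i → p.2 ∈ node (i + 1) →
      mat (adj (Γ.Wop A node ∘L Qop μ on ∘L adj (Γ.Wop A node)) ∘L
        (Γ.Wop A node ∘L Qop μ on ∘L adj (Γ.Wop A node))) p q =
      if q.2 ∈ node (i + 1) ∧ p.1 * q.1⁻¹ ∈ Ai i then ((blkSize node Ai i : ℂ))⁻¹ else 0) ∧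
    ((∀ i, on i → p.2 ∉ node (i + 1)) →
      mat (adj (Γ.Wop A node ∘L Qop μ on ∘L adj (Γ.Wop A node)) ∘L
        (Γ.Wop A node ∘L Qop μ on ∘L adj (Γ.Wop A node))) p q = 0) := by
  set W := Γ.Wop A node with hW
  set Q := Qop μ on with hQ
  have hWW : adj W ∘L W = 1 := Γ.adj_Wop_comp A node hN.ne hN.disj
  have e : adj (W ∘L Q ∘L adj W) ∘L (W ∘L Q ∘L adj W) = W ∘L ((adj Q ∘L Q) ∘L adj W) := by
    have hWW' : ∀ η, adj W (W η) = η := fun η => by
      have := congrArg (fun S : L2 (A × ℤ) →L[ℂ] L2 (A × ℤ) => S η) hWW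
      simpa using this
    ext1 ξ
    simp only [adj, ContinuousLinearMap.adjoint_comp, ContinuousLinearMap.adjoint_adjoint,
      ContinuousLinearMap.comp_apply]
    rw [hWW']
  rw [e]
  have hmW := Γ.mat_Wop A node hN.disj
  have hrow : ∀ (p : A × Γ.V) j, p.2 ∈ node j → ∀ r, r ≠ (p.1, j) → mat W p r = 0 := by
    intro p j hj r hr
    rw [hW, hmW, if_neg]
    rintro ⟨h1, h2⟩
    refine hr (Prod.ext h1.symm ?_)
    by_contra hne
    exact Finset.disjoint_left.1 (hN.disj _ _ hne) h2 hj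
  have hrow0 : ∀ (p : A × Γ.V), (∀ j, p.2 ∉ node j) → ∀ r, mat W p r = 0 := by
    intro p hp r
    rw [hW, hmW, if_neg fun h => hp _ h.2]
  have hval : ∀ (p : A × Γ.V) j, p.2 ∈ node j →
      mat W p (p.1, j) = (((Real.sqrt (node j).card)⁻¹ : ℝ) : ℂ) := by
    intro p j hj
    rw [hW, hmW, if_pos ⟨rfl, hj⟩]
  refine ⟨fun i hi hp => ?_, fun hp => ?_⟩
  · rw [sx_row _ _ _ _ _ (hrow p _ hp), hval p _ hp]
    by_cases hq' : ∃ j, q.2 ∈ node j
    · obtain ⟨j, hj⟩ := hq'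
      rw [sx_col _ _ _ _ (q.1, j) (fun r hr => by rw [mat_adj, hrow q j hj r hr, map_zero]),
        mat_adj, hval q j hj, hQ, sx_matQQ hN.even hμ hf hq]
      by_cases hc : q.2 ∈ node (i + 1) ∧ p.1 * q.1⁻¹ ∈ Ai i
      · have hji : j = i + 1 := by
          by_contra hne
          exact Finset.disjoint_left.1 (hN.disj _ _ hne) hj hc.1
        subst hji
        rw [if_pos hc, if_pos ⟨hi, rfl, hc.2⟩, Complex.conj_ofReal, mul_left_comm,
          ← Complex.ofReal_mul, ← mul_inv, Real.mul_self_sqrt (Nat.cast_nonneg _), blkSize]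
        push_cast
        rw [mul_inv]
      · rw [if_neg hc, if_neg, zero_mul, mul_zero]
        rintro ⟨-, h1, h2⟩
        simp only at h1 h2
        subst h1
        exact hc ⟨hj, h2⟩
    · push Not at hq'
      rw [sx_col0 _ _ _ _ (fun r => by rw [mat_adj, hrow0 q hq' r, map_zero]), mul_zero,
        if_neg fun h => hq' _ h.1]
  · by_cases hp' : ∃ j, p.2 ∈ node j
    · obtain ⟨j, hj⟩ := hp'
      obtain ⟨i, rfl⟩ : ∃ i, j = i + 1 := ⟨j - 1, by ring⟩
      rw [sx_row _ _ _ _ _ (hrow p _ hj), sx_row0 _ (adj W), mul_zero]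
      intro r
      rw [hQ, sx_matQQ hN.even hμ hf hq, if_neg fun h => hp i h.1 hj]
    · push Not at hp'
      exact sx_row0 _ _ _ _ (hrow0 p hp')

/-- `‖W‖ ≤ 1` from `adj_Wop_comp`, `norm_Qop_le` -/
theorem norm_X_le (hN : Γ.NodeHyp node on) (hμ : ∀ i, IsLaw (μ i)) :
    ‖Γ.Wop A node ∘L Qop μ on ∘L adj (Γ.Wop A node)‖ ≤ 2 := by
  have hW : ‖Γ.Wop A node‖ ≤ 1 :=
    ContinuousLinearMap.opNorm_le_bound _ zero_le_one fun ξ => by
      rw [ker_norm_of_adj_comp _ (Γ.adj_Wop_comp A node hN.ne hN.disj), one_mul]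
  have hW' : ‖adj (Γ.Wop A node)‖ ≤ 1 := by
    rw [adj, LinearIsometryEquiv.norm_map]; exact hW
  have hQ := norm_Qop_le hμ on
  calc _ ≤ ‖Γ.Wop A node‖ * ‖Qop μ on ∘L adj (Γ.Wop A node)‖ := ContinuousLinearMap.opNorm_comp_le _ _
    _ ≤ 1 * (‖Qop μ on‖ * ‖adj (Γ.Wop A node)‖) :=
        mul_le_mul hW (ContinuousLinearMap.opNorm_comp_le _ _) (norm_nonneg _) zero_le_one
    _ ≤ 1 * (2 * 1) := by gcongr
    _ = 2 := by norm_num

end BG

/-- `B* B - l² X* X = (B - l X)* B + l X* (B - l X)` -/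
theorem norm_adj_comp_sub {I J : Type} (B X : L2 I →L[ℂ] L2 J) {l ε : ℝ} (hl : 0 ≤ l)
    (hε : ε ≤ 1) (hX : ‖X‖ ≤ 2) (h : ‖B - (l : ℂ) • X‖ ≤ ε * l) :
    ‖adj B ∘L B - ((l ^ 2 : ℝ) : ℂ) • (adj X ∘L X)‖ ≤ 5 * ε * l ^ 2 := by
  set E := B - (l : ℂ) • X with hE
  have e : adj B ∘L B - ((l ^ 2 : ℝ) : ℂ) • (adj X ∘L X) =
      adj E ∘L B + (l : ℂ) • (adj X ∘L E) := by
    ext1 ξ
    simp only [hE, adj, map_sub, map_smulₛₗ, ContinuousLinearMap.sub_apply,
      ContinuousLinearMap.add_apply, ContinuousLinearMap.smul_apply, ContinuousLinearMap.comp_apply,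
      Complex.conj_ofReal, RingHom.id_apply, smul_sub, smul_smul, Complex.ofReal_pow, sq,
      Complex.ofReal_mul]
    abel
  have h0 : 0 ≤ ε * l := (norm_nonneg _).trans h
  have hB : ‖B‖ ≤ 3 * l := by
    have e2 : B = E + (l : ℂ) • X := by rw [hE]; abel
    have h1 : ‖(l : ℂ) • X‖ ≤ l * 2 := by
      rw [norm_smul, Complex.norm_real, Real.norm_of_nonneg hl]
      exact mul_le_mul_of_nonneg_left hX hl
    have h2 := norm_add_le E ((l : ℂ) • X)
    rw [← e2] at h2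
    nlinarith
  have h1 : ‖adj E ∘L B‖ ≤ ε * l * (3 * l) := by
    refine (ContinuousLinearMap.opNorm_comp_le _ _).trans ?_
    rw [adj, LinearIsometryEquiv.norm_map]
    exact mul_le_mul h hB (norm_nonneg _) h0
  have h2 : ‖(l : ℂ) • (adj X ∘L E)‖ ≤ l * (2 * (ε * l)) := by
    rw [norm_smul, Complex.norm_real, Real.norm_of_nonneg hl]
    refine mul_le_mul_of_nonneg_left ((ContinuousLinearMap.opNorm_comp_le _ _).trans ?_) hl
    rw [adj, LinearIsometryEquiv.norm_map]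
    exact mul_le_mul hX h (norm_nonneg _) zero_le_two
  rw [e]
  refine (norm_add_le _ _).trans ?_
  nlinarith

/-- A finite set with an equivalence relation all of whose saturated subsets are almost empty or
almost everything has a giant class.  Take a saturated `D ⊆ β` of maximal size among those with
`2 |D| ≤ |β|`; then `|D| ≤ 2 η |β|`.  For `x ∈ β \ D` the set `D ∪ class x` has more than half, so its
complement has at most `2 η |β|` elements. -/
theorem exists_giant {X : Type} [DecidableEq X] (β : Finset X) (hβ : β.Nonempty)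
    (r : X → X → Prop) (hr : Equivalence r) {η : ℝ}
    (h : ∀ D : Finset X, D ⊆ β → (∀ x ∈ D, ∀ y ∈ β, r x y → y ∈ D) →
      (D.card : ℝ) * (β \ D).card ≤ η * (β.card : ℝ) ^ 2) :
    ∃ x ∈ β, ∃ C : Finset X, (∀ y, y ∈ C ↔ y ∈ β ∧ r x y) ∧ (1 - 4 * η) * β.card ≤ C.card := by
  classical
  let P : Finset X → Prop := fun D => (∀ x ∈ D, ∀ y ∈ β, r x y → y ∈ D) ∧ 2 * D.card ≤ β.card
  obtain ⟨D, hD, hmax⟩ := (β.powerset.filter P).exists_max_image Finset.card
    ⟨∅, Finset.mem_filter.2 ⟨Finset.empty_mem_powerset _, by simp [P]⟩⟩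
  obtain ⟨hDβ, hsat, hhalf⟩ := Finset.mem_filter.1 hD
  rw [Finset.mem_powerset] at hDβ
  have hβ0 : 0 < β.card := hβ.card_pos
  have hβ0' : (0 : ℝ) < β.card := by exact_mod_cast hβ0
  have hcard : ∀ D : Finset X, D ⊆ β → ((β \ D).card : ℝ) = β.card - D.card := by
    intro D hD
    have := Finset.card_sdiff_add_card_eq_card hD
    rw [← this]; push_cast; ring
  obtain ⟨x, hxβ, hxD⟩ : ∃ x ∈ β, x ∉ D := by
    by_contra hcon
    push Not at hcon
    have := Finset.card_le_card (show β ⊆ D from hcon)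
    omega
  set C := β.filter (r x) with hC
  refine ⟨x, hxβ, C, fun y => Finset.mem_filter, ?_⟩
  have hDC : D ∪ C ⊆ β := Finset.union_subset hDβ (Finset.filter_subset _ _)
  have hsat' : ∀ z ∈ D ∪ C, ∀ y ∈ β, r z y → y ∈ D ∪ C := by
    intro z hz y hy hzy
    rcases Finset.mem_union.1 hz with hz | hz
    · exact Finset.mem_union_left _ (hsat z hz y hy hzy)
    · exact Finset.mem_union_right _
        (Finset.mem_filter.2 ⟨hy, hr.trans (Finset.mem_filter.1 hz).2 hzy⟩)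
  have hlt : D.card < (D ∪ C).card :=
    Finset.card_lt_card ⟨Finset.subset_union_left, fun hsub =>
      hxD (hsub (Finset.mem_union_right _ (Finset.mem_filter.2 ⟨hxβ, hr.refl x⟩)))⟩
  have hbig : β.card < 2 * (D ∪ C).card := by
    by_contra hcon
    have := hmax (D ∪ C) (Finset.mem_filter.2 ⟨Finset.mem_powerset.2 hDC, hsat', by omega⟩)
    omega
  have h1 := h D hDβ hsat
  have h2 := h (D ∪ C) hDC hsat'
  rw [hcard _ hDβ] at h1
  rw [hcard _ hDC] at h2
  have h3 : (2 : ℝ) * D.card ≤ β.card := by exact_mod_cast hhalf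
  have h4 : (β.card : ℝ) < 2 * (D ∪ C).card := by exact_mod_cast hbig
  have h5 : ((D ∪ C).card : ℝ) ≤ D.card + C.card := by exact_mod_cast Finset.card_union_le D C
  have h6 : ((D ∪ C).card : ℝ) ≤ β.card := by exact_mod_cast Finset.card_le_card hDC
  have h7 : (0 : ℝ) ≤ D.card := Nat.cast_nonneg _
  have h8 : (D.card : ℝ) ≤ 2 * η * β.card := by
    refine le_of_mul_le_mul_right ?_ hβ0'
    nlinarith
  have h9 : (β.card : ℝ) - (D ∪ C).card ≤ 2 * η * β.card := by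
    refine le_of_mul_le_mul_right ?_ hβ0'
    nlinarith
  linarith

end Crest.Agent.R129
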