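import Crest.Agent.R129.SAvg
import Crest.Agent.R129.SX

/-!
# Giant components of the `A`-cover (task R129/SGiant).  Statements frozen.

`PA` is an operator with the matrix of `X* X` (`mat_XX`): averaging over the blocks
`β(i,a) = {q | q.2 ∈ node (i+1) ∧ a * q.1⁻¹ ∈ Ai i}`, which have `M i = blkSize node Ai i` elements.
Components stay in blocks: if `Conn Γ.a p q`, `p.2 ∈ node i ∪ node (i+1)`, `on i` then
`p.1 * q.1⁻¹ ∈ Ai i` (path induction with `NodeHyp.stay` and `hA`).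
-/

set_option autoImplicit false
set_option linter.unusedSectionVars false
open scoped BigOperators

namespace Crest.Agent.R129

theorem sg_coe_sum_dl {I : Type} [DecidableEq I] (s : Finset I) (i : I) :
    ((∑ q ∈ s, dl q : L2 I) : I → ℂ) i = if i ∈ s then 1 else 0 := by
  rw [lp.coeFn_sum, Finset.sum_apply]
  simp only [dl_apply]
  rw [Finset.sum_ite_eq]

theorem sg_norm_sum_dl {I : Type} (s : Finset I) :
    ‖(∑ q ∈ s, dl q : L2 I)‖ = Real.sqrt s.card := by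
  classical
  have h := hasSum_norm_sq (∑ q ∈ s, dl q : L2 I)
  have h2 : HasSum (fun i => ‖((∑ q ∈ s, dl q : L2 I) : I → ℂ) i‖ ^ 2)
      (∑ i ∈ s, ‖((∑ q ∈ s, dl q : L2 I) : I → ℂ) i‖ ^ 2) :=
    hasSum_sum_of_ne_finset_zero fun i hi => by rw [sg_coe_sum_dl, if_neg hi]; simp
  have h3 : ∑ i ∈ s, ‖((∑ q ∈ s, dl q : L2 I) : I → ℂ) i‖ ^ 2 = s.card := by
    rw [Finset.sum_congr rfl (g := fun _ => (1 : ℝ)) fun i hi => by
      rw [sg_coe_sum_dl, if_pos hi]; simp]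
    simp
  rw [← h3, ← h.unique h2, Real.sqrt_sq (norm_nonneg _)]

theorem sg_norm_sum_mat {I J : Type} (T : L2 I →L[ℂ] L2 J) (s : Finset J) (t : Finset I) :
    ‖∑ p ∈ s, ∑ q ∈ t, mat T p q‖ ≤ ‖T‖ * (Real.sqrt s.card * Real.sqrt t.card) := by
  have e : ∑ p ∈ s, ∑ q ∈ t, mat T p q
      = inner ℂ (∑ p ∈ s, dl p : L2 J) (T (∑ q ∈ t, dl q)) := by
    rw [sum_inner, map_sum]
    refine Finset.sum_congr rfl fun p _ => ?_
    rw [inner_sum]
    refine Finset.sum_congr rfl fun q _ => ?_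
    rw [inner_dl]; rfl
  rw [e]
  refine (norm_inner_le_norm _ _).trans ?_
  have h1 := T.le_opNorm (∑ q ∈ t, dl q)
  rw [sg_norm_sum_dl] at h1 ⊢
  calc Real.sqrt s.card * ‖T (∑ q ∈ t, dl q)‖
      ≤ Real.sqrt s.card * (‖T‖ * Real.sqrt t.card) :=
        mul_le_mul_of_nonneg_left h1 (Real.sqrt_nonneg _)
    _ = _ := by ring

theorem sg_sum_le {I : Type} (f : I → ℂ) (u : Finset I) {c : ℝ} (hc : 0 ≤ c)
    (h1 : ∀ i, f i ≠ 0 → i ∈ u ∧ ‖f i‖ ≤ c) (s : Finset I) :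
    ∑ i ∈ s, ‖f i‖ ≤ u.card * c := by
  classical
  have e : ∑ i ∈ s, ‖f i‖ = ∑ i ∈ s ∩ u, ‖f i‖ := by
    symm
    refine Finset.sum_subset Finset.inter_subset_left fun i hi hi' => ?_
    by_contra hne
    exact hi' (Finset.mem_inter.2 ⟨hi, (h1 i fun h0 => hne (by rw [h0, norm_zero])).1⟩)
  rw [e]
  calc ∑ i ∈ s ∩ u, ‖f i‖ ≤ ∑ _i ∈ s ∩ u, c := Finset.sum_le_sum fun i _ => by
        by_cases h0 : f i = 0
        · rw [h0, norm_zero]; exact hc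
        · exact (h1 i h0).2
    _ = (s ∩ u).card * c := by simp
    _ ≤ u.card * c := by
      refine mul_le_mul_of_nonneg_right ?_ hc
      exact_mod_cast Finset.card_le_card Finset.inter_subset_right

theorem sg_coset {A : Type} [Group A] (H : Subgroup A) [Finite H] (a : A) :
    ∃ S : Finset A, (∀ x, x ∈ S ↔ a * x⁻¹ ∈ H) ∧ S.card = Nat.card H := by
  classical
  have := Fintype.ofFinite H
  refine ⟨Finset.univ.image fun x : H => (x : A)⁻¹ * a, fun x => ?_, ?_⟩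
  · rw [Finset.mem_image]
    constructor
    · rintro ⟨y, -, rfl⟩
      have : a * ((y : A)⁻¹ * a)⁻¹ = y := by group
      rw [this]; exact y.2
    · intro hx
      exact ⟨⟨_, hx⟩, Finset.mem_univ _, by simp⟩
  · rw [Finset.card_image_of_injective, Finset.card_univ, Nat.card_eq_fintype_card]
    intro x y hxy
    exact Subtype.ext (inv_injective (mul_right_cancel hxy))

namespace BG
variable {F A : Type} [Fintype F] [Group A] {Γ : BG F A} {node : ℤ → Finset Γ.V} {on : ℤ → Prop}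
  {Ai : ℤ → Subgroup A}

open Classical in
/-- hypotheses of this file -/
structure GiantHyp (Γ : BG F A) (node : ℤ → Finset Γ.V) (on : ℤ → Prop) (Ai : ℤ → Subgroup A)
    (PA : L2 (A × Γ.V) →L[ℂ] L2 (A × Γ.V)) (l δ : ℝ) : Prop where
  hN : Γ.NodeHyp node on
  fin : ∀ i, on i → Finite (Ai i)
  hA : ∀ u t w i, Γ.nb u t = some w → on i → u ∈ node i → Γ.a u t ∈ Ai i
  m1 : ∀ (p q : A × Γ.V) i, on i → p.2 ∈ node (i + 1) → mat PA p q =
    if q.2 ∈ node (i + 1) ∧ p.1 * q.1⁻¹ ∈ Ai i then ((blkSize node Ai i : ℂ))⁻¹ else 0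
  m0 : ∀ p q : A × Γ.V, (∀ i, on i → p.2 ∉ node (i + 1)) → mat PA p q = 0
  lpos : 0 < l
  dpos : 0 ≤ δ
  dle : δ ≤ 1 / 10
  close : ‖adj (Γ.Bop Γ.a) ∘L Γ.Bop Γ.a - ((l ^ 2 : ℝ) : ℂ) • PA‖ ≤ δ * l ^ 2

variable {PA : L2 (A × Γ.V) →L[ℂ] L2 (A × Γ.V)} {l δ : ℝ}

theorem NodeHyp.node_eq (hN : Γ.NodeHyp node on) {v : Γ.V} {i j : ℤ} (hi : v ∈ node i)
    (hj : v ∈ node j) : i = j := by
  by_contra hne
  exact Finset.disjoint_left.1 (hN.disj i j hne) hi hj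

theorem NodeHyp.not_isH (hN : Γ.NodeHyp node on) {v : Γ.V} {i : ℤ} (hi : on i)
    (hv : v ∈ node (i + 1)) : ¬ Γ.isH v := by
  rw [hN.typ _ _ hv, Int.even_add_one, not_not]
  exact hN.even i hi

theorem GiantHyp.path_mem (h : GiantHyp Γ node on Ai PA l δ) {u v : Γ.V} {k : A} {m : ℕ}
    (hm : Γ.Path Γ.a u k v m) {i : ℤ} (hi : on i) (hp : u ∈ node i ∨ u ∈ node (i + 1)) :
    k ∈ Ai i ∧ (v ∈ node i ∨ v ∈ node (i + 1)) := by
  have hN := h.hN
  have he := hN.even i hi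
  induction hm with
  | refl => exact ⟨one_mem _, hp⟩
  | @fwd x w k m t _ hxw ih =>
    obtain ⟨j, hj, hx, hw⟩ := hN.edge _ _ _ hxw
    have hje := hN.even j hj
    have : j = i := by
      rcases ih.2 with h1 | h1
      · exact hN.node_eq hx h1
      · have := hN.node_eq hx h1
        rw [this, Int.even_add_one] at hje
        exact absurd he hje
    subst this
    exact ⟨mul_mem ih.1 (h.hA _ _ _ _ hxw hj hx), Or.inr hw⟩
  | @bwd x w k m t _ hxw ih =>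
    obtain ⟨j, hj, hx, hw⟩ := hN.edge _ _ _ hxw
    have hje := hN.even j hj
    have : j = i := by
      rcases ih.2 with h1 | h1
      · have := hN.node_eq hw h1
        rw [← this, Int.even_add_one] at he
        exact absurd hje he
      · have := hN.node_eq hw h1
        omega
    subst this
    exact ⟨mul_mem ih.1 (inv_mem (h.hA _ _ _ _ hxw hj hx)), Or.inl hx⟩

theorem GiantHyp.conn_mem (h : GiantHyp Γ node on Ai PA l δ) {p q : A × Γ.V}
    (hc : Γ.Conn Γ.a p q) {i : ℤ} (hi : on i) (hp : p.2 ∈ node i ∨ p.2 ∈ node (i + 1)) :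
    p.1 * q.1⁻¹ ∈ Ai i := by
  obtain ⟨m, hm⟩ := hc
  exact (h.path_mem hm hi hp).1

theorem GiantHyp.exists_blk (h : GiantHyp Γ node on Ai PA l δ) {i : ℤ} (hi : on i) (a : A) :
    ∃ β : Finset (A × Γ.V), (∀ q, q ∈ β ↔ q.2 ∈ node (i + 1) ∧ a * q.1⁻¹ ∈ Ai i) ∧
      β.card = blkSize node Ai i := by
  have := h.fin i hi
  obtain ⟨S, hS, hc⟩ := sg_coset (Ai i) a
  refine ⟨S ×ˢ node (i + 1), fun q => ?_, ?_⟩
  · rw [Finset.mem_product, hS, and_comm]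
  · rw [Finset.card_product, hc, blkSize]

theorem GiantHyp.blk_pos (h : GiantHyp Γ node on Ai PA l δ) {i : ℤ} (hi : on i) :
    0 < blkSize node Ai i := by
  have := h.fin i hi
  exact Nat.mul_pos Nat.card_pos (h.hN.ne _).card_pos

/-- the class of `x` inside its block -/
theorem GiantHyp.cls_iff (h : GiantHyp Γ node on Ai PA l δ) {i : ℤ} (hi : on i) {a : A}
    {β : Finset (A × Γ.V)} (hβ : ∀ q, q ∈ β ↔ q.2 ∈ node (i + 1) ∧ a * q.1⁻¹ ∈ Ai i)
    {x : A × Γ.V} (hx : x ∈ β) (r : A × Γ.V) :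
    (Γ.Conn Γ.a x r ∧ ¬ Γ.isH r.2) ↔ (r ∈ β ∧ Γ.Conn Γ.a x r) := by
  have hx' := (hβ x).1 hx
  constructor
  · rintro ⟨hc, hH⟩
    refine ⟨(hβ r).2 ⟨?_, ?_⟩, hc⟩
    · rcases h.hN.stay hc hi (Or.inr hx'.1) with h1 | h1
      · exact absurd ((h.hN.typ _ _ h1).2 (h.hN.even i hi)) hH
      · exact h1
    · have : a * r.1⁻¹ = (a * x.1⁻¹) * (x.1 * r.1⁻¹) := by group
      rw [this]
      exact mul_mem hx'.2 (h.conn_mem hc hi (Or.inr hx'.1))
  · rintro ⟨hr, hc⟩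
    exact ⟨hc, h.hN.not_isH hi ((hβ r).1 hr).1⟩

theorem GiantHyp.csize_eq_card (h : GiantHyp Γ node on Ai PA l δ) {i : ℤ} (hi : on i) {a : A}
    {β : Finset (A × Γ.V)} (hβ : ∀ q, q ∈ β ↔ q.2 ∈ node (i + 1) ∧ a * q.1⁻¹ ∈ Ai i)
    {x : A × Γ.V} (hx : x ∈ β) {C : Finset (A × Γ.V)}
    (hC : ∀ y, y ∈ C ↔ y ∈ β ∧ Γ.Conn Γ.a x y) : Γ.csize Γ.a x = C.card := by
  unfold csize
  rw [← Set.ncard_coe_finset]
  congr 1
  ext r
  rw [Set.mem_ofPred_eq, h.cls_iff hi hβ hx, Finset.mem_coe, hC]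

theorem mat_BB_eq_zero {K : Type} [Group K] {κ : Γ.V → F → K} {p q : K × Γ.V}
    (hc : ¬ Γ.Conn κ p q) : mat (adj (Γ.Bop κ) ∘L Γ.Bop κ) p q = 0 := by
  classical
  have hB : ∀ r x, mat (Γ.Bop κ) r x ≠ 0 → Γ.Conn κ r x := by
    intro r x hrx
    rw [mat_Bop] at hrx
    obtain ⟨t, -, ht⟩ := Finset.exists_ne_zero_of_sum_ne_zero hrx
    have : Γ.nb r.2 t = some x.2 ∧ κ r.2 t = r.1 * x.1⁻¹ := by
      by_contra hne; exact ht (if_neg hne)
    exact conn_of_edge this.1 this.2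
  have h := hasSum_mat_comp (adj (Γ.Bop κ)) (Γ.Bop κ) p q
  have e : (fun r => mat (adj (Γ.Bop κ)) p r * mat (Γ.Bop κ) r q) = fun _ => 0 := by
    funext r
    rw [mat_adj]
    by_cases h1 : mat (Γ.Bop κ) r p = 0
    · rw [h1, map_zero, zero_mul]
    · by_cases h2 : mat (Γ.Bop κ) r q = 0
      · rw [h2, mul_zero]
      · exact absurd ((hB _ _ h1).symm'.trans' (hB _ _ h2)) hc
  rw [e] at h
  exact h.unique hasSum_zero

/-- Apply `exists_giant` to the block `β` with `r = Conn Γ.a`, `η = δ²`.  For a saturated `D ⊆ β` let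
`ξ = ∑ q ∈ D, dl q`, `ζ = ∑ q ∈ β \ D, dl q`.  `mat (B* B) p q = 0` unless `Conn p q`
(`hasSum_mat_comp`, `mat_Bop`, `conn_of_edge`), so `⟨ξ, B* B ζ⟩ = 0`, while
`⟨ξ, PA ζ⟩ = |D| |β \ D| / M`; thus `|D| |β \ D| / M ≤ δ √|D| √|β \ D|`.  The class of `x` in `β` is
`{r | Conn x r ∧ ¬ isH r.2}` (`stay`, `conn_mem`). -/
theorem GiantHyp.giant (h : GiantHyp Γ node on Ai PA l δ) {i : ℤ} (hi : on i) (a : A) :
    ∃ q : A × Γ.V, q.2 ∈ node (i + 1) ∧ a * q.1⁻¹ ∈ Ai i ∧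
      (1 - 4 * δ ^ 2) * blkSize node Ai i ≤ Γ.csize Γ.a q := by
  classical
  obtain ⟨β, hβ, hcard⟩ := h.exists_blk hi a
  have hM := h.blk_pos hi
  have hne : β.Nonempty := Finset.card_pos.1 (by rw [hcard]; exact hM)
  have hr : Equivalence (Γ.Conn Γ.a) := ⟨Conn.refl' _, Conn.symm', Conn.trans'⟩
  obtain ⟨x, hx, C, hC, hle⟩ := exists_giant β hne (Γ.Conn Γ.a) hr (η := δ ^ 2) (by
    intro D hD hsat
    have h1 := sg_norm_sum_mat
      (adj (Γ.Bop Γ.a) ∘L Γ.Bop Γ.a - ((l ^ 2 : ℝ) : ℂ) • PA) D (β \ D)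
    have e : ∀ p ∈ D, ∀ q ∈ β \ D,
        mat (adj (Γ.Bop Γ.a) ∘L Γ.Bop Γ.a - ((l ^ 2 : ℝ) : ℂ) • PA) p q
          = - (((l ^ 2 * (blkSize node Ai i : ℝ)⁻¹ : ℝ)) : ℂ) := by
      intro p hp q hq
      obtain ⟨hq1, hq2⟩ := Finset.mem_sdiff.1 hq
      have hp' := (hβ p).1 (hD hp)
      have hq' := (hβ q).1 hq1
      have hpq : p.1 * q.1⁻¹ ∈ Ai i := by
        have : p.1 * q.1⁻¹ = (a * p.1⁻¹)⁻¹ * (a * q.1⁻¹) := by group
        rw [this]; exact mul_mem (inv_mem hp'.2) hq'.2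
      rw [mat_sub, mat_smul, h.m1 p q i hi hp'.1, if_pos ⟨hq'.1, hpq⟩,
        mat_BB_eq_zero fun hc => hq2 (hsat p hp q hq1 hc)]
      push_cast; ring
    rw [Finset.sum_congr rfl fun p hp => Finset.sum_congr rfl fun q hq => e p hp q hq] at h1
    simp only [Finset.sum_const, smul_neg, norm_neg, nsmul_eq_mul] at h1
    rw [norm_mul, norm_mul, Complex.norm_natCast, Complex.norm_natCast, Complex.norm_real,
      Real.norm_of_nonneg (by positivity)] at h1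
    have hMr : (0 : ℝ) < blkSize node Ai i := by exact_mod_cast hM
    have hl2 : 0 < l ^ 2 := by have := h.lpos; positivity
    have hl0 : l ≠ 0 := h.lpos.ne'
    set x : ℝ := (D.card : ℝ) * ((β \ D).card : ℝ) with hx
    have hx0 : 0 ≤ x := by positivity
    rw [← Real.sqrt_mul (Nat.cast_nonneg _), ← hx] at h1
    have h2 : x * (l ^ 2 * (blkSize node Ai i : ℝ)⁻¹) ≤ δ * l ^ 2 * Real.sqrt x := by
      calc _ = (D.card : ℝ) * (((β \ D).card : ℝ) * (l ^ 2 * (blkSize node Ai i : ℝ)⁻¹)) := by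
            rw [hx]; ring
        _ ≤ _ := h1
        _ ≤ _ := mul_le_mul_of_nonneg_right h.close (Real.sqrt_nonneg _)
    have h3 : x ≤ δ * blkSize node Ai i * Real.sqrt x := by
      have h4 := mul_le_mul_of_nonneg_right h2
        (show 0 ≤ (blkSize node Ai i : ℝ) * (l ^ 2)⁻¹ by positivity)
      calc x = x * (l ^ 2 * (blkSize node Ai i : ℝ)⁻¹) * ((blkSize node Ai i : ℝ) * (l ^ 2)⁻¹) := by
            field_simp
        _ ≤ _ := h4
        _ = _ := by field_simp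
    rw [hcard]
    have h5 := Real.sq_sqrt hx0
    have h6 := Real.sqrt_nonneg x
    have h7 : 0 ≤ δ * blkSize node Ai i := mul_nonneg h.dpos hMr.le
    have h8 : Real.sqrt x ≤ δ * blkSize node Ai i := by
      by_contra hlt
      push Not at hlt
      have : 0 < Real.sqrt x := lt_of_le_of_lt h7 hlt
      nlinarith
    calc x = Real.sqrt x ^ 2 := h5.symm
      _ ≤ (δ * blkSize node Ai i) ^ 2 := pow_le_pow_left₀ h6 h8 2
      _ = _ := by ring)
  have hx' := (hβ x).1 hx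
  refine ⟨x, hx'.1, hx'.2, ?_⟩
  rw [h.csize_eq_card hi hβ hx hC, ← hcard]
  exact hle

theorem GiantHyp.big_lt (h : GiantHyp Γ node on Ai PA l δ) {i : ℤ} {p : A × Γ.V}
    (hp : p.2 ∈ node (i + 1)) (bp : Γ.Big Γ.a node on (blkSize node Ai) p) :
    blkSize node Ai i < 2 * Γ.csize Γ.a p := by
  obtain ⟨j, -, hj, hlt⟩ := bp
  have : j = i := by have := h.hN.node_eq hj hp; omega
  rwa [this] at hlt

/-- two big vertices of the same block are connected (otherwise their disjoint classes would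
have more than `M` elements together) -/
theorem GiantHyp.conn_of_big (h : GiantHyp Γ node on Ai PA l δ) {i : ℤ} (hi : on i)
    {p q : A × Γ.V} (hp : p.2 ∈ node (i + 1)) (hq : q.2 ∈ node (i + 1)) (hpq : p.1 * q.1⁻¹ ∈ Ai i)
    (bp : Γ.Big Γ.a node on (blkSize node Ai) p) (bq : Γ.Big Γ.a node on (blkSize node Ai) q) :
    Γ.Conn Γ.a p q := by
  classical
  by_contra hc
  obtain ⟨β, hβ, hcard⟩ := h.exists_blk hi p.1
  have hpβ : p ∈ β := (hβ p).2 ⟨hp, by simp⟩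
  have hqβ : q ∈ β := (hβ q).2 ⟨hq, hpq⟩
  have e1 := h.csize_eq_card hi hβ hpβ (C := β.filter (Γ.Conn Γ.a p)) fun y => Finset.mem_filter
  have e2 := h.csize_eq_card hi hβ hqβ (C := β.filter (Γ.Conn Γ.a q)) fun y => Finset.mem_filter
  have hd : Disjoint (β.filter (Γ.Conn Γ.a p)) (β.filter (Γ.Conn Γ.a q)) := by
    rw [Finset.disjoint_left]
    intro y h1 h2
    exact hc ((Finset.mem_filter.1 h1).2.trans' (Finset.mem_filter.1 h2).2.symm')
  have hle : (β.filter (Γ.Conn Γ.a p) ∪ β.filter (Γ.Conn Γ.a q)).card ≤ β.card :=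
    Finset.card_le_card (Finset.union_subset (Finset.filter_subset _ _) (Finset.filter_subset _ _))
  rw [Finset.card_union_of_disjoint hd, ← e1, ← e2, hcard] at hle
  have b1 := h.big_lt hp bp
  have b2 := h.big_lt hq bq
  omega

/-- the giant class of a block consists of its big vertices -/
theorem GiantHyp.giant' (h : GiantHyp Γ node on Ai PA l δ) {i : ℤ} (hi : on i) {a : A}
    {β : Finset (A × Γ.V)} (hβ : ∀ q, q ∈ β ↔ q.2 ∈ node (i + 1) ∧ a * q.1⁻¹ ∈ Ai i) :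
    ∃ C : Finset (A × Γ.V), C ⊆ β ∧ (1 - 4 * δ ^ 2) * blkSize node Ai i ≤ C.card ∧ 0 < C.card ∧
      (∀ y ∈ β, y ∈ C ↔ Γ.Big Γ.a node on (blkSize node Ai) y) ∧
      ∀ y ∈ C, Γ.csize Γ.a y = C.card := by
  classical
  obtain ⟨x, hx1, hx2, hle⟩ := h.giant hi a
  have hx : x ∈ β := (hβ x).2 ⟨hx1, hx2⟩
  have e := h.csize_eq_card hi hβ hx (C := β.filter (Γ.Conn Γ.a x)) fun y => Finset.mem_filter
  have hM : (0 : ℝ) < blkSize node Ai i := by exact_mod_cast h.blk_pos hi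
  have bx : Γ.Big Γ.a node on (blkSize node Ai) x := by
    refine ⟨i, hi, hx1, ?_⟩
    have h1 := h.dpos
    have h2 := h.dle
    have h3 : δ ^ 2 ≤ 1 / 100 := by nlinarith
    have : (blkSize node Ai i : ℝ) < 2 * Γ.csize Γ.a x := by nlinarith
    exact_mod_cast this
  refine ⟨β.filter (Γ.Conn Γ.a x), Finset.filter_subset _ _, by rw [← e]; exact hle,
    by rw [← e]; exact bx.finite.2, fun y hy => ?_, fun y hy => ?_⟩
  · have hy' := (hβ y).1 hy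
    rw [Finset.mem_filter]
    constructor
    · rintro ⟨-, hc⟩
      exact (big_iff h.hN bx hc).2 (h.hN.not_isH hi hy'.1)
    · intro by'
      refine ⟨hy, h.conn_of_big hi hx1 hy'.1 ?_ bx by'⟩
      have : x.1 * y.1⁻¹ = (a * x.1⁻¹)⁻¹ * (a * y.1⁻¹) := by group
      rw [this]; exact mul_mem (inv_mem hx2) hy'.2
  · rw [← e, csize_conn (Finset.mem_filter.1 hy).2]

theorem GiantHyp.csize_le (h : GiantHyp Γ node on Ai PA l δ) {i : ℤ} (hi : on i) {q : A × Γ.V}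
    (hq : q.2 ∈ node (i + 1)) : Γ.csize Γ.a q ≤ blkSize node Ai i := by
  classical
  obtain ⟨β, hβ, hcard⟩ := h.exists_blk hi q.1
  have hqβ : q ∈ β := (hβ q).2 ⟨hq, by simp⟩
  rw [h.csize_eq_card hi hβ hqβ (C := β.filter (Γ.Conn Γ.a q)) fun y => Finset.mem_filter, ← hcard]
  exact Finset.card_filter_le _ _

/-- same block -/
def Same (Γ : BG F A) (node : ℤ → Finset Γ.V) (on : ℤ → Prop) (Ai : ℤ → Subgroup A) (i : ℤ)
    (p q : A × Γ.V) : Prop :=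
  on i ∧ p.2 ∈ node (i + 1) ∧ q.2 ∈ node (i + 1) ∧ p.1 * q.1⁻¹ ∈ Ai i

theorem Same.symm {i : ℤ} {p q : A × Γ.V} (h : Same Γ node on Ai i p q) :
    Same Γ node on Ai i q p := by
  refine ⟨h.1, h.2.2.1, h.2.1, ?_⟩
  have : q.1 * p.1⁻¹ = (p.1 * q.1⁻¹)⁻¹ := by group
  rw [this]; exact inv_mem h.2.2.2

theorem GiantHyp.mat_ne (h : GiantHyp Γ node on Ai PA l δ) {p q : A × Γ.V}
    (hne : mat PA p q ≠ 0) :
    ∃ i, Same Γ node on Ai i p q ∧ mat PA p q = ((blkSize node Ai i : ℂ))⁻¹ := by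
  classical
  by_cases hp : ∃ i, on i ∧ p.2 ∈ node (i + 1)
  · obtain ⟨i, hi, hp⟩ := hp
    rw [h.m1 p q i hi hp] at hne ⊢
    have hs : q.2 ∈ node (i + 1) ∧ p.1 * q.1⁻¹ ∈ Ai i := by
      by_contra hh; exact hne (if_neg hh)
    exact ⟨i, ⟨hi, hp, hs.1, hs.2⟩, if_pos hs⟩
  · exact absurd (h.m0 p q fun i hi hp' => hp ⟨i, hi, hp'⟩) hne

/-- reduction to one block -/
theorem GiantHyp.sum_blk (h : GiantHyp Γ node on Ai PA l δ) (p : A × Γ.V) (f : A × Γ.V → ℂ)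
    (P : ℤ → A × Γ.V → Prop) {c : ℝ} (hc : 0 ≤ c)
    (hf : ∀ q, f q ≠ 0 → ∃ i, Same Γ node on Ai i p q ∧ P i q)
    (hb : ∀ i, on i → p.2 ∈ node (i + 1) → ∀ β : Finset (A × Γ.V),
      (∀ q, q ∈ β ↔ q.2 ∈ node (i + 1) ∧ p.1 * q.1⁻¹ ∈ Ai i) → β.card = blkSize node Ai i →
      (∀ q, f q ≠ 0 → q ∈ β ∧ P i q) → ∀ s : Finset (A × Γ.V), ∑ q ∈ s, ‖f q‖ ≤ c)
    (s : Finset (A × Γ.V)) : ∑ q ∈ s, ‖f q‖ ≤ c := by
  by_cases hp : ∃ i, on i ∧ p.2 ∈ node (i + 1)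
  · obtain ⟨i, hi, hp⟩ := hp
    obtain ⟨β, hβ, hcard⟩ := h.exists_blk hi p.1
    refine hb i hi hp β hβ hcard (fun q hq => ?_) s
    obtain ⟨j, hs, hP⟩ := hf q hq
    have : j = i := by have := h.hN.node_eq hs.2.1 hp; omega
    subst this
    exact ⟨(hβ q).2 hs.2.2, hP⟩
  · rw [Finset.sum_eq_zero]
    · exact hc
    · intro q _
      by_contra hne
      obtain ⟨j, hs, -⟩ := hf q fun h0 => hne (by rw [h0, norm_zero])
      exact hp ⟨j, hs.1, hs.2.1⟩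

theorem GiantHyp.sum_one (h : GiantHyp Γ node on Ai PA l δ) (p : A × Γ.V) (f : A × Γ.V → ℂ)
    (hf : ∀ q, f q ≠ 0 → ∃ i, Same Γ node on Ai i p q ∧ ‖f q‖ ≤ (blkSize node Ai i : ℝ)⁻¹)
    (s : Finset (A × Γ.V)) : ∑ q ∈ s, ‖f q‖ ≤ 1 := by
  refine h.sum_blk p f _ zero_le_one hf (fun i hi _ β _ hcard hf' s => ?_) s
  have hM : (0 : ℝ) < blkSize node Ai i := by exact_mod_cast h.blk_pos hi
  refine (sg_sum_le f β (by positivity) hf' s).trans (le_of_eq ?_)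
  rw [hcard, mul_inv_cancel₀ hM.ne']

theorem GiantHyp.sum_small (h : GiantHyp Γ node on Ai PA l δ) (p : A × Γ.V) (f : A × Γ.V → ℂ)
    (hf : ∀ q, f q ≠ 0 → ¬ Γ.Big Γ.a node on (blkSize node Ai) q ∧
      ∃ i, Same Γ node on Ai i p q ∧ ‖f q‖ ≤ (blkSize node Ai i : ℝ)⁻¹)
    (s : Finset (A × Γ.V)) : ∑ q ∈ s, ‖f q‖ ≤ 4 * δ ^ 2 := by
  classical
  refine h.sum_blk p f _ (by positivity) (fun q hq => (hf q hq).2)
    (fun i hi _ β hβ hcard hf' s => ?_) s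
  have hM : (0 : ℝ) < blkSize node Ai i := by exact_mod_cast h.blk_pos hi
  obtain ⟨C, hCβ, hle, -, hC, -⟩ := h.giant' hi hβ
  refine (sg_sum_le f (β \ C) (c := (blkSize node Ai i : ℝ)⁻¹) (by positivity)
    (fun q hq => ⟨Finset.mem_sdiff.2 ⟨(hf' q hq).1,
      fun hqC => (hf q hq).1 ((hC q (hf' q hq).1).1 hqC)⟩, (hf' q hq).2⟩) s).trans ?_
  have e : ((β \ C).card : ℝ) = blkSize node Ai i - C.card := by
    rw [Finset.card_sdiff_of_subset hCβ, Nat.cast_sub (Finset.card_le_card hCβ), hcard]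
  rw [e, ← div_eq_mul_inv, div_le_iff₀ hM]
  linarith

theorem GiantHyp.sum_big (h : GiantHyp Γ node on Ai PA l δ) (p : A × Γ.V) (f : A × Γ.V → ℂ)
    (hf : ∀ q, f q ≠ 0 → Γ.Big Γ.a node on (blkSize node Ai) p ∧
      ∃ i, Same Γ node on Ai i p q ∧ Γ.Conn Γ.a p q ∧
        ‖f q‖ ≤ (Γ.csize Γ.a p : ℝ)⁻¹ - (blkSize node Ai i : ℝ)⁻¹)
    (s : Finset (A × Γ.V)) : ∑ q ∈ s, ‖f q‖ ≤ 4 * δ ^ 2 := by
  classical
  refine h.sum_blk p f _ (by positivity) (fun q hq => (hf q hq).2)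
    (fun i hi hp β hβ hcard hf' s => ?_) s
  by_cases bp : Γ.Big Γ.a node on (blkSize node Ai) p
  swap
  · rw [Finset.sum_eq_zero]
    · positivity
    · intro q _
      by_contra hne
      exact bp (hf q fun h0 => hne (by rw [h0, norm_zero])).1
  have hM : (0 : ℝ) < blkSize node Ai i := by exact_mod_cast h.blk_pos hi
  obtain ⟨C, hCβ, hle, hC0, hC, hsz⟩ := h.giant' hi hβ
  have hpβ : p ∈ β := (hβ p).2 ⟨hp, by simp⟩
  have e := hsz p ((hC p hpβ).2 bp)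
  have h1 : (0 : ℝ) < C.card := by exact_mod_cast hC0
  have h2 : (C.card : ℝ) ≤ blkSize node Ai i := by
    rw [← hcard]; exact_mod_cast Finset.card_le_card hCβ
  have h3 : (blkSize node Ai i : ℝ)⁻¹ ≤ (C.card : ℝ)⁻¹ := inv_anti₀ h1 h2
  refine (sg_sum_le f C (c := (C.card : ℝ)⁻¹ - (blkSize node Ai i : ℝ)⁻¹) (by linarith)
    (fun q hq => ⟨(hC q (hf' q hq).1).2 ((big_iff h.hN bp (hf' q hq).2.1).2
      (h.hN.not_isH hi ((hβ q).1 (hf' q hq).1).1)), by rw [← e]; exact (hf' q hq).2.2⟩) s).trans ?_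
  rw [mul_sub, mul_inv_cancel₀ h1.ne', ← div_eq_mul_inv, sub_le_comm, le_div_iff₀ hM]
  exact hle

/-- Let `G = {q | Big q}`, `θ = csize / M ∈ [1 - 4δ², 1]` on big vertices; a block has at most `4 δ² M`
non-big vertices.  `PA - Pav = (prj G PA prj G - Pav) + prj Gᶜ PA + prj G PA prj Gᶜ`; `schur₁` gives
`4δ²` (row and column sums `1 - θ`), `√(1 · 4δ²)`, `√(4δ² · 1)`. -/
theorem GiantHyp.norm_sub (h : GiantHyp Γ node on Ai PA l δ) :
    ‖PA - Γ.Pav Γ.a node on (blkSize node Ai)‖ ≤ 5 * δ := by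
  classical
  have hN := h.hN
  have hδ := h.dpos
  set M := blkSize node Ai with hMdef
  set E := PA - Γ.Pav Γ.a node on M with hE
  -- entries of `E` with a small endpoint
  have hsm : ∀ p q, ¬ (Γ.Big Γ.a node on M p ∧ Γ.Big Γ.a node on M q) → mat E p q ≠ 0 →
      ∃ i, Same Γ node on Ai i p q ∧ ‖mat E p q‖ ≤ (M i : ℝ)⁻¹ := by
    intro p q hpq hne
    have e : mat E p q = mat PA p q := by
      rw [hE, mat_sub, mat_Pav hN, if_neg fun hh => hpq hh.2, sub_zero]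
    rw [e] at hne ⊢
    obtain ⟨i, hi, he⟩ := h.mat_ne hne
    exact ⟨i, hi, by rw [he, norm_inv, Complex.norm_natCast]⟩
  -- entries with two big endpoints
  have hbg : ∀ p q, Γ.Big Γ.a node on M p → Γ.Big Γ.a node on M q → mat E p q ≠ 0 →
      ∃ i, Same Γ node on Ai i p q ∧ Γ.Conn Γ.a p q ∧
        ‖mat E p q‖ ≤ (Γ.csize Γ.a q : ℝ)⁻¹ - (M i : ℝ)⁻¹ := by
    intro p q bp bq hne
    obtain ⟨i, hi, hp, -⟩ := id bp
    by_cases hs : q.2 ∈ node (i + 1) ∧ p.1 * q.1⁻¹ ∈ Ai i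
    · have hc := h.conn_of_big hi hp hs.1 hs.2 bp bq
      refine ⟨i, ⟨hi, hp, hs.1, hs.2⟩, hc, ?_⟩
      rw [hE, mat_sub, mat_Pav hN, if_pos ⟨hc, bp, bq⟩, h.m1 p q i hi hp, if_pos hs]
      have h1 : (0 : ℝ) < Γ.csize Γ.a q := by exact_mod_cast bq.finite.2
      have h2 : (Γ.csize Γ.a q : ℝ) ≤ M i := by exact_mod_cast h.csize_le hi hs.1
      have h3 : (M i : ℝ)⁻¹ ≤ (Γ.csize Γ.a q : ℝ)⁻¹ := inv_anti₀ h1 h2
      have e : ((blkSize node Ai i : ℂ))⁻¹ - ((Γ.csize Γ.a q : ℂ))⁻¹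
          = -(((Γ.csize Γ.a q : ℝ)⁻¹ - (M i : ℝ)⁻¹ : ℝ) : ℂ) := by
        rw [hMdef]; push_cast; ring
      rw [e, norm_neg, Complex.norm_real, Real.norm_of_nonneg (by linarith)]
    · exfalso
      apply hne
      have hc : ¬ Γ.Conn Γ.a p q := by
        intro hc
        apply hs
        refine ⟨?_, h.conn_mem hc hi (Or.inr hp)⟩
        rcases hN.stay hc hi (Or.inr hp) with h1 | h1
        · exact absurd ((hN.typ _ _ h1).2 (hN.even i hi)) ((big_iff hN bp hc).1 bq)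
        · exact h1
      rw [hE, mat_sub, mat_Pav hN, if_neg fun hh => hc hh.1, h.m1 p q i hi hp, if_neg hs, sub_zero]
  let k1 : A × Γ.V → A × Γ.V → ℂ := fun p q =>
    if Γ.Big Γ.a node on M p ∧ Γ.Big Γ.a node on M q then mat E p q else 0
  let k2 : A × Γ.V → A × Γ.V → ℂ := fun p q =>
    if ¬ Γ.Big Γ.a node on M p then mat E p q else 0
  let k3 : A × Γ.V → A × Γ.V → ℂ := fun p q =>
    if Γ.Big Γ.a node on M p ∧ ¬ Γ.Big Γ.a node on M q then mat E p q else 0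
  have hk1 : ∀ p q, k1 p q ≠ 0 → Γ.Big Γ.a node on M p ∧ Γ.Big Γ.a node on M q ∧
      ∃ i, Same Γ node on Ai i p q ∧ Γ.Conn Γ.a p q ∧
        ‖k1 p q‖ ≤ (Γ.csize Γ.a q : ℝ)⁻¹ - (M i : ℝ)⁻¹ := by
    intro p q hne
    have hb : Γ.Big Γ.a node on M p ∧ Γ.Big Γ.a node on M q := by
      by_contra hh; exact hne (if_neg hh)
    have e : k1 p q = mat E p q := if_pos hb
    rw [e] at hne ⊢
    exact ⟨hb.1, hb.2, hbg p q hb.1 hb.2 hne⟩
  have hk2 : ∀ p q, k2 p q ≠ 0 → ¬ Γ.Big Γ.a node on M p ∧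
      ∃ i, Same Γ node on Ai i p q ∧ ‖k2 p q‖ ≤ (M i : ℝ)⁻¹ := by
    intro p q hne
    have hb : ¬ Γ.Big Γ.a node on M p := by
      intro hh; exact hne (if_neg (not_not.2 hh))
    have e : k2 p q = mat E p q := if_pos hb
    rw [e] at hne ⊢
    exact ⟨hb, hsm p q (fun hh => hb hh.1) hne⟩
  have hk3 : ∀ p q, k3 p q ≠ 0 → ¬ Γ.Big Γ.a node on M q ∧
      ∃ i, Same Γ node on Ai i p q ∧ ‖k3 p q‖ ≤ (M i : ℝ)⁻¹ := by
    intro p q hne
    have hb : Γ.Big Γ.a node on M p ∧ ¬ Γ.Big Γ.a node on M q := by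
      by_contra hh; exact hne (if_neg hh)
    have e : k3 p q = mat E p q := if_pos hb
    rw [e] at hne ⊢
    exact ⟨hb.2, hsm p q (fun hh => hb.2 hh.2) hne⟩
  have d4 : (0 : ℝ) ≤ 4 * δ ^ 2 := by positivity
  have s1 := schur₁ k1 (4 * δ ^ 2) (4 * δ ^ 2) d4 d4
    (fun p => h.sum_big p _ fun q hq => by
      obtain ⟨bp, -, i, hs, hc, hle⟩ := hk1 p q hq
      exact ⟨bp, i, hs, hc, by rw [csize_conn hc]; exact hle⟩)
    (fun q => h.sum_big q _ fun p hp => by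
      obtain ⟨-, bq, i, hs, hc, hle⟩ := hk1 p q hp
      exact ⟨bq, i, hs.symm, hc.symm', hle⟩)
  have s2 := schur₁ k2 1 (4 * δ ^ 2) zero_le_one d4
    (fun p => h.sum_one p _ fun q hq => (hk2 p q hq).2)
    (fun q => h.sum_small q _ fun p hp => by
      obtain ⟨bp, i, hs, hle⟩ := hk2 p q hp
      exact ⟨bp, i, hs.symm, hle⟩)
  have s3 := schur₁ k3 (4 * δ ^ 2) 1 d4 zero_le_one
    (fun p => h.sum_small p _ fun q hq => hk3 p q hq)
    (fun q => h.sum_one q _ fun p hp => by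
      obtain ⟨-, i, hs, hle⟩ := hk3 p q hp
      exact ⟨i, hs.symm, hle⟩)
  have hdec : E = kop k1 + kop k2 + kop k3 := by
    refine mat_ext fun p q => ?_
    rw [mat_add, mat_add, s1.1, s2.1, s3.1]
    by_cases bp : Γ.Big Γ.a node on M p <;> by_cases bq : Γ.Big Γ.a node on M q <;>
      simp [k1, k2, k3, bp, bq]
  have n1 := s1.2
  have n2 := s2.2
  have n3 := s3.2
  rw [Real.sqrt_mul_self d4] at n1
  rw [show (1 : ℝ) * (4 * δ ^ 2) = (2 * δ) ^ 2 by ring, Real.sqrt_sq (by positivity)] at n2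
  rw [show (4 * δ ^ 2) * (1 : ℝ) = (2 * δ) ^ 2 by ring, Real.sqrt_sq (by positivity)] at n3
  rw [hdec]
  have := h.dle
  calc ‖kop k1 + kop k2 + kop k3‖ ≤ ‖kop k1‖ + ‖kop k2‖ + ‖kop k3‖ := norm_add₃_le
    _ ≤ 5 * δ := by nlinarith

/-- the sum of the diagonal entries over the block `Ai i × node (i+1)` is `1` (one giant class), and
they do not depend on the first coordinate (`mat_Pav_mul_right`) -/
theorem GiantHyp.sum_diag (h : GiantHyp Γ node on Ai PA l δ) {i : ℤ} (hi : on i) :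
    ∑ v ∈ node (i + 1), mat (Γ.Pav Γ.a node on (blkSize node Ai)) (1, v) (1, v)
      = ((Nat.card (Ai i) : ℂ))⁻¹ := by
  classical
  have := h.fin i hi
  obtain ⟨S, hS, hc⟩ := sg_coset (Ai i) 1
  have hβ : ∀ q : A × Γ.V, q ∈ S ×ˢ node (i + 1) ↔ q.2 ∈ node (i + 1) ∧ 1 * q.1⁻¹ ∈ Ai i := by
    intro q; rw [Finset.mem_product, hS, and_comm]
  obtain ⟨C, hCβ, -, hC0, hC, hsz⟩ := h.giant' hi hβ
  have h1 : ∑ q ∈ S ×ˢ node (i + 1), mat (Γ.Pav Γ.a node on (blkSize node Ai)) q q = 1 := by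
    rw [← Finset.sum_subset hCβ]
    · rw [Finset.sum_congr rfl (g := fun _ => ((C.card : ℂ))⁻¹)]
      · rw [Finset.sum_const, nsmul_eq_mul, mul_inv_cancel₀]
        exact_mod_cast hC0.ne'
      · intro q hq
        have bq := (hC q (hCβ hq)).1 hq
        rw [mat_Pav h.hN, if_pos ⟨Conn.refl' _ _, bq, bq⟩, hsz q hq]
    · intro q hq hq'
      rw [mat_Pav h.hN, if_neg fun hh => hq' ((hC q hq).2 hh.2.1)]
  rw [Finset.sum_product] at h1
  have e : ∀ x ∈ S, ∑ v ∈ node (i + 1), mat (Γ.Pav Γ.a node on (blkSize node Ai)) (x, v) (x, v)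
      = ∑ v ∈ node (i + 1), mat (Γ.Pav Γ.a node on (blkSize node Ai)) (1, v) (1, v) := by
    intro x _
    refine Finset.sum_congr rfl fun v _ => ?_
    have := mat_Pav_mul_right (M := blkSize node Ai) h.hN Γ.a 1 1 x v v
    rwa [one_mul] at this
  rw [Finset.sum_congr rfl e, Finset.sum_const, nsmul_eq_mul, hc] at h1
  exact eq_inv_of_mul_eq_one_right h1

end BG
end Crest.Agent.R129
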