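import Crest.Agent.R129.SDp

/-!
# The deep part of `D` and the cover operator (task R129/SCover).  Statements frozen.

`Yset → Grp`, `(g,b) ↦ g` is injective (`deep_unique`, `Deep 5 → Deep 3`).  Let `j : Yset → Grp × V` be
the inclusion, `ι y = y.1.1`, `ι' y = (y.1.1, Γ.z y.1.2) : Grp × F`.  Then `U0 = emb ι ∘L adj (emb j)`,
`emb j ∘L adj (emb j) = prj Yset`, and with `U1 = emb ι' ∘L adj (emb j)`:
`Dp IsB = U1 ∘L Bdp ∘L adj U0` (compare entries: both vanish unless `g` and `h` are deep, at `b`, `b'`;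
then `s ↦ s.1` is a bijection between the `s` with `SEdge b (s,true) b'`, `s.2.1 = z`,
`gen s = g h⁻¹` and the ports `t` with `nb b t = some b'`, `z = Γ.z b`, `gl b t = g h⁻¹`).
-/

set_option autoImplicit false
open scoped BigOperators

namespace Crest.Agent.R129

section
variable {I J I' J' : Type} {f : I → J} {g : I' → J'}

theorem scov_emb_dl (hf : Function.Injective f) (i : I) : emb f (dl i) = dl (f i) := by
  classical
  ext j
  exact (mat_emb hf j i).trans (by rw [dl_apply])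

theorem scov_adj_emb (hf : Function.Injective f) (ξ : L2 I) : adj (emb f) (emb f ξ) = ξ :=
  congrArg (fun S : L2 I →L[ℂ] L2 I => S ξ) (adj_emb_comp hf)

theorem scov_cancel (hf : Function.Injective f) (T : L2 J' →L[ℂ] L2 I) :
    adj (emb f) ∘L emb f ∘L T = T :=
  ContinuousLinearMap.ext fun _ => scov_adj_emb hf _

theorem scov_norm_emb (hf : Function.Injective f) : ‖emb f‖ ≤ 1 :=
  ContinuousLinearMap.opNorm_le_bound _ zero_le_one fun ξ => by rw [norm_emb_apply hf, one_mul]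

theorem scov_norm_adj_emb (hf : Function.Injective f) : ‖adj (emb f)‖ ≤ 1 :=
  (LinearIsometryEquiv.norm_map _ _).trans_le (scov_norm_emb hf)

theorem scov_mat (hf : Function.Injective f) (hg : Function.Injective g) (T : L2 J →L[ℂ] L2 J')
    (i' : I') (i : I) : mat (adj (emb g) ∘L T ∘L emb f) i' i = mat T (g i') (f i) := by
  simp only [mat, ContinuousLinearMap.comp_apply, adj_emb_apply hg, scov_emb_dl hf]

/-- an operator supported on `range g × range f` -/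
theorem scov_eq (hf : Function.Injective f) (hg : Function.Injective g) {T : L2 J →L[ℂ] L2 J'}
    {S : L2 I →L[ℂ] L2 I'} (h1 : ∀ i' i, mat T (g i') (f i) = mat S i' i)
    (h2 : ∀ j' j, mat T j' j ≠ 0 → j' ∈ Set.range g ∧ j ∈ Set.range f) :
    T = emb g ∘L S ∘L adj (emb f) := by
  classical
  refine mat_ext fun j' j => ?_
  by_cases h : j' ∈ Set.range g ∧ j ∈ Set.range f
  · obtain ⟨⟨i', rfl⟩, i, rfl⟩ := h
    rw [h1, ← scov_mat hf hg, ContinuousLinearMap.comp_assoc, ContinuousLinearMap.comp_assoc,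
      scov_cancel hg, adj_emb_comp hf, ContinuousLinearMap.one_def, ContinuousLinearMap.comp_id]
  · rw [not_not.1 (mt (h2 j' j) h)]
    rcases not_and_or.1 h with h | h
    · refine HasSum.unique ?_ (hasSum_mat_comp (emb g) (S ∘L adj (emb f)) j' j)
      convert hasSum_zero using 2 with i'
      rw [mat_emb hg, if_neg fun e => h ⟨i', e.symm⟩, zero_mul]
    · have e : adj (emb f) (dl j) = 0 := by
        ext i
        rw [adj_emb_apply hf, dl_apply, if_neg fun e => h ⟨i, e⟩]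
        rfl
      simp only [mat, ContinuousLinearMap.comp_apply, e, map_zero]
      rfl

theorem scov_sq (hg : Function.Injective g) (V : L2 I →L[ℂ] L2 J) (S : L2 I →L[ℂ] L2 I') :
    adj (emb g ∘L S ∘L adj V) ∘L emb g ∘L S ∘L adj V = V ∘L (adj S ∘L S) ∘L adj V := by
  rw [adj, ContinuousLinearMap.adjoint_comp, ContinuousLinearMap.adjoint_comp,
    ContinuousLinearMap.adjoint_adjoint]
  exact ContinuousLinearMap.ext fun ξ => by
    simp only [ContinuousLinearMap.comp_apply, scov_adj_emb hg]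

theorem scov_prj (s : Set I) :
    prj s = emb (Subtype.val : s → I) ∘L adj (emb (Subtype.val : s → I)) := by
  classical
  refine scov_eq (S := (1 : L2 s →L[ℂ] L2 s)) Subtype.val_injective Subtype.val_injective
    (fun i' i => ?_) fun j' j h => ?_
  · simp only [mat_prj, mat_one, i.2, and_true, Subtype.val_inj]
  · rw [mat_prj] at h
    obtain ⟨rfl, h'⟩ := (ite_ne_right_iff.1 h).1
    simpa using h'

end

namespace BG
variable {F A : Type} [DecidableEq F] [Group A] {Γ : BG F A}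

theorem scov_unique (h : Γ.SCHyp) {g : Γ.Grp} {b b' : Γ.V} (hb : Γ.Deep 5 g b)
    (hb' : Γ.Deep 5 g b') : b = b' := by
  have key : ∀ b, Γ.Deep 5 g b → Γ.Deep 3 g b := fun b ⟨w, x, h1, h2, h3, h4, h5⟩ =>
    ⟨w, x, h1, h2, h3, h4, by linarith [h.one_le b]⟩
  exact deep_unique h (key b hb) (key b' hb')

theorem scov_inj (h : Γ.SCHyp) : Function.Injective fun y : Γ.Yset => y.1.1 := by
  rintro ⟨⟨g, b⟩, hb⟩ ⟨⟨g', b'⟩, hb'⟩ (rfl : g = g')
  obtain rfl : b = b' := scov_unique h hb hb'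
  rfl

theorem scov_inj' (h : Γ.SCHyp) : Function.Injective fun y : Γ.Yset => (y.1.1, Γ.z y.1.2) :=
  fun _ _ e => scov_inj h (Prod.ext_iff.1 e).1

open Classical in
theorem mat_U0 (h : Γ.SCHyp) (g : Γ.Grp) (p : Γ.Grp × Γ.V) :
    mat Γ.U0 g p = if g = p.1 ∧ p ∈ Γ.Yset then 1 else 0 := by
  refine (schur_count _ 1 1 (fun g p => ?_) (fun g => ?_) fun p => ?_).1 g p
  · split_ifs <;> simp
  · by_cases hg : ∃ b, Γ.Deep 5 g b
    · obtain ⟨b, hb⟩ := hg
      refine ⟨{(g, b)}, by simp, fun p hp => ?_⟩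
      obtain ⟨rfl, hp'⟩ := (ite_ne_right_iff.1 hp).1
      exact Finset.mem_singleton.2 (Prod.ext rfl (scov_unique h hp' hb))
    · refine ⟨∅, by simp, fun p hp => ?_⟩
      obtain ⟨rfl, hp'⟩ := (ite_ne_right_iff.1 hp).1
      exact absurd ⟨_, hp'⟩ hg
  · exact ⟨{p.1}, by simp, fun g hg => Finset.mem_singleton.2 (ite_ne_right_iff.1 hg).1.1⟩

theorem scov_U0 (h : Γ.SCHyp) :
    Γ.U0 = emb (fun y : Γ.Yset => y.1.1) ∘L adj (emb (Subtype.val : Γ.Yset → _)) := by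
  classical
  refine scov_eq (S := (1 : L2 Γ.Yset →L[ℂ] L2 Γ.Yset)) Subtype.val_injective (scov_inj h)
    (fun i' i => ?_) fun g p hp => ?_
  · simp only [mat_U0 h, mat_one, i.2, and_true, (scov_inj h).eq_iff]
  · rw [mat_U0 h] at hp
    obtain ⟨rfl, hp'⟩ := (ite_ne_right_iff.1 hp).1
    exact ⟨⟨⟨p, hp'⟩, rfl⟩, ⟨p, hp'⟩, rfl⟩

theorem adj_U0_comp (h : Γ.SCHyp) : adj Γ.U0 ∘L Γ.U0 = prj Γ.Yset := by
  rw [scov_U0 h, scov_prj]
  simp only [ContinuousLinearMap.adjoint_comp, ContinuousLinearMap.adjoint_adjoint,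
    ContinuousLinearMap.comp_assoc, scov_cancel (scov_inj h)]

theorem norm_U0_le (h : Γ.SCHyp) : ‖Γ.U0‖ ≤ 1 := by
  rw [scov_U0 h]
  exact (ContinuousLinearMap.opNorm_comp_le _ _).trans (mul_le_one₀ (scov_norm_emb (scov_inj h))
    (norm_nonneg _) (scov_norm_adj_emb Subtype.val_injective))

variable [Fintype F]

/-- the cover operator on `ℓ²(Yset)` -/
noncomputable def scovB (Γ : BG F A) : L2 Γ.Yset →L[ℂ] L2 Γ.Yset :=
  adj (emb Subtype.val) ∘L Γ.Bop Γ.gl ∘L emb Subtype.val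

theorem scov_Bdp : Γ.Bdp = emb Subtype.val ∘L Γ.scovB ∘L adj (emb Subtype.val) := by
  simp only [Bdp, scov_prj, scovB, ContinuousLinearMap.comp_assoc]

theorem scov_Dp (h : Γ.SCHyp) : Γ.Dp Γ.IsB = emb (fun y : Γ.Yset => (y.1.1, Γ.z y.1.2)) ∘L
    Γ.scovB ∘L adj (emb fun y : Γ.Yset => y.1.1) := by
  classical
  have key : ∀ {s g k}, Γ.gen s = g * k⁻¹ → (Γ.gen s)⁻¹ * g = k := fun e => by rw [e]; group
  refine scov_eq (scov_inj h) (scov_inj' h) ?_ ?_
  · rintro ⟨⟨g, b⟩, hb⟩ ⟨⟨k, b'⟩, hb'⟩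
    rw [scovB, scov_mat Subtype.val_injective Subtype.val_injective, mat_Dp, mat_Bop]
    symm
    refine Fintype.sum_of_injective (Γ.letter b) (fun _ _ e => congrArg Prod.fst e) _ _
      (fun s hs => if_neg ?_) fun t => @if_congr _ _ _ (_) (_) _ _ _ _ ⟨?_, ?_⟩ rfl rfl
    · rintro ⟨⟨c, c', h1 | h1, h2, -⟩, -⟩
      · exact hs ⟨_, scov_unique h h2 hb ▸ h1.2.2⟩
      · exact absurd h1.1 (by simp)
    · exact fun ⟨h1, h2⟩ => ⟨⟨b, b', Or.inl ⟨rfl, h1, rfl⟩, hb,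
        (key (s := Γ.letter b t) h2).symm ▸ hb'⟩, rfl, h2⟩
    · rintro ⟨⟨c, c', h1 | h1, h2, h3⟩, -, h4⟩
      · rw [key h4] at h3
        obtain rfl := scov_unique h h2 hb
        obtain rfl := scov_unique h h3 hb'
        exact ⟨h1.2.1, h4⟩
      · exact absurd h1.1 (by simp)
  · rintro ⟨g, z⟩ k hk
    rw [mat_Dp] at hk
    obtain ⟨s, -, hs⟩ := Finset.exists_ne_zero_of_sum_ne_zero hk
    obtain ⟨⟨c, c', h1 | h1, h2, h3⟩, rfl, h4⟩ := not_not.1 fun e => hs (if_neg e)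
    · rw [key h4] at h3
      exact ⟨⟨⟨(g, c), h2⟩, Prod.ext rfl (congrArg (·.2.1) h1.2.2)⟩, ⟨(k, c'), h3⟩, rfl⟩
    · exact absurd h1.1 (by simp)

theorem scov_DD (h : Γ.SCHyp) : adj (Γ.Dp Γ.IsB) ∘L Γ.Dp Γ.IsB = emb (fun y : Γ.Yset => y.1.1) ∘L
    (adj Γ.scovB ∘L Γ.scovB) ∘L adj (emb fun y : Γ.Yset => y.1.1) := by
  rw [scov_Dp h, scov_sq (scov_inj' h)]

theorem BB_eq (h : Γ.SCHyp) :
    adj (Γ.Dp Γ.IsB) ∘L Γ.Dp Γ.IsB = Γ.U0 ∘L (adj Γ.Bdp ∘L Γ.Bdp) ∘L adj Γ.U0 := by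
  rw [scov_DD h, scov_U0 h, scov_Bdp, scov_sq Subtype.val_injective,
    adj.eq_1 (_ ∘L _), ContinuousLinearMap.adjoint_comp, ContinuousLinearMap.adjoint_adjoint]
  exact ContinuousLinearMap.ext fun ξ => by
    simp only [ContinuousLinearMap.comp_apply, scov_adj_emb Subtype.val_injective]

/-- `Bdp = adj U1 ∘L Dp IsB ∘L U0` -/
theorem norm_Bdp_le (h : Γ.SCHyp) : ‖Γ.Bdp‖ ≤ ‖Γ.Dp Γ.IsB‖ := by
  have key : ∀ {I J I' J' : Type} (R : L2 J' →L[ℂ] L2 I') (T : L2 J →L[ℂ] L2 J')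
      (S : L2 I →L[ℂ] L2 J), ‖R‖ ≤ 1 → ‖S‖ ≤ 1 → ‖R ∘L T ∘L S‖ ≤ ‖T‖ := fun R T S hR hS =>
    (R.opNorm_comp_le _).trans ((mul_le_of_le_one_left (norm_nonneg _) hR).trans
      ((T.opNorm_comp_le _).trans (mul_le_of_le_one_right (norm_nonneg _) hS)))
  have e : Γ.scovB = adj (emb fun y : Γ.Yset => (y.1.1, Γ.z y.1.2)) ∘L Γ.Dp Γ.IsB ∘L
      emb fun y : Γ.Yset => y.1.1 := by
    rw [scov_Dp h]
    simp only [ContinuousLinearMap.comp_assoc, scov_cancel (scov_inj' h), adj_emb_comp (scov_inj h),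
      ContinuousLinearMap.one_def, ContinuousLinearMap.comp_id]
  rw [scov_Bdp]
  refine (key _ _ _ (scov_norm_emb Subtype.val_injective)
    (scov_norm_adj_emb Subtype.val_injective)).trans ?_
  rw [e]
  exact key _ _ _ (scov_norm_adj_emb (scov_inj' h)) (scov_norm_emb (scov_inj h))

/-- restrict to `L2 Yset` (`Gap.of_intertwine` with `emb j`), then `Gap.conj` with `emb ι` -/
theorem gap_B (h : Γ.SCHyp) {γ r : ℝ} (hg : Gap (adj Γ.Bdp ∘L Γ.Bdp) γ r) (hr : r ≤ γ) :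
    Gap (adj (Γ.Dp Γ.IsB) ∘L Γ.Dp Γ.IsB) γ r := by
  rw [scov_DD h]
  refine Gap.conj (hg.of_intertwine (emb Subtype.val) (norm_emb_apply Subtype.val_injective) ?_) hr
    _ (adj_emb_comp (scov_inj h))
  rw [scov_Bdp, scov_sq Subtype.val_injective]
  exact ContinuousLinearMap.ext fun ξ => by
    simp only [ContinuousLinearMap.comp_apply, scov_adj_emb Subtype.val_injective]

end BG
end Crest.Agent.R129
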