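import Crest.Agent.R129.SDefs

/-!
# Shallow edges form a forest; balls (task R129/SForest).  Statements frozen.
-/

set_option autoImplicit false
open scoped BigOperators

namespace Crest.Agent.R129
namespace BG
variable {F A : Type} [Fintype F]

open Classical in
theorem sf_sum_card {I : Type} (P : I → F → Prop) (c : I → F → ZMod 4)
    (h : ∀ t i i', P i t → P i' t → i = i') (s : Finset I) :
    ∑ i ∈ s, ‖∑ t : F, if P i t then ph (c i t) else 0‖ ≤ (Fintype.card F : ℝ) := by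
  refine (Finset.sum_le_sum fun q _ => norm_sum_le _ _).trans ?_
  rw [Finset.sum_comm]
  refine (Finset.sum_le_sum (g := fun _ => (1 : ℝ)) fun t _ => ?_).trans (by simp)
  refine wq_sum_one (fun i => if P i t then ph (c i t) else 0) (fun i => ?_) ?_ s
  · split_ifs
    · exact (norm_ph _).le
    · simp
  · intro i i' hi hi'
    refine h t i i' ?_ ?_
    · by_contra hne; exact hi (if_neg hne)
    · by_contra hne; exact hi' (if_neg hne)

open Classical in
theorem sf_sum_one {I : Type} (P : I → F → Prop) (c : I → F → ZMod 4)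
    (h : ∀ t i i', P i t → P i' t → i = i') (h' : ∀ i i' t t', P i t → P i' t' → t = t')
    (s : Finset I) : ∑ i ∈ s, ‖∑ t : F, if P i t then ph (c i t) else 0‖ ≤ 1 := by
  refine (Finset.sum_le_sum fun q _ => norm_sum_le _ _).trans ?_
  rw [← Finset.sum_product']
  refine wq_sum_one (fun x : I × F => if P x.1 x.2 then ph (c x.1 x.2) else 0) (fun i => ?_) ?_ _
  · split_ifs
    · exact (norm_ph _).le
    · simp
  · rintro ⟨i, t⟩ ⟨i', t'⟩ hi hi'
    have h1 : P i t := by by_contra hne; exact hi (if_neg hne)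
    have h2 : P i' t' := by by_contra hne; exact hi' (if_neg hne)
    obtain rfl := h' i i' t t' h1 h2
    rw [h t i i' h1 h2]

omit [Fintype F] in
theorem sf_row {Γ : BG F A} {K : Type} [Group K] {κ : Γ.V → F → K} {p q q' : K × Γ.V} {t : F}
    (h1 : Γ.nb p.2 t = some q.2 ∧ κ p.2 t = p.1 * q.1⁻¹)
    (h2 : Γ.nb p.2 t = some q'.2 ∧ κ p.2 t = p.1 * q'.1⁻¹) : q = q' :=
  Prod.ext (inv_injective (mul_left_cancel (h1.2.symm.trans h2.2)))
    (Option.some_injective _ (h1.1.symm.trans h2.1))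

omit [Fintype F] in
theorem sf_col {Γ : BG F A} {K : Type} [Group K] {κ : Γ.V → F → K} {p p' q : K × Γ.V} {t : F}
    (h1 : Γ.nb p.2 t = some q.2 ∧ κ p.2 t = p.1 * q.1⁻¹)
    (h2 : Γ.nb p'.2 t = some q.2 ∧ κ p'.2 t = p'.1 * q.1⁻¹) : p = p' := by
  have e : p.2 = p'.2 := Γ.nb_inj _ _ _ _ h1.1 h2.1
  refine Prod.ext ?_ e
  have h3 := h1.2
  rw [e] at h3
  exact mul_right_cancel (h3.symm.trans h2.2)

omit [Fintype F] in
theorem sf_fwd [Group A] {Γ : BG F A} {p q : Γ.Grp × Γ.V} {t : F}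
    (h1 : Γ.nb p.2 t = some q.2 ∧ Γ.gl p.2 t = p.1 * q.1⁻¹) :
    Γ.SEdge p.2 (Γ.letter p.2 t, true) q.2 ∧
      (Γ.mkG (sg (Γ.letter p.2 t, true)))⁻¹ * p.1 = q.1 := by
  refine ⟨Or.inl ⟨rfl, h1.1, rfl⟩, ?_⟩
  have : Γ.mkG (sg (Γ.letter p.2 t, true)) = Γ.gl p.2 t := rfl
  rw [this, h1.2]
  group

omit [Fintype F] in
theorem sf_bwd [Group A] {Γ : BG F A} {p q : Γ.Grp × Γ.V} {t : F}
    (h1 : Γ.nb p.2 t = some q.2 ∧ Γ.gl p.2 t = p.1 * q.1⁻¹) :
    Γ.SEdge q.2 (Γ.letter p.2 t, false) p.2 ∧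
      (Γ.mkG (sg (Γ.letter p.2 t, false)))⁻¹ * q.1 = p.1 := by
  refine ⟨Or.inr ⟨rfl, h1.1, rfl⟩, ?_⟩
  have : Γ.mkG (sg (Γ.letter p.2 t, false)) = (Γ.gl p.2 t)⁻¹ := map_inv Γ.mkG _
  rw [this, h1.2]
  group

/-- Take `ht` from `exists_height`.  The kernel of `Bop gl - Bdp` (`mat_Bop`, `mat_prj_comp`) is the sum
over ports `t` of the entries with `nb p.2 t = some q.2`, `gl p.2 t = p.1 * q.1⁻¹`, `p ∉ Y ∨ q ∉ Y`; such
an entry is the edge `SEdge p.2 (letter p.2 t, true) q.2` from `p` to `q = ((gl p.2 t)⁻¹ * p.1, q.2)` and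
the edge `SEdge q.2 (letter p.2 t, false) p.2` from `q` to `p`.  Split it into the entries with
`ht q < ht p` (row sums `≤ 1`: at most one port; column sums `≤ n` by `nb_inj`) and those with
`ht p < ht q` (column sums `≤ 1`, row sums `≤ n`); `schur₁` for both. -/
theorem norm_Bop_sub_Bdp [DecidableEq F] [Group A] {Γ : BG F A} (h : Γ.SCHyp) :
    ‖Γ.Bop Γ.gl - Γ.Bdp‖ ≤ 2 * Real.sqrt (Fintype.card F) := by
  classical
  obtain ⟨ht, hne, huniq⟩ := exists_height h
  let E : Γ.Grp × Γ.V → Γ.Grp × Γ.V → F → Prop := fun p q t =>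
    Γ.nb p.2 t = some q.2 ∧ Γ.gl p.2 t = p.1 * q.1⁻¹
  let P1 : Γ.Grp × Γ.V → Γ.Grp × Γ.V → F → Prop := fun p q t =>
    E p q t ∧ ¬ (p ∈ Γ.Yset ∧ q ∈ Γ.Yset) ∧ ht q < ht p
  let P2 : Γ.Grp × Γ.V → Γ.Grp × Γ.V → F → Prop := fun p q t =>
    E p q t ∧ ¬ (p ∈ Γ.Yset ∧ q ∈ Γ.Yset) ∧ ht p < ht q
  have s1 := schur₁ (fun p q => ∑ t : F, if P1 p q t then ph (Γ.om p.2 t) else 0) 1
    (Fintype.card F : ℝ) zero_le_one (Nat.cast_nonneg _)
    (fun p s => by
      convert sf_sum_one (P1 p) (fun _ t => Γ.om p.2 t)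
        (fun t q q' h1 h2 => sf_row h1.1 h2.1) (fun q q' t t' h1 h2 => ?_) s
      obtain ⟨a1, a2⟩ := sf_fwd h1.1
      obtain ⟨b1, b2⟩ := sf_fwd h2.1
      have := huniq p.1 p.2 _ _ _ _ a1 b1 (by rw [a2]; exact not_and_or.1 h1.2.1)
        (by rw [a2]; exact h1.2.2) (by rw [b2]; exact h2.2.2)
      exact congrArg (fun σ => σ.1.1) this)
    (fun q s => by
      convert sf_sum_card (fun p => P1 p q) (fun p t => Γ.om p.2 t)
        (fun t p p' h1 h2 => sf_col h1.1 h2.1) s)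
  have s2 := schur₁ (fun p q => ∑ t : F, if P2 p q t then ph (Γ.om p.2 t) else 0)
    (Fintype.card F : ℝ) 1 (Nat.cast_nonneg _) zero_le_one
    (fun p s => by
      convert sf_sum_card (P2 p) (fun _ t => Γ.om p.2 t)
        (fun t q q' h1 h2 => sf_row h1.1 h2.1) s)
    (fun q s => by
      convert sf_sum_one (fun p => P2 p q) (fun p t => Γ.om p.2 t)
        (fun t p p' h1 h2 => sf_col h1.1 h2.1) (fun p p' t t' h1 h2 => ?_) s
      obtain ⟨a1, a2⟩ := sf_bwd h1.1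
      obtain ⟨b1, b2⟩ := sf_bwd h2.1
      have := huniq q.1 q.2 _ _ _ _ a1 b1 (by rw [a2]; exact (not_and_or.1 h1.2.1).symm)
        (by rw [a2]; exact h1.2.2) (by rw [b2]; exact h2.2.2)
      exact congrArg (fun σ => σ.1.1) this)
  have e : Γ.Bop Γ.gl - Γ.Bdp =
      kop (fun p q => ∑ t : F, if P1 p q t then ph (Γ.om p.2 t) else 0) +
      kop (fun p q => ∑ t : F, if P2 p q t then ph (Γ.om p.2 t) else 0) := by
    apply mat_ext
    intro p q
    rw [mat_sub, mat_add, s1.1, s2.1, Bdp, mat_prj_comp, mat_Bop, ← Finset.sum_add_distrib]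
    by_cases hY : p ∈ Γ.Yset ∧ q ∈ Γ.Yset
    · rw [if_pos hY, sub_self]
      symm
      refine Finset.sum_eq_zero fun t _ => ?_
      rw [if_neg fun h => h.2.1 hY, if_neg fun h => h.2.1 hY, add_zero]
    · rw [if_neg hY, sub_zero]
      refine Finset.sum_congr rfl fun t _ => ?_
      by_cases hE : E p q t
      · have h1 := hne p.1 p.2 _ _ (sf_fwd hE).1
        rw [(sf_fwd hE).2] at h1
        rw [if_pos hE]
        rcases lt_or_gt_of_ne h1 with h2 | h2
        · rw [if_pos ⟨hE, hY, h2⟩, if_neg fun h => lt_asymm h2 h.2.2, add_zero]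
        · rw [if_neg fun h => lt_asymm h2 h.2.2, if_pos ⟨hE, hY, h2⟩, zero_add]
      · rw [if_neg hE, if_neg fun h => hE h.1, if_neg fun h => hE h.1, add_zero]
  rw [e]
  refine (norm_add_le _ _).trans ?_
  have h1 := s1.2
  have h2 := s2.2
  rw [one_mul] at h1
  rw [mul_one] at h2
  linarith

theorem sf_ball (Γ : BG F A) {K : Type} [Group K] (κ : Γ.V → F → K) (v : Γ.V) (ℓ : ℕ) :
    ∃ s : Finset (K × Γ.V), s.card ≤ (Fintype.card F + 1) ^ ℓ ∧
      ∀ (k : K) (v' : Γ.V) (m : ℕ), m ≤ ℓ → Γ.Path κ v k v' m → (k, v') ∈ s := by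
  classical
  have hstep : ∀ (x : K × Γ.V) (t : F), ∃ y : K × Γ.V,
      (∀ w, Γ.nb x.2 t = some w → y = (x.1 * κ x.2 t, w)) ∧
      (∀ u, Γ.nb u t = some x.2 → y = (x.1 * (κ u t)⁻¹, u)) := by
    intro x t
    by_cases h1 : ∃ w, Γ.nb x.2 t = some w
    · obtain ⟨w, hw⟩ := h1
      refine ⟨(x.1 * κ x.2 t, w), fun w' hw' => ?_, fun u hu => ?_⟩
      · rw [Option.some_injective _ (hw.symm.trans hw')]
      · exact absurd (Γ.nb_typ _ _ _ hw).1 (Γ.nb_typ _ _ _ hu).2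
    by_cases h2 : ∃ u, Γ.nb u t = some x.2
    · obtain ⟨u, hu⟩ := h2
      refine ⟨(x.1 * (κ u t)⁻¹, u), fun w' hw' => absurd ⟨w', hw'⟩ h1, fun u' hu' => ?_⟩
      rw [Γ.nb_inj _ _ _ _ hu hu']
    · exact ⟨x, fun w' hw' => absurd ⟨w', hw'⟩ h1, fun u' hu' => absurd ⟨u', hu'⟩ h2⟩
  choose step hs1 hs2 using hstep
  induction ℓ with
  | zero =>
    refine ⟨{(1, v)}, by simp, fun k v' m hm hp => ?_⟩
    cases hp with
    | refl => simp
    | fwd => omega
    | bwd => omega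
  | succ ℓ ih =>
    obtain ⟨s, hs, hmem⟩ := ih
    refine ⟨s ∪ (s ×ˢ (Finset.univ : Finset F)).image fun x => step x.1 x.2, ?_,
      fun k v' m hm hp => ?_⟩
    · refine (Finset.card_union_le _ _).trans ?_
      have : ((s ×ˢ (Finset.univ : Finset F)).image fun x => step x.1 x.2).card ≤
          s.card * Fintype.card F := Finset.card_image_le.trans (by simp)
      calc _ ≤ s.card * (Fintype.card F + 1) := by rw [mul_add, mul_one]; omega
        _ ≤ _ := by rw [pow_succ]; exact Nat.mul_le_mul_right _ hs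
    · cases hp with
      | refl => exact Finset.mem_union_left _ (hmem _ _ 0 (Nat.zero_le _) (Path.refl v))
      | @fwd u w k m t hp hn =>
        refine Finset.mem_union_right _ (Finset.mem_image.2 ⟨((k, u), t), ?_, ?_⟩)
        · simpa using hmem _ _ m (by omega) hp
        · exact hs1 (k, u) t _ hn
      | @bwd u w k m t hp hn =>
        refine Finset.mem_union_right _ (Finset.mem_image.2 ⟨((k, w), t), ?_, ?_⟩)
        · simpa using hmem _ _ m (by omega) hp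
        · exact hs2 (k, w) t _ hn

/-- Induction on `ℓ`.  Every vertex of the cover has at most one neighbour per port (`nb_typ`,
`nb_inj`); it is convenient to reverse paths, or to induct on the last edge with `r` variable after
rewriting the statement as a bound on `{(k, v') | Path κ v k v' m}` and using the reversed path. -/
theorem exists_ball (Γ : BG F A) {K : Type} [Group K] (κ : Γ.V → F → K) (r : K × Γ.V) (ℓ : ℕ) :
    ∃ s : Finset (K × Γ.V), s.card ≤ (Fintype.card F + 1) ^ ℓ ∧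
      ∀ (p : K × Γ.V) (m : ℕ), m ≤ ℓ → Γ.Path κ p.2 (p.1 * r.1⁻¹) r.2 m → p ∈ s := by
  classical
  obtain ⟨s, hs, hmem⟩ := sf_ball Γ κ r.2 ℓ
  refine ⟨s.image fun x => (x.1⁻¹ * r.1, x.2), Finset.card_image_le.trans hs,
    fun p m hm hp => Finset.mem_image.2 ⟨_, hmem _ _ m hm hp.symm, ?_⟩⟩
  simp

end BG
end Crest.Agent.R129
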