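import Crest.Agent.R129.SAvg
import Crest.Agent.R129.SCover
import Crest.Agent.R129.SForest

/-!
# The equivariant map `Uav` is close to `U0 ∘ Pav` (task R129/SRest).  Statements frozen.
-/

set_option autoImplicit false
open scoped BigOperators

namespace Crest.Agent.R129
namespace BG
variable {F A : Type} [Fintype F] [DecidableEq F] [Group A] {Γ : BG F A}
  {node : ℤ → Finset Γ.V} {on : ℤ → Prop} {N : ℤ → ℕ} {ε : ℝ}

theorem sr_sum_le {I : Type} (f : I → ℝ) (c : ℝ) (hc : 0 ≤ c) (u : Finset I) (hf : ∀ i, f i ≤ c)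
    (h0 : ∀ i, i ∉ u → f i ≤ 0) (s : Finset I) : ∑ i ∈ s, f i ≤ u.card * c := by
  classical
  calc ∑ i ∈ s, f i ≤ ∑ i ∈ s, if i ∈ u then c else 0 := by
        refine Finset.sum_le_sum fun i _ => ?_
        split_ifs with h
        exacts [hf i, h0 i h]
    _ = ((s.filter fun i => i ∈ u).card : ℝ) * c := by
        rw [← Finset.sum_filter, Finset.sum_const, nsmul_eq_mul]
    _ ≤ u.card * c := by
        refine mul_le_mul_of_nonneg_right ?_ hc
        exact_mod_cast Finset.card_le_card fun i hi => (Finset.mem_filter.1 hi).2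

theorem sr_geom (s : Finset ℤ) : ∑ i ∈ s, ((2 : ℝ) ^ i.natAbs)⁻¹ ≤ 3 := by
  have h1 : HasSum (fun n : ℕ => ((2 : ℝ) ^ (n : ℤ).natAbs)⁻¹) 2 := by
    simpa using hasSum_geometric_two
  have h2 : HasSum (fun n : ℕ => ((2 : ℝ) ^ (-((n : ℤ) + 1)).natAbs)⁻¹) 1 := by
    have e : ∀ n : ℕ, ((2 : ℝ) ^ (-((n : ℤ) + 1)).natAbs)⁻¹ = 1 / 2 / 2 ^ n := by
      intro n
      have : (-((n : ℤ) + 1)).natAbs = n + 1 := by omega
      rw [this, pow_succ]
      field_simp
    simp only [e]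
    exact hasSum_geometric_two' 1
  have h3 := HasSum.of_nat_of_neg_add_one (f := fun i : ℤ => ((2 : ℝ) ^ i.natAbs)⁻¹) h1 h2
  exact (sum_le_hasSum s (fun _ _ => by positivity) h3).trans (by norm_num)

omit [Fintype F] [DecidableEq F] [Group A] in
theorem sr_notH (hN : Γ.NodeHyp node on) {K : Type} [Group K] {κ : Γ.V → F → K} {M : ℤ → ℕ}
    {q : K × Γ.V} (h : Γ.Big κ node on M q) : ¬ Γ.isH q.2 := by
  obtain ⟨i, hi, hq, -⟩ := h
  rw [hN.typ _ _ hq, Int.even_add_one, not_not]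
  exact hN.even i hi

open Classical in
omit [Fintype F] [DecidableEq F] [Group A] in
theorem sr_row (hN : Γ.NodeHyp node on) {K : Type} [Group K] (κ : Γ.V → F → K) (M : ℤ → ℕ)
    (p : K × Γ.V) (s : Finset (K × Γ.V)) :
    ∑ q ∈ s, (if Γ.Conn κ p q ∧ Γ.Big κ node on M q then ((Γ.csize κ q : ℝ))⁻¹ else 0) ≤ 1 := by
  by_cases h0 : Γ.csize κ p = 0
  · refine (Finset.sum_nonpos fun q _ => ?_).trans zero_le_one
    split_ifs with h
    · rw [← csize_conn h.1, h0]; simp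
    · exact le_rfl
  · have hfin : {r | Γ.Conn κ p r ∧ ¬ Γ.isH r.2}.Finite := Set.finite_of_ncard_ne_zero h0
    refine (sr_sum_le _ ((Γ.csize κ p : ℝ))⁻¹ (by positivity) hfin.toFinset (fun q => ?_)
      (fun q hq => ?_) s).trans ?_
    · split_ifs with h
      · rw [csize_conn h.1]
      · positivity
    · rw [if_neg]
      intro h
      exact hq (hfin.mem_toFinset.2 ⟨h.1, sr_notH hN h.2⟩)
    · rw [← Set.ncard_eq_toFinset_card _ hfin]
      exact (mul_inv_cancel₀ (by exact_mod_cast h0)).le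

theorem sr_col {a b c ε t : ℝ} (ha : a * t ≤ ε * b) (hε : 0 ≤ ε) {n : ℝ} (hn : 0 < n) (ht : 0 < t)
    (hc0 : 0 < c) (hc : b * n < 2 * c) : a * c⁻¹ ≤ 2 * ε * (t * n)⁻¹ := by
  rw [← div_eq_mul_inv, ← div_eq_mul_inv, div_le_div_iff₀ hc0 (mul_pos ht hn)]
  have h1 : a * t * n ≤ ε * b * n := mul_le_mul_of_nonneg_right ha hn.le
  have h2 : ε * (b * n) ≤ ε * (2 * c) := mul_le_mul_of_nonneg_left hc.le hε
  nlinarith

/-- `exists_root`, `NodeHyp.stay` for the root, `exists_ball` with `ℓ = ⌈8 L(root)⌉₊` -/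
theorem exists_shallow (h : Γ.SCHyp) (hN : Γ.NodeHyp node on)
    (hs : ∀ i, on i → ∀ v, v ∈ node i ∨ v ∈ node (i + 1) →
      ((Fintype.card F : ℝ) + 1) ^ (⌈8 * Γ.L v⌉₊ + 1) * 2 ^ i.natAbs ≤ ε * N i)
    {i : ℤ} (hi : on i) {q : Γ.Grp × Γ.V} (hq : q.2 ∈ node (i + 1)) :
    ∃ s : Finset (Γ.Grp × Γ.V), (s.card : ℝ) * 2 ^ i.natAbs ≤ ε * N i ∧
      ∀ p, Γ.Conn Γ.gl q p → p ∉ Γ.Yset → p ∈ s := by
  obtain ⟨root, h1, h2, h3⟩ := exists_root h
  obtain ⟨s, hs1, hs2⟩ := exists_ball Γ Γ.gl (root q) ⌈8 * Γ.L (root q).2⌉₊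
  refine ⟨s, ?_, fun p hp hY => ?_⟩
  · refine le_trans ?_ (hs i hi (root q).2 (hN.stay (h1 q) hi (Or.inr hq)))
    refine mul_le_mul_of_nonneg_right ?_ (by positivity)
    have a1 : (s.card : ℝ) ≤ ((Fintype.card F : ℝ) + 1) ^ ⌈8 * Γ.L (root q).2⌉₊ := by
      exact_mod_cast hs1
    refine a1.trans (pow_le_pow_right₀ ?_ (Nat.le_succ _))
    have : (0 : ℝ) ≤ Fintype.card F := by positivity
    linarith
  · obtain ⟨m, hm, hp'⟩ := h3 p hY
    rw [← h2 q p hp] at hm hp'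
    exact hs2 p m (by exact_mod_cast hm.trans (Nat.le_ceil _)) hp'

/-- `schur₁`: row sums `≤ 1`, column sums `≤ |s| / csize ≤ 2 |s| / (N i |node (i+1)|) ≤ 2 ε` -/
theorem norm_prj_compl_Pav (h : Γ.SCHyp) (hN : Γ.NodeHyp node on) (hε : 0 ≤ ε)
    (hs : ∀ i, on i → ∀ v, v ∈ node i ∨ v ∈ node (i + 1) →
      ((Fintype.card F : ℝ) + 1) ^ (⌈8 * Γ.L v⌉₊ + 1) * 2 ^ i.natAbs ≤ ε * N i) :
    ‖prj Γ.Ysetᶜ ∘L Γ.Pav Γ.gl node on fun i => N i * (node (i + 1)).card‖
      ≤ Real.sqrt (2 * ε) := by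
  classical
  set M : ℤ → ℕ := fun i => N i * (node (i + 1)).card with hM
  let k : Γ.Grp × Γ.V → Γ.Grp × Γ.V → ℂ := fun p q =>
    if p ∉ Γ.Yset ∧ Γ.Conn Γ.gl p q ∧ Γ.Big Γ.gl node on M p ∧ Γ.Big Γ.gl node on M q
    then ((Γ.csize Γ.gl q : ℂ))⁻¹ else 0
  have hk : kop k = prj Γ.Ysetᶜ ∘L Γ.Pav Γ.gl node on M := by
    refine eq_kop fun p q => ?_
    have e : mat (prj Γ.Ysetᶜ ∘L Γ.Pav Γ.gl node on M) p q =
        if p ∈ Γ.Ysetᶜ then mat (Γ.Pav Γ.gl node on M) p q else 0 := by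
      have := prj_apply Γ.Ysetᶜ (Γ.Pav Γ.gl node on M (dl q)) p
      convert this <;> rfl
    rw [e, mat_Pav hN]
    by_cases hp : p ∈ Γ.Yset <;> simp [k, hp]
  have hb := (schur₁ k 1 (2 * ε) zero_le_one (by positivity) (fun p s => ?_) (fun q s => ?_)).2
  · rw [hk, one_mul] at hb
    exact hb
  · refine le_trans (Finset.sum_le_sum fun q _ => ?_) (sr_row hN Γ.gl M p s)
    simp only [k]
    split_ifs with h1 h2 h2
    · simp
    · exact absurd ⟨h1.2.1, h1.2.2.2⟩ h2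
    · simp
    · simp
  · by_cases hq : Γ.Big Γ.gl node on M q
    · have hc0 : (0 : ℝ) < Γ.csize Γ.gl q := by exact_mod_cast hq.finite.2
      obtain ⟨i, hi, hq1, hq2⟩ := hq
      obtain ⟨u, hu1, hu2⟩ := exists_shallow h hN hs hi hq1
      refine (sr_sum_le _ ((Γ.csize Γ.gl q : ℝ))⁻¹ (by positivity) u (fun p => ?_)
        (fun p hp => ?_) s).trans ?_
      · simp only [k]
        split_ifs <;> simp
      · simp only [k]
        rw [if_neg, norm_zero]
        exact fun h1 => hp (hu2 p h1.2.1.symm' h1.1)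
      · have hn : (1 : ℝ) ≤ (node (i + 1)).card := by
          exact_mod_cast (hN.ne (i + 1)).card_pos
        have ht : (1 : ℝ) ≤ 2 ^ i.natAbs := one_le_pow₀ (by norm_num)
        have hc : (N i : ℝ) * (node (i + 1)).card < 2 * Γ.csize Γ.gl q := by exact_mod_cast hq2
        refine (sr_col hu1 hε (by linarith) (by linarith) hc0 hc).trans ?_
        refine mul_le_of_le_one_right (by positivity) (inv_le_one_of_one_le₀ ?_)
        exact one_le_mul_of_one_le_of_one_le ht hn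
    · refine (Finset.sum_nonpos fun p _ => ?_).trans (by positivity)
      simp only [k]
      rw [if_neg (fun h1 => hq h1.2.2.2), norm_zero]

open Classical in
/-- Let `R` be the kernel `if Big q ∧ ∃ v, ¬ isH v ∧ Conn (g,v) q ∧ (g,v) ∉ Yset then csize⁻¹ else 0`.
Weighted `schur` with weight `1` on `Grp` and `w q = 2^{-|i|} / |node (i+1)|` for `q.2 ∈ node (i+1)`,
`on i` (`w q = 1` otherwise).  Column: at most `|s|` values of `g` (`exists_shallow`), each entry
`≤ 2 / (N i |node (i+1)|)`, so `β = 2 ε`.  Row: for each `i` and `v ∈ node (i+1)` the `q` connected to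
`(g,v)` contribute at most `csize · csize⁻¹ · w`, so the sum is `≤ ∑ i, 2^{-|i|} ≤ 3 = α`.
`mat (U0 ∘L Pav) g q = ∑' p, mat U0 g p * mat Pav p q` is the same kernel with `(g,v) ∈ Yset`
(`mat_U0`, `mat_Pav`, `big_iff`; `v` is unique by `conn_gl_unique`), so `U0 ∘L Pav + kop R` has the
kernel of `Uav` (`eq_kop`). -/
theorem Uav_spec (h : Γ.SCHyp) (hN : Γ.NodeHyp node on) (hε : 0 ≤ ε)
    (hs : ∀ i, on i → ∀ v, v ∈ node i ∨ v ∈ node (i + 1) →
      ((Fintype.card F : ℝ) + 1) ^ (⌈8 * Γ.L v⌉₊ + 1) * 2 ^ i.natAbs ≤ ε * N i) :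
    (∀ g q, mat (Γ.Uav node on fun i => N i * (node (i + 1)).card) g q =
      if Γ.Big Γ.gl node on (fun i => N i * (node (i + 1)).card) q ∧
          ∃ v, ¬ Γ.isH v ∧ Γ.Conn Γ.gl (g, v) q
      then ((Γ.csize Γ.gl q : ℂ))⁻¹ else 0) ∧
    ‖(Γ.Uav node on fun i => N i * (node (i + 1)).card)
        - Γ.U0 ∘L Γ.Pav Γ.gl node on fun i => N i * (node (i + 1)).card‖ ≤ Real.sqrt (6 * ε) := by
  set M : ℤ → ℕ := fun i => N i * (node (i + 1)).card with hM
  obtain ⟨idx, hidx⟩ : ∃ idx : Γ.V → ℤ, ∀ i v, v ∈ node (i + 1) → idx v = i := by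
    refine ⟨fun v => if h : ∃ i, v ∈ node (i + 1) then h.choose else 0, fun i v hv => ?_⟩
    have hex : ∃ i, v ∈ node (i + 1) := ⟨i, hv⟩
    simp only [dif_pos hex]
    by_contra hne
    exact Finset.disjoint_left.1 (hN.disj (hex.choose + 1) (i + 1) (by omega)) hex.choose_spec hv
  let wt : ℤ → ℝ := fun i => ((2 : ℝ) ^ i.natAbs * (node (i + 1)).card)⁻¹
  have hnode : ∀ i, (0 : ℝ) < (node i).card := fun i => by exact_mod_cast (hN.ne i).card_pos
  have hwt : ∀ i, 0 < wt i := fun i => by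
    have := hnode (i + 1)
    positivity
  let R : Γ.Grp → Γ.Grp × Γ.V → ℂ := fun g q =>
    if Γ.Big Γ.gl node on M q ∧ ∃ v, ¬ Γ.isH v ∧ Γ.Conn Γ.gl (g, v) q ∧ (g, v) ∉ Γ.Yset
    then ((Γ.csize Γ.gl q : ℂ))⁻¹ else 0
  obtain ⟨hR1, hR2⟩ := schur R (fun q => wt (idx q.2)) (fun _ => 1) (fun q => hwt _)
    (fun _ => zero_lt_one) 3 (2 * ε) (by norm_num) (by positivity) (fun g s => by
      let a : ℤ → Γ.V → Γ.Grp × Γ.V → ℝ := fun i v q =>
        (if Γ.Conn Γ.gl (g, v) q ∧ Γ.Big Γ.gl node on M q then ((Γ.csize Γ.gl q : ℝ))⁻¹ else 0) * wt i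
      have ha0 : ∀ i v q, 0 ≤ a i v q := fun i v q => by
        refine mul_nonneg ?_ (hwt i).le
        split_ifs <;> positivity
      calc ∑ q ∈ s, ‖R g q‖ * wt (idx q.2)
          ≤ ∑ q ∈ s, ∑ i ∈ s.image (fun q => idx q.2), ∑ v ∈ node (i + 1), a i v q := by
            refine Finset.sum_le_sum fun q hq => ?_
            simp only [R]
            split_ifs with h1
            · obtain ⟨hB, v, hv, hc, -⟩ := h1
              obtain ⟨i, hi, hq1, -⟩ := id hB
              have hv1 : v ∈ node (i + 1) := by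
                rcases hN.stay hc.symm' hi (Or.inr hq1) with h2 | h2
                · exact absurd ((hN.typ i v h2).2 (hN.even i hi)) hv
                · exact h2
              have hi' : i ∈ s.image (fun q => idx q.2) :=
                Finset.mem_image.2 ⟨q, hq, hidx i _ hq1⟩
              refine le_trans ?_ (Finset.single_le_sum (f := fun i => ∑ v ∈ node (i + 1), a i v q)
                (fun j _ => Finset.sum_nonneg fun v _ => ha0 j v q) hi')
              refine le_trans ?_ (Finset.single_le_sum (f := fun v => a i v q)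
                (fun v _ => ha0 i v q) hv1)
              simp only [a]
              rw [if_pos ⟨hc, hB⟩, hidx i _ hq1]
              simp
            · rw [norm_zero, zero_mul]
              exact Finset.sum_nonneg fun j _ => Finset.sum_nonneg fun v _ => ha0 j v q
        _ = ∑ i ∈ s.image (fun q => idx q.2), ∑ v ∈ node (i + 1), ∑ q ∈ s, a i v q := by
            rw [Finset.sum_comm]
            exact Finset.sum_congr rfl fun i _ => Finset.sum_comm
        _ ≤ ∑ i ∈ s.image (fun q => idx q.2), ((2 : ℝ) ^ i.natAbs)⁻¹ := by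
            refine Finset.sum_le_sum fun i _ => ?_
            calc ∑ v ∈ node (i + 1), ∑ q ∈ s, a i v q ≤ ∑ v ∈ node (i + 1), wt i := by
                  refine Finset.sum_le_sum fun v _ => ?_
                  simp only [a]
                  rw [← Finset.sum_mul]
                  exact mul_le_of_le_one_left (hwt i).le (sr_row hN Γ.gl M (g, v) s)
              _ = ((2 : ℝ) ^ i.natAbs)⁻¹ := by
                  rw [Finset.sum_const, nsmul_eq_mul]
                  have := hnode (i + 1)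
                  simp only [wt]
                  field_simp
        _ ≤ 3 * 1 := by rw [mul_one]; exact sr_geom _) (fun q s => by
      simp only [mul_one]
      by_cases hq : Γ.Big Γ.gl node on M q
      · have hc0 : (0 : ℝ) < Γ.csize Γ.gl q := by exact_mod_cast hq.finite.2
        obtain ⟨i, hi, hq1, hq2⟩ := hq
        obtain ⟨u, hu1, hu2⟩ := exists_shallow h hN hs hi hq1
        refine (sr_sum_le _ ((Γ.csize Γ.gl q : ℝ))⁻¹ (by positivity) (u.image Prod.fst) (fun g => ?_)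
          (fun g hg => ?_) s).trans ?_
        · simp only [R]
          split_ifs <;> simp
        · simp only [R]
          rw [if_neg, norm_zero]
          rintro ⟨-, v, -, h1, h2⟩
          exact hg (Finset.mem_image.2 ⟨(g, v), hu2 _ h1.symm' h2, rfl⟩)
        · have hc : (N i : ℝ) * (node (i + 1)).card < 2 * Γ.csize Γ.gl q := by exact_mod_cast hq2
          rw [hidx i _ hq1]
          refine le_trans (mul_le_mul_of_nonneg_right ?_ (by positivity))
            (sr_col hu1 hε (hnode (i + 1)) (by positivity) hc0 hc)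
          exact_mod_cast Finset.card_image_le
      · refine (Finset.sum_nonpos fun g _ => ?_).trans (mul_nonneg (by positivity) (hwt _).le)
        simp only [R]
        rw [if_neg (fun h1 => hq h1.1), norm_zero])
  have hU : ∀ g q, mat (Γ.U0 ∘L Γ.Pav Γ.gl node on M) g q =
      if Γ.Big Γ.gl node on M q ∧ ∃ v, ¬ Γ.isH v ∧ Γ.Conn Γ.gl (g, v) q ∧ (g, v) ∈ Γ.Yset
      then ((Γ.csize Γ.gl q : ℂ))⁻¹ else 0 := by
    intro g q
    refine (hasSum_mat_comp Γ.U0 (Γ.Pav Γ.gl node on M) g q).unique ?_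
    simp only [mat_U0 h, mat_Pav hN]
    split_ifs with h1
    · obtain ⟨hB, v, hv, hc, hY⟩ := h1
      have hBv : Γ.Big Γ.gl node on M (g, v) := (big_iff hN hB hc.symm').2 hv
      convert hasSum_single (g, v) ?_ using 1
      · rw [if_pos ⟨rfl, hY⟩, if_pos ⟨hc, hBv, hB⟩, one_mul]
      · rintro ⟨g', v'⟩ hne
        by_cases h2 : g = g' ∧ (g', v') ∈ Γ.Yset
        · rw [if_neg (t := ((Γ.csize Γ.gl q : ℂ))⁻¹), mul_zero]
          rintro ⟨h3, -, -⟩
          obtain ⟨rfl, -⟩ := h2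
          exact hne (by rw [conn_gl_unique h (h3.trans' hc.symm')])
        · rw [if_neg h2, zero_mul]
    · convert hasSum_zero with ⟨g', v'⟩
      by_cases h2 : g = g' ∧ (g', v') ∈ Γ.Yset
      · rw [if_neg (t := ((Γ.csize Γ.gl q : ℂ))⁻¹), mul_zero]
        rintro ⟨h3, h4, h5⟩
        obtain ⟨rfl, h6⟩ := h2
        exact h1 ⟨h5, v', sr_notH hN h4, h3, h6⟩
      · rw [if_neg h2, zero_mul]
  have hsum : ∀ g q, mat (Γ.U0 ∘L Γ.Pav Γ.gl node on M + kop R) g q =
      if Γ.Big Γ.gl node on M q ∧ ∃ v, ¬ Γ.isH v ∧ Γ.Conn Γ.gl (g, v) q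
      then ((Γ.csize Γ.gl q : ℂ))⁻¹ else 0 := by
    intro g q
    rw [mat_add, hU, hR1]
    simp only [R]
    by_cases h1 : Γ.Big Γ.gl node on M q ∧ ∃ v, ¬ Γ.isH v ∧ Γ.Conn Γ.gl (g, v) q
    · rw [if_pos h1]
      obtain ⟨hB, v, hv, hc⟩ := h1
      by_cases hY : (g, v) ∈ Γ.Yset
      · rw [if_pos ⟨hB, v, hv, hc, hY⟩, if_neg, add_zero]
        rintro ⟨-, v', -, h2, h3⟩
        exact h3 (conn_gl_unique h (hc.trans' h2.symm') ▸ hY)
      · rw [if_neg, if_pos ⟨hB, v, hv, hc, hY⟩, zero_add]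
        rintro ⟨-, v', -, h2, h3⟩
        exact hY (conn_gl_unique h (h2.trans' hc.symm') ▸ h3)
    · rw [if_neg h1, if_neg, if_neg, add_zero]
      · rintro ⟨hB, v, hv, hc, -⟩
        exact h1 ⟨hB, v, hv, hc⟩
      · rintro ⟨hB, v, hv, hc, -⟩
        exact h1 ⟨hB, v, hv, hc⟩
  have hUav : Γ.Uav node on M = Γ.U0 ∘L Γ.Pav Γ.gl node on M + kop R := eq_kop hsum
  rw [hUav]
  refine ⟨hsum, ?_⟩
  rw [add_sub_cancel_left]
  refine hR2.trans (le_of_eq ?_)
  congr 1
  ring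

end BG
end Crest.Agent.R129
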