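import Crest.Agent.R129.SDefs

/-!
# Equivalence of projections and the trace swap (task R129/SZY).  Statements frozen.
-/

set_option autoImplicit false
open scoped BigOperators

namespace Crest.Agent.R129

/-- `R = Z* Z + (1 - P)` and `R' = Z Z* + (1 - e)` are within distance `< 1` of `1`, so they are units
(`Units.oneSub`); `R P = Z* Z = P R`, `R' Z = Z R`, `R' e = Z Z*`.  Put `Y = R⁻¹ Z*`. -/
theorem exists_pinv {I J : Type} (Z : L2 I →L[ℂ] L2 J) (P : L2 I →L[ℂ] L2 I) (e : L2 J →L[ℂ] L2 J)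
    (hP : P ∘L P = P) (hP' : adj P = P) (he : e ∘L e = e) (he' : adj e = e)
    (h1 : Z ∘L P = Z) (h2 : e ∘L Z = Z) (h3 : ‖adj Z ∘L Z - P‖ < 1) (h4 : ‖Z ∘L adj Z - e‖ < 1) :
    ∃ Y : L2 J →L[ℂ] L2 I, Y ∘L Z = P ∧ Z ∘L Y = e ∧
      ∀ (u : L2 I →L[ℂ] L2 I) (u' : L2 J →L[ℂ] L2 J), u' ∘L Z = Z ∘L u →
        u ∘L adj Z = adj Z ∘L u' → u ∘L P = P ∘L u → u ∘L Y = Y ∘L u' := by
  have hPP : ∀ x, P (P x) = P x := fun x => DFunLike.congr_fun hP x
  have hee : ∀ x, e (e x) = e x := fun x => DFunLike.congr_fun he x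
  have hZP : ∀ x, Z (P x) = Z x := fun x => DFunLike.congr_fun h1 x
  have heZ : ∀ x, e (Z x) = Z x := fun x => DFunLike.congr_fun h2 x
  have hZe : ∀ y, adj Z (e y) = adj Z y := fun y => by
    have : adj (e ∘L Z) = adj Z ∘L adj e := ContinuousLinearMap.adjoint_comp _ _
    rw [he', h2] at this
    symm
    exact DFunLike.congr_fun this y
  let R := Units.oneSub (P - adj Z ∘L Z) (by rwa [norm_sub_rev])
  let R' := Units.oneSub (e - Z ∘L adj Z) (by rwa [norm_sub_rev])
  have hR : ∀ x, R.val x = x - (P x - adj Z (Z x)) := fun x => rfl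
  have hR' : ∀ y, R'.val y = y - (e y - Z (adj Z y)) := fun y => rfl
  have hRi : ∀ x, R.inv (R.val x) = x := fun x => DFunLike.congr_fun R.inv_val x
  have hiR : ∀ x, R.val (R.inv x) = x := fun x => DFunLike.congr_fun R.val_inv x
  have hRi' : ∀ x, R'.inv (R'.val x) = x := fun x => DFunLike.congr_fun R'.inv_val x
  have inj : ∀ x x', R.val x = R.val x' → x = x' := fun x x' h => by rw [← hRi x, h, hRi]
  have inj' : ∀ x x', R'.val x = R'.val x' → x = x' := fun x x' h => by rw [← hRi' x, h, hRi']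
  refine ⟨R.inv ∘L adj Z, ?_, ?_, fun u u' k1 k2 k3 => ?_⟩
  · refine ContinuousLinearMap.ext fun x => inj _ _ ?_
    change R.val (R.inv (adj Z (Z x))) = _
    rw [hiR, hR, hPP, hZP]; abel
  · refine ContinuousLinearMap.ext fun y => inj' _ _ ?_
    change R'.val (Z (R.inv (adj Z y))) = _
    have k : ∀ x, R'.val (Z x) = Z (R.val x) := fun x => by
      rw [hR', hR, heZ, map_sub, map_sub, hZP]
    rw [k, hiR, hR', hee, hZe]; abel
  · have l1 : ∀ x, u' (Z x) = Z (u x) := fun x => DFunLike.congr_fun k1 x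
    have l2 : ∀ x, u (adj Z x) = adj Z (u' x) := fun x => DFunLike.congr_fun k2 x
    have l3 : ∀ x, u (P x) = P (u x) := fun x => DFunLike.congr_fun k3 x
    refine ContinuousLinearMap.ext fun y => inj _ _ ?_
    change R.val (u (R.inv (adj Z y))) = R.val (R.inv (adj Z (u' y)))
    have k : ∀ x, R.val (u x) = u (R.val x) := fun x => by
      rw [hR, hR, map_sub, map_sub, l3, l2, l1]
    rw [k, hiR, hiR, l2]

theorem szy_emb_dl {I J : Type} {f : I → J} (hf : Function.Injective f) (i : I) :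
    emb f (dl i) = dl (f i) := by
  classical
  ext j
  have h := mat_emb hf j i
  rw [dl_apply]
  unfold mat at h
  rw [h]

theorem szy_emb_apply {I J : Type} {f : I → J} (hf : Function.Injective f) (ξ : L2 I) (i : I) :
    (emb f ξ : J → ℂ) (f i) = (ξ : I → ℂ) i := by
  rw [← adj_emb_apply hf]
  have := congrArg (fun S : L2 I →L[ℂ] L2 I => S ξ) (adj_emb_comp hf)
  simp only [ContinuousLinearMap.comp_apply, one_apply_eq_self] at this
  rw [this]

theorem szy_norm_le {I : Type} {P : L2 I →L[ℂ] L2 I} (hP : P ∘L P = P) (hP' : adj P = P) :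
    ‖P‖ ≤ 1 := by
  have h := ContinuousLinearMap.norm_adjoint_comp_self P
  change ‖adj P ∘L P‖ = _ at h
  rw [hP', hP] at h
  by_contra hc
  push Not at hc
  nlinarith

/-- equivariance in terms of matrix entries -/
theorem comp_emb_iff {I J : Type} (T : L2 I →L[ℂ] L2 J) (σ : I ≃ I) (τ : J ≃ J) :
    emb τ ∘L T = T ∘L emb σ ↔ ∀ j i, mat T (τ j) (σ i) = mat T j i := by
  have e1 : ∀ j i, mat (emb τ ∘L T) (τ j) i = mat T j i := fun j i =>
    szy_emb_apply τ.injective (T (dl i)) j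
  have e2 : ∀ j i, mat (T ∘L emb σ) j i = mat T j (σ i) := fun j i => by
    unfold mat
    rw [ContinuousLinearMap.comp_apply, szy_emb_dl σ.injective]
  constructor
  · intro h j i
    rw [← e2, ← h, e1]
  · intro h
    refine mat_ext fun j i => ?_
    obtain ⟨j, rfl⟩ := τ.surjective j
    rw [e1, e2, h]

/-- `mat (Z Y) 1 1 = ∑ (g,v), mat Z 1 (g,v) * mat Y (g,v) 1
= ∑ (g,v), mat Y (1,v) g⁻¹ * mat Z g⁻¹ (1,v)`; `HasSum.prod_fiberwise` after swapping the factors -/
theorem trace_swap {G V : Type} [Group G] (Z : L2 (G × V) →L[ℂ] L2 G) (Y : L2 G →L[ℂ] L2 (G × V))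
    (hZ : ∀ g a k v, mat Z (g * k) (a * k, v) = mat Z g (a, v))
    (hY : ∀ g a k v, mat Y (a * k, v) (g * k) = mat Y (a, v) g) :
    HasSum (fun v => mat (Y ∘L Z) (1, v) (1, v)) (mat (Z ∘L Y) 1 1) := by
  have h := hasSum_mat_comp Z Y 1 1
  let E : V × G ≃ G × V := (Equiv.prodComm V G).trans ((Equiv.inv G).prodCongr (Equiv.refl V))
  rw [← E.hasSum_iff] at h
  refine h.prod_fiberwise fun v => ?_
  have h2 := hasSum_mat_comp Y Z (1, v) (1, v)
  refine h2.congr_fun ?_
  intro g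
  have a1 := hZ 1 g⁻¹ g v
  have a2 := hY 1 g⁻¹ g v
  rw [one_mul, inv_mul_cancel] at a1 a2
  change mat Z 1 (g⁻¹, v) * mat Y (g⁻¹, v) 1 = _
  rw [← a1, ← a2, mul_comm]

/-- an equivariant almost unitary equivalence: `Z = e U P`; everything in one statement -/
theorem trace_of_close {G V : Type} [Group G] (U : L2 (G × V) →L[ℂ] L2 G)
    (P : L2 (G × V) →L[ℂ] L2 (G × V)) (e : L2 G →L[ℂ] L2 G)
    (hP : P ∘L P = P) (hP' : adj P = P) (he : e ∘L e = e) (he' : adj e = e)
    (hU : ∀ g a k v, mat U (g * k) (a * k, v) = mat U g (a, v))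
    (hPe : ∀ a b k u v, mat P (a * k, u) (b * k, v) = mat P (a, u) (b, v))
    (hee : ∀ g a k, mat e (g * k) (a * k) = mat e g a)
    (h1 : U ∘L P = U) (h3 : ‖adj U ∘L U - P‖ ≤ 1 / 10) (h4 : ‖U ∘L adj U - e‖ ≤ 1 / 10) :
    HasSum (fun v => mat P (1, v) (1, v)) (mat e 1 1) := by
  have nP := szy_norm_le hP hP'
  have ne := szy_norm_le he he'
  have hadj : adj (e ∘L U) = adj U ∘L e := by
    have : adj (e ∘L U) = adj U ∘L adj e := ContinuousLinearMap.adjoint_comp _ _
    rwa [he'] at this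
  have hee' : ∀ x, e (e x) = e x := fun x => DFunLike.congr_fun he x
  have hPP : ∀ x, P (P x) = P x := fun x => DFunLike.congr_fun hP x
  have nU : ‖U‖ * ‖U‖ ≤ 11 / 10 := by
    have h := ContinuousLinearMap.norm_adjoint_comp_self U
    change ‖adj U ∘L U‖ = _ at h
    have h' := norm_add_le (adj U ∘L U - P) P
    rw [sub_add_cancel] at h'
    linarith
  have nU' : ‖adj U‖ = ‖U‖ := LinearIsometryEquiv.norm_map _ _
  have k3 : ‖adj (e ∘L U) ∘L (e ∘L U) - P‖ < 1 := by
    obtain ⟨D, hD⟩ : ∃ D, D = adj U ∘L U - P := ⟨_, rfl⟩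
    obtain ⟨E, hE⟩ : ∃ E, E = U ∘L adj U - e := ⟨_, rfl⟩
    have e1 : adj (e ∘L U) ∘L (e ∘L U) - P =
        P ∘L D + D ∘L P + D ∘L D - adj U ∘L E ∘L U := by
      rw [hadj, hD, hE]
      refine ContinuousLinearMap.ext fun x => ?_
      simp only [ContinuousLinearMap.comp_apply, sub_apply, add_apply, map_sub, hee', hPP]
      abel
    rw [← hD] at h3
    rw [← hE] at h4
    have a1 := (P.opNorm_comp_le D).trans (mul_le_mul nP h3 (norm_nonneg _) zero_le_one)
    have a2 := (D.opNorm_comp_le P).trans (mul_le_mul h3 nP (norm_nonneg _) (by norm_num))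
    have a3 := (D.opNorm_comp_le D).trans (mul_le_mul h3 h3 (norm_nonneg _) (by norm_num))
    have a4 := ((adj U).opNorm_comp_le (E ∘L U)).trans
      (mul_le_mul_of_nonneg_left ((E.opNorm_comp_le U).trans
        (mul_le_mul_of_nonneg_right h4 (norm_nonneg _))) (norm_nonneg _))
    rw [nU'] at a4
    rw [e1]
    have a5 := norm_sub_le (P ∘L D + D ∘L P + D ∘L D) (adj U ∘L E ∘L U)
    have a6 := norm_add_le (P ∘L D + D ∘L P) (D ∘L D)
    have a7 := norm_add_le (P ∘L D) (D ∘L P)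
    linarith
  have k4 : ‖(e ∘L U) ∘L adj (e ∘L U) - e‖ < 1 := by
    obtain ⟨E, hE⟩ : ∃ E, E = U ∘L adj U - e := ⟨_, rfl⟩
    have e1 : (e ∘L U) ∘L adj (e ∘L U) - e = e ∘L E ∘L e := by
      rw [hadj, hE]
      refine ContinuousLinearMap.ext fun x => ?_
      simp only [ContinuousLinearMap.comp_apply, sub_apply, map_sub, hee']
    rw [← hE] at h4
    have a4 := (e.opNorm_comp_le (E ∘L e)).trans
      (mul_le_mul ne ((E.opNorm_comp_le e).trans (mul_le_mul h4 ne (norm_nonneg _) (by norm_num)))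
        (norm_nonneg _) zero_le_one)
    rw [e1]
    linarith
  obtain ⟨Y, hY1, hY2, hY3⟩ := exists_pinv (e ∘L U) P e hP hP' he he'
    (by rw [ContinuousLinearMap.comp_assoc, h1]) (by rw [← ContinuousLinearMap.comp_assoc, he]) k3 k4
  let σ : G → G × V ≃ G × V := fun k => (Equiv.mulRight k).prodCongr (Equiv.refl V)
  have c1 : ∀ k, emb (Equiv.mulRight k) ∘L U = U ∘L emb (σ k) := fun k =>
    (comp_emb_iff U _ _).2 fun g p => hU g p.1 k p.2
  have c2 : ∀ k, emb (Equiv.mulRight k) ∘L e = e ∘L emb (Equiv.mulRight k) := fun k =>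
    (comp_emb_iff e _ _).2 fun g a => hee g a k
  have c3 : ∀ k, emb (σ k) ∘L P = P ∘L emb (σ k) := fun k =>
    (comp_emb_iff P _ _).2 fun p q => hPe p.1 q.1 k p.2 q.2
  have c4 : ∀ k, emb (σ k) ∘L adj U = adj U ∘L emb (Equiv.mulRight k) := fun k =>
    (comp_emb_iff (adj U) _ _).2 fun p g => by
      rw [mat_adj, mat_adj]; exact congrArg _ (hU g p.1 k p.2)
  have c5 : ∀ k, emb (Equiv.mulRight k) ∘L (e ∘L U) = (e ∘L U) ∘L emb (σ k) := fun k => by
    rw [← ContinuousLinearMap.comp_assoc, c2, ContinuousLinearMap.comp_assoc, c1,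
      ContinuousLinearMap.comp_assoc]
  have c6 : ∀ k, emb (σ k) ∘L adj (e ∘L U) = adj (e ∘L U) ∘L emb (Equiv.mulRight k) := fun k => by
    rw [hadj, ← ContinuousLinearMap.comp_assoc, c4, ContinuousLinearMap.comp_assoc, c2,
      ContinuousLinearMap.comp_assoc]
  have := trace_swap (e ∘L U) Y
    (fun g a k v => (comp_emb_iff _ _ _).1 (c5 k) g (a, v))
    (fun g a k v => (comp_emb_iff _ _ _).1 (hY3 _ _ (c5 k) (c6 k) (c3 k)) (a, v) g)
  rwa [hY1, hY2] at this

open Classical in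
/-- regroup a sum over vertices by nodes -/
theorem hasSum_nodes {V : Type} (node : ℤ → Finset V) (on : ℤ → Prop)
    (hd : ∀ i j, i ≠ j → Disjoint (node i) (node j)) (f : V → ℂ) (x : ℂ) (h : HasSum f x)
    (h0 : ∀ v, (∀ i, on i → v ∉ node (i + 1)) → f v = 0) :
    HasSum (fun i : ℤ => if on i then ∑ v ∈ node (i + 1), f v else 0) x := by
  let T : ℤ → Finset V := fun i => if on i then node (i + 1) else ∅
  have hT : ∀ i v, v ∈ T i ↔ on i ∧ v ∈ node (i + 1) := fun i v => by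
    by_cases hi : on i <;> simp [T, hi]
  let φ : (Σ i : ℤ, T i) → V := fun p => p.2
  have hφ : Function.Injective φ := by
    rintro ⟨i, v, hv⟩ ⟨j, w, hw⟩ e
    obtain rfl : v = w := e
    obtain rfl : i = j := by
      by_contra hc
      exact Finset.disjoint_left.1 (hd (i + 1) (j + 1) (by omega)) ((hT _ _).1 hv).2 ((hT _ _).1 hw).2
    rfl
  rw [← hφ.hasSum_iff (fun v hv => h0 v fun i hi hv' => hv ⟨⟨i, v, (hT _ _).2 ⟨hi, hv'⟩⟩, rfl⟩)] at h
  refine h.sigma fun i => ?_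
  have := (T i).hasSum f
  have e : ∑ v ∈ T i, f v = if on i then ∑ v ∈ node (i + 1), f v else 0 := by
    by_cases hi : on i <;> simp [T, hi]
  rw [e] at this
  exact this

end Crest.Agent.R129
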