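import Crest.Agent.R129.S74
import Crest.Agent.R129.SGiant
import Crest.Agent.R129.SRest
import Crest.Agent.R129.SZY

/-! # Part S for the irrational trace -/

set_option autoImplicit false
open scoped BigOperators InnerProductSpace
open Crest.OperatorAlgebra

namespace Crest.Agent.R129

theorem norm_adj {I J : Type} (T : L2 I →L[ℂ] L2 J) : ‖adj T‖ = ‖T‖ :=
  LinearIsometryEquiv.norm_map _ _

theorem adj_comp' {I J K : Type} (S : L2 J →L[ℂ] L2 K) (T : L2 I →L[ℂ] L2 J) :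
    adj (S ∘L T) = adj T ∘L adj S := ContinuousLinearMap.adjoint_comp _ _

theorem HasSum.congr_fun' {ι : Type} {f g : ι → ℝ} {x : ℝ} (h : HasSum f x) (e : ∀ i, g i = f i) :
    HasSum g x := (funext e : g = f) ▸ h

theorem norm_comp_le' {I J K : Type} (S : L2 J →L[ℂ] L2 K) (T : L2 I →L[ℂ] L2 J) {a b : ℝ}
    (hS : ‖S‖ ≤ a) (hT : ‖T‖ ≤ b) : ‖S ∘L T‖ ≤ a * b :=
  (ContinuousLinearMap.opNorm_comp_le _ _).trans
    (mul_le_mul hS hT (norm_nonneg _) ((norm_nonneg _).trans hS))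

/-- the abstract perturbation argument -/
theorem close_of_close {I J : Type} (U0 Ua : L2 I →L[ℂ] L2 J) (P Y Yc : L2 I →L[ℂ] L2 I)
    (T : L2 J →L[ℂ] L2 J) (hT : IsSelfAdjoint T) (hP : P ∘L P = P) (hP' : adj P = P)
    (nP : ‖P‖ ≤ 1) (nU : ‖U0‖ ≤ 1) (hY : adj U0 ∘L U0 = Y) (hYc : adj Yc ∘L Yc = 1 - Y)
    (h1 : ‖Yc ∘L P‖ ≤ 1 / 100) (h2 : ‖Ua - U0 ∘L P‖ ≤ 1 / 100)
    (h3 : ‖T - U0 ∘L P ∘L adj U0‖ ≤ 1 / 500) :
    R129S.Gap T (1 / 2) (1 / 4) ∧ ‖adj (Ua ∘L P) ∘L (Ua ∘L P) - P‖ ≤ 1 / 10 ∧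
      ‖(Ua ∘L P) ∘L adj (Ua ∘L P) - R129S.up T (1 / 2)‖ ≤ 1 / 10 := by
  set U1 := U0 ∘L P with hU1
  set U := Ua ∘L P with hU
  have n1 : ‖U1‖ ≤ 1 := by simpa using norm_comp_le' U0 P nU nP
  have hU1P : U1 ∘L P = U1 := by rw [hU1, ContinuousLinearMap.comp_assoc, hP]
  have d1 : ‖U - U1‖ ≤ 1 / 100 := by
    have : U - U1 = (Ua - U1) ∘L P := by rw [ContinuousLinearMap.sub_comp, hU1P]
    rw [this]
    simpa using norm_comp_le' _ P h2 nP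
  have n2 : ‖U‖ ≤ 101 / 100 := by
    have := norm_add_le (U - U1) U1
    rw [sub_add_cancel] at this
    linarith
  have a1 : adj U1 = P ∘L adj U0 := by rw [hU1, adj_comp', hP']
  have e1 : adj U1 ∘L U1 - P = -(adj (Yc ∘L P) ∘L (Yc ∘L P)) := by
    rw [a1, hU1, adj_comp', hP', ContinuousLinearMap.comp_assoc,
      ContinuousLinearMap.comp_assoc, ← ContinuousLinearMap.comp_assoc (adj U0), hY,
      ← ContinuousLinearMap.comp_assoc (adj Yc), hYc,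
      ContinuousLinearMap.sub_comp, ContinuousLinearMap.comp_sub, ContinuousLinearMap.one_def,
      ContinuousLinearMap.id_comp, hP]
    abel
  have d2 : ‖adj U1 ∘L U1 - P‖ ≤ 1 / 10000 := by
    rw [e1, norm_neg]
    have := norm_comp_le' (adj (Yc ∘L P)) (Yc ∘L P) ((norm_adj _).trans_le h1) h1
    linarith
  have d3 : ‖adj U ∘L U - adj U1 ∘L U1‖ ≤ 2 * (101 / 100) * (1 / 100) :=
    R129S.norm_adjoint_comp_sub U U1 n2 (by linarith) d1
  have d4 : ‖U ∘L adj U - U1 ∘L adj U1‖ ≤ 2 * (101 / 100) * (1 / 100) := by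
    have := R129S.norm_adjoint_comp_sub (adj U) (adj U1) (a := 101 / 100) (δ := 1 / 100)
      ((norm_adj _).trans_le n2) ((norm_adj _).trans_le (by linarith))
      (by rw [← map_sub]; exact (norm_adj _).trans_le d1)
    rwa [ContinuousLinearMap.adjoint_adjoint, ContinuousLinearMap.adjoint_adjoint] at this
  set S0 := U1 ∘L adj U1 with hS0
  have e2 : U0 ∘L P ∘L adj U0 = S0 := by
    rw [hS0, a1, ← ContinuousLinearMap.comp_assoc U1, hU1P, hU1, ContinuousLinearMap.comp_assoc]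
  rw [e2] at h3
  have n3 : ‖S0‖ ≤ 1 := by simpa using norm_comp_le' U1 (adj U1) n1 ((norm_adj _).trans_le n1)
  have d5 : ‖S0 * S0 - S0‖ ≤ 1 / 10000 := by
    have : S0 * S0 - S0 = U1 ∘L (adj U1 ∘L U1 - P) ∘L adj U1 := by
      rw [ContinuousLinearMap.sub_comp, ContinuousLinearMap.comp_sub,
        ← ContinuousLinearMap.comp_assoc U1 P, hU1P]
      rfl
    rw [this]
    simpa using norm_comp_le' U1 _ n1 (norm_comp_le' _ _ d2 ((norm_adj _).trans_le n1))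
  have d6 : ‖T * T - T‖ ≤ 1 / 100 := by
    have e : T * T - T = (S0 * S0 - S0) + (T - S0) * T + S0 * (T - S0) - (T - S0) := by
      noncomm_ring
    have n4 : ‖T‖ ≤ 2 := by
      have := norm_add_le (T - S0) S0
      rw [sub_add_cancel] at this
      linarith
    have b1 : ‖(T - S0) * T‖ ≤ 1 / 500 * 2 := norm_comp_le' _ _ h3 n4
    have b2 : ‖S0 * (T - S0)‖ ≤ 1 * (1 / 500) := norm_comp_le' _ _ n3 h3
    rw [e]
    have c1 := norm_sub_le ((S0 * S0 - S0) + (T - S0) * T + S0 * (T - S0)) (T - S0)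
    have c2 := norm_add_le ((S0 * S0 - S0) + (T - S0) * T) (S0 * (T - S0))
    have c3 := norm_add_le (S0 * S0 - S0) ((T - S0) * T)
    linarith
  obtain ⟨g, d7⟩ := R129S.approx_proj hT (by norm_num) d6
  refine ⟨g, ?_, ?_⟩
  · have := norm_sub_le_norm_sub_add_norm_sub (adj U ∘L U) (adj U1 ∘L U1) P
    linarith
  · have c1 := norm_sub_le_norm_sub_add_norm_sub (U ∘L adj U) S0 (R129S.up T (1 / 2))
    have c2 := norm_sub_le_norm_sub_add_norm_sub S0 T (R129S.up T (1 / 2))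
    rw [norm_sub_rev] at h3 d7
    linarith

theorem prj_compl {I : Type} (s : Set I) : adj (prj sᶜ) ∘L prj sᶜ = 1 - prj s := by
  classical
  rw [adj_prj, prj_comp_prj, Set.inter_self]
  refine mat_ext fun j i => ?_
  rw [mat_sub, mat_prj, mat_prj, mat_one]
  by_cases h1 : j = i <;> by_cases h2 : i ∈ s <;> simp [h1, h2]

theorem mat_comp_mul_right {G V : Type} [Group G] (U : L2 (G × V) →L[ℂ] L2 G)
    (P : L2 (G × V) →L[ℂ] L2 (G × V))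
    (hU : ∀ g a k v, mat U (g * k) (a * k, v) = mat U g (a, v))
    (hP : ∀ a b k u v, mat P (a * k, u) (b * k, v) = mat P (a, u) (b, v))
    (g a k : G) (v : V) : mat (U ∘L P) (g * k) (a * k, v) = mat (U ∘L P) g (a, v) := by
  have h1 := hasSum_mat_comp U P (g * k) (a * k, v)
  rw [← ((Equiv.mulRight k).prodCongr (Equiv.refl V)).hasSum_iff] at h1
  refine h1.unique ?_
  convert hasSum_mat_comp U P g (a, v) using 2 with p
  obtain ⟨b, u⟩ := p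
  exact congrArg₂ (· * ·) (hU g b k u) (hP b a k u v)

open Classical in
theorem partS73' : ∃ ε C₀ : ℝ, 0 < ε ∧ 0 < C₀ ∧
    ∀ (F A : Type) [Fintype F] [DecidableEq F] [Nonempty F] [Group A]
    (Γ : BG F A) (node : ℤ → Finset Γ.V) (on : ℤ → Prop) (μ : ℤ → (A × ZMod 4) →₀ ℝ)
    (Ai : ℤ → Subgroup A) (lam : ℝ), Γ.SCHyp → (∀ i, on i → Even i) →
    (∀ i, (node i).Nonempty) → (∀ i j, i ≠ j → Disjoint (node i) (node j)) →
    (∀ i, ∀ v ∈ node i, Γ.isH v ↔ Even i) →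
    (∀ i, IsLaw (μ i)) → (∀ i, on i → Finite (Ai i)) →
    (∀ i, on i → ∀ x, qco (μ i) x = if x ∈ Ai i then ((Nat.card (Ai i) : ℂ))⁻¹ else 0) →
    (∀ u t w, Γ.nb u t = some w → ∃ i, on i ∧ u ∈ node i ∧ w ∈ node (i + 1) ∧ Γ.a u t ∈ Ai i) →
    (∀ i, on i → ∀ v, v ∈ node i ∨ v ∈ node (i + 1) →
      ((Fintype.card F : ℝ) + 1) ^ (⌈8 * Γ.L v⌉₊ + 1) * 2 ^ i.natAbs ≤ ε * Nat.card (Ai i)) →
    0 < lam → C₀ * (Fintype.card F * Real.sqrt (Fintype.card F)) ≤ lam ^ 2 →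
    ‖Γ.Bop Γ.a - (lam : ℂ) • (Γ.Wop A node ∘L Qop μ on ∘L adj (Γ.Wop A node))‖ ≤ ε * lam →
    ∃ (G : Type) (_ : Group G), Group.FG G ∧
      ∃ b ∈ reducedGroupCStar G, b * b = b ∧ star b = b ∧
        HasSum (fun i : ℤ => if on i then ((Nat.card (Ai i) : ℝ))⁻¹ else 0)
          (canonicalTrace G b).re := by
  refine ⟨1 / 60000, 34000, by norm_num, by norm_num, ?_⟩
  intro F A _ _ _ _ Γ node on μ Ai l h hev hne hd hty hμ hf hq hed hs hl hC hB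
  have hN : Γ.NodeHyp node on :=
    ⟨hev, hne, hd, hty, fun u t w e => (hed u t w e).imp fun i hi => ⟨hi.1, hi.2.1, hi.2.2.1⟩⟩
  set X := Γ.Wop A node ∘L Qop μ on ∘L adj (Γ.Wop A node) with hX
  have hG : BG.GiantHyp Γ node on Ai (adj X ∘L X) l (5 * (1 / 60000)) :=
    { hN := hN
      fin := hf
      hA := fun u t w i e hi hu => by
        obtain ⟨j, -, hj, -, hj'⟩ := hed u t w e
        by_cases hij : i = j
        · exact hij ▸ hj'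
        · exact absurd hj (Finset.disjoint_left.1 (hd i j hij) hu)
      m1 := fun p q i => (BG.mat_XX hN hμ hf hq p q).1 i
      m0 := fun p q => (BG.mat_XX hN hμ hf hq p q).2
      lpos := hl
      dpos := by norm_num
      dle := by norm_num
      close := norm_adj_comp_sub _ _ hl.le (by norm_num) (BG.norm_X_le hN hμ) hB }
  set M := blkSize node Ai with hM
  have hl2 : 0 < l ^ 2 := by positivity
  -- the `A`-cover
  have c1 : ‖adj (Γ.Bop Γ.a) ∘L Γ.Bop Γ.a - ((l ^ 2 : ℝ) : ℂ) • Γ.Pav Γ.a node on M‖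
      ≤ 30 * (1 / 60000) * l ^ 2 := by
    have h1 := norm_sub_le_norm_sub_add_norm_sub (adj (Γ.Bop Γ.a) ∘L Γ.Bop Γ.a)
      (((l ^ 2 : ℝ) : ℂ) • (adj X ∘L X)) (((l ^ 2 : ℝ) : ℂ) • Γ.Pav Γ.a node on M)
    rw [← smul_sub, norm_smul, Complex.norm_real, Real.norm_of_nonneg hl2.le] at h1
    have h2 := mul_le_mul_of_nonneg_left hG.norm_sub hl2.le
    have h3 := hG.close
    linarith
  -- the group cover
  obtain ⟨⟨φ, hφ⟩, -⟩ := BG.exists_covIso_gl h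
  set P := Γ.Pav Γ.gl node on M with hP
  have c2 : ‖adj (Γ.Bop Γ.gl) ∘L Γ.Bop Γ.gl - ((l ^ 2 : ℝ) : ℂ) • P‖ ≤ 30 * (1 / 60000) * l ^ 2 :=
    (((hφ.locIso_Bop.adj'.comp hφ.inj_comp hφ.locIso_Bop).sub
      ((hφ.locIso_Pav hN).smul _)).norm_le hφ.inj_comp).trans c1
  set n : ℝ := (Fintype.card F : ℝ) with hn_def
  set w : ℝ := n * Real.sqrt n with hw
  set c : ℝ := 4 * n ^ 2 with hc
  have c3 : ‖adj Γ.Bdp ∘L Γ.Bdp - ((l ^ 2 : ℝ) : ℂ) • P‖ ≤ 4 * w + 30 * (1 / 60000) * l ^ 2 := by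
    have h1 := norm_sub_le_norm_sub_add_norm_sub (adj Γ.Bdp ∘L Γ.Bdp)
      (adj (Γ.Bop Γ.gl) ∘L Γ.Bop Γ.gl) (((l ^ 2 : ℝ) : ℂ) • P)
    have h2 := BG.norm_BB_sub h
    linarith
  have nU := BG.norm_U0_le h
  have c4 : ‖Γ.Top - (c : ℂ) • (1 : L2 Γ.Grp →L[ℂ] L2 Γ.Grp)
      - ((l ^ 2 : ℝ) : ℂ) • (Γ.U0 ∘L P ∘L adj Γ.U0)‖ ≤ 34 * w + 30 * (1 / 60000) * l ^ 2 := by
    have h1 := norm_sub_le_norm_sub_add_norm_sub
      (Γ.Top - (c : ℂ) • (1 : L2 Γ.Grp →L[ℂ] L2 Γ.Grp)) (adj (Γ.Dp Γ.IsB) ∘L Γ.Dp Γ.IsB)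
      (((l ^ 2 : ℝ) : ℂ) • (Γ.U0 ∘L P ∘L adj Γ.U0))
    have h2 := BG.split h
    have h3 : adj (Γ.Dp Γ.IsB) ∘L Γ.Dp Γ.IsB - ((l ^ 2 : ℝ) : ℂ) • (Γ.U0 ∘L P ∘L adj Γ.U0)
        = Γ.U0 ∘L (adj Γ.Bdp ∘L Γ.Bdp - ((l ^ 2 : ℝ) : ℂ) • P) ∘L adj Γ.U0 := by
      rw [BG.BB_eq h, ContinuousLinearMap.sub_comp, ContinuousLinearMap.comp_sub,
        ContinuousLinearMap.smul_comp, ContinuousLinearMap.comp_smul]
    have h4 := norm_comp_le' Γ.U0 _ nU (norm_comp_le' _ _ c3 ((norm_adj _).trans_le nU))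
    rw [← h3] at h4
    linarith
  set T : L2 Γ.Grp →L[ℂ] L2 Γ.Grp :=
    (((l ^ 2)⁻¹ : ℝ) : ℂ) • (Γ.Top - (c : ℂ) • (1 : L2 Γ.Grp →L[ℂ] L2 Γ.Grp)) with hT
  have hTm : T ∈ R129S.redAlg Γ.Grp :=
    SMulMemClass.smul_mem _ (sub_mem Γ.Top_mem (SMulMemClass.smul_mem _ (one_mem _)))
  have hTs : IsSelfAdjoint T := by
    refine IsSelfAdjoint.smul ?_ (Γ.Top_selfAdjoint.sub (IsSelfAdjoint.smul ?_ (IsSelfAdjoint.one _)))
    · exact Complex.conj_ofReal _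
    · exact Complex.conj_ofReal _
  have c5 : ‖T - Γ.U0 ∘L P ∘L adj Γ.U0‖ ≤ 1 / 500 := by
    have e : T - Γ.U0 ∘L P ∘L adj Γ.U0 = (((l ^ 2)⁻¹ : ℝ) : ℂ) •
        (Γ.Top - (c : ℂ) • (1 : L2 Γ.Grp →L[ℂ] L2 Γ.Grp)
          - ((l ^ 2 : ℝ) : ℂ) • (Γ.U0 ∘L P ∘L adj Γ.U0)) := by
      rw [smul_sub, smul_smul, ← Complex.ofReal_mul, inv_mul_cancel₀ hl2.ne', Complex.ofReal_one,
        one_smul]
    rw [e, norm_smul, Complex.norm_real, Real.norm_of_nonneg (inv_nonneg.2 hl2.le),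
      inv_mul_le_iff₀ hl2]
    linarith
  obtain ⟨mU, c6⟩ := BG.Uav_spec (N := fun i => Nat.card (Ai i)) h hN (by norm_num) hs
  have c7 := BG.norm_prj_compl_Pav (N := fun i => Nat.card (Ai i)) h hN (by norm_num) hs
  have s1 : Real.sqrt (6 * (1 / 60000)) ≤ 1 / 100 := Real.sqrt_le_iff.2 (by norm_num)
  have s2 : Real.sqrt (2 * (1 / 60000)) ≤ 1 / 100 := Real.sqrt_le_iff.2 (by norm_num)
  obtain ⟨g, c8, c9⟩ := close_of_close Γ.U0 (Γ.Uav node on M) P (prj Γ.Yset) (prj Γ.Ysetᶜ) T hTs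
    (BG.Pav_comp hN _) (BG.adj_Pav hN _) (BG.norm_Pav_le hN _) nU (BG.adj_U0_comp h)
    (prj_compl _) (c7.trans s2) (c6.trans s1) c5
  have hem := R129S.up_mem R129S.isClosed_redAlg hTm (1 / 2)
  have he1 := g.up_mul hTs (by norm_num)
  have he2 := (R129S.up_selfAdjoint T (1 / 2)).star_eq
  refine ⟨Γ.Grp, inferInstance, Γ.fg_Grp, R129S.up T (1 / 2), hem, he1, he2, ?_⟩
  have hUe : ∀ g a k v, mat (Γ.Uav node on M) (g * k) (a * k, v) = mat (Γ.Uav node on M) g (a, v) := by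
    intro g a k v
    refine (mU _ _).trans (Eq.trans ?_ (mU _ _).symm)
    simp only [BG.big_mul_right, BG.conn_mul_right, BG.csize_mul_right]
  have t1 := trace_of_close (Γ.Uav node on M ∘L P) P (R129S.up T (1 / 2)) (BG.Pav_comp hN _)
    (BG.adj_Pav hN _) he1 he2 (mat_comp_mul_right _ _ hUe (BG.mat_Pav_mul_right hN _))
    (BG.mat_Pav_mul_right hN _) (R129S.ent_mul_right hem)
    (by rw [ContinuousLinearMap.comp_assoc, BG.Pav_comp hN]) c8 c9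
  have t2 := hasSum_nodes node on hd _ _ t1 (fun v hv => by
    rw [BG.mat_Pav hN, if_neg]
    rintro ⟨-, ⟨i, hi, hv', -⟩, -⟩
    exact hv i hi hv')
  have t3 := Complex.hasSum_re t2
  rw [R129S.trace_eq]
  refine HasSum.congr_fun' t3 fun i => ?_
  split_ifs with hi
  · rw [Finset.sum_congr rfl fun v _ => hφ.mat_Pav_diag hN v, hG.sum_diag hi,
      ← Complex.ofReal_natCast, ← Complex.ofReal_inv, Complex.ofReal_re]
  · rfl

end Crest.Agent.R129
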