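import Crest.Agent.R129.Ker
import Crest.Agent.R129.Geo
import Crest.Agent.R129.S73

/-! # Part S (owner helper84): spectral split.  The two statements are frozen. -/

set_option autoImplicit false
open Crest.OperatorAlgebra

namespace Crest.Agent.R129

/-- `T = D* D = |S| + J B_d* B_d J* + O(n^{3/2})`, `‖B^ - B_d‖ ≤ 2√n`, gap and norm of `B^ = Bop gl`
come from the `A`-cover (`embed`, `embed'`), `τ(T) = |S|`. -/
theorem partS74 : ∃ C₀ : ℝ, 0 < C₀ ∧ ∀ (F A : Type) [Fintype F] [DecidableEq F] [Nonempty F] [Group A]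
    (Γ : BG F A), Γ.SCHyp → (∀ a : A, IsOfFinOrder a → a = 1) → ∀ γ r : ℝ,
    C₀ * (Fintype.card F * Real.sqrt (Fintype.card F)) ≤ r → r ≤ γ →
    Gap (adj (Γ.Bop Γ.a) ∘L Γ.Bop Γ.a) γ r → γ - r / 2 ≤ ‖Γ.Bop Γ.a‖ ^ 2 →
    ∃ (G : Type) (_ : Group G), Group.FG G ∧ (∀ g : G, IsOfFinOrder g → g = 1) ∧
      ∃ e ∈ reducedGroupCStar G, e * e = e ∧ star e = e ∧
        0 < (canonicalTrace G e).re ∧ (canonicalTrace G e).re < 1 / 2 :=
  partS74'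

open Classical in
/-- Exact trace when the active pairs `(i,i+1)` (`i` even) carry uniform voltages in finite
subgroups `Ai i` that are huge compared with the shallow balls. -/
theorem partS73 : ∃ ε C₀ : ℝ, 0 < ε ∧ 0 < C₀ ∧
    ∀ (F A : Type) [Fintype F] [DecidableEq F] [Nonempty F] [Group A]
    (Γ : BG F A) (node : ℤ → Finset Γ.V) (on : ℤ → Prop) (μ : ℤ → (A × ZMod 4) →₀ ℝ)
    (Ai : ℤ → Subgroup A) (lam : ℝ), Γ.SCHyp → (∀ i, on i → Even i) →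
    (∀ i, (node i).Nonempty) → (∀ i j, i ≠ j → Disjoint (node i) (node j)) →
    (∀ i, ∀ v ∈ node i, Γ.isH v ↔ Even i) →
    (∀ i, IsLaw (μ i)) → (∀ i, on i → Finite (Ai i)) →
    (∀ i, on i → ∀ x, qco (μ i) x = if x ∈ Ai i then ((Nat.card (Ai i) : ℂ))⁻¹ else 0) →
    (∀ u t w, Γ.nb u t = some w → ∃ i, on i ∧ u ∈ node i ∧ w ∈ node (i + 1) ∧ Γ.a u t ∈ Ai i) →
    (∀ i, on i → ∀ v, v ∈ node i ∨ v ∈ node (i + 1) →
      ((Fintype.card F : ℝ) + 1) ^ (⌈8 * Γ.L v⌉₊ + 1) * 2 ^ i.natAbs ≤ ε * Nat.card (Ai i)) →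
    0 < lam → C₀ * (Fintype.card F * Real.sqrt (Fintype.card F)) ≤ lam ^ 2 →
    ‖Γ.Bop Γ.a - (lam : ℂ) • (Γ.Wop A node ∘L Qop μ on ∘L adj (Γ.Wop A node))‖ ≤ ε * lam →
    ∃ (G : Type) (_ : Group G), Group.FG G ∧
      ∃ b ∈ reducedGroupCStar G, b * b = b ∧ star b = b ∧
        HasSum (fun i : ℤ => if on i then ((Nat.card (Ai i) : ℝ))⁻¹ else 0)
          (canonicalTrace G b).re :=
  partS73'

end Crest.Agent.R129
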