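import Crest.Agent.R129.SDefs

/-!
# Local isomorphisms of operators (task R129/SLoc).  Statements frozen.

For a block `x` let `X = {p // c p = x}`, `V x = emb (φ ∘ Subtype.val : X → J) ∘L adj (emb Subtype.val)`.
If `ξ` is supported in the block then `‖V x ξ‖ = ‖ξ‖`, `T₂ ξ` is supported in the block and
`T₁ (V x ξ) = V x (T₂ ξ)` (check `T₁ ∘L emb (φ ∘ val) = emb (φ ∘ val) ∘L adj (emb val) ∘L T₂ ∘L emb val` on
matrix entries, using `eq` and `col`).  Then `norm_le_of_blocks`, `le_norm_of_blocks`.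
-/

set_option autoImplicit false
open scoped BigOperators

namespace Crest.Agent.R129
variable {I J C : Type} {c : I → C} {φ : I → J} {T₂ S₂ : L2 I →L[ℂ] L2 I} {T₁ S₁ : L2 J →L[ℂ] L2 J}

theorem LocIso.adj' (h : LocIso c φ T₂ T₁) : LocIso c φ (adj T₂) (adj T₁) := by
  refine ⟨fun p q hpq => ?_, fun p q hpq => ?_, fun p q' hpq => ?_, fun q p' hpq => ?_⟩
  · rw [mat_adj, map_ne_zero] at hpq
    exact (h.blk q p hpq).symm
  · rw [mat_adj, mat_adj, h.eq q p hpq.symm]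
  · rw [mat_adj, map_ne_zero] at hpq
    exact h.col p q' hpq
  · rw [mat_adj, map_ne_zero] at hpq
    exact h.row q p' hpq

theorem sloc_sub_ne {a b : ℂ} (h : a - b ≠ 0) : a ≠ 0 ∨ b ≠ 0 := by
  by_contra hc
  rw [not_or, not_not, not_not] at hc
  exact h (by rw [hc.1, hc.2, sub_zero])

theorem LocIso.sub (h : LocIso c φ T₂ T₁) (h' : LocIso c φ S₂ S₁) :
    LocIso c φ (T₂ - S₂) (T₁ - S₁) := by
  refine ⟨fun p q hpq => ?_, fun p q hpq => ?_, fun p q' hpq => ?_, fun q p' hpq => ?_⟩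
  · rw [mat_sub] at hpq
    exact (sloc_sub_ne hpq).elim (h.blk p q) (h'.blk p q)
  · rw [mat_sub, mat_sub, h.eq p q hpq, h'.eq p q hpq]
  · rw [mat_sub] at hpq
    exact (sloc_sub_ne hpq).elim (h.row p q') (h'.row p q')
  · rw [mat_sub] at hpq
    exact (sloc_sub_ne hpq).elim (h.col q p') (h'.col q p')

theorem LocIso.smul (h : LocIso c φ T₂ T₁) (a : ℂ) : LocIso c φ (a • T₂) (a • T₁) := by
  refine ⟨fun p q hpq => ?_, fun p q hpq => ?_, fun p q' hpq => ?_, fun q p' hpq => ?_⟩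
  · rw [mat_smul] at hpq
    exact h.blk p q (right_ne_zero_of_mul hpq)
  · rw [mat_smul, mat_smul, h.eq p q hpq]
  · rw [mat_smul] at hpq
    exact h.row p q' (right_ne_zero_of_mul hpq)
  · rw [mat_smul] at hpq
    exact h.col q p' (right_ne_zero_of_mul hpq)

theorem sloc_comp_ne {K : Type} {T S : L2 K →L[ℂ] L2 K} {p q : K} (h : mat (T ∘L S) p q ≠ 0) :
    ∃ j, mat T p j ≠ 0 ∧ mat S j q ≠ 0 := by
  by_contra hc
  apply h
  refine (hasSum_mat_comp T S p q).unique ?_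
  have : (fun j => mat T p j * mat S j q) = fun _ => 0 := by
    funext j
    by_contra hj
    exact hc ⟨j, left_ne_zero_of_mul hj, right_ne_zero_of_mul hj⟩
  rw [this]
  exact hasSum_zero

theorem sloc_inj (hφ : ∀ p q, c p = c q → φ p = φ q → p = q) (x : C) :
    Function.Injective (fun p : {p // c p = x} => φ p.1) := fun p q h =>
  Subtype.ext (hφ _ _ (p.2.trans q.2.symm) h)

/-- `hasSum_mat_comp` on both sides; reindex along the injection `φ` of the block
(`Function.Injective.hasSum_iff`). -/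
theorem LocIso.comp (hφ : ∀ p q, c p = c q → φ p = φ q → p = q) (h : LocIso c φ T₂ T₁)
    (h' : LocIso c φ S₂ S₁) : LocIso c φ (T₂ ∘L S₂) (T₁ ∘L S₁) := by
  refine ⟨fun p q hpq => ?_, fun p q hpq => ?_, fun p q' hpq => ?_, fun q p' hpq => ?_⟩
  · obtain ⟨j, h1, h2⟩ := sloc_comp_ne hpq
    exact (h.blk p j h1).trans (h'.blk j q h2)
  · have h1 := (Subtype.val_injective (p := fun j => c j = c p)).hasSum_iff
      (f := fun j => mat T₂ p j * mat S₂ j q) (a := mat (T₂ ∘L S₂) p q) (fun j hj => by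
        by_contra h0
        exact hj ⟨⟨j, (h.blk p j (left_ne_zero_of_mul h0)).symm⟩, rfl⟩)
    have h2 := (sloc_inj hφ (c p)).hasSum_iff
      (f := fun j => mat T₁ (φ p) j * mat S₁ j (φ q)) (a := mat (T₁ ∘L S₁) (φ p) (φ q))
      (fun j hj => by
        by_contra h0
        obtain ⟨i, hi, hi'⟩ := h.row p j (left_ne_zero_of_mul h0)
        exact hj ⟨⟨i, hi⟩, hi'⟩)
    refine (h1.2 (hasSum_mat_comp T₂ S₂ p q)).unique ?_
    convert h2.2 (hasSum_mat_comp T₁ S₁ (φ p) (φ q)) using 1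
    funext j
    simp only [Function.comp_apply]
    rw [h.eq p j j.2.symm, h'.eq j q (j.2.trans hpq)]
  · obtain ⟨j, h1, h2⟩ := sloc_comp_ne hpq
    obtain ⟨i, hi, rfl⟩ := h.row p j h1
    obtain ⟨q, hq, hq'⟩ := h'.row i q' h2
    exact ⟨q, hq.trans hi, hq'⟩
  · obtain ⟨j, h1, h2⟩ := sloc_comp_ne hpq
    obtain ⟨i, hi, rfl⟩ := h'.col q j h2
    obtain ⟨p, hp, hp'⟩ := h.col i p' h1
    exact ⟨p, hp.trans hi, hp'⟩

theorem sloc_eq_emb {X : Type} {f : X → J} (hf : Function.Injective f) {η : L2 J} {ζ : L2 X}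
    (h1 : ∀ i, (η : J → ℂ) (f i) = (ζ : X → ℂ) i)
    (h2 : ∀ j, (η : J → ℂ) j ≠ 0 → ∃ i, f i = j) : η = emb f ζ := by
  refine lp.ext (funext fun j => ?_)
  by_cases hj : ∃ i, f i = j
  · obtain ⟨i, rfl⟩ := hj
    rw [h1, ← adj_emb_apply hf, ← ContinuousLinearMap.comp_apply, adj_emb_comp hf]
    rfl
  · have h3 : (η : J → ℂ) j = 0 := by
      by_contra h0
      exact hj (h2 j h0)
    rw [h3]
    refine ((hasSum_apply (emb f) ζ j).unique ?_).symm
    have : (fun i => mat (emb f) j i * (ζ : X → ℂ) i) = fun _ => 0 := by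
      funext i
      rw [mat_emb hf, if_neg fun h0 => hj ⟨i, h0.symm⟩, zero_mul]
    rw [this]
    exact hasSum_zero

theorem sloc_emb_dl {X : Type} {f : X → J} (hf : Function.Injective f) (i : X) :
    emb f (dl i) = dl (f i) := by
  classical
  refine lp.ext (funext fun j => ?_)
  rw [dl_apply]
  exact mat_emb hf j i

theorem sloc_inter {X : Type} {f : X → J} (hf : Function.Injective f) {T : L2 J →L[ℂ] L2 J}
    {A : L2 X →L[ℂ] L2 X} (h1 : ∀ i i', mat T (f i') (f i) = mat A i' i)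
    (h2 : ∀ i j, mat T j (f i) ≠ 0 → ∃ i', f i' = j) (ζ : L2 X) :
    T (emb f ζ) = emb f (A ζ) := by
  have : T ∘L emb f = emb f ∘L A := mat_ext fun j i => by
    unfold mat
    rw [ContinuousLinearMap.comp_apply, ContinuousLinearMap.comp_apply, sloc_emb_dl hf,
      sloc_eq_emb hf (η := T (dl (f i))) (ζ := A (dl i)) (h1 i) (h2 i)]
  exact DFunLike.congr_fun this ζ

theorem sloc_key (hφ : ∀ p q, c p = c q → φ p = φ q → p = q) (h : LocIso c φ T₂ T₁) (x : C)
    (ξ : L2 I) (hξ : ∀ i, (ξ : I → ℂ) i ≠ 0 → c i = x) :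
    ∃ η : L2 J, ‖η‖ = ‖ξ‖ ∧ ‖T₁ η‖ = ‖T₂ ξ‖ := by
  have hv : Function.Injective (Subtype.val : {p // c p = x} → I) := Subtype.val_injective
  have hw := sloc_inj hφ x
  let A := adj (emb (Subtype.val : {p // c p = x} → I)) ∘L T₂ ∘L
    emb (Subtype.val : {p // c p = x} → I)
  have hA : ∀ i' i : {p // c p = x}, mat T₂ i'.1 i.1 = mat A i' i := fun i' i => by
    unfold mat
    rw [ContinuousLinearMap.comp_apply, ContinuousLinearMap.comp_apply, sloc_emb_dl hv,
      adj_emb_apply hv]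
  have h1 : ξ = emb Subtype.val (adj (emb (Subtype.val : {p // c p = x} → I)) ξ) :=
    sloc_eq_emb hv (fun i => (adj_emb_apply hv ξ i).symm) fun j hj => ⟨⟨j, hξ j hj⟩, rfl⟩
  generalize adj (emb (Subtype.val : {p // c p = x} → I)) ξ = ζ at h1
  subst h1
  refine ⟨emb (fun p : {p // c p = x} => φ p.1) ζ, ?_, ?_⟩
  · rw [norm_emb_apply hw, norm_emb_apply hv]
  · rw [sloc_inter hw (A := A) (fun i i' => by rw [← hA, h.eq _ _ (i'.2.trans i.2.symm)])
        (fun i j hj => by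
          obtain ⟨p, hp, hp'⟩ := h.col i.1 j hj
          exact ⟨⟨p, hp.trans i.2⟩, hp'⟩),
      sloc_inter hv (A := A) (fun i i' => hA i' i)
        (fun i j hj => ⟨⟨j, (h.blk j i.1 hj).trans i.2⟩, rfl⟩),
      norm_emb_apply hw, norm_emb_apply hv]

theorem sloc_one (hφ : ∀ p q, c p = c q → φ p = φ q → p = q) :
    LocIso c φ (1 : L2 I →L[ℂ] L2 I) (1 : L2 J →L[ℂ] L2 J) := by
  classical
  refine ⟨fun p q hpq => ?_, fun p q hpq => ?_, fun p q' hpq => ?_, fun q p' hpq => ?_⟩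
  · rw [mat_one] at hpq
    by_cases h : p = q
    · rw [h]
    · exact absurd (if_neg h) hpq
  · rw [mat_one, mat_one]
    by_cases h : p = q
    · rw [if_pos h, if_pos (by rw [h])]
    · rw [if_neg h, if_neg fun h0 => h (hφ p q hpq h0)]
  · rw [mat_one] at hpq
    by_cases h : φ p = q'
    · exact ⟨p, rfl, h⟩
    · exact absurd (if_neg h) hpq
  · rw [mat_one] at hpq
    by_cases h : p' = φ q
    · exact ⟨q, rfl, h.symm⟩
    · exact absurd (if_neg h) hpq

theorem LocIso.norm_le (hφ : ∀ p q, c p = c q → φ p = φ q → p = q) (h : LocIso c φ T₂ T₁) :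
    ‖T₂‖ ≤ ‖T₁‖ := by
  refine norm_le_of_blocks T₂ c c h.blk _ (norm_nonneg _) fun x ξ hξ => ?_
  obtain ⟨η, h1, h2⟩ := sloc_key hφ h x ξ hξ
  rw [← h1, ← h2]
  exact T₁.le_opNorm η

theorem LocIso.gap (hφ : ∀ p q, c p = c q → φ p = φ q → p = q) (h : LocIso c φ T₂ T₁) {γ r : ℝ}
    (hg : Gap T₁ γ r) : Gap T₂ γ r := by
  have h' := h.sub ((sloc_one hφ).smul (γ : ℂ))
  intro ξ
  refine le_norm_of_blocks _ c c h'.blk r (fun x ξ hξ => ?_) ξ
  obtain ⟨η, h1, h2⟩ := sloc_key hφ h' x ξ hξ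
  rw [← h1, ← h2]
  exact hg η

end Crest.Agent.R129
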