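import Crest.Agent.R129.SDefs

/-!
# Paths, components, comparison of two covers (task R129/STrans).  Statements frozen.
-/

set_option autoImplicit false
open scoped BigOperators

namespace Crest.Agent.R129
namespace BG
variable {F A : Type} {Γ : BG F A} {K K₁ K₂ : Type} [Group K] [Group K₁] [Group K₂]

theorem Path.trans' {κ : Γ.V → F → K} {u v w : Γ.V} {k k' : K} {m m' : ℕ}
    (h : Γ.Path κ u k v m) (h' : Γ.Path κ v k' w m') : Γ.Path κ u (k * k') w (m + m') := by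
  exact h.trans h'

theorem Path.symm' {κ : Γ.V → F → K} {u v : Γ.V} {k : K} {m : ℕ} (h : Γ.Path κ u k v m) :
    Γ.Path κ v k⁻¹ u m := by
  exact h.symm

theorem Path.map' {κ : Γ.V → F → K₁} (f : K₁ →* K₂) {u v : Γ.V} {k : K₁} {m : ℕ}
    (h : Γ.Path κ u k v m) : Γ.Path (fun x t => f (κ x t)) u (f k) v m := by
  exact h.map f

/-- a path can be read in a second labelling -/
theorem Path.pair {κ₂ : Γ.V → F → K₂} (κ₁ : Γ.V → F → K₁) {u v : Γ.V} {k₂ : K₂} {m : ℕ}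
    (h : Γ.Path κ₂ u k₂ v m) : ∃ k₁, Γ.Path (fun x t => (κ₁ x t, κ₂ x t)) u (k₁, k₂) v m := by
  obtain ⟨k, rfl, hk⟩ :=
    Path.lift (κ := fun x t => (κ₁ x t, κ₂ x t)) (MonoidHom.snd K₁ K₂) h
  exact ⟨k.1, hk⟩

theorem Conn.refl' (κ : Γ.V → F → K) (p : K × Γ.V) : Γ.Conn κ p p := by
  exact ⟨0, by rw [mul_inv_cancel]; exact Path.refl _⟩

theorem Conn.symm' {κ : Γ.V → F → K} {p q : K × Γ.V} (h : Γ.Conn κ p q) : Γ.Conn κ q p := by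
  obtain ⟨m, hm⟩ := h
  exact ⟨m, by simpa using hm.symm⟩

theorem Conn.trans' {κ : Γ.V → F → K} {p q r : K × Γ.V} (h : Γ.Conn κ p q) (h' : Γ.Conn κ q r) :
    Γ.Conn κ p r := by
  obtain ⟨m, hm⟩ := h
  obtain ⟨m', hm'⟩ := h'
  exact ⟨m + m', by simpa [mul_assoc] using hm.trans hm'⟩

theorem conn_of_edge {κ : Γ.V → F → K} {p q : K × Γ.V} {t : F} (h : Γ.nb p.2 t = some q.2)
    (h' : κ p.2 t = p.1 * q.1⁻¹) : Γ.Conn κ p q := by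
  exact ⟨0 + 1, by simpa [h'] using (Path.refl (κ := κ) p.2).fwd h⟩

theorem conn_mul_right {κ : Γ.V → F → K} (a b k : K) (u v : Γ.V) :
    Γ.Conn κ (a * k, u) (b * k, v) ↔ Γ.Conn κ (a, u) (b, v) := by
  simp only [Conn, mul_inv_rev, mul_assoc, mul_inv_cancel_left]

theorem comp_eq_iff {κ : Γ.V → F → K} {p q : K × Γ.V} :
    Γ.comp κ p = Γ.comp κ q ↔ Γ.Conn κ p q := by
  refine ⟨fun h => ?_, fun h => Set.ext fun r => ⟨h.symm'.trans', h.trans'⟩⟩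
  have h1 : q ∈ Γ.comp κ q := Conn.refl' κ q
  rwa [← h] at h1

/-- Choose a base point `o p` in each component (`o p = (comp κ₂ p).some`, depending only on
`comp κ₂ p`), a pair path from `(o p).2` to `p.2` with label `(k₁, (o p).1 * p.1⁻¹)` and put
`φ p = (k₁⁻¹, p.2)`.  Key fact: every pair path from `p.2` to `q.2` with label `(k₁, p.1 * q.1⁻¹)` has
`k₁ = (φ p).1 * (φ q).1⁻¹` (close it up through the base point and use `h`). -/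
theorem exists_covIso (κ₂ : Γ.V → F → K₂) (κ₁ : Γ.V → F → K₁)
    (h : ∀ v k₁ k₂ m, Γ.Path (fun x t => (κ₁ x t, κ₂ x t)) v (k₁, k₂) v m → (k₁ = 1 ↔ k₂ = 1)) :
    ∃ φ, Γ.CovIso κ₂ κ₁ φ := by
  obtain ⟨o, ho, ho'⟩ : ∃ o : K₂ × Γ.V → K₂ × Γ.V, (∀ p, Γ.Conn κ₂ (o p) p) ∧
      ∀ p q, Γ.Conn κ₂ p q → o p = o q := by
    let s : Setoid (K₂ × Γ.V) := ⟨Γ.Conn κ₂, Conn.refl' κ₂, Conn.symm', Conn.trans'⟩
    exact ⟨fun p => (Quotient.mk s p).out, fun p => Quotient.mk_out (s := s) p,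
      fun p q hpq => congrArg Quotient.out (Quotient.sound (s := s) hpq)⟩
  have h1 : ∀ p, ∃ k₁ m, Γ.Path (fun x t => (κ₁ x t, κ₂ x t)) (o p).2 (k₁, (o p).1 * p.1⁻¹) p.2 m :=
    fun p => by
      obtain ⟨m, hm⟩ := ho p
      obtain ⟨k₁, hk⟩ := hm.pair κ₁
      exact ⟨k₁, m, hk⟩
  choose c n hc using h1
  have key : ∀ (p q : K₂ × Γ.V) k₁ m,
      Γ.Path (fun x t => (κ₁ x t, κ₂ x t)) p.2 (k₁, p.1 * q.1⁻¹) q.2 m → k₁ = (c p)⁻¹ * c q := by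
    intro p q k₁ m hm
    have h2 := ho' p q ⟨m, hm.map (MonoidHom.snd K₁ K₂)⟩
    have h3 := hc q
    rw [← h2] at h3
    have h4 := (h _ _ _ _ (((hc p).trans hm).trans h3.symm)).2 (by simp [mul_assoc])
    rw [eq_inv_mul_iff_mul_eq, ← mul_inv_eq_one]
    exact h4
  have key' : ∀ p q : K₂ × Γ.V, Γ.Conn κ₂ p q → ∃ m,
      Γ.Path (fun x t => (κ₁ x t, κ₂ x t)) p.2 ((c p)⁻¹ * c q, p.1 * q.1⁻¹) q.2 m := by
    rintro p q ⟨m, hm⟩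
    obtain ⟨k₁, hk⟩ := hm.pair κ₁
    exact ⟨m, key p q k₁ m hk ▸ hk⟩
  refine ⟨fun p => ((c p)⁻¹, p.2), fun _ => rfl, fun p q hpq e => ?_, fun p q hpq => ?_,
    fun p q' hq => ?_, fun p q t hpq he => ?_⟩
  · obtain ⟨m, hm⟩ := key' p q hpq
    obtain ⟨e1, e2⟩ := Prod.mk.inj e
    rw [← e2] at hm
    exact Prod.ext (mul_inv_eq_one.1 ((h _ _ _ _ hm).1 (by rw [e1, inv_mul_cancel]))) e2
  · obtain ⟨m, hm⟩ := key' p q hpq
    exact ⟨m, by simpa using hm.map (MonoidHom.fst K₁ K₂)⟩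
  · obtain ⟨m, hm⟩ := hq
    obtain ⟨k, hk1, hk⟩ := Path.lift (κ := fun x t => (κ₁ x t, κ₂ x t)) (MonoidHom.fst K₁ K₂) hm
    have h2 : Γ.Path (fun x t => (κ₁ x t, κ₂ x t)) p.2 (k.1, p.1 * (k.2⁻¹ * p.1)⁻¹) q'.2 m := by
      simpa using hk
    refine ⟨(k.2⁻¹ * p.1, q'.2), ⟨m, h2.map (MonoidHom.snd K₁ K₂)⟩, Prod.ext ?_ rfl⟩
    have h3 : (c p)⁻¹ * q'.1⁻¹ = _ := hk1.symm.trans (key p (k.2⁻¹ * p.1, q'.2) k.1 m h2)
    exact inv_eq_iff_eq_inv.2 (mul_left_cancel h3).symm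
  · obtain ⟨m, hm⟩ := key' p q hpq
    have h2 := h _ _ _ _ (hm.bwd he)
    simp only [Prod.fst_inv, Prod.snd_inv, mul_inv_eq_one] at h2
    rw [inv_inv]
    exact eq_comm.trans (h2.symm.trans eq_comm)

theorem CovIso.inj_comp {κ₂ : Γ.V → F → K₂} {κ₁ : Γ.V → F → K₁} {φ : K₂ × Γ.V → K₁ × Γ.V}
    (h : Γ.CovIso κ₂ κ₁ φ) (p q : K₂ × Γ.V) (hc : Γ.comp κ₂ p = Γ.comp κ₂ q) (he : φ p = φ q) :
    p = q := h.inj p q (comp_eq_iff.1 hc) he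

theorem strans_conn [Fintype F] {κ : Γ.V → F → K} {p q : K × Γ.V} (h : mat (Γ.Bop κ) p q ≠ 0) :
    Γ.Conn κ p q := by
  rw [mat_Bop] at h
  obtain ⟨t, -, ht⟩ := Finset.exists_ne_zero_of_sum_ne_zero h
  by_contra hc
  exact ht (if_neg fun h1 => hc (conn_of_edge h1.1 h1.2))

/-- `mat_Bop`, `conn_of_edge`, `lift` -/
theorem CovIso.locIso_Bop [Fintype F] {κ₂ : Γ.V → F → K₂} {κ₁ : Γ.V → F → K₁}
    {φ : K₂ × Γ.V → K₁ × Γ.V} (h : Γ.CovIso κ₂ κ₁ φ) :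
    LocIso (Γ.comp κ₂) φ (Γ.Bop κ₂) (Γ.Bop κ₁) := by
  refine ⟨fun p q h0 => comp_eq_iff.2 (strans_conn h0), fun p q hc => ?_, fun p q' h0 => ?_,
    fun q p' h0 => ?_⟩
  · rw [mat_Bop, mat_Bop, h.snd, h.snd]
    refine Finset.sum_congr rfl fun t _ => ?_
    have h1 := and_congr_right (h.edge p q t (comp_eq_iff.1 hc))
    by_cases h2 : Γ.nb p.2 t = some q.2 ∧ κ₂ p.2 t = p.1 * q.1⁻¹
    · rw [if_pos h2, if_pos (h1.1 h2)]
    · rw [if_neg h2, if_neg (mt h1.2 h2)]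
  · obtain ⟨q, h1, h2⟩ := h.lift p q' (strans_conn h0)
    exact ⟨q, comp_eq_iff.2 h1.symm', h2⟩
  · obtain ⟨p, h1, h2⟩ := h.lift q p' (strans_conn h0).symm'
    exact ⟨p, comp_eq_iff.2 h1.symm', h2⟩

/-- `embed`, `embed'` (swap the pair with `Path.map'`) -/
theorem exists_covIso_gl [DecidableEq F] [Group A] (h : Γ.SCHyp) :
    (∃ φ, Γ.CovIso Γ.gl Γ.a φ) ∧ ∃ ψ, Γ.CovIso Γ.a Γ.gl ψ := by
  have h1 : ∀ v k₁ k₂ m, Γ.Path (fun x t => (Γ.gl x t, Γ.a x t)) v (k₁, k₂) v m →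
      (k₁ = 1 ↔ k₂ = 1) := fun v k₁ k₂ m hp =>
    ⟨fun e => (embed h (e ▸ hp)).2, fun e => embed' (e ▸ hp)⟩
  exact ⟨exists_covIso _ _ fun v k₁ k₂ m hp =>
    (h1 v k₂ k₁ m (hp.map (MulEquiv.prodComm : A × Γ.Grp ≃* Γ.Grp × A).toMonoidHom)).symm,
    exists_covIso _ _ h1⟩

/-- a component of the group cover meets every fibre `{g} × V` at most once (`embed`) -/
theorem conn_gl_unique [DecidableEq F] [Group A] (h : Γ.SCHyp) {g : Γ.Grp} {v v' : Γ.V}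
    (hc : Γ.Conn Γ.gl (g, v) (g, v')) : v = v' := by
  obtain ⟨m, hm⟩ := hc
  obtain ⟨k, hk1, hk⟩ :=
    Path.lift (κ := fun x t => (Γ.gl x t, Γ.a x t)) (MonoidHom.fst Γ.Grp A) hm
  obtain ⟨k₁, k₂⟩ := k
  obtain rfl : k₁ = 1 := hk1.trans (mul_inv_cancel g)
  exact (embed h hk).1.symm

/-- components stay inside the pair of nodes -/
theorem NodeHyp.stay {node : ℤ → Finset Γ.V} {on : ℤ → Prop} (hN : Γ.NodeHyp node on)
    {κ : Γ.V → F → K} {p q : K × Γ.V} (h : Γ.Conn κ p q) {i : ℤ} (hi : on i)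
    (hp : p.2 ∈ node i ∨ p.2 ∈ node (i + 1)) : q.2 ∈ node i ∨ q.2 ∈ node (i + 1) := by
  have h1 : ∀ j v, on j → v ∈ node j ∨ v ∈ node (j + 1) → v ∈ node i ∨ v ∈ node (i + 1) → j = i := by
    intro j v hj h2 h3
    have h4 : ∀ a b, v ∈ node a → v ∈ node b → a = b := fun a b ha hb => by
      by_contra hab
      exact Finset.disjoint_left.1 (hN.disj a b hab) ha hb
    obtain ⟨a, ha⟩ := hN.even i hi
    obtain ⟨b, hb⟩ := hN.even j hj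
    rcases h2 with h2 | h2 <;> rcases h3 with h3 | h3 <;> have := h4 _ _ h2 h3 <;> omega
  obtain ⟨m, hm⟩ := h
  generalize p.1 * q.1⁻¹ = k at hm
  generalize q.2 = w at hm
  induction hm with
  | refl => exact hp
  | fwd _ he ih =>
    obtain ⟨j, hj, h2, h3⟩ := hN.edge _ _ _ he
    exact Or.inr (h1 j _ hj (Or.inl h2) ih ▸ h3)
  | bwd _ he ih =>
    obtain ⟨j, hj, h2, h3⟩ := hN.edge _ _ _ he
    exact Or.inl (h1 j _ hj (Or.inr h3) ih ▸ h2)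

end BG
end Crest.Agent.R129
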