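import Crest.Agent.R129.SSplit
import Crest.Agent.R129.SCover
import Crest.Agent.R129.SForest
import Crest.Agent.R129.SLoc
import Crest.Agent.R129.STrans
import Crest.Agent.R129S.Gap2

/-! # Part S for the torsion-free statement -/

set_option autoImplicit false
open scoped BigOperators InnerProductSpace
open Crest.OperatorAlgebra

namespace Crest.Agent.R129
namespace BG
variable {F A : Type} [Fintype F] [DecidableEq F] [Group A] {Γ : BG F A}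

theorem norm_Bdp_le_card : ‖Γ.Bdp‖ ≤ Fintype.card F := by
  have h1 := norm_prj_le Γ.Yset
  have h2 := Γ.norm_Bop_le Γ.gl
  calc ‖Γ.Bdp‖ ≤ ‖prj Γ.Yset‖ * (‖Γ.Bop Γ.gl‖ * ‖prj Γ.Yset‖) :=
        (ContinuousLinearMap.opNorm_comp_le _ _).trans
          (mul_le_mul_of_nonneg_left (ContinuousLinearMap.opNorm_comp_le _ _) (norm_nonneg _))
    _ ≤ 1 * (Fintype.card F * 1) := by gcongr
    _ = _ := by ring

theorem norm_BB_sub (h : Γ.SCHyp) :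
    ‖adj Γ.Bdp ∘L Γ.Bdp - adj (Γ.Bop Γ.gl) ∘L Γ.Bop Γ.gl‖
      ≤ 4 * (Fintype.card F * Real.sqrt (Fintype.card F)) := by
  have := R129S.norm_adjoint_comp_sub Γ.Bdp (Γ.Bop Γ.gl) norm_Bdp_le_card (Γ.norm_Bop_le Γ.gl)
    (δ := 2 * Real.sqrt (Fintype.card F)) (by rw [norm_sub_rev]; exact norm_Bop_sub_Bdp h)
  linarith

end BG

theorem partS74' : ∃ C₀ : ℝ, 0 < C₀ ∧ ∀ (F A : Type) [Fintype F] [DecidableEq F] [Nonempty F]
    [Group A] (Γ : BG F A), Γ.SCHyp → (∀ a : A, IsOfFinOrder a → a = 1) → ∀ γ r : ℝ,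
    C₀ * (Fintype.card F * Real.sqrt (Fintype.card F)) ≤ r → r ≤ γ →
    Gap (adj (Γ.Bop Γ.a) ∘L Γ.Bop Γ.a) γ r → γ - r / 2 ≤ ‖Γ.Bop Γ.a‖ ^ 2 →
    ∃ (G : Type) (_ : Group G), Group.FG G ∧ (∀ g : G, IsOfFinOrder g → g = 1) ∧
      ∃ e ∈ reducedGroupCStar G, e * e = e ∧ star e = e ∧
        0 < (canonicalTrace G e).re ∧ (canonicalTrace G e).re < 1 / 2 := by
  refine ⟨200, by norm_num, ?_⟩
  intro F A _ _ _ _ Γ h hA γ r hr hγ hg hn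
  refine ⟨Γ.Grp, inferInstance, Γ.fg_Grp, BG.torsionFree h hA, ?_⟩
  set n : ℝ := (Fintype.card F : ℝ) with hn_def
  have hn1 : 1 ≤ n := by rw [hn_def]; exact_mod_cast Fintype.card_pos
  have hs1 : 1 ≤ Real.sqrt n := Real.one_le_sqrt.2 hn1
  set w : ℝ := n * Real.sqrt n with hw
  have hw1 : 1 ≤ w := by rw [hw]; nlinarith
  obtain ⟨⟨φ, hφ⟩, ψ, hψ⟩ := BG.exists_covIso_gl h
  -- the group cover
  have g1 : Gap (adj (Γ.Bop Γ.gl) ∘L Γ.Bop Γ.gl) γ r :=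
    (hφ.locIso_Bop.adj'.comp hφ.inj_comp hφ.locIso_Bop).gap hφ.inj_comp hg
  have n1 : ‖Γ.Bop Γ.a‖ ≤ ‖Γ.Bop Γ.gl‖ := hψ.locIso_Bop.norm_le hψ.inj_comp
  have e1 := BG.norm_BB_sub h
  have g2 : Gap (adj Γ.Bdp ∘L Γ.Bdp) γ (r - 4 * w) := g1.perturb (by rw [norm_sub_rev]; exact e1)
  have g3 := BG.gap_B h g2 (by linarith)
  set B := Γ.Dp Γ.IsB with hB
  set c : ℝ := 4 * n ^ 2 with hc
  have e2 : ‖Γ.Top - (c : ℂ) • (1 : L2 Γ.Grp →L[ℂ] L2 Γ.Grp) - adj B ∘L B‖ ≤ 30 * w := BG.split h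
  have g4 : R129S.Gap Γ.Top (γ + c) (r - 4 * w - 30 * w) := by
    refine (R129S.Gap.add_const g3 c).perturb ?_
    convert e2 using 2
    abel
  -- quadratic form of `Top`
  have hq : ∀ ξ : L2 Γ.Grp, |(⟪ξ, Γ.Top ξ⟫_ℂ).re - c * ‖ξ‖ ^ 2 - ‖B ξ‖ ^ 2| ≤ 30 * w * ‖ξ‖ ^ 2 := by
    intro ξ
    have h1 := R129S.abs_re_inner_le
      (Γ.Top - (c : ℂ) • (1 : L2 Γ.Grp →L[ℂ] L2 Γ.Grp) - adj B ∘L B) ξ
    rw [sub_apply, sub_apply, inner_sub_right, inner_sub_right, Complex.sub_re, Complex.sub_re,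
      R129S.re_inner_adjoint, smul_apply, one_apply_eq_self, inner_smul_right,
      Complex.re_ofReal_mul, R129S.re_inner_self] at h1
    exact h1.trans (mul_le_mul_of_nonneg_right e2 (sq_nonneg _))
  -- the norm of `B`
  have n2 : γ - r / 2 - 4 * w ≤ ‖B‖ ^ 2 := by
    have h1 : ‖Γ.Bop Γ.gl‖ ^ 2 ≤ ‖Γ.Bdp‖ ^ 2 + 4 * w := by
      rw [sq, sq, ← ContinuousLinearMap.norm_adjoint_comp_self,
        ← ContinuousLinearMap.norm_adjoint_comp_self]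
      have := norm_sub_norm_le (adj (Γ.Bop Γ.gl) ∘L Γ.Bop Γ.gl) (adj Γ.Bdp ∘L Γ.Bdp)
      rw [norm_sub_rev] at this
      linarith
    have h2 := pow_le_pow_left₀ (norm_nonneg _) n1 2
    have h3 := pow_le_pow_left₀ (norm_nonneg _) (BG.norm_Bdp_le h) 2
    linarith
  obtain ⟨ξ, hξ⟩ := R129S.exists_lt_normSq B (c := γ - r / 2 - 5 * w) (by linarith) (by linarith)
  refine R129S.exists_proj_markov Γ.Top_mem Γ.Top_selfAdjoint (a := c - 30 * w) (ξ := ξ)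
    (by linarith) g4 ?_ (fun η => ?_) ?_
  · have h1 := (abs_le.1 (hq ξ)).1
    have h2 : 0 ≤ (r / 2 - 69 * w) * ‖ξ‖ ^ 2 := mul_nonneg (by linarith) (sq_nonneg _)
    nlinarith
  · have h1 := (abs_le.1 (hq η)).1
    nlinarith [sq_nonneg ‖B η‖]
  · have h1 : R129S.ent Γ.Top 1 1 = (c : ℂ) := Γ.mat_Top_one h
    rw [h1, Complex.ofReal_re]
    linarith

end Crest.Agent.R129
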