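import Crest.Agent.R129.STrans

/-!
# Averaging over giant components (task R129/SAvg).  Statements frozen.

`Big q` gives `0 < csize κ q`, so the set `{r | Conn κ q r ∧ ¬ isH r.2}` is finite and nonempty;
`csize` only depends on the component.  Under `NodeHyp`, for `Big q` and `Conn κ q r` one has
`Big r ↔ ¬ isH r.2` (`NodeHyp.stay`, `typ`, `even`).
-/

set_option autoImplicit false
open scoped BigOperators

namespace Crest.Agent.R129
namespace BG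
variable {F A : Type} {Γ : BG F A} {K K₁ K₂ : Type} [Group K] [Group K₁] [Group K₂]
  {node : ℤ → Finset Γ.V} {on : ℤ → Prop} {M : ℤ → ℕ}

theorem csize_conn {κ : Γ.V → F → K} {p q : K × Γ.V} (h : Γ.Conn κ p q) :
    Γ.csize κ p = Γ.csize κ q := by
  unfold csize
  congr 1
  ext r
  exact and_congr_left' ⟨h.symm'.trans', h.trans'⟩

theorem csize_mul_right (κ : Γ.V → F → K) (a k : K) (v : Γ.V) :
    Γ.csize κ (a * k, v) = Γ.csize κ (a, v) := by
  have hinj : Function.Injective fun r : K × Γ.V => (r.1 * k, r.2) := fun r r' e =>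
    Prod.ext (mul_right_cancel (Prod.mk.inj e).1) (Prod.mk.inj e).2
  unfold csize
  rw [← Set.ncard_image_of_injective {r | Γ.Conn κ (a, v) r ∧ ¬ Γ.isH r.2} hinj]
  congr 1
  ext ⟨b, u⟩
  constructor
  · rintro ⟨h1, h2⟩
    refine ⟨(b * k⁻¹, u), ⟨(conn_mul_right a (b * k⁻¹) k v u).1 ?_, h2⟩, by simp⟩
    rwa [inv_mul_cancel_right]
  · rintro ⟨⟨b', u'⟩, ⟨h1, h2⟩, e⟩
    rw [← e]
    exact ⟨(conn_mul_right a b' k v u').2 h1, h2⟩

theorem Big.finite {κ : Γ.V → F → K} {q : K × Γ.V} (h : Γ.Big κ node on M q) :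
    {r | Γ.Conn κ q r ∧ ¬ Γ.isH r.2}.Finite ∧ 0 < Γ.csize κ q := by
  obtain ⟨i, -, -, h3⟩ := h
  have h0 : 0 < Γ.csize κ q := by omega
  exact ⟨Set.finite_of_ncard_pos h0, h0⟩

theorem big_iff (hN : Γ.NodeHyp node on) {κ : Γ.V → F → K} {q r : K × Γ.V}
    (h : Γ.Big κ node on M q) (hc : Γ.Conn κ q r) : Γ.Big κ node on M r ↔ ¬ Γ.isH r.2 := by
  constructor
  · rintro ⟨j, h1, h2, -⟩
    rw [hN.typ _ _ h2, Int.even_add_one, not_not]
    exact hN.even j h1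
  · intro hr
    obtain ⟨i, h1, h2, h3⟩ := h
    refine ⟨i, h1, (hN.stay hc h1 (Or.inr h2)).resolve_left fun h4 => hr ?_, csize_conn hc ▸ h3⟩
    exact (hN.typ _ _ h4).2 (hN.even i h1)

theorem big_mul_right (κ : Γ.V → F → K) (a k : K) (v : Γ.V) :
    Γ.Big κ node on M (a * k, v) ↔ Γ.Big κ node on M (a, v) := by
  unfold Big
  rw [csize_mul_right]

open Classical in
theorem savg_symm (κ : Γ.V → F → K) (p q : K × Γ.V) :
    (if Γ.Conn κ q p ∧ Γ.Big κ node on M q ∧ Γ.Big κ node on M p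
      then ((Γ.csize κ p : ℂ))⁻¹ else 0) =
    if Γ.Conn κ p q ∧ Γ.Big κ node on M p ∧ Γ.Big κ node on M q
      then ((Γ.csize κ q : ℂ))⁻¹ else 0 := by
  by_cases h : Γ.Conn κ p q ∧ Γ.Big κ node on M p ∧ Γ.Big κ node on M q
  · rw [if_pos h, if_pos ⟨h.1.symm', h.2.2, h.2.1⟩, csize_conn h.1]
  · rw [if_neg h, if_neg fun h' => h ⟨h'.1.symm', h'.2.2, h'.2.1⟩]

open Classical in
theorem savg_row (hN : Γ.NodeHyp node on) (κ : Γ.V → F → K) (p : K × Γ.V) (s : Finset (K × Γ.V)) :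
    ∑ q ∈ s, ‖if Γ.Conn κ p q ∧ Γ.Big κ node on M p ∧ Γ.Big κ node on M q
      then ((Γ.csize κ q : ℂ))⁻¹ else 0‖ ≤ 1 := by
  by_cases hp : Γ.Big κ node on M p
  · obtain ⟨hf, h0⟩ := hp.finite
    have h0' : (0 : ℝ) < Γ.csize κ p := by exact_mod_cast h0
    calc _ ≤ ∑ q ∈ s, if q ∈ hf.toFinset then ((Γ.csize κ p : ℝ))⁻¹ else 0 := by
          refine Finset.sum_le_sum fun q _ => ?_
          by_cases h : Γ.Conn κ p q ∧ Γ.Big κ node on M p ∧ Γ.Big κ node on M q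
          · rw [if_pos h, if_pos (hf.mem_toFinset.2 ⟨h.1, (big_iff hN hp h.1).1 h.2.2⟩), norm_inv,
              Complex.norm_natCast, csize_conn h.1]
          · rw [if_neg h, norm_zero]
            positivity
      _ = (s ∩ hf.toFinset).card * ((Γ.csize κ p : ℝ))⁻¹ := by
          rw [Finset.sum_ite_mem, Finset.sum_const, nsmul_eq_mul]
      _ ≤ Γ.csize κ p * ((Γ.csize κ p : ℝ))⁻¹ := by
          refine mul_le_mul_of_nonneg_right ?_ (by positivity)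
          have := Finset.card_le_card (Finset.inter_subset_right (s₁ := s) (s₂ := hf.toFinset))
          rw [← Set.ncard_eq_toFinset_card _ hf] at this
          exact_mod_cast this
      _ = 1 := mul_inv_cancel₀ h0'.ne'
  · simp [hp]

open Classical in
theorem savg_schur (hN : Γ.NodeHyp node on) (κ : Γ.V → F → K) :
    (∀ p q, mat (Γ.Pav κ node on M) p q =
      if Γ.Conn κ p q ∧ Γ.Big κ node on M p ∧ Γ.Big κ node on M q
      then ((Γ.csize κ q : ℂ))⁻¹ else 0) ∧ ‖Γ.Pav κ node on M‖ ≤ Real.sqrt (1 * 1) :=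
  schur₁ _ 1 1 zero_le_one zero_le_one (savg_row hN κ) fun q s => by
    simpa only [savg_symm κ _ q] using savg_row (M := M) hN κ q s

open Classical in
/-- `schur₁` with `α = β = 1` -/
theorem mat_Pav (hN : Γ.NodeHyp node on) (κ : Γ.V → F → K) (p q : K × Γ.V) :
    mat (Γ.Pav κ node on M) p q =
      if Γ.Conn κ p q ∧ Γ.Big κ node on M p ∧ Γ.Big κ node on M q
      then ((Γ.csize κ q : ℂ))⁻¹ else 0 := by
  exact (savg_schur hN κ).1 p q

theorem savg_conn (hN : Γ.NodeHyp node on) {κ : Γ.V → F → K} {p q : K × Γ.V}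
    (h : mat (Γ.Pav κ node on M) p q ≠ 0) : Γ.Conn κ p q := by
  by_contra hc
  rw [mat_Pav hN, if_neg fun h' => hc h'.1] at h
  exact h rfl

theorem norm_Pav_le (hN : Γ.NodeHyp node on) (κ : Γ.V → F → K) : ‖Γ.Pav κ node on M‖ ≤ 1 := by
  simpa using (savg_schur (M := M) hN κ).2

theorem adj_Pav (hN : Γ.NodeHyp node on) (κ : Γ.V → F → K) :
    adj (Γ.Pav κ node on M) = Γ.Pav κ node on M := by
  refine mat_ext fun p q => ?_
  rw [mat_adj, mat_Pav hN, mat_Pav hN, savg_symm]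
  split_ifs <;> simp

theorem Pav_comp (hN : Γ.NodeHyp node on) (κ : Γ.V → F → K) :
    Γ.Pav κ node on M ∘L Γ.Pav κ node on M = Γ.Pav κ node on M := by
  classical
  refine mat_ext fun p q => (hasSum_mat_comp _ _ p q).unique ?_
  simp only [mat_Pav hN]
  by_cases h : Γ.Conn κ p q ∧ Γ.Big κ node on M p ∧ Γ.Big κ node on M q
  · obtain ⟨h1, h2, h3⟩ := h
    obtain ⟨hf, h0⟩ := h2.finite
    have h0' : (Γ.csize κ q : ℂ) ≠ 0 := by exact_mod_cast h3.finite.2.ne'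
    have e : ∑ r ∈ hf.toFinset,
        ((if Γ.Conn κ p r ∧ Γ.Big κ node on M p ∧ Γ.Big κ node on M r
          then ((Γ.csize κ r : ℂ))⁻¹ else 0) *
        if Γ.Conn κ r q ∧ Γ.Big κ node on M r ∧ Γ.Big κ node on M q
          then ((Γ.csize κ q : ℂ))⁻¹ else 0) = ((Γ.csize κ q : ℂ))⁻¹ := by
      rw [Finset.sum_congr rfl (g := fun _ => ((Γ.csize κ q : ℂ))⁻¹ * ((Γ.csize κ q : ℂ))⁻¹),
        Finset.sum_const, ← Set.ncard_eq_toFinset_card _ hf, nsmul_eq_mul]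
      · change (Γ.csize κ p : ℂ) * _ = _
        rw [csize_conn h1, mul_inv_cancel_left₀ h0']
      · intro r hr
        obtain ⟨h4, h5⟩ := hf.mem_toFinset.1 hr
        have h6 := (big_iff hN h2 h4).2 h5
        have h7 := h4.symm'.trans' h1
        rw [if_pos ⟨h4, h2, h6⟩, if_pos ⟨h7, h6, h3⟩, csize_conn h7]
    rw [if_pos ⟨h1, h2, h3⟩]
    refine Eq.subst (motive := fun z => HasSum _ z) e
      (hasSum_sum_of_ne_finset_zero fun r hr => ?_)
    rw [if_neg, zero_mul]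
    rintro ⟨h4, -, h5⟩
    exact hr (hf.mem_toFinset.2 ⟨h4, (big_iff hN h2 h4).1 h5⟩)
  · rw [if_neg h]
    convert hasSum_zero with r
    split_ifs with h1 h2
    · exact absurd ⟨h1.1.trans' h2.1, h1.2.1, h2.2.2⟩ h
    · exact mul_zero _
    · exact zero_mul _
    · exact zero_mul _

theorem mat_Pav_mul_right (hN : Γ.NodeHyp node on) (κ : Γ.V → F → K) (a b k : K) (u v : Γ.V) :
    mat (Γ.Pav κ node on M) (a * k, u) (b * k, v) = mat (Γ.Pav κ node on M) (a, u) (b, v) := by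
  rw [mat_Pav hN, mat_Pav hN, csize_mul_right, conn_mul_right, big_mul_right, big_mul_right]

/-- `φ` is a bijection from the component of `p` onto the component of `φ p` -/
theorem CovIso.csize_eq {κ₂ : Γ.V → F → K₂} {κ₁ : Γ.V → F → K₁} {φ : K₂ × Γ.V → K₁ × Γ.V}
    (h : Γ.CovIso κ₂ κ₁ φ) (p : K₂ × Γ.V) : Γ.csize κ₁ (φ p) = Γ.csize κ₂ p := by
  unfold csize
  rw [← Set.InjOn.ncard_image (f := φ) (s := {r | Γ.Conn κ₂ p r ∧ ¬ Γ.isH r.2})
    fun r hr r' hr' e => h.inj r r' (hr.1.symm'.trans' hr'.1) e]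
  congr 1
  ext r'
  constructor
  · rintro ⟨h1, h2⟩
    obtain ⟨r, h3, rfl⟩ := h.lift p r' h1
    exact ⟨r, ⟨h3, h.snd r ▸ h2⟩, rfl⟩
  · rintro ⟨r, ⟨h1, h2⟩, rfl⟩
    exact ⟨h.conn p r h1, (h.snd r).symm ▸ h2⟩

theorem CovIso.locIso_Pav (hN : Γ.NodeHyp node on) {κ₂ : Γ.V → F → K₂} {κ₁ : Γ.V → F → K₁}
    {φ : K₂ × Γ.V → K₁ × Γ.V} (h : Γ.CovIso κ₂ κ₁ φ) :
    LocIso (Γ.comp κ₂) φ (Γ.Pav κ₂ node on M) (Γ.Pav κ₁ node on M) := by
  have hbig : ∀ p, Γ.Big κ₁ node on M (φ p) ↔ Γ.Big κ₂ node on M p := fun p => by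
    unfold Big
    rw [h.snd, h.csize_eq]
  refine ⟨fun p q hne => comp_eq_iff.2 (savg_conn hN hne), fun p q hc => ?_, fun p q' hne => ?_,
    fun q p' hne => ?_⟩
  · have h1 := comp_eq_iff.1 hc
    rw [mat_Pav hN, mat_Pav hN, h.csize_eq, hbig, hbig, (iff_of_true h1 (h.conn p q h1) :)]
  · obtain ⟨q, h1, h2⟩ := h.lift p q' (savg_conn hN hne)
    exact ⟨q, comp_eq_iff.2 h1.symm', h2⟩
  · obtain ⟨p, h1, h2⟩ := h.lift q p' (savg_conn hN hne).symm'
    exact ⟨p, comp_eq_iff.2 h1.symm', h2⟩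

/-- diagonal entries agree in both covers (`csize_eq`, `csize_mul_right`, `snd`) -/
theorem CovIso.mat_Pav_diag (hN : Γ.NodeHyp node on) {κ₂ : Γ.V → F → K₂} {κ₁ : Γ.V → F → K₁}
    {φ : K₂ × Γ.V → K₁ × Γ.V} (h : Γ.CovIso κ₂ κ₁ φ) (v : Γ.V) :
    mat (Γ.Pav κ₂ node on M) (1, v) (1, v) = mat (Γ.Pav κ₁ node on M) (1, v) (1, v) := by
  rw [(h.locIso_Pav hN).eq _ _ rfl, ← mat_Pav_mul_right hN κ₁ 1 1 (φ (1, v)).1 v v, one_mul]
  have e : φ (1, v) = ((φ (1, v)).1, v) := Prod.ext rfl (h.snd _)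
  rw [← e]

end BG
end Crest.Agent.R129
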