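import Crest.Agent.R129.Tree

/-! # Abstract small cancellation data on the free-group tree (definitions; do not edit) -/

set_option autoImplicit false

namespace Crest.Agent.R129

/-- a family of subtrees (`mem`), each with a group of rotations `R` and a scale `L` -/
structure SC (S : Type) [DecidableEq S] where
  M : Type
  sm : FreeGroup S → M → M
  sm_one : ∀ m, sm 1 m = m
  sm_mul : ∀ g h m, sm (g * h) m = sm g (sm h m)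
  mem : M → Set (FreeGroup S)
  R : M → Subgroup (FreeGroup S)
  L : M → FreeGroup S → ℝ
  ne : ∀ m, (mem m).Nonempty
  mem_sm : ∀ g m y, g * y ∈ mem (sm g m) ↔ y ∈ mem m
  convex : ∀ m x y z, x ∈ mem m → y ∈ mem m → Btw x z y → z ∈ mem m
  R_sm : ∀ g m r, r ∈ R m → g * r * g⁻¹ ∈ R (sm g m)
  R_fix : ∀ m r, r ∈ R m → sm r m = m
  L_sm : ∀ g m y, L (sm g m) (g * y) = L m y
  one_le : ∀ m y, y ∈ mem m → 1 ≤ L m y
  lip : ∀ m x y, x ∈ mem m → y ∈ mem m → L m y ≤ L m x + td x y / 100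
  piece : ∀ m m' x y, m ≠ m' → x ∈ mem m → y ∈ mem m → x ∈ mem m' → y ∈ mem m' →
    (td x y : ℝ) ≤ L m x
  girth : ∀ m r y, r ∈ R m → r ≠ 1 → y ∈ mem m → 100 * L m y ≤ td y (r * y)

namespace SC
variable {S : Type} [DecidableEq S] (𝒮 : SC S)

/-- the subgroup generated by all rotations (normal by `R_sm`) -/
def N : Subgroup (FreeGroup S) := ⨆ m, 𝒮.R m

/-- Greendlinger property of the geodesic from `x` to `x'` -/
def LGat (x x' : FreeGroup S) : Prop :=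
  ∃ Y r a b, r ∈ 𝒮.R Y ∧ r ≠ 1 ∧ a ∈ 𝒮.mem Y ∧ b ∈ 𝒮.mem Y ∧ Btw x a b ∧ Btw x b x' ∧
    (td (r * a) b : ℝ) ≤ 13 * 𝒮.L Y a

/-- a convex set -/
def Cvx (V : Set (FreeGroup S)) : Prop := ∀ x y z, x ∈ V → y ∈ V → Btw x z y → z ∈ V

/-- fresh members: they meet `V` in a small nonempty set -/
def Fresh (V : Set (FreeGroup S)) (Fr : Set 𝒮.M) : Prop :=
  ∀ Y ∈ Fr, (∃ y ∈ 𝒮.mem Y, y ∈ V) ∧
    ∀ y y', y ∈ 𝒮.mem Y → y ∈ V → y' ∈ 𝒮.mem Y → y' ∈ V → (td y y' : ℝ) ≤ 3 * 𝒮.L Y y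

/-- a chain of nontrivial rotations about fresh members, consecutive members distinct -/
def Chain (Fr : Set 𝒮.M) (l : List (𝒮.M × FreeGroup S)) : Prop :=
  (∀ p ∈ l, p.1 ∈ Fr ∧ p.2 ∈ 𝒮.R p.1 ∧ p.2 ≠ 1) ∧ l.IsChain fun p q => p.1 ≠ q.1

/-- middle vertices of `[y, r y]` -/
def Mid (Y : 𝒮.M) (y r z : FreeGroup S) : Prop :=
  Btw y z (r * y) ∧ 5 * 𝒮.L Y y ≤ td y z ∧ 5 * 𝒮.L Y y ≤ td z (r * y)

/-- `w` is shortest in its coset -/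
def Min (w : FreeGroup S) : Prop := ∀ h ∈ 𝒮.N, w.norm ≤ (h * w).norm

/-- the geodesic `[1,w]` starts with a segment of length `≥ c L` in `Y` -/
def ADeep (c : ℝ) (w : FreeGroup S) (Y : 𝒮.M) : Prop :=
  1 ∈ 𝒮.mem Y ∧ ∃ a ∈ 𝒮.mem Y, Btw 1 a w ∧ c * 𝒮.L Y 1 ≤ a.norm

theorem sm_inv_sm (g : FreeGroup S) (m : 𝒮.M) : 𝒮.sm g⁻¹ (𝒮.sm g m) = m := by
  rw [← 𝒮.sm_mul, inv_mul_cancel, 𝒮.sm_one]

theorem R_le_N (m : 𝒮.M) : 𝒮.R m ≤ 𝒮.N := le_iSup 𝒮.R m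

theorem mul_mem_of_R {Y : 𝒮.M} {r y : FreeGroup S} (hr : r ∈ 𝒮.R Y) (hy : y ∈ 𝒮.mem Y) :
    r * y ∈ 𝒮.mem Y := by
  have := (𝒮.mem_sm r Y y).2 hy
  rwa [𝒮.R_fix Y r hr] at this

theorem L_mul_of_R {Y : 𝒮.M} {r : FreeGroup S} (hr : r ∈ 𝒮.R Y) (y : FreeGroup S) :
    𝒮.L Y (r * y) = 𝒮.L Y y := by
  have := 𝒮.L_sm r Y y
  rwa [𝒮.R_fix Y r hr] at this

instance N_normal : 𝒮.N.Normal := by
  refine ⟨fun n hn g => ?_⟩
  refine Subgroup.iSup_induction 𝒮.R (C := fun n => g * n * g⁻¹ ∈ 𝒮.N) hn ?_ ?_ ?_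
  · intro m r hr
    exact 𝒮.R_le_N _ (𝒮.R_sm g m r hr)
  · simp
  · intro x y hx hy
    have : g * (x * y) * g⁻¹ = (g * x * g⁻¹) * (g * y * g⁻¹) := by group
    rw [this]; exact 𝒮.N.mul_mem hx hy

end SC
end Crest.Agent.R129
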