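import Crest.Agent.R129.Ker
import Crest.Agent.R129.Geo
import Crest.Agent.R129.WQ
import Crest.Agent.R129S.CStar

/-!
# Part S definitions (owner helper84).  DO NOT EDIT.

`R129S.*` (general Hilbert space lemmas, `lam`, `rho`, `redAlg`, `up`) is definitionally compatible
with `R129.*`: `mat T j i = R129S.ent T j i`, `dl = R129S.dl`, `Gap = R129S.Gap` all hold by `rfl`.
-/

set_option autoImplicit false
open scoped BigOperators

namespace Crest.Agent.R129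

/-- `T₂` is block diagonal for `c` and every block is a copy (through `φ`) of a reducing block of
`T₁`. -/
structure LocIso {I J C : Type} (c : I → C) (φ : I → J) (T₂ : L2 I →L[ℂ] L2 I)
    (T₁ : L2 J →L[ℂ] L2 J) : Prop where
  blk : ∀ p q, mat T₂ p q ≠ 0 → c p = c q
  eq : ∀ p q, c p = c q → mat T₂ p q = mat T₁ (φ p) (φ q)
  row : ∀ p q', mat T₁ (φ p) q' ≠ 0 → ∃ q, c q = c p ∧ φ q = q'
  col : ∀ q p', mat T₁ p' (φ q) ≠ 0 → ∃ p, c p = c q ∧ φ p = p'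

namespace BG
variable {F A : Type} (Γ : BG F A)

/-- the generators of the group -/
def gen [Group A] (s : Let F) : Γ.Grp := Γ.mkG (FreeGroup.of s)

open Classical in
/-- the part of `Dop` made of the entries `(g, s)` with `P s g` -/
noncomputable def Dp [Group A] [Fintype F] (P : Let F → Γ.Grp → Prop) :
    L2 Γ.Grp →L[ℂ] L2 (Γ.Grp × F) :=
  kop fun p h => ∑ s : Let F,
    if P s p.1 ∧ s.2.1 = p.2 ∧ Γ.gen s = p.1 * h⁻¹ then ph s.2.2 else 0

/-- `T = D* D` -/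
noncomputable def Top [Group A] [Fintype F] : L2 Γ.Grp →L[ℂ] L2 Γ.Grp := adj Γ.Dop ∘L Γ.Dop

/-- the edge `(g, s)` of the Cayley graph is a deep edge of a copy -/
def IsB [Group A] [DecidableEq F] (s : Let F) (g : Γ.Grp) : Prop :=
  ∃ b b', Γ.SEdge b (s, true) b' ∧ Γ.Deep 5 g b ∧ Γ.Deep 5 ((Γ.gen s)⁻¹ * g) b'

/-- deep vertices of the cover `Grp × V` -/
def Yset [Group A] [DecidableEq F] : Set (Γ.Grp × Γ.V) := {p | Γ.Deep 5 p.1 p.2}

/-- the cover operator compressed to the deep vertices -/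
noncomputable def Bdp [Group A] [DecidableEq F] [Fintype F] :
    L2 (Γ.Grp × Γ.V) →L[ℂ] L2 (Γ.Grp × Γ.V) := prj Γ.Yset ∘L Γ.Bop Γ.gl ∘L prj Γ.Yset

open Classical in
/-- the partial isometry `δ_{(g,b)} ↦ δ_g` on deep vertices -/
noncomputable def U0 [Group A] [DecidableEq F] : L2 (Γ.Grp × Γ.V) →L[ℂ] L2 Γ.Grp :=
  kop fun g p => if g = p.1 ∧ p ∈ Γ.Yset then 1 else 0

/-- the component of a vertex of the cover -/
def comp {K : Type} [Group K] (κ : Γ.V → F → K) (p : K × Γ.V) : Set (K × Γ.V) :=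
  {q | Γ.Conn κ p q}

/-- `φ` maps every component of the `κ₂`-cover isomorphically onto a component of the
`κ₁`-cover -/
structure CovIso {K₁ K₂ : Type} [Group K₁] [Group K₂] (κ₂ : Γ.V → F → K₂) (κ₁ : Γ.V → F → K₁)
    (φ : K₂ × Γ.V → K₁ × Γ.V) : Prop where
  snd : ∀ p, (φ p).2 = p.2
  inj : ∀ p q, Γ.Conn κ₂ p q → φ p = φ q → p = q
  conn : ∀ p q, Γ.Conn κ₂ p q → Γ.Conn κ₁ (φ p) (φ q)
  lift : ∀ p q', Γ.Conn κ₁ (φ p) q' → ∃ q, Γ.Conn κ₂ p q ∧ φ q = q'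
  edge : ∀ p q t, Γ.Conn κ₂ p q → Γ.nb p.2 t = some q.2 →
    (κ₂ p.2 t = p.1 * q.1⁻¹ ↔ κ₁ p.2 t = (φ p).1 * (φ q).1⁻¹)

/-- the node structure of `partS73` -/
structure NodeHyp (node : ℤ → Finset Γ.V) (on : ℤ → Prop) : Prop where
  even : ∀ i, on i → Even i
  ne : ∀ i, (node i).Nonempty
  disj : ∀ i j, i ≠ j → Disjoint (node i) (node j)
  typ : ∀ i, ∀ v ∈ node i, Γ.isH v ↔ Even i
  edge : ∀ u t w, Γ.nb u t = some w → ∃ i, on i ∧ u ∈ node i ∧ w ∈ node (i + 1)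

/-- number of non-`H` vertices in the component -/
noncomputable def csize {K : Type} [Group K] (κ : Γ.V → F → K) (q : K × Γ.V) : ℕ :=
  Set.ncard {r | Γ.Conn κ q r ∧ ¬ Γ.isH r.2}

/-- `q` is a non-`H` vertex of a giant component -/
def Big {K : Type} [Group K] (κ : Γ.V → F → K) (node : ℤ → Finset Γ.V) (on : ℤ → Prop)
    (M : ℤ → ℕ) (q : K × Γ.V) : Prop :=
  ∃ i, on i ∧ q.2 ∈ node (i + 1) ∧ M i < 2 * Γ.csize κ q

open Classical in
/-- averaging over giant components -/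
noncomputable def Pav {K : Type} [Group K] (κ : Γ.V → F → K) (node : ℤ → Finset Γ.V)
    (on : ℤ → Prop) (M : ℤ → ℕ) : L2 (K × Γ.V) →L[ℂ] L2 (K × Γ.V) :=
  kop fun p q => if Γ.Conn κ p q ∧ Γ.Big κ node on M p ∧ Γ.Big κ node on M q
    then ((Γ.csize κ q : ℂ))⁻¹ else 0

open Classical in
/-- the equivariant map `J ∘ Pav`, `J δ_{(g,v)} = δ_g` -/
noncomputable def Uav [Group A] (node : ℤ → Finset Γ.V) (on : ℤ → Prop) (M : ℤ → ℕ) :
    L2 (Γ.Grp × Γ.V) →L[ℂ] L2 Γ.Grp :=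
  kop fun g q => if Γ.Big Γ.gl node on M q ∧ ∃ v, ¬ Γ.isH v ∧ Γ.Conn Γ.gl (g, v) q
    then ((Γ.csize Γ.gl q : ℂ))⁻¹ else 0

end BG

/-- size of the block `Ai i × node (i+1)` -/
noncomputable def blkSize {V A : Type} [Group A] (node : ℤ → Finset V) (Ai : ℤ → Subgroup A)
    (i : ℤ) : ℕ := Nat.card (Ai i) * (node (i + 1)).card

end Crest.Agent.R129
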