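import Crest.Agent.R129.SDefs

/-! # Parts of `D` (task R129/SDp).  Statements frozen; add lemmas freely. -/

set_option autoImplicit false
open scoped BigOperators

namespace Crest.Agent.R129
theorem sdp_count {S X : Type} [Fintype S] (R : X → S → Prop) [∀ x s, Decidable (R x s)]
    (Q : S → Prop) [DecidablePred Q] (c : S → X) (w : S → ℂ) (hw : ∀ s, ‖w s‖ ≤ 1)
    (hR : ∀ x s, R x s → Q s ∧ x = c s) (t : Finset X) :
    ∑ x ∈ t, ‖∑ s, if R x s then w s else 0‖ ≤ ((Finset.univ.filter Q).card : ℝ) := by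
  classical
  calc ∑ x ∈ t, ‖∑ s, if R x s then w s else 0‖
      ≤ ∑ x ∈ t, ∑ s, if x = c s then (if Q s then (1 : ℝ) else 0) else 0 := by
        refine Finset.sum_le_sum fun x _ => (norm_sum_le _ _).trans (Finset.sum_le_sum fun s _ => ?_)
        by_cases h : R x s
        · rw [if_pos h, if_pos (hR x s h).2, if_pos (hR x s h).1]
          exact hw s
        · rw [if_neg h, norm_zero]
          split_ifs <;> norm_num
    _ ≤ ∑ s, if Q s then (1 : ℝ) else 0 := by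
        rw [Finset.sum_comm]
        refine Finset.sum_le_sum fun s _ => ?_
        rw [Finset.sum_ite_eq']
        split_ifs <;> norm_num
    _ = _ := by rw [Finset.sum_boole]

namespace BG
variable {F A : Type} [Fintype F] [Group A] (Γ : BG F A)

open Classical in
/-- `schur₁`: the row sum at `(g,z)` is at most `#{s | P s g ∧ s.2.1 = z}` (for each `s` only
`h = (gen s)⁻¹ * g` contributes), the column sum at `h` at most `#{s | P s (gen s * h)}`. -/
theorem schur_Dp (P : Let F → Γ.Grp → Prop) (a b : ℕ)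
    (hrow : ∀ g z, (Finset.univ.filter fun s : Let F => P s g ∧ s.2.1 = z).card ≤ a)
    (hcol : ∀ h, (Finset.univ.filter fun s : Let F => P s (Γ.gen s * h)).card ≤ b) :
    (∀ p h, mat (Γ.Dp P) p h = ∑ s : Let F,
      if P s p.1 ∧ s.2.1 = p.2 ∧ Γ.gen s = p.1 * h⁻¹ then ph s.2.2 else 0) ∧
    ‖Γ.Dp P‖ ≤ Real.sqrt ((a : ℝ) * b) := by
  unfold Dp
  refine schur₁ _ a b (Nat.cast_nonneg _) (Nat.cast_nonneg _) (fun p t => ?_) (fun h t => ?_)
  · refine (sdp_count (fun (h : Γ.Grp) (s : Let F) => P s p.1 ∧ s.2.1 = p.2 ∧ Γ.gen s = p.1 * h⁻¹)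
      (fun s => P s p.1 ∧ s.2.1 = p.2) (fun s => (Γ.gen s)⁻¹ * p.1) (fun s => ph s.2.2)
      (fun s => (norm_ph _).le) (fun h s hs => ⟨⟨hs.1, hs.2.1⟩, ?_⟩) t).trans ?_
    · rw [hs.2.2]; group
    · exact_mod_cast hrow p.1 p.2
  · refine (sdp_count (fun (p : Γ.Grp × F) (s : Let F) =>
        P s p.1 ∧ s.2.1 = p.2 ∧ Γ.gen s = p.1 * h⁻¹)
      (fun s => P s (Γ.gen s * h)) (fun s => (Γ.gen s * h, s.2.1)) (fun s => ph s.2.2)
      (fun s => (norm_ph _).le) (fun p s hs => ?_) t).trans ?_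
    · have e : Γ.gen s * h = p.1 := by rw [hs.2.2]; group
      exact ⟨e ▸ hs.1, Prod.ext e.symm hs.2.1.symm⟩
    · exact_mod_cast hcol h

open Classical in
theorem mat_Dp (P : Let F → Γ.Grp → Prop) (p : Γ.Grp × F) (h : Γ.Grp) :
    mat (Γ.Dp P) p h = ∑ s : Let F,
      if P s p.1 ∧ s.2.1 = p.2 ∧ Γ.gen s = p.1 * h⁻¹ then ph s.2.2 else 0 :=
  (Γ.schur_Dp P (Fintype.card (Let F)) (Fintype.card (Let F))
    (fun _ _ => Finset.card_le_univ _) (fun _ => Finset.card_le_univ _)).1 p h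

theorem Dop_eq : Γ.Dop = Γ.Dp fun _ _ => True := by
  unfold Dop Dp gen
  congr 1
  funext p h
  refine Finset.sum_congr rfl fun s _ => ?_
  by_cases c : s.2.1 = p.2 ∧ Γ.mkG (FreeGroup.of s) = p.1 * h⁻¹
  · rw [if_pos c, if_pos ⟨trivial, c⟩]
  · rw [if_neg c, if_neg fun c' => c c'.2]

theorem Dp_split {P P₁ P₂ : Let F → Γ.Grp → Prop} (h : ∀ s g, P s g ↔ P₁ s g ∨ P₂ s g)
    (hd : ∀ s g, P₁ s g → ¬ P₂ s g) : Γ.Dp P = Γ.Dp P₁ + Γ.Dp P₂ := by
  classical
  refine mat_ext fun p g => ?_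
  rw [mat_add, mat_Dp, mat_Dp, mat_Dp, ← Finset.sum_add_distrib]
  refine Finset.sum_congr rfl fun s _ => ?_
  by_cases h1 : P₁ s p.1
  · simp [h, h1, hd s p.1 h1]
  · simp [h, h1]

open Classical in
/-- `hasSum_mat_comp`, `mat_adj`; the column of `Dp P` at `h` is supported on the finite set of
`(gen s * h, s.2.1)`. -/
theorem mat_adj_Dp_comp (P P' : Let F → Γ.Grp → Prop) (h h' : Γ.Grp) :
    mat (adj (Γ.Dp P) ∘L Γ.Dp P') h h' = ∑ s : Let F, ∑ s' : Let F,
      if P s (Γ.gen s * h) ∧ P' s' (Γ.gen s * h) ∧ s.2.1 = s'.2.1 ∧ Γ.gen s * h = Γ.gen s' * h'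
      then (starRingEnd ℂ) (ph s.2.2) * ph s'.2.2 else 0 := by
  have h1 := hasSum_mat_comp (adj (Γ.Dp P)) (Γ.Dp P') h h'
  refine h1.unique ?_
  simp only [mat_adj, mat_Dp, map_sum, Finset.sum_mul_sum]
  refine hasSum_sum fun s _ => hasSum_sum fun s' _ => ?_
  convert hasSum_single (Γ.gen s * h, s.2.1) ?_ using 1
  · have e1 : Γ.gen s = Γ.gen s * h * h⁻¹ := by group
    have e2 : Γ.gen s' = Γ.gen s * h * h'⁻¹ ↔ Γ.gen s * h = Γ.gen s' * h' := by
      rw [eq_mul_inv_iff_mul_eq, eq_comm]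
    by_cases c1 : P s (Γ.gen s * h)
    · rw [if_pos (show P s (Γ.gen s * h) ∧ s.2.1 = s.2.1 ∧ Γ.gen s = Γ.gen s * h * h⁻¹ from
        ⟨c1, rfl, e1⟩), mul_ite, mul_zero]
      refine if_congr ?_ rfl rfl
      rw [e2]
      exact ⟨fun c => ⟨c.2.1, c.2.2.1.symm, c.2.2.2⟩, fun c => ⟨c1, c.1, c.2.1.symm, c.2.2⟩⟩
    · rw [if_neg fun c => c1 c.1, if_neg fun c => c1 c.1, map_zero, zero_mul]
  · intro p hp
    rw [if_neg, map_zero, zero_mul]
    rintro ⟨-, c2, c3⟩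
    exact hp (Prod.ext (by rw [c3]; group) c2.symm)

/-- `Top = ∑ s s', [s.2.1 = s'.2.1] conj (ph s) ph s' • lam ((gen s)⁻¹ * gen s')`
(`mat_ext`, `R129S.lam_dl`), and `R129S.lam_mem`. -/
theorem Top_mem : Γ.Top ∈ R129S.redAlg Γ.Grp := by
  classical
  have e : Γ.Top = ∑ s : Let F, ∑ s' : Let F,
      (if s.2.1 = s'.2.1 then (starRingEnd ℂ) (ph s.2.2) * ph s'.2.2 else 0) •
        R129S.lam ((Γ.gen s)⁻¹ * Γ.gen s') := by
    refine mat_ext fun h h' => ?_
    rw [Top, Dop_eq, mat_adj_Dp_comp, mat_sum]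
    refine Finset.sum_congr rfl fun s _ => ?_
    rw [mat_sum]
    refine Finset.sum_congr rfl fun s' _ => ?_
    have e1 : mat (R129S.lam ((Γ.gen s)⁻¹ * Γ.gen s')) h h' =
        if Γ.gen s * h = Γ.gen s' * h' then 1 else 0 := by
      change (R129S.lam ((Γ.gen s)⁻¹ * Γ.gen s') (R129S.dl h') : Γ.Grp → ℂ) h = _
      rw [R129S.lam_dl]
      change (dl _ : Γ.Grp → ℂ) h = _
      rw [dl_apply]
      refine if_congr ?_ rfl rfl
      rw [mul_assoc, eq_inv_mul_iff_mul_eq]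
    rw [mat_smul, e1]
    by_cases c1 : s.2.1 = s'.2.1 <;> by_cases c2 : Γ.gen s * h = Γ.gen s' * h' <;> simp [c1, c2]
  rw [e]
  exact sum_mem fun s _ => sum_mem fun s' _ => SMulMemClass.smul_mem _ (R129S.lam_mem _)

theorem Top_selfAdjoint : IsSelfAdjoint Γ.Top := by
  rw [Top, IsSelfAdjoint, ContinuousLinearMap.star_eq_adjoint, ContinuousLinearMap.adjoint_comp,
    ContinuousLinearMap.adjoint_adjoint]

/-- by `mkG_sg_injective` only the terms `s = s'` survive; `card (Let F) = 4 n²` -/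
theorem mat_Top_one [DecidableEq F] (h : Γ.SCHyp) :
    mat Γ.Top 1 1 = ((4 * (Fintype.card F : ℝ) ^ 2 : ℝ) : ℂ) := by
  have hinj : ∀ s s' : Let F, Γ.gen s = Γ.gen s' → s = s' := by
    intro s s' e
    have := mkG_sg_injective h (a₁ := (s, true)) (a₂ := (s', true)) e
    exact congrArg Prod.fst this
  rw [Top, Dop_eq, mat_adj_Dp_comp]
  rw [Finset.sum_congr rfl (g := fun _ => (1 : ℂ)) fun s _ => ?_]
  · simp only [Finset.sum_const, Finset.card_univ, Fintype.card_prod, ZMod.card, nsmul_eq_mul]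
    push_cast
    ring
  · rw [Finset.sum_eq_single s]
    · rw [if_pos ⟨trivial, trivial, rfl, rfl⟩, Complex.conj_mul', norm_ph]
      simp
    · intro s' _ hs
      rw [if_neg]
      rintro ⟨-, -, -, c⟩
      exact hs (hinj _ _ (mul_right_cancel c)).symm
    · simp

theorem fg_Grp : Group.FG Γ.Grp := by
  exact Group.fg_of_surjective (QuotientGroup.mk'_surjective Γ.Nrm)

end BG
end Crest.Agent.R129
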