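import Crest.Agent.R129.SDp

/-!
# The splitting `D* D = 4 n² + B* B + O(n^{3/2})` (task R129/SSplit).  Statements frozen.

Write `h = (gen s)⁻¹ * g`, `Dn s g := Γ.Down (s, true) g`, `Dpv g := ∃ b, Γ.Deep 5 g b`
(note `Γ.mkG (sg (s, true)) = Γ.gen s`, `Γ.mkG (sg (s,false)) = (Γ.gen s)⁻¹`; `Deep 5 → Deep 3` as
`1 ≤ L`; `SEdge b (s,false) b' ↔ SEdge b' (s,true) b`).  Every entry `(s,g)` is of exactly one type
* `B`: `IsB s g`;
* `R1`: `Dn s g ∧ ¬ Dpv g`.  At most one `s` for each `g` (`two_down`).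
* `R3`: `Dn s g ∧ Dpv g ∧ ¬ IsB s g`.  At most one `s` for each `g` (two down letters make both
  entries `B` by `two_down`).  For fixed `h` the `s` with `Dn s (gen s * h) ∧ Dpv (gen s * h)` are
  determined by their port `s.1`: `deep_down_edge`, `deep_down_semi` give `SEdge b (s,true) b'`,
  `Deep 3 h b'`; `b'` is unique (`deep_unique`), `b` is determined by `nb_inj`, `s = letter b s.1`.
* `R2`: `¬ Dn s g ∧ ¬ IsB s g`.  Then `Down (s,false) h` (`len_step`), and for fixed `h` there is at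
  most one such `s` (`two_down` at `h`); a row `(g,z)` has at most `4n` entries.
So `‖R3‖ ≤ √n`, `‖R2‖ ≤ 2√n`, `‖B‖ ≤ n`, `‖R1‖ ≤ 2n` (`schur_Dp`), `R1* B = 0 = B* R1` and `R1* R1` is
diagonal with entries `#{s | R1 s (gen s * h)} ∈ [4n² - 2n - 1, 4n²]` (`mat_adj_Dp_comp`, `schur₁`).
With `D = (R1 + B) + R'`, `‖R'‖ ≤ 3√n`: error `≤ 2·3n·3√n + 9n + 2n + 1 ≤ 30 n √n`.
-/

set_option autoImplicit false
open scoped BigOperators

namespace Crest.Agent.R129
namespace BG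
variable {F A : Type} [Fintype F] [DecidableEq F] [Group A] {Γ : BG F A}

omit [Fintype F] in
theorem ssp_deep3 (_h : Γ.SCHyp) {g : Γ.Grp} {b : Γ.V} (hb : Γ.Deep 5 g b) : Γ.Deep 3 g b := by
  obtain ⟨w, x, h1, h2, h3, h4, h5⟩ := hb
  exact ⟨w, x, h1, h2, h3, h4, by linarith [_h.one_le b]⟩

omit [Fintype F] [DecidableEq F] [Group A] in
theorem ssp_sedge_true {b b' : Γ.V} {s : Let F} :
    Γ.SEdge b (s, true) b' ↔ Γ.nb b s.1 = some b' ∧ Γ.letter b s.1 = s := by
  simp [SEdge]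

omit [Fintype F] [DecidableEq F] [Group A] in
theorem ssp_sedge_false {b b' : Γ.V} {s : Let F} :
    Γ.SEdge b (s, false) b' ↔ Γ.SEdge b' (s, true) b := by
  simp [SEdge]

omit [Fintype F] [DecidableEq F] in
theorem ssp_sg_true (s : Let F) : Γ.mkG (sg (s, true)) = Γ.gen s := rfl

omit [Fintype F] [DecidableEq F] in
theorem ssp_sg_false (s : Let F) : Γ.mkG (sg (s, false)) = (Γ.gen s)⁻¹ := by
  simp [sg, gen]

theorem ssp_card_col (h : Γ.SCHyp) (k : Γ.Grp) (S : Finset (Let F))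
    (hS : ∀ s ∈ S, ∃ b b', Γ.SEdge b (s, true) b' ∧ Γ.Deep 3 k b') : S.card ≤ Fintype.card F := by
  rw [← Finset.card_univ]
  refine Finset.card_le_card_of_injOn (fun s => s.1) (fun _ _ => Finset.mem_univ _) ?_
  intro s hs s' hs' he
  obtain ⟨b, c, h1, h2⟩ := hS s hs
  obtain ⟨b', c', h1', h2'⟩ := hS s' hs'
  obtain rfl := deep_unique h h2 h2'
  rw [ssp_sedge_true] at h1 h1'
  simp only at he
  rw [← he] at h1'
  obtain rfl := Γ.nb_inj _ _ _ _ h1.1 h1'.1
  exact h1.2.symm.trans h1'.2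

/-- down entries at shallow vertices -/
def SR1 (Γ : BG F A) (s : Let F) (g : Γ.Grp) : Prop :=
  Γ.Down (s, true) g ∧ ¬ ∃ b, Γ.Deep 5 g b

/-- up entries that are not deep -/
def SR2 (Γ : BG F A) (s : Let F) (g : Γ.Grp) : Prop := ¬ Γ.Down (s, true) g ∧ ¬ Γ.IsB s g

/-- down entries at deep vertices that are not deep edges -/
def SR3 (Γ : BG F A) (s : Let F) (g : Γ.Grp) : Prop :=
  Γ.Down (s, true) g ∧ (∃ b, Γ.Deep 5 g b) ∧ ¬ Γ.IsB s g

omit [Fintype F] in
theorem ssp_two (h : Γ.SCHyp) {g : Γ.Grp} {s s' : Let F} (h1 : Γ.Down (s, true) g)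
    (h2 : Γ.Down (s', true) g) (hB : ¬ Γ.IsB s g) : s = s' := by
  by_contra hne
  obtain ⟨b, b', a1, a2, a3⟩ := two_down h h1 h2 (fun e => hne (congrArg Prod.fst e))
  exact hB ⟨b, b', a2, a1, a3⟩

omit [Fintype F] in
theorem SR1.not_isB {g : Γ.Grp} {s s' : Let F} (h1 : Γ.SR1 s g) : ¬ Γ.IsB s' g :=
  fun ⟨b, _, _, h3, _⟩ => h1.2 ⟨b, h3⟩

omit [Fintype F] in
theorem ssp_up {k : Γ.Grp} {s : Let F} (h1 : ¬ Γ.Down (s, true) (Γ.gen s * k)) :
    Γ.Down (s, false) k := by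
  have h2 := len_step (Γ := Γ) (s, true) (Γ.gen s * k)
  unfold Down at h1 ⊢
  rw [ssp_sg_true, inv_mul_cancel_left] at h1 h2
  rw [ssp_sg_false, inv_inv]
  omega

open Classical in
theorem ssp_R2_col (h : Γ.SCHyp) (k : Γ.Grp) :
    (Finset.univ.filter fun s : Let F => Γ.SR2 s (Γ.gen s * k)).card ≤ 1 := by
  refine Finset.card_le_one.2 fun s hs s' hs' => ?_
  have h1 := (Finset.mem_filter.1 hs).2
  have h2 := (Finset.mem_filter.1 hs').2
  by_contra hne
  obtain ⟨b, b', a1, a2, a3⟩ := two_down h (ssp_up h1.1) (ssp_up h2.1)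
    (fun e => hne (congrArg Prod.fst e))
  rw [ssp_sg_false, inv_inv] at a3
  exact h1.2 ⟨b', b, ssp_sedge_false.1 a2, a3, by rwa [inv_mul_cancel_left]⟩

open Classical in
theorem ssp_R3_col (h : Γ.SCHyp) (k : Γ.Grp) :
    (Finset.univ.filter fun s : Let F => Γ.SR3 s (Γ.gen s * k)).card ≤ Fintype.card F := by
  refine ssp_card_col h k _ fun s hs => ?_
  obtain ⟨h1, ⟨b, h2⟩, -⟩ := (Finset.mem_filter.1 hs).2
  obtain ⟨b', h3⟩ := deep_down_edge h (ssp_deep3 h h2) h1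
  have h4 := deep_down_semi h h2 h1 h3
  rw [ssp_sg_true, inv_mul_cancel_left] at h4
  exact ⟨b, b', h3, h4⟩

omit [DecidableEq F] in
theorem ssp_card_Let : Fintype.card (Let F) = 4 * Fintype.card F ^ 2 := by
  simp only [Let, Fintype.card_prod, ZMod.card]; ring

theorem ssp_card_block (z : F) :
    (Finset.univ.filter fun s : Let F => s.2.1 = z).card ≤ 4 * Fintype.card F := by
  have : 4 * Fintype.card F = (Finset.univ : Finset (F × ZMod 4)).card := by
    rw [Finset.card_univ, Fintype.card_prod, ZMod.card]; ring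
  rw [this]
  refine Finset.card_le_card_of_injOn (fun s => (s.1, s.2.2)) (fun _ _ => Finset.mem_univ _) ?_
  rintro ⟨a, b, c⟩ hs ⟨a', b', c'⟩ hs' he
  simp only [Finset.coe_filter, Finset.mem_univ, true_and, Set.mem_ofPred_eq] at hs hs'
  simp only [Prod.mk.injEq] at he
  rw [he.1, he.2, hs, hs']

theorem ssp_abstract {E E' : Type} [NormedAddCommGroup E] [InnerProductSpace ℂ E] [CompleteSpace E]
    [NormedAddCommGroup E'] [InnerProductSpace ℂ E'] [CompleteSpace E']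
    (R1 B R : E →L[ℂ] E') (M : E →L[ℂ] E) (a r e : ℝ) (hX : ‖R1 + B‖ ≤ a) (hR : ‖R‖ ≤ r)
    (h1 : ContinuousLinearMap.adjoint R1 ∘L B = 0) (h2 : ContinuousLinearMap.adjoint B ∘L R1 = 0)
    (h3 : ‖ContinuousLinearMap.adjoint R1 ∘L R1 - M‖ ≤ e) :
    ‖ContinuousLinearMap.adjoint (R1 + B + R) ∘L (R1 + B + R) - M -
      ContinuousLinearMap.adjoint B ∘L B‖ ≤ e + a * r + r * a + r * r := by
  have e1 : ContinuousLinearMap.adjoint (R1 + B + R) ∘L (R1 + B + R) - M -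
      ContinuousLinearMap.adjoint B ∘L B =
      (ContinuousLinearMap.adjoint R1 ∘L R1 - M) + ContinuousLinearMap.adjoint (R1 + B) ∘L R +
        ContinuousLinearMap.adjoint R ∘L (R1 + B) + ContinuousLinearMap.adjoint R ∘L R := by
    simp only [map_add, ContinuousLinearMap.add_comp, ContinuousLinearMap.comp_add, h1, h2]
    abel
  have hb : ∀ (S T : E →L[ℂ] E') (x y : ℝ), ‖S‖ ≤ x → ‖T‖ ≤ y →
      ‖ContinuousLinearMap.adjoint S ∘L T‖ ≤ x * y := by
    intro S T x y hS hT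
    refine (ContinuousLinearMap.opNorm_comp_le _ _).trans ?_
    rw [LinearIsometryEquiv.norm_map]
    exact mul_le_mul hS hT (norm_nonneg _) ((norm_nonneg _).trans hS)
  rw [e1]
  exact norm_add_le_of_le (norm_add_le_of_le (norm_add_le_of_le h3 (hb _ _ _ _ hX hR))
    (hb _ _ _ _ hR hX)) (hb _ _ _ _ hR hR)

open Classical in
theorem card_IsB_row (h : Γ.SCHyp) (g : Γ.Grp) :
    (Finset.univ.filter fun s : Let F => Γ.IsB s g).card ≤ Fintype.card F := by
  rw [← Finset.card_univ]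
  refine Finset.card_le_card_of_injOn (fun s => s.1) (fun _ _ => Finset.mem_univ _) ?_
  intro s hs s' hs' he
  obtain ⟨b, c, h1, h2, -⟩ := (Finset.mem_filter.1 hs).2
  obtain ⟨b', c', h1', h2', -⟩ := (Finset.mem_filter.1 hs').2
  obtain rfl := deep_unique h (ssp_deep3 h h2) (ssp_deep3 h h2')
  rw [ssp_sedge_true] at h1 h1'
  simp only at he
  rw [← h1.2, ← h1'.2, he]

open Classical in
theorem card_IsB_col (h : Γ.SCHyp) (k : Γ.Grp) :
    (Finset.univ.filter fun s : Let F => Γ.IsB s (Γ.gen s * k)).card ≤ Fintype.card F := by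
  refine ssp_card_col h k _ fun s hs => ?_
  obtain ⟨b, c, h1, -, h3⟩ := (Finset.mem_filter.1 hs).2
  rw [inv_mul_cancel_left] at h3
  exact ⟨b, c, h1, ssp_deep3 h h3⟩

theorem split [Nonempty F] (h : Γ.SCHyp) :
    ‖Γ.Top - ((4 * (Fintype.card F : ℝ) ^ 2 : ℝ) : ℂ) • (1 : L2 Γ.Grp →L[ℂ] L2 Γ.Grp)
        - adj (Γ.Dp Γ.IsB) ∘L Γ.Dp Γ.IsB‖
      ≤ 30 * (Fintype.card F * Real.sqrt (Fintype.card F)) := by
  classical
  set n := Fintype.card F with hn
  have hn1 : (1 : ℝ) ≤ n := by exact_mod_cast (Fintype.card_pos : 0 < Fintype.card F)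
  have hs1 : 1 ≤ Real.sqrt n := Real.one_le_sqrt.2 hn1
  have hss : Real.sqrt n * Real.sqrt n = n := Real.mul_self_sqrt (by linarith)
  have hD : Γ.Dop = Γ.Dp Γ.SR1 + Γ.Dp Γ.IsB + (Γ.Dp Γ.SR2 + Γ.Dp Γ.SR3) := by
    rw [Dop_eq,
      Γ.Dp_split (P₁ := fun s g => Γ.SR1 s g ∨ Γ.IsB s g) (P₂ := fun s g => Γ.SR2 s g ∨ Γ.SR3 s g),
      Γ.Dp_split (P := fun s g => Γ.SR1 s g ∨ Γ.IsB s g) (fun _ _ => Iff.rfl)
        (fun _ _ h1 => h1.not_isB),
      Γ.Dp_split (P := fun s g => Γ.SR2 s g ∨ Γ.SR3 s g) (fun _ _ => Iff.rfl)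
        (fun _ _ h1 h2 => h1.1 h2.1)]
    · intro s g
      unfold SR1 SR2 SR3
      tauto
    · intro s g
      unfold SR1 SR2 SR3
      tauto
  have nR1 : ‖Γ.Dp Γ.SR1‖ ≤ 2 * n := by
    refine (Γ.schur_Dp Γ.SR1 1 (4 * n ^ 2) (fun g z => ?_) (fun k => ?_)).2.trans (le_of_eq ?_)
    · refine Finset.card_le_one.2 fun s hs s' hs' => ?_
      simp only [Finset.mem_filter, Finset.mem_univ, true_and] at hs hs'
      exact ssp_two h hs.1.1 hs'.1.1 hs.1.not_isB
    · exact (Finset.card_le_univ _).trans (le_of_eq ssp_card_Let)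
    · rw [Real.sqrt_eq_iff_mul_self_eq (by positivity) (by positivity)]; push_cast; ring
  have nB : ‖Γ.Dp Γ.IsB‖ ≤ n := by
    refine (Γ.schur_Dp Γ.IsB n n (fun g z => ?_) (fun k => ?_)).2.trans (le_of_eq ?_)
    · refine le_trans (Finset.card_le_card fun s hs => ?_) (card_IsB_row h g)
      simp only [Finset.mem_filter, Finset.mem_univ, true_and] at hs ⊢
      exact hs.1
    · exact card_IsB_col h k
    · exact Real.sqrt_mul_self (by positivity)
  have nR2 : ‖Γ.Dp Γ.SR2‖ ≤ 2 * Real.sqrt n := by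
    refine (Γ.schur_Dp Γ.SR2 (4 * n) 1 (fun g z => ?_) (fun k => ?_)).2.trans (le_of_eq ?_)
    · refine le_trans (Finset.card_le_card fun s hs => ?_) (ssp_card_block z)
      simp only [Finset.mem_filter, Finset.mem_univ, true_and] at hs ⊢
      exact hs.2
    · exact ssp_R2_col h k
    · rw [Real.sqrt_eq_iff_mul_self_eq (by positivity) (by positivity)]; push_cast; linarith
  have nR3 : ‖Γ.Dp Γ.SR3‖ ≤ Real.sqrt n := by
    refine (Γ.schur_Dp Γ.SR3 1 n (fun g z => ?_) (fun k => ?_)).2.trans (le_of_eq ?_)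
    · refine Finset.card_le_one.2 fun s hs s' hs' => ?_
      simp only [Finset.mem_filter, Finset.mem_univ, true_and] at hs hs'
      exact ssp_two h hs.1.1 hs'.1.1 hs.1.2.2
    · exact ssp_R3_col h k
    · simp
  have z1 : adj (Γ.Dp Γ.SR1) ∘L Γ.Dp Γ.IsB = 0 := by
    refine mat_ext fun k k' => ?_
    rw [mat_adj_Dp_comp, mat_zero]
    exact Finset.sum_eq_zero fun s _ => Finset.sum_eq_zero fun s' _ =>
      if_neg fun hh => hh.1.not_isB hh.2.1
  have z2 : adj (Γ.Dp Γ.IsB) ∘L Γ.Dp Γ.SR1 = 0 := by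
    refine mat_ext fun k k' => ?_
    rw [mat_adj_Dp_comp, mat_zero]
    exact Finset.sum_eq_zero fun s _ => Finset.sum_eq_zero fun s' _ =>
      if_neg fun hh => hh.2.1.not_isB hh.1
  set E := adj (Γ.Dp Γ.SR1) ∘L Γ.Dp Γ.SR1 -
    ((4 * (n : ℝ) ^ 2 : ℝ) : ℂ) • (1 : L2 Γ.Grp →L[ℂ] L2 Γ.Grp) with hE
  have hmat : ∀ k k', mat E k k' = if k = k' then
      -(((Finset.univ.filter fun s : Let F => ¬ Γ.SR1 s (Γ.gen s * k)).card : ℝ) : ℂ) else 0 := by
    intro k k'
    rw [hE, mat_sub, mat_smul, mat_one, mat_adj_Dp_comp]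
    have e1 : ∀ s : Let F, (∑ s' : Let F,
        if Γ.SR1 s (Γ.gen s * k) ∧ Γ.SR1 s' (Γ.gen s * k) ∧ s.2.1 = s'.2.1 ∧
          Γ.gen s * k = Γ.gen s' * k'
        then (starRingEnd ℂ) (ph s.2.2) * ph s'.2.2 else 0) =
        if k = k' then (if Γ.SR1 s (Γ.gen s * k) then 1 else 0) else 0 := by
      intro s
      rw [Finset.sum_eq_single s]
      · have : (starRingEnd ℂ) (ph s.2.2) * ph s.2.2 = 1 := by
          rw [Complex.conj_mul', norm_ph]; simp
        rw [this]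
        by_cases h1 : k = k' <;> by_cases h2 : Γ.SR1 s (Γ.gen s * k) <;> simp [h1, h2]
      · intro s' _ hne
        exact if_neg fun hh => hne (ssp_two h hh.2.1.1 hh.1.1 hh.2.1.not_isB)
      · simp
    have e2 : (∑ s : Let F, ∑ s' : Let F,
        if Γ.SR1 s (Γ.gen s * k) ∧ Γ.SR1 s' (Γ.gen s * k) ∧ s.2.1 = s'.2.1 ∧
          Γ.gen s * k = Γ.gen s' * k'
        then (starRingEnd ℂ) (ph s.2.2) * ph s'.2.2 else 0) =
        ∑ s : Let F, if k = k' then (if Γ.SR1 s (Γ.gen s * k) then 1 else 0) else 0 :=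
      Finset.sum_congr rfl fun s _ => e1 s
    have e3 := Finset.card_filter_add_card_filter_not (s := (Finset.univ : Finset (Let F)))
      (fun s : Let F => Γ.SR1 s (Γ.gen s * k))
    rw [Finset.card_univ, ssp_card_Let, ← hn] at e3
    have e4 := congrArg (Nat.cast : ℕ → ℂ) e3
    push_cast at e4
    refine Eq.trans (congrArg (· - _) (Eq.trans (by congr!) e2)) ?_
    split_ifs with h1
    · rw [Finset.sum_boole]
      push_cast
      linear_combination e4
    · simp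
  have hcnt : ∀ k, (((Finset.univ.filter fun s : Let F => ¬ Γ.SR1 s (Γ.gen s * k)).card : ℕ) : ℝ) ≤
      2 * n + 1 := by
    intro k
    have h1 : (Finset.univ.filter fun s : Let F => ¬ Γ.SR1 s (Γ.gen s * k)) ⊆
        ((Finset.univ.filter fun s : Let F => Γ.IsB s (Γ.gen s * k)) ∪
          (Finset.univ.filter fun s : Let F => Γ.SR2 s (Γ.gen s * k))) ∪
          (Finset.univ.filter fun s : Let F => Γ.SR3 s (Γ.gen s * k)) := by
      intro s hs
      simp only [Finset.mem_filter, Finset.mem_univ, true_and, Finset.mem_union] at hs ⊢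
      unfold SR1 at hs
      unfold SR2 SR3
      tauto
    have h2 := (Finset.card_le_card h1).trans ((Finset.card_union_le _ _).trans
      (Nat.add_le_add ((Finset.card_union_le _ _).trans
        (Nat.add_le_add (card_IsB_col h k) (ssp_R2_col h k))) (ssp_R3_col h k)))
    have h3 : (Finset.univ.filter fun s : Let F => ¬ Γ.SR1 s (Γ.gen s * k)).card ≤ 2 * n + 1 := by
      omega
    exact_mod_cast h3
  have hent : ∀ k k', ‖mat E k k'‖ ≤ if k = k' then 2 * (n : ℝ) + 1 else 0 := by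
    intro k k'
    rw [hmat]
    split_ifs
    · rw [norm_neg, Complex.norm_real, Real.norm_of_nonneg (Nat.cast_nonneg _)]
      exact hcnt k
    · simp
  have nE : ‖E‖ ≤ 2 * n + 1 := by
    have h1 := (schur₁ (mat E) (2 * n + 1) (2 * n + 1) (by positivity) (by positivity)
      (fun k S => ?_) (fun k S => ?_)).2
    · rwa [kop_mat, Real.sqrt_mul_self (by positivity)] at h1
    · refine (Finset.sum_le_sum fun k' _ => hent k k').trans ?_
      rw [Finset.sum_ite_eq]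
      split_ifs
      · exact le_rfl
      · positivity
    · refine (Finset.sum_le_sum fun k' _ => hent k' k).trans ?_
      rw [Finset.sum_ite_eq']
      split_ifs
      · exact le_rfl
      · positivity
  have key := ssp_abstract (Γ.Dp Γ.SR1) (Γ.Dp Γ.IsB) (Γ.Dp Γ.SR2 + Γ.Dp Γ.SR3)
    (((4 * (n : ℝ) ^ 2 : ℝ) : ℂ) • (1 : L2 Γ.Grp →L[ℂ] L2 Γ.Grp)) (2 * n + n)
    (2 * Real.sqrt n + Real.sqrt n) (2 * n + 1) (norm_add_le_of_le nR1 nB)
    (norm_add_le_of_le nR2 nR3) z1 z2 nE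
  unfold Top
  rw [hD]
  refine key.trans ?_
  have h5 : (n : ℝ) ≤ n * Real.sqrt n := le_mul_of_one_le_right (by linarith) hs1
  nlinarith

end BG
end Crest.Agent.R129
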