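import Crest.Agent.R129.Ker
import Crest.Agent.R129.Lists
import Crest.Agent.R129.Prob

/-! # The trace method: definitions (do not edit) -/

set_option autoImplicit false
open scoped BigOperators

namespace Crest.Agent.R129

/-- deterministic block structure of a bipartite pair -/
structure TrStr (V F Bl A : Type) [DecidableEq V] [DecidableEq F] [DecidableEq Bl] [Group A] where
  Vs : Finset V
  side : V → Bool
  T : Finset F
  bl : V → F → Bl
  Fs : Finset A
  d : ℕ
  m : ℕ
  g : ℕ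
  one_le_d : 1 ≤ d
  one_le_g : 1 ≤ g
  card_T : T.card ≤ d
  Fs_inv : ∀ f ∈ Fs, f⁻¹ ∈ Fs
  port : ∀ v t w t', bl v t = bl w t' → t = t'
  size : ∀ b t, (Vs.filter fun v => bl v t = b).card ≤ m
  /-- coarse girth -/
  cg : ∀ (x : ℕ → V) (tt : ℕ → F) (s : ℕ), s ≤ 2 * g → (∀ p, p ≤ s → x p ∈ Vs) →
    (∀ p, p < s → tt p ∈ T ∧ side (x (p + 1)) = !side (x p) ∧ bl (x p) (tt p) = bl (x (p + 1)) (tt p)) →
    ∀ t ∈ T, bl (x 0) t = bl (x s) t →
      pw (side (x 0)) ((List.range s).map tt) = if Even s then 1 else sg (t, side (x 0))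

namespace TrStr
variable {V F Bl A : Type} [DecidableEq V] [DecidableEq F] [DecidableEq Bl] [Group A] [DecidableEq A]
  (X : TrStr V F Bl A)

/-- admissible coefficients -/
structure Adm (c : V → F → V → A → ℂ) : Prop where
  supp : ∀ v t w f, c v t w f ≠ 0 →
    v ∈ X.Vs ∧ w ∈ X.Vs ∧ t ∈ X.T ∧ f ∈ X.Fs ∧ X.side w = !X.side v ∧ X.bl v t = X.bl w t
  sym : ∀ v t w f, c w t v f⁻¹ = (starRingEnd ℂ) (c v t w f)
  wt : ∀ v t, ∑ w ∈ X.Vs, ∑ f ∈ X.Fs, ‖c v t w f‖ ≤ 2

/-- the operator `(X η)(a,v) = ∑ c v t w f · η (f⁻¹ a, w)` -/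
noncomputable def op (c : V → F → V → A → ℂ) : L2 (A × V) →L[ℂ] L2 (A × V) :=
  kop fun p q => ∑ t ∈ X.T, c p.2 t q.2 (p.1 * q.1⁻¹)

/-- steps -/
def St : Finset (F × V × A) := X.T ×ˢ X.Vs ×ˢ X.Fs

/-- blocks met by a walk -/
def blocks : V → List (F × V × A) → List Bl
  | _, [] => []
  | v, σ :: l => X.bl v σ.1 :: blocks σ.2.1 l

end TrStr

/-- weight of a walk -/
noncomputable def wwt {V F A : Type} (c : V → F → V → A → ℂ) : V → List (F × V × A) → ℂ
  | _, [] => 1
  | v, σ :: l => c v σ.1 σ.2.1 σ.2.2 * wwt c σ.2.1 l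

/-- endpoint of a walk -/
def wend {V F A : Type} : V → List (F × V × A) → V
  | v, [] => v
  | _, σ :: l => wend σ.2.1 l

/-- voltage of a walk -/
def wprod {V F A : Type} [Group A] (l : List (F × V × A)) : A := (l.map fun σ => σ.2.2).prod

/-- realise the equation lemmas here, so that no two later files generate them independently -/
theorem trDefs_eqns : True := by
  have := @wend.eq_def
  have := @wend.eq_1
  have := @wend.eq_2
  have := @wwt.eq_def
  have := @wwt.eq_1
  have := @wwt.eq_2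
  trivial

end Crest.Agent.R129
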