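import Crest.Agent.R129.TrDefs

/-! # Walk expansion and norm from trace (task R129/TrWalk). Statements frozen. -/

set_option autoImplicit false
open scoped BigOperators

namespace Crest.Agent.R129
namespace TrStr
variable {V F Bl A : Type} [DecidableEq V] [DecidableEq F] [DecidableEq Bl] [Group A] [DecidableEq A]
  (X : TrStr V F Bl A) {c : V → F → V → A → ℂ}

theorem trwalk_sum_le {I J : Type} [DecidableEq J] (s : Finset I) (g : I → J) (hg : Function.Injective g)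
    (U : Finset J) (f : J → ℝ) (h0 : ∀ j, 0 ≤ f j) (hU : ∀ j, f j ≠ 0 → j ∈ U) :
    ∑ i ∈ s, f (g i) ≤ ∑ j ∈ U, f j := by
  rw [← Finset.sum_image (s := s) (g := g) (f := f) fun a _ b _ h => hg h,
    ← Finset.sum_filter_of_ne (p := fun j => j ∈ U) fun j _ h => hU j h]
  exact Finset.sum_le_sum_of_subset_of_nonneg (fun j hj => (Finset.mem_filter.1 hj).2)
    fun j _ _ => h0 j

omit [DecidableEq A] in
theorem trwalk_conj (hc : X.Adm c) (p q : A × V) :
    ∑ t ∈ X.T, c q.2 t p.2 (q.1 * p.1⁻¹) =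
      (starRingEnd ℂ) (∑ t ∈ X.T, c p.2 t q.2 (p.1 * q.1⁻¹)) := by
  rw [map_sum]
  refine Finset.sum_congr rfl fun t _ => ?_
  rw [← hc.sym, mul_inv_rev, inv_inv]

theorem trwalk_row (hc : X.Adm c) (p : A × V) (s : Finset (A × V)) :
    ∑ q ∈ s, ‖∑ t ∈ X.T, c p.2 t q.2 (p.1 * q.1⁻¹)‖ ≤ 2 * (X.d : ℝ) := by
  have hg : Function.Injective fun q : A × V => (q.2, p.1 * q.1⁻¹) := by
    intro q q' h
    simp only [Prod.mk.injEq, mul_right_inj, inv_inj] at h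
    exact Prod.ext h.2 h.1
  calc ∑ q ∈ s, ‖∑ t ∈ X.T, c p.2 t q.2 (p.1 * q.1⁻¹)‖
      ≤ ∑ q ∈ s, ∑ t ∈ X.T, ‖c p.2 t q.2 (p.1 * q.1⁻¹)‖ :=
        Finset.sum_le_sum fun q _ => norm_sum_le _ _
    _ = ∑ t ∈ X.T, ∑ q ∈ s, ‖c p.2 t q.2 (p.1 * q.1⁻¹)‖ := Finset.sum_comm
    _ ≤ ∑ _t ∈ X.T, (2 : ℝ) := by
        refine Finset.sum_le_sum fun t _ => ?_
        refine le_trans (trwalk_sum_le s _ hg (X.Vs ×ˢ X.Fs) (fun x => ‖c p.2 t x.1 x.2‖)
          (fun _ => norm_nonneg _) fun x hx => ?_) ?_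
        · have := hc.supp _ _ _ _ (norm_ne_zero_iff.1 hx)
          exact Finset.mem_product.2 ⟨this.2.1, this.2.2.2.1⟩
        · rw [Finset.sum_product]
          exact hc.wt p.2 t
    _ ≤ 2 * (X.d : ℝ) := by
        rw [Finset.sum_const, nsmul_eq_mul]
        have : (X.T.card : ℝ) ≤ X.d := by exact_mod_cast X.card_T
        linarith

/-- `schur₁` with `α = β = 2 d` (columns by `sym`) -/
theorem mat_op (hc : X.Adm c) (p q : A × V) :
    mat (X.op c) p q = ∑ t ∈ X.T, c p.2 t q.2 (p.1 * q.1⁻¹) := by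
  have hd : (0 : ℝ) ≤ 2 * (X.d : ℝ) := by positivity
  refine (schur₁ (fun p q : A × V => ∑ t ∈ X.T, c p.2 t q.2 (p.1 * q.1⁻¹)) _ _ hd hd
    (X.trwalk_row hc) fun q s => ?_).1 p q
  refine le_trans (le_of_eq (Finset.sum_congr rfl fun p _ => ?_)) (X.trwalk_row hc q s)
  rw [X.trwalk_conj hc p q, Complex.norm_conj]

theorem adj_op (hc : X.Adm c) : adj (X.op c) = X.op c := by
  refine mat_ext fun p q => ?_
  rw [mat_adj, X.mat_op hc, X.mat_op hc, X.trwalk_conj hc q p]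

theorem trwalk_step (hc : X.Adm c) (Y : L2 (A × V) →L[ℂ] L2 (A × V)) (p q : A × V) :
    mat (X.op c * Y) p q =
      ∑ σ ∈ X.St, c p.2 σ.1 σ.2.1 σ.2.2 * mat Y (σ.2.2⁻¹ * p.1, σ.2.1) q := by
  have h1 := hasSum_mat_comp (X.op c) Y p q
  have hg : Function.Injective fun x : V × A => (x.2⁻¹ * p.1, x.1) := by
    intro x x' h
    simp only [Prod.mk.injEq, mul_left_inj, inv_inj] at h
    exact Prod.ext h.2 h.1
  have h2 : HasSum (fun j => mat (X.op c) p j * mat Y j q)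
      (∑ j ∈ (X.Vs ×ˢ X.Fs).image fun x : V × A => (x.2⁻¹ * p.1, x.1),
        mat (X.op c) p j * mat Y j q) := by
    refine hasSum_sum_of_ne_finset_zero fun j hj => ?_
    rw [X.mat_op hc, Finset.sum_eq_zero, zero_mul]
    intro t _
    by_contra h
    have := hc.supp _ _ _ _ h
    refine hj (Finset.mem_image.2 ⟨(j.2, p.1 * j.1⁻¹),
      Finset.mem_product.2 ⟨this.2.1, this.2.2.2.1⟩, ?_⟩)
    simp
  have h3 : mat (X.op c * Y) p q = mat (X.op c ∘L Y) p q := rfl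
  rw [h3, h1.unique h2, Finset.sum_image fun a _ b _ h => hg h]
  unfold St
  rw [Finset.sum_product (s := X.T), Finset.sum_comm]
  refine Finset.sum_congr rfl fun x _ => ?_
  rw [X.mat_op hc, Finset.sum_mul]
  refine Finset.sum_congr rfl fun t _ => ?_
  simp

theorem mat_pow (hc : X.Adm c) (N : ℕ) (p q : A × V) :
    mat (X.op c ^ N) p q = ∑ l ∈ lists X.St N,
      if wend p.2 l = q.2 ∧ wprod l = p.1 * q.1⁻¹ then wwt c p.2 l else 0 := by
  induction N generalizing p with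
  | zero =>
    rw [pow_zero, mat_one, sum_lists_zero]
    have : p = q ↔ wend p.2 ([] : List (F × V × A)) = q.2 ∧
        wprod ([] : List (F × V × A)) = p.1 * q.1⁻¹ := by
      simp only [wend, wprod, List.map_nil, List.prod_nil]
      rw [eq_mul_inv_iff_mul_eq, one_mul, Prod.ext_iff]
      exact ⟨fun h => ⟨h.2, h.1.symm⟩, fun h => ⟨h.2.symm, h.1⟩⟩
    simp only [this, wwt]
  | succ N ih =>
    rw [pow_succ', X.trwalk_step hc, sum_lists_succ]
    refine Finset.sum_congr rfl fun σ _ => ?_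
    rw [ih, Finset.mul_sum]
    refine Finset.sum_congr rfl fun l _ => ?_
    have : wprod (σ :: l) = p.1 * q.1⁻¹ ↔ wprod l = σ.2.2⁻¹ * p.1 * q.1⁻¹ := by
      simp only [wprod, List.map_cons, List.prod_cons]
      rw [mul_assoc, eq_inv_mul_iff_mul_eq]
    simp only [this, wend, wwt, mul_ite, mul_zero]

omit [DecidableEq A] in
theorem trwalk_wend (l : List (F × V × A)) (hl : ∀ σ ∈ l, σ ∈ X.St) (v : V) (hv : v ∈ X.Vs) :
    wend v l ∈ X.Vs := by
  induction l generalizing v with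
  | nil => exact hv
  | cons σ l ih =>
    have h := hl σ List.mem_cons_self
    exact ih (fun τ hτ => hl τ (List.mem_cons_of_mem _ hτ)) _
      (Finset.mem_product.1 (Finset.mem_product.1 h).2).1

theorem trwalk_supp (hc : X.Adm c) (N : ℕ) (hN : 1 ≤ N) (FN : Finset A)
    (hFN : ∀ l : List A, l.length ≤ N → (∀ x ∈ l, x ∈ X.Fs) → l.prod ∈ FN) (p q : A × V)
    (h : mat (X.op c ^ N) p q ≠ 0) : p.2 ∈ X.Vs ∧ q.2 ∈ X.Vs ∧ p.1 * q.1⁻¹ ∈ FN := by
  rw [X.mat_pow hc] at h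
  obtain ⟨l, hl, h1⟩ := Finset.exists_ne_zero_of_sum_ne_zero h
  obtain ⟨hlen, hmem⟩ := mem_lists.1 hl
  split_ifs at h1 with h2
  · have hp : p.2 ∈ X.Vs := by
      cases l with
      | nil => simp at hlen; omega
      | cons σ l => exact (hc.supp _ _ _ _ (left_ne_zero_of_mul h1)).1
    refine ⟨hp, h2.1 ▸ X.trwalk_wend l hmem _ hp, ?_⟩
    rw [← h2.2]
    refine hFN _ (by simp [hlen]) fun x hx => ?_
    obtain ⟨σ, hσ, rfl⟩ := List.mem_map.1 hx
    exact (Finset.mem_product.1 (Finset.mem_product.1 (hmem σ hσ)).2).2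
  · exact absurd rfl h1

theorem trwalk_sa (hc : X.Adm c) : IsSelfAdjoint (X.op c) := X.adj_op hc

theorem trwalk_hasSum (hc : X.Adm c) (N : ℕ) (p : A × V) :
    HasSum (fun q => ‖mat (X.op c ^ N) p q‖ ^ 2) (mat (X.op c ^ (2 * N)) (1, p.2) (1, p.2)).re := by
  have hsa : adj (X.op c ^ N) = X.op c ^ N := (X.trwalk_sa hc).pow N
  have h1 := hasSum_mat_comp (X.op c ^ N) (X.op c ^ N) p p
  have h2 : mat ((X.op c ^ N) ∘L (X.op c ^ N)) p p = mat (X.op c ^ (2 * N)) (1, p.2) (1, p.2) := by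
    have : (X.op c ^ N) ∘L (X.op c ^ N) = X.op c ^ (2 * N) := by
      rw [two_mul, pow_add]
      rfl
    rw [this, X.mat_pow hc, X.mat_pow hc]
    simp
  rw [h2] at h1
  have h3 := Complex.hasSum_re h1
  convert h3 using 2 with q
  have h4 : mat (X.op c ^ N) q p = (starRingEnd ℂ) (mat (X.op c ^ N) p q) := by
    conv_lhs => rw [← hsa]
    rw [mat_adj]
  rw [h4, Complex.mul_conj, Complex.ofReal_re, Complex.normSq_eq_norm_sq]

/-- `Y = X^N` is self-adjoint with `‖Y‖ = ‖X‖^N` (`IsSelfAdjoint.norm_pow_two_pow`); row `(a,v)` of `Y` vanishes unless `v ∈ Vs`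
and is supported on `≤ |FN| |Vs|` entries, its ℓ² norm squared is `mat (Y*Y) (a,v) (a,v) = mat (Y*Y) (1,v) (1,v) ≥ 0`;
Cauchy–Schwarz and `schur₁`. -/
theorem norm_pow_le_trace (hc : X.Adm c) (r : ℕ) (FN : Finset A)
    (hFN : ∀ l : List A, l.length ≤ 2 ^ r → (∀ x ∈ l, x ∈ X.Fs) → l.prod ∈ FN) :
    ‖X.op c‖ ^ (2 * 2 ^ r) ≤ X.Vs.card * FN.card *
      ∑ v ∈ X.Vs, (mat (X.op c ^ (2 * 2 ^ r)) (1, v) (1, v)).re := by
  set τ : V → ℝ := fun v => (mat (X.op c ^ (2 * 2 ^ r)) (1, v) (1, v)).re with hτ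
  have hτ0 : ∀ v, 0 ≤ τ v := fun v =>
    (X.trwalk_hasSum hc (2 ^ r) (1, v)).nonneg fun _ => sq_nonneg _
  set β : ℝ := X.Vs.card * FN.card * ∑ v ∈ X.Vs, τ v with hβ
  have hβ0 : 0 ≤ β := mul_nonneg (by positivity) (Finset.sum_nonneg fun v _ => hτ0 v)
  have hsa : adj (X.op c ^ 2 ^ r) = X.op c ^ 2 ^ r := (X.trwalk_sa hc).pow _
  have hrow : ∀ (p : A × V) (s : Finset (A × V)),
      ∑ q ∈ s, ‖mat (X.op c ^ 2 ^ r) p q‖ ≤ Real.sqrt β := by
    intro p s
    have hsupp := X.trwalk_supp hc (2 ^ r) Nat.one_le_two_pow FN hFN p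
    by_cases hp : p.2 ∈ X.Vs
    · set U : Finset (A × V) := (X.Vs ×ˢ FN).image fun x : V × A => (x.2⁻¹ * p.1, x.1) with hU
      have hUc : (U.card : ℝ) ≤ X.Vs.card * FN.card := by
        have := Finset.card_image_le (s := X.Vs ×ˢ FN) (f := fun x : V × A => (x.2⁻¹ * p.1, x.1))
        rw [Finset.card_product] at this
        exact_mod_cast this
      have h1 : ∑ q ∈ s, ‖mat (X.op c ^ 2 ^ r) p q‖ ≤ ∑ q ∈ U, ‖mat (X.op c ^ 2 ^ r) p q‖ := by
        refine trwalk_sum_le s id Function.injective_id U (fun q => ‖mat (X.op c ^ 2 ^ r) p q‖)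
          (fun _ => norm_nonneg _) fun q hq => ?_
        have := hsupp q (norm_ne_zero_iff.1 hq)
        refine Finset.mem_image.2 ⟨(q.2, p.1 * q.1⁻¹), Finset.mem_product.2 this.2, ?_⟩
        simp
      refine h1.trans (Real.le_sqrt_of_sq_le ?_)
      refine sq_sum_le_card_mul_sum_sq.trans ?_
      have h2 : ∑ q ∈ U, ‖mat (X.op c ^ 2 ^ r) p q‖ ^ 2 ≤ τ p.2 :=
        sum_le_hasSum U (fun _ _ => sq_nonneg _) (X.trwalk_hasSum hc (2 ^ r) p)
      have h3 : τ p.2 ≤ ∑ v ∈ X.Vs, τ v := Finset.single_le_sum (fun v _ => hτ0 v) hp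
      exact mul_le_mul hUc (h2.trans h3) (Finset.sum_nonneg fun _ _ => sq_nonneg _) (by positivity)
    · rw [Finset.sum_eq_zero]
      · exact Real.sqrt_nonneg _
      · intro q _
        by_contra h
        exact hp (hsupp q (norm_ne_zero_iff.1 h)).1
  have hcol : ∀ (q : A × V) (s : Finset (A × V)),
      ∑ p ∈ s, ‖mat (X.op c ^ 2 ^ r) p q‖ ≤ Real.sqrt β := by
    intro q s
    refine le_trans (le_of_eq (Finset.sum_congr rfl fun p _ => ?_)) (hrow q s)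
    conv_lhs => rw [← hsa]
    rw [mat_adj, Complex.norm_conj]
  have h4 := (schur₁ (mat (X.op c ^ 2 ^ r)) _ _ (Real.sqrt_nonneg β) (Real.sqrt_nonneg β)
    hrow hcol).2
  rw [kop_mat, Real.sqrt_mul_self (Real.sqrt_nonneg β), (X.trwalk_sa hc).norm_pow_two_pow] at h4
  rw [mul_comm 2, pow_mul]
  calc (‖X.op c‖ ^ 2 ^ r) ^ 2 ≤ Real.sqrt β ^ 2 := pow_le_pow_left₀ (by positivity) h4 2
    _ = β := Real.sq_sqrt hβ0

end TrStr
end Crest.Agent.R129
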