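import Crest.Agent.R129.Defs

/-! # The Cayley tree of a free group (task R129/Tree). Statements frozen; add lemmas freely.

Hint: `Btw 1 z y ↔ z.toWord <+: y.toWord` (prefix).  Medians: longest common prefix. -/

set_option autoImplicit false

namespace Crest.Agent.R129
variable {S : Type} [DecidableEq S]

omit [DecidableEq S] in
theorem tree_sg_eq (σ : S × Bool) : sg σ = FreeGroup.mk [σ] := by
  obtain ⟨s, b⟩ := σ
  cases b <;> rfl

theorem tree_norm_mk {w : List (S × Bool)} (h : FreeGroup.IsReduced w) :
    (FreeGroup.mk w).norm = w.length := by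
  unfold FreeGroup.norm
  rw [FreeGroup.toWord_mk, h.reduce_eq]

theorem tree_common (a b : List (S × Bool)) (ha : FreeGroup.IsReduced a)
    (hb : FreeGroup.IsReduced b) :
    ∃ c s t, a = c ++ s ∧ b = c ++ t ∧ FreeGroup.IsReduced (FreeGroup.invRev s ++ t) := by
  have hinv : ∀ w : List (S × Bool), FreeGroup.IsReduced w →
      FreeGroup.IsReduced (FreeGroup.invRev w) := fun w hw => by
    rw [FreeGroup.isReduced_iff_reduce_eq, FreeGroup.reduce_invRev, hw.reduce_eq]
  induction a generalizing b with
  | nil => exact ⟨[], [], b, rfl, rfl, by simpa using hb⟩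
  | cons x a ih =>
    cases b with
    | nil => exact ⟨[], x :: a, [], rfl, rfl, by rw [List.append_nil]; exact hinv _ ha⟩
    | cons y b =>
      by_cases hxy : x = y
      · subst hxy
        obtain ⟨c, s, t, h1, h2, h3⟩ := ih b (List.IsChain.tail ha) (List.IsChain.tail hb)
        exact ⟨x :: c, s, t, by rw [h1]; rfl, by rw [h2]; rfl, h3⟩
      · refine ⟨[], x :: a, y :: b, rfl, rfl, List.IsChain.append (hinv _ ha) hb ?_⟩
        intro u hu v hv
        have hu' : u = (x.1, !x.2) := by
          simp [FreeGroup.invRev] at hu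
          exact hu.symm
        have hv' : v = y := by
          simp at hv
          exact hv.symm
        subst hu' hv'
        intro e
        by_contra e'
        refine hxy (Prod.ext e ?_)
        revert e'
        cases x.2 <;> cases v.2 <;> simp

theorem td_self (x : FreeGroup S) : td x x = 0 := by simp [td]

theorem td_comm (x y : FreeGroup S) : td x y = td y x := by
  unfold td
  rw [← FreeGroup.norm_inv_eq, mul_inv_rev, inv_inv]

theorem td_triangle (x y z : FreeGroup S) : td x z ≤ td x y + td y z := by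
  unfold td
  have : x⁻¹ * z = (x⁻¹ * y) * (y⁻¹ * z) := by group
  rw [this]
  exact FreeGroup.norm_mul_le _ _

theorem td_mul (g x y : FreeGroup S) : td (g * x) (g * y) = td x y := by
  unfold td
  congr 1
  group

theorem td_eq_zero {x y : FreeGroup S} : td x y = 0 ↔ x = y := by
  unfold td
  rw [FreeGroup.norm_eq_zero, inv_mul_eq_one]

theorem td_one (x : FreeGroup S) : td 1 x = x.norm := by simp [td]

theorem td_sg (x : FreeGroup S) (σ : S × Bool) : td x (x * sg σ) = 1 := by
  unfold td
  rw [inv_mul_cancel_left, tree_sg_eq, tree_norm_mk FreeGroup.IsReduced.singleton]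
  rfl

theorem exists_sg_of_td {x y : FreeGroup S} (h : td x y = 1) : ∃ σ, y = x * sg σ := by
  unfold td FreeGroup.norm at h
  obtain ⟨σ, hσ⟩ := List.length_eq_one_iff.1 h
  refine ⟨σ, ?_⟩
  rw [tree_sg_eq, ← hσ, FreeGroup.mk_toWord, mul_inv_cancel_left]

omit [DecidableEq S] in
theorem sg_injective : Function.Injective (sg : S × Bool → FreeGroup S) := by
  classical
  intro σ σ' h
  rw [tree_sg_eq, tree_sg_eq] at h
  have := congrArg FreeGroup.toWord h
  rw [FreeGroup.toWord_mk, FreeGroup.toWord_mk, FreeGroup.reduce_singleton,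
    FreeGroup.reduce_singleton] at this
  simpa using this

omit [DecidableEq S] in
theorem sg_inv (σ : S × Bool) : (sg σ)⁻¹ = sg (σ.1, !σ.2) := by
  rw [tree_sg_eq, tree_sg_eq, FreeGroup.inv_mk]
  rfl

theorem norm_mul_mod_two (x y : FreeGroup S) : (x * y).norm % 2 = (x.norm + y.norm) % 2 := by
  unfold FreeGroup.norm
  rw [FreeGroup.toWord_mul]
  obtain ⟨n, hn⟩ := (FreeGroup.reduce.red (L := x.toWord ++ y.toWord)).length
  rw [List.length_append] at hn
  omega


theorem tree_btw_iff {x z y : FreeGroup S} :
    Btw x z y ↔ (x⁻¹ * z).toWord <+: (x⁻¹ * y).toWord := by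
  have e : x⁻¹ * y = (x⁻¹ * z) * (z⁻¹ * y) := by group
  constructor
  · intro h
    have h1 := FreeGroup.toWord_mul_sublist (x⁻¹ * z) (z⁻¹ * y)
    rw [← e] at h1
    have h2 := h1.eq_of_length (by rw [List.length_append]; exact h.symm)
    rw [h2]
    exact List.prefix_append _ _
  · rintro ⟨t, ht⟩
    have h1 : z⁻¹ * y = FreeGroup.mk t := by
      have h2 : x⁻¹ * y = (x⁻¹ * z) * FreeGroup.mk t := by
        conv_rhs => rw [← FreeGroup.mk_toWord (x := x⁻¹ * z), FreeGroup.mul_mk, ht,
          FreeGroup.mk_toWord]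
      exact mul_left_cancel (e.symm.trans h2)
    have h2 : td z y ≤ t.length := by
      unfold td
      rw [h1]
      exact FreeGroup.norm_mk_le
    have h3 : td x z + t.length = td x y := by
      have := congrArg List.length ht
      rw [List.length_append] at this
      exact this
    have h4 := td_triangle x z y
    unfold Btw
    omega

theorem btw_left (x y : FreeGroup S) : Btw x x y := by simp [Btw, td_self]

theorem btw_right (x y : FreeGroup S) : Btw x y y := by simp [Btw, td_self]

theorem Btw.symm {x z y : FreeGroup S} (h : Btw x z y) : Btw y z x := by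
  unfold Btw at *
  rw [td_comm y z, td_comm z x, td_comm y x]
  omega

theorem btw_mul (g : FreeGroup S) {x z y : FreeGroup S} :
    Btw (g * x) (g * z) (g * y) ↔ Btw x z y := by simp only [Btw, td_mul]

theorem Btw.trans_left {x w z y : FreeGroup S} (h : Btw x z y) (h' : Btw x w z) :
    Btw x w y ∧ Btw w z y := by
  unfold Btw at *
  have h1 := td_triangle x w y
  have h2 := td_triangle w z y
  omega

theorem Btw.antisymm {x y z : FreeGroup S} (h : Btw x y z) (h' : Btw x z y) : y = z := by
  unfold Btw at *
  rw [td_comm z y] at h'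
  exact td_eq_zero.1 (by omega)

theorem exists_btw (x y : FreeGroup S) {k : ℕ} (hk : k ≤ td x y) :
    ∃ z, Btw x z y ∧ td x z = k := by
  have e : x⁻¹ * y = FreeGroup.mk ((x⁻¹ * y).toWord.take k) *
      FreeGroup.mk ((x⁻¹ * y).toWord.drop k) := by
    rw [FreeGroup.mul_mk, List.take_append_drop, FreeGroup.mk_toWord]
  have hl : (x⁻¹ * y).toWord.length = td x y := rfl
  have h1 : td x (x * FreeGroup.mk ((x⁻¹ * y).toWord.take k)) ≤ k := by
    unfold td
    rw [inv_mul_cancel_left]
    exact FreeGroup.norm_mk_le.trans (List.length_take_le _ _)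
  have h2 : td (x * FreeGroup.mk ((x⁻¹ * y).toWord.take k)) y ≤ td x y - k := by
    have : (x * FreeGroup.mk ((x⁻¹ * y).toWord.take k))⁻¹ * y =
        FreeGroup.mk ((x⁻¹ * y).toWord.drop k) := by
      rw [mul_inv_rev, mul_assoc, inv_mul_eq_iff_eq_mul]
      exact e
    rw [← hl]
    unfold td
    rw [this]
    exact FreeGroup.norm_mk_le.trans (List.length_drop).le
  have h3 := td_triangle x (x * FreeGroup.mk ((x⁻¹ * y).toWord.take k)) y
  exact ⟨x * FreeGroup.mk ((x⁻¹ * y).toWord.take k), by unfold Btw; omega, by omega⟩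

theorem Btw.order {x y z z' : FreeGroup S} (h : Btw x z y) (h' : Btw x z' y)
    (hle : td x z ≤ td x z') : Btw x z z' := by
  rw [tree_btw_iff] at h h' ⊢
  exact List.prefix_of_prefix_length_le h h' hle

theorem Btw.unique {x y z z' : FreeGroup S} (h : Btw x z y) (h' : Btw x z' y)
    (he : td x z = td x z') : z = z' := (h.order h' he.le).antisymm (h'.order h he.ge)

theorem exists_median (x y z : FreeGroup S) : ∃ m, Btw x m y ∧ Btw y m z ∧ Btw x m z := by
  obtain ⟨c, s, t, h1, h2, h3⟩ := tree_common (x⁻¹ * y).toWord (x⁻¹ * z).toWord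
    FreeGroup.isReduced_toWord FreeGroup.isReduced_toWord
  have e : x⁻¹ * (x * FreeGroup.mk c) = FreeGroup.mk c := inv_mul_cancel_left _ _
  have hc : (FreeGroup.mk c).toWord = c := by
    rw [FreeGroup.toWord_mk]
    refine FreeGroup.IsReduced.reduce_eq
      ((FreeGroup.isReduced_toWord (x := x⁻¹ * y)).infix ?_)
    rw [h1]
    exact (List.prefix_append _ _).isInfix
  have hy : y = x * FreeGroup.mk c * FreeGroup.mk s := by
    rw [mul_assoc, FreeGroup.mul_mk, ← h1, FreeGroup.mk_toWord, mul_inv_cancel_left]
  have hz : z = x * FreeGroup.mk c * FreeGroup.mk t := by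
    rw [mul_assoc, FreeGroup.mul_mk, ← h2, FreeGroup.mk_toWord, mul_inv_cancel_left]
  refine ⟨x * FreeGroup.mk c, ?_, ?_, ?_⟩
  · rw [tree_btw_iff, e, hc, h1]; exact List.prefix_append _ _
  · have a1 : td y (x * FreeGroup.mk c) ≤ s.length := by
      rw [td_comm]
      unfold td
      rw [hy, inv_mul_cancel_left]
      exact FreeGroup.norm_mk_le
    have a2 : td (x * FreeGroup.mk c) z ≤ t.length := by
      unfold td
      rw [hz, inv_mul_cancel_left]
      exact FreeGroup.norm_mk_le
    have a3 : td y z = s.length + t.length := by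
      rw [hy, hz, td_mul]
      unfold td
      rw [FreeGroup.inv_mk, FreeGroup.mul_mk, tree_norm_mk h3, List.length_append,
        FreeGroup.invRev_length]
    have a4 := td_triangle y (x * FreeGroup.mk c) z
    unfold Btw
    omega
  · rw [tree_btw_iff, e, hc, h2]; exact List.prefix_append _ _

/-- thin triangles -/
theorem Btw.tri {x z y : FreeGroup S} (h : Btw x z y) (v : FreeGroup S) :
    Btw x z v ∨ Btw y z v := by
  obtain ⟨m, h1, h2, h3⟩ := exists_median x y v
  rcases le_total (td x z) (td x m) with hle | hle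
  · exact Or.inl (h3.trans_left (h.order h1 hle)).1
  · exact Or.inr (h2.trans_left (h.trans_left (h1.order h hle)).2.symm).1

theorem Btw.concat {x y z w : FreeGroup S} (h : Btw x y z) (h' : Btw y z w) (hne : y ≠ z) :
    Btw x y w ∧ Btw x z w := by
  have h0 : td y z ≠ 0 := fun e => hne (td_eq_zero.1 e)
  rcases h.tri w with h1 | h1
  · refine ⟨h1, ?_⟩
    unfold Btw at *
    omega
  · exfalso
    unfold Btw at *
    rw [td_comm z y] at h1
    omega

/-- appending a letter that does not cancel the previous one -/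
theorem norm_mul_sg_sg {x : FreeGroup S} {σ σ' : S × Bool} (h : (x * sg σ).norm = x.norm + 1)
    (hne : σ' ≠ (σ.1, !σ.2)) : (x * sg σ * sg σ').norm = x.norm + 2 := by
  have h1 : Btw 1 x (x * sg σ) := by
    unfold Btw
    rw [td_one, td_one, td_sg, h]
  have h2 : Btw x (x * sg σ) (x * sg σ * sg σ') := by
    unfold Btw
    rw [td_sg, td_sg]
    unfold td
    rw [mul_assoc x, inv_mul_cancel_left, tree_sg_eq, tree_sg_eq, FreeGroup.mul_mk, tree_norm_mk]
    · rfl
    · refine FreeGroup.isReduced_cons_cons.2 ⟨fun e => ?_, FreeGroup.IsReduced.singleton⟩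
      by_contra e'
      refine hne (Prod.ext e.symm ?_)
      revert e'
      cases σ.2 <;> cases σ'.2 <;> simp
  have h3 : x ≠ x * sg σ := by
    intro e
    have := td_sg x σ
    rw [← e, td_self] at this
    omega
  have h4 := (h1.concat h2 h3).2
  unfold Btw at h4
  rw [td_one, td_one, td_sg] at h4
  omega


/-- A walk in the tree crosses at least `td` distinct edges.  For `k = 1..td`, let `z k` be the point of
the geodesic at distance `k`, `p` the first time with `Btw (x 0) (z k) (x p)`; then `x p = z k` and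
`x (p-1) = z (k-1)`, so the unordered edges at these times are pairwise different. -/
theorem td_le_card_edges (x : ℕ → FreeGroup S) (s : ℕ) (hx : ∀ p, p < s → td (x p) (x (p + 1)) = 1) :
    td (x 0) (x s) ≤ ((Finset.range s).image fun p => s(x p, x (p + 1))).card := by
  classical
  have hz : ∀ k : ℕ, ∃ z, k ≤ td (x 0) (x s) → Btw (x 0) z (x s) ∧ td (x 0) z = k := by
    intro k
    by_cases hk : k ≤ td (x 0) (x s)
    · obtain ⟨z, hz⟩ := exists_btw (x 0) (x s) hk
      exact ⟨z, fun _ => hz⟩
    · exact ⟨1, fun h => absurd h hk⟩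
  choose z hz using hz
  rw [← Finset.card_range (td (x 0) (x s))]
  refine Finset.card_le_card_of_injOn (fun k => s(z k, z (k + 1))) ?_ ?_
  · intro k hk
    have hk' : k < td (x 0) (x s) := by simpa using hk
    obtain ⟨a1, a2⟩ := hz k hk'.le
    obtain ⟨b1, b2⟩ := hz (k + 1) hk'
    have hab : Btw (x 0) (z k) (z (k + 1)) := a1.order b1 (by omega)
    have hex : ∃ p, Btw (x 0) (z (k + 1)) (x p) := ⟨s, b1⟩
    have hp := Nat.find_spec hex
    have hps : Nat.find hex ≤ s := Nat.find_min' hex b1
    obtain ⟨q, hq⟩ : ∃ q, Nat.find hex = q + 1 := by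
      refine Nat.exists_eq_add_one_of_ne_zero fun e => ?_
      rw [e] at hp
      unfold Btw at hp
      rw [td_self] at hp
      omega
    have hnq : ¬ Btw (x 0) (z (k + 1)) (x q) := Nat.find_min hex (by omega)
    rw [hq] at hp hps
    have h1 := hx q (by omega)
    have hne : z (k + 1) ≠ x q := fun e => hnq (e ▸ btw_right _ _)
    have hne' : td (z (k + 1)) (x q) ≠ 0 := fun e => hne (td_eq_zero.1 e)
    have h2 := (hp.tri (x q)).resolve_left hnq
    unfold Btw at h2
    rw [td_comm (x (q + 1)) (x q)] at h2
    have e1 : x (q + 1) = z (k + 1) := td_eq_zero.1 (by omega)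
    obtain ⟨m, m1, m2, m3⟩ := exists_median (x 0) (z (k + 1)) (x q)
    have hm : z (k + 1) ≠ m := fun e => hnq (e ▸ m3)
    have hm' : td (z (k + 1)) m ≠ 0 := fun e => hm (td_eq_zero.1 e)
    have e2 : m = x q := by
      unfold Btw at m2
      exact td_eq_zero.1 (by omega)
    subst e2
    have e3 : x q = z k := by
      refine m1.unique hab ?_
      unfold Btw at m1
      rw [td_comm (x q) (z (k + 1))] at m1
      omega
    refine Finset.mem_coe.2 (Finset.mem_image.2 ⟨q, Finset.mem_range.2 (by omega), ?_⟩)
    rw [e1, e3]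
  · intro k hk l hl hkl
    have hk' : k < td (x 0) (x s) := by simpa using hk
    have hl' : l < td (x 0) (x s) := by simpa using hl
    have a1 := (hz k hk'.le).2
    have a2 := (hz (k + 1) hk').2
    have a3 := (hz l hl'.le).2
    have a4 := (hz (l + 1) hl').2
    rcases Sym2.eq_iff.1 hkl with ⟨e, -⟩ | ⟨e, e'⟩
    · rw [e] at a1; omega
    · rw [e] at a1; rw [e'] at a2; omega


end Crest.Agent.R129
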