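import Crest.Agent.R129.Lists

/-! # Digit strings (definitions; do not edit).  A string is a list, TOP digit first. -/

set_option autoImplicit false

namespace Crest.Agent.R129
variable {F : Type} [Field F]

/-- the port map `τ_t : F^m → F^(m-1)` -/
def tau (ψ : F → List F → Equiv.Perm F) (t : F) : List F → List F
  | [] => []
  | [_] => []
  | [β, α] => [ψ t [] (α + β * t)]
  | β :: α :: γ :: κ =>
      ψ t (γ :: κ) (α + β * t) ::
        ((ψ t (tau ψ t (γ :: κ))).symm γ - ψ t (γ :: κ) (α + β * t) * t) :: tau ψ t (γ :: κ)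

/-- the point of the `τ_t`-fibre over `κ` with top digit `β` -/
def fib (ψ : F → List F → Equiv.Perm F) (t : F) : List F → F → List F
  | [], β => [β]
  | γ :: κ, β => β :: ((ψ t (tau ψ t (γ :: κ))).symm γ - β * t) :: tau ψ t (γ :: κ)

/-- apply the ports of `u` in order -/
def tauL (ψ : F → List F → Equiv.Perm F) : List F → List F → List F
  | [], x => x
  | t :: u, x => tauL ψ u (tau ψ t x)

/-- `y` is moved to its own truncation by a short reduced word -/
def Spec0 (ψ : F → List F → Equiv.Perm F) (G : ℕ) (y : List F) : Prop :=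
  ∃ u : List F, u ≠ [] ∧ u.IsChain (· ≠ ·) ∧ Even u.length ∧ u.length ≤ G ∧
    (tauL ψ u y).drop (G - u.length) = y.drop G

/-- special strings (depends only on `x.drop 2`) -/
def Spec (ψ : F → List F → Equiv.Perm F) (G : ℕ) (x : List F) : Prop := Spec0 ψ G (x.drop 2)

/-- the first (bottom) `m` digits of `x`, padded with zeros -/
def pre (x : List F) (m : ℕ) : List F :=
  if m ≤ x.length then x.drop (x.length - m) else List.replicate (m - x.length) 0 ++ x

/-- digits `s+1, …, 2s` vanish for some `j₀ ≤ s < |x|` -/
def ZeroRun (j₀ : ℕ) (x : List F) : Prop :=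
  ∃ s, j₀ ≤ s ∧ s < x.length ∧ pre x (2 * s) = List.replicate s 0 ++ pre x s

open Classical in
/-- a permutation extending the relation `Rl` (the identity if there is none) -/
noncomputable def extP {α : Type} (Rl : α → α → Prop) : Equiv.Perm α :=
  if h : ∃ σ : Equiv.Perm α, ∀ γ β, Rl γ β → σ γ = β then h.choose else 1

end Crest.Agent.R129
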