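import Crest.Agent.R129.SC

/-! # One windmill step (task R129/Wind1). Statements frozen. -/

set_option autoImplicit false

namespace Crest.Agent.R129
namespace SC
variable {S : Type} [DecidableEq S] (𝒮 : SC S)

theorem w1_mid {Y : 𝒮.M} {r y : FreeGroup S} (hr : r ∈ 𝒮.R Y) (hr1 : r ≠ 1) (hy : y ∈ 𝒮.mem Y)
    (k : ℕ) (hk : 5 * 𝒮.L Y y ≤ k) (hk' : (k : ℝ) ≤ 95 * 𝒮.L Y y) :
    ∃ z, 𝒮.Mid Y y r z ∧ td y z = k := by
  have hg := 𝒮.girth Y r y hr hr1 hy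
  have h1 := 𝒮.one_le Y y hy
  have hk2 : k ≤ td y (r * y) := by
    have : (k : ℝ) ≤ td y (r * y) := by linarith
    exact_mod_cast this
  obtain ⟨z, hz, hzk⟩ := exists_btw y (r * y) hk2
  refine ⟨z, ⟨hz, by rw [hzk]; exact hk, ?_⟩, hzk⟩
  have : (td y z : ℝ) + td z (r * y) = td y (r * y) := by exact_mod_cast hz
  rw [hzk] at this
  linarith

theorem w1_mid_mem {Y : 𝒮.M} {r y z : FreeGroup S} (hr : r ∈ 𝒮.R Y) (hy : y ∈ 𝒮.mem Y)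
    (hz : 𝒮.Mid Y y r z) : z ∈ 𝒮.mem Y :=
  𝒮.convex Y _ _ _ hy (𝒮.mul_mem_of_R hr hy) hz.1

theorem w1_far {V : Set (FreeGroup S)} {Fr : Set 𝒮.M} (hV : Cvx V) (hF : 𝒮.Fresh V Fr) {Y : 𝒮.M}
    (hY : Y ∈ Fr) {y z u : FreeGroup S} (hy : y ∈ 𝒮.mem Y) (hyV : y ∈ V) (hz : z ∈ 𝒮.mem Y)
    (hd : 5 * 𝒮.L Y y ≤ td y z) (hu : u ∈ V) : ¬ Btw y z u := by
  intro h
  have h1 := (hF Y hY).2 y z hy hyV hz (hV _ _ _ hyV hu h)
  have h2 := 𝒮.one_le Y y hy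
  linarith

theorem w1_tail {Fr : Set 𝒮.M} {p : 𝒮.M × FreeGroup S} {l : List (𝒮.M × FreeGroup S)}
    (hc : 𝒮.Chain Fr (p :: l)) : 𝒮.Chain Fr l :=
  ⟨fun q hq => hc.1 q (List.mem_cons_of_mem _ hq), hc.2.tail⟩

/-- Chain lemma.  Induction on `l` (generalising `Y r y z v`).  Write `L = L Y y`.
(a) For `u ∈ V`: `Btw (r y) z u` (by `tri` on `Btw y z (r y)`; the other branch puts `z ∈ V ∩ Y`, so
`td y z ≤ 3L`).  Likewise with `z' = r⁻¹ z` (it lies on `[r⁻¹ y, y] ⊆ Y`, `td z' y ≥ 5L`):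
no `u ∈ V` has `Btw y z' u`.
(b) `l = []`: from `Btw v z (r y)` and `tri`: `Btw v z (r v')` or `Btw (r y) z (r v')`; the latter is
`Btw y z' v'`, excluded.
(c) `l = (Y₂,r₂) :: l'`, `v'' = prod l * v'`; pick `y₂ ∈ Y₂ ∩ V` and a middle vertex `z₂` (distance
`⌈5 L₂⌉`, exists by `girth`); by induction `Btw y z₂ v''`.  By `tri` on `Btw (r⁻¹ v) z' y` either done or
`Btw y z' v''`.  Let `m` = median of `y, y₂, z₂`; `m ∈ V ∩ Y₂`.  Compare `z'` and `z₂` on `[y, v'']`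
(`Btw.order`).  If `z' ∈ [y,z₂]`: either `z' ∈ [y,m] ⊆ V` (excluded) or `z' ∈ [m,z₂] ⊆ Y₂`, `m ∈ [y,z'] ⊆ Y`,
so `td y m ≤ 3L`, `td m z' ≤ L Y m ≤ 1.03 L` (`piece`, `lip`), contradiction with `5L`.  If
`z₂ ∈ [y,z'] ⊆ Y`: `m ∈ Y`, `td m z₂ ≤ L Y₂ m`, `td y₂ m ≤ 3 L₂`, contradiction with `5 L₂`. -/
theorem chain_btw {V : Set (FreeGroup S)} {Fr : Set 𝒮.M} (hV : Cvx V) (hF : 𝒮.Fresh V Fr)
    (l : List (𝒮.M × FreeGroup S)) {Y : 𝒮.M} {r y z v v' : FreeGroup S}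
    (hc : 𝒮.Chain Fr ((Y, r) :: l)) (hy : y ∈ 𝒮.mem Y) (hyV : y ∈ V) (hz : 𝒮.Mid Y y r z)
    (hv : v ∈ V) (hv' : v' ∈ V) : Btw v z (r * (l.map Prod.snd).prod * v') := by
  induction l generalizing Y r y z v with
  | nil =>
    obtain ⟨hY, hr, -⟩ := hc.1 (Y, r) List.mem_cons_self
    have hzY := 𝒮.w1_mid_mem hr hy hz
    have h1 : Btw v z (r * y) :=
      ((hz.1.tri v).resolve_left (𝒮.w1_far hV hF hY hy hyV hzY hz.2.1 hv)).symm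
    simp only [List.map_nil, List.prod_nil, mul_one]
    refine (h1.tri (r * v')).resolve_right fun h => ?_
    have e : z = r * (r⁻¹ * z) := by group
    rw [e, btw_mul] at h
    refine 𝒮.w1_far hV hF hY hy hyV (𝒮.mul_mem_of_R ((𝒮.R Y).inv_mem hr) hzY) ?_ hv' h
    rw [← td_mul r, ← e, td_comm]
    exact hz.2.2
  | cons p l ih =>
    obtain ⟨Y₂, r₂⟩ := p
    obtain ⟨hY, hr, -⟩ := hc.1 (Y, r) List.mem_cons_self
    have hc₂ := 𝒮.w1_tail hc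
    obtain ⟨hY₂, hr₂, hr₂1⟩ := hc₂.1 (Y₂, r₂) List.mem_cons_self
    have hne : Y ≠ Y₂ := (List.isChain_cons_cons.1 hc.2).1
    have hzY := 𝒮.w1_mid_mem hr hy hz
    have h1 : Btw v z (r * y) :=
      ((hz.1.tri v).resolve_left (𝒮.w1_far hV hF hY hy hyV hzY hz.2.1 hv)).symm
    simp only [List.map_cons, List.prod_cons]
    rw [mul_assoc r]
    refine (h1.tri _).resolve_right fun h => ?_
    have e : z = r * (r⁻¹ * z) := by group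
    rw [e, btw_mul] at h
    have hz'Y := 𝒮.mul_mem_of_R ((𝒮.R Y).inv_mem hr) hzY
    have hz'd : 5 * 𝒮.L Y y ≤ td y (r⁻¹ * z) := by
      rw [← td_mul r, ← e, td_comm]
      exact hz.2.2
    generalize r⁻¹ * z = z' at h hz'Y hz'd
    obtain ⟨y₂, hy₂, hy₂V⟩ := (hF Y₂ hY₂).1
    have hL₂ := 𝒮.one_le Y₂ y₂ hy₂
    have hL := 𝒮.one_le Y y hy
    obtain ⟨z₂, hz₂, -⟩ := 𝒮.w1_mid hr₂ hr₂1 hy₂ ⌈5 * 𝒮.L Y₂ y₂⌉₊ (Nat.le_ceil _)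
      (by have := Nat.ceil_lt_add_one (show 0 ≤ 5 * 𝒮.L Y₂ y₂ by linarith); linarith)
    have hz₂Y := 𝒮.w1_mid_mem hr₂ hy₂ hz₂
    have h2 := ih hc₂ hy₂ hy₂V hz₂ hyV
    obtain ⟨m, m1, m2, m3⟩ := exists_median y y₂ z₂
    have hmV : m ∈ V := hV _ _ _ hyV hy₂V m1
    have hmY₂ : m ∈ 𝒮.mem Y₂ := 𝒮.convex _ _ _ _ hy₂ hz₂Y m2
    rcases le_total (td y z') (td y z₂) with hle | hle
    · have h3 : Btw y z' z₂ := h.order h2 hle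
      rcases le_total (td y z') (td y m) with hle' | hle'
      · exact 𝒮.w1_far hV hF hY hy hyV hz'Y hz'd hmV (h3.order m3 hle')
      · have h4 : Btw y m z' := m3.order h3 hle'
        have h5 : Btw m z' z₂ := (h3.trans_left h4).2
        have hmY : m ∈ 𝒮.mem Y := 𝒮.convex _ _ _ _ hy hz'Y h4
        have hz'Y₂ : z' ∈ 𝒮.mem Y₂ := 𝒮.convex _ _ _ _ hmY₂ hz₂Y h5
        have a1 := (hF Y hY).2 y m hy hyV hmY hmV
        have a2 := 𝒮.piece Y Y₂ m z' hne hmY hz'Y hmY₂ hz'Y₂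
        have a3 := 𝒮.lip Y y m hy hmY
        have a4 : (td y m : ℝ) + td m z' = td y z' := by exact_mod_cast h4
        linarith
    · have h3 : Btw y z₂ z' := h2.order h hle
      have hz₂Y' : z₂ ∈ 𝒮.mem Y := 𝒮.convex _ _ _ _ hy hz'Y h3
      have hmY : m ∈ 𝒮.mem Y := 𝒮.convex _ _ _ _ hy hz₂Y' m3
      have a1 := (hF Y₂ hY₂).2 y₂ m hy₂ hy₂V hmY₂ hmV
      have a2 := 𝒮.piece Y₂ Y m z₂ hne.symm hmY₂ hz₂Y hmY hz₂Y'
      have a3 := 𝒮.lip Y₂ y₂ m hy₂ hmY₂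
      have a4 : (td y₂ m : ℝ) + td m z₂ = td y₂ z₂ := by exact_mod_cast m2
      have a5 := hz₂.2.1
      linarith

/-- Take `a`, `b` on `[y, r y]` with `td y a = ⌈5L⌉ = td b (r y)`; both are middle vertices,
`td (r a) b ≤ 12 L ≤ 13 L Y a` (`lip`: `L ≤ L Y a + 6L/100`); `Btw v a b` by `tri` on `Btw y a b`. -/
theorem chain_LG {V : Set (FreeGroup S)} {Fr : Set 𝒮.M} (hV : Cvx V) (hF : 𝒮.Fresh V Fr)
    {l : List (𝒮.M × FreeGroup S)} (hc : 𝒮.Chain Fr l) (hl : l ≠ []) {v v' : FreeGroup S}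
    (hv : v ∈ V) (hv' : v' ∈ V) : 𝒮.LGat v ((l.map Prod.snd).prod * v') := by
  obtain ⟨⟨Y, r⟩, l', rfl⟩ := List.exists_cons_of_ne_nil hl
  obtain ⟨hY, hr, hr1⟩ := hc.1 (Y, r) List.mem_cons_self
  obtain ⟨y, hy, hyV⟩ := (hF Y hY).1
  have hL := 𝒮.one_le Y y hy
  have hg := 𝒮.girth Y r y hr hr1 hy
  have hk1 : 5 * 𝒮.L Y y ≤ ⌈5 * 𝒮.L Y y⌉₊ := Nat.le_ceil _
  have hk2 : (⌈5 * 𝒮.L Y y⌉₊ : ℝ) ≤ 6 * 𝒮.L Y y := by
    have := Nat.ceil_lt_add_one (show 0 ≤ 5 * 𝒮.L Y y by linarith); linarith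
  generalize ⌈5 * 𝒮.L Y y⌉₊ = k at hk1 hk2
  obtain ⟨a, ha, hak⟩ := 𝒮.w1_mid hr hr1 hy k hk1 (by linarith)
  have hkD : 2 * k ≤ td y (r * y) := by
    have : (2 * k : ℝ) ≤ td y (r * y) := by linarith
    exact_mod_cast this
  obtain ⟨b, hb, hbk⟩ := exists_btw y (r * y) (k := td y (r * y) - k) (by omega)
  have hb2 : td b (r * y) = k := by unfold Btw at hb; omega
  have hbm : 𝒮.Mid Y y r b := by
    refine ⟨hb, ?_, by rw [hb2]; exact hk1⟩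
    have : (k : ℝ) ≤ td y b := by
      have : k ≤ td y b := by omega
      exact_mod_cast this
    linarith
  have haY := 𝒮.w1_mid_mem hr hy ha
  have hbY := 𝒮.w1_mid_mem hr hy hbm
  refine ⟨Y, r, a, b, hr, hr1, haY, hbY, ?_, ?_, ?_⟩
  · have h1 : Btw y a b := ha.1.order hb (by omega)
    exact ((h1.tri v).resolve_left (𝒮.w1_far hV hF hY hy hyV haY ha.2.1 hv)).symm
  · simp only [List.map_cons, List.prod_cons]
    exact 𝒮.chain_btw hV hF l' hc hy hyV hbm hv hv'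
  · have h1 := td_triangle (r * a) (r * y) b
    rw [td_mul, td_comm a y, td_comm (r * y) b, hak, hb2] at h1
    have h2 : (td (r * a) b : ℝ) ≤ k + k := by exact_mod_cast h1
    have h3 := 𝒮.lip Y a y haY hy
    rw [td_comm a y, hak] at h3
    linarith

theorem w1_small0 {V : Set (FreeGroup S)} (hV : Cvx V) {Y Y' Z : 𝒮.M}
    (hY : ∃ v ∈ 𝒮.mem Y, v ∈ V) (hY' : ∃ v ∈ 𝒮.mem Y', v ∈ V)
    (hZ : ∀ v ∈ V, v ∉ 𝒮.mem Z) {y y' : FreeGroup S}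
    (hy : y ∈ 𝒮.mem Y) (hyZ : y ∈ 𝒮.mem Z) (hy' : y' ∈ 𝒮.mem Y') (hy'Z : y' ∈ 𝒮.mem Z) :
    (td y y' : ℝ) ≤ 3 * 𝒮.L Z y := by
  obtain ⟨v, hv, hvV⟩ := hY
  obtain ⟨v', hv', hv'V⟩ := hY'
  obtain ⟨p, p1, p2, p3⟩ := exists_median y y' v
  have hpZ : p ∈ 𝒮.mem Z := 𝒮.convex _ _ _ _ hyZ hy'Z p1
  have hpY : p ∈ 𝒮.mem Y := 𝒮.convex _ _ _ _ hy hv p3
  have hpY' : p ∈ 𝒮.mem Y' := by
    rcases p2.tri v' with h | h
    · exact 𝒮.convex _ _ _ _ hy' hv' h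
    · exact absurd hpZ (hZ p (hV _ _ _ hvV hv'V h))
  have n1 : Z ≠ Y := fun e => hZ v hvV (e ▸ hv)
  have n2 : Z ≠ Y' := fun e => hZ v' hv'V (e ▸ hv')
  have a1 := 𝒮.piece Z Y y p n1 hyZ hpZ hy hpY
  have a2 := 𝒮.piece Z Y' p y' n2 hpZ hy'Z hpY' hy'
  have a3 := 𝒮.lip Z y p hyZ hpZ
  have a4 : (td y p : ℝ) + td p y' = td y y' := by exact_mod_cast p1
  have a5 := 𝒮.one_le Z y hyZ
  linarith

theorem w1_pig {a b c : ℕ → Prop} (h : ∀ i, i ≤ 3 → a i ∨ b i ∨ c i)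
    (ha : ∀ i j, i < j → j ≤ 3 → a i → a j → False)
    (hb : ∀ i j, i < j → j ≤ 3 → b i → b j → False)
    (hc : ∀ i j, i < j → j ≤ 3 → c i → c j → False) : False := by
  rcases h 0 (by omega) with h0 | h0 | h0 <;> rcases h 1 (by omega) with h1 | h1 | h1 <;>
  rcases h 2 (by omega) with h2 | h2 | h2 <;> rcases h 3 (by omega) with h3 | h3 | h3 <;>
  first
  | exact ha 0 1 (by omega) (by omega) h0 h1
  | exact ha 0 2 (by omega) (by omega) h0 h2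
  | exact ha 0 3 (by omega) (by omega) h0 h3
  | exact ha 1 2 (by omega) (by omega) h1 h2
  | exact ha 1 3 (by omega) (by omega) h1 h3
  | exact ha 2 3 (by omega) (by omega) h2 h3
  | exact hb 0 1 (by omega) (by omega) h0 h1
  | exact hb 0 2 (by omega) (by omega) h0 h2
  | exact hb 0 3 (by omega) (by omega) h0 h3
  | exact hb 1 2 (by omega) (by omega) h1 h2
  | exact hb 1 3 (by omega) (by omega) h1 h3
  | exact hb 2 3 (by omega) (by omega) h2 h3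
  | exact hc 0 1 (by omega) (by omega) h0 h1
  | exact hc 0 2 (by omega) (by omega) h0 h2
  | exact hc 0 3 (by omega) (by omega) h0 h3
  | exact hc 1 2 (by omega) (by omega) h1 h2
  | exact hc 1 3 (by omega) (by omega) h1 h3
  | exact hc 2 3 (by omega) (by omega) h2 h3

/-- The invariant is inherited.  Induction on `l` generalising `Z y y' Y`.
`l = []`: `v ∈ Y ∩ V`, `v' ∈ Y' ∩ V`, `p` = median of `y, y', v`; `p ∈ Y ∩ Z`, and by `tri` on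
`Btw y' p v` with `v'`: `p ∈ Y'` or `p ∈ V` (impossible, `Z` misses `V`); `Z ≠ Y, Y'`; so
`td y y' ≤ L Z y + L Z p ≤ 2.01 L Z y`.
`l = (Y₁,r₁) :: l'`: if `Y = Y₁` translate by `r₁⁻¹` and use induction; if `prod l • Y' = Y₁` use the
case `[]` with `Y₁`.  Otherwise take the four middle vertices of `[y₁, r₁ y₁]` at distances
`⌈5L⌉ + k ⌈2L⌉` (`k = 0..3`, `L = L Y₁ y₁`); by `chain_btw` they lie on `[v, prod l * v']`, hence (two `tri`s)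
each in `Y`, `Z` or `prod l • Y'`, all different from `Y₁`; two lie in the same one, at distance
`≥ 2L > 1.15 L ≥ L Y₁ (·)`, contradicting `piece`. -/
theorem chain_small {V : Set (FreeGroup S)} {Fr : Set 𝒮.M} (hV : Cvx V) (hF : 𝒮.Fresh V Fr)
    (N' : Subgroup (FreeGroup S)) (hN : ∀ Y ∈ Fr, 𝒮.R Y ≤ N')
    (l : List (𝒮.M × FreeGroup S)) (hc : 𝒮.Chain Fr l) {Y Y' Z : 𝒮.M}
    (hY : ∃ v ∈ 𝒮.mem Y, v ∈ V) (hY' : ∃ v ∈ 𝒮.mem Y', v ∈ V)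
    (hZ : ∀ h ∈ N', ∀ v ∈ V, v ∉ 𝒮.mem (𝒮.sm h Z)) {y y' : FreeGroup S}
    (hy : y ∈ 𝒮.mem Y) (hyZ : y ∈ 𝒮.mem Z)
    (hy' : y' ∈ 𝒮.mem (𝒮.sm (l.map Prod.snd).prod Y')) (hy'Z : y' ∈ 𝒮.mem Z) :
    (td y y' : ℝ) ≤ 3 * 𝒮.L Z y := by
  induction l generalizing Z y y' Y with
  | nil =>
    simp only [List.map_nil, List.prod_nil, 𝒮.sm_one] at hy'
    refine 𝒮.w1_small0 hV hY hY' (fun v hv => ?_) hy hyZ hy' hy'Z
    have := hZ 1 N'.one_mem v hv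
    rwa [𝒮.sm_one] at this
  | cons p l ih =>
    obtain ⟨Y₁, r₁⟩ := p
    obtain ⟨hY₁, hr₁, hr₁1⟩ := hc.1 (Y₁, r₁) List.mem_cons_self
    have hZ1 : ∀ v ∈ V, v ∉ 𝒮.mem Z := fun v hv => by
      have := hZ 1 N'.one_mem v hv
      rwa [𝒮.sm_one] at this
    simp only [List.map_cons, List.prod_cons] at hy'
    by_cases h1 : Y = Y₁
    · subst h1
      have := ih (𝒮.w1_tail hc) (Y := Y) (Z := 𝒮.sm r₁⁻¹ Z) (y := r₁⁻¹ * y) (y' := r₁⁻¹ * y') hY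
        (fun h hh v hv => by
          rw [← 𝒮.sm_mul]
          exact hZ _ (N'.mul_mem hh (N'.inv_mem (hN _ hY₁ hr₁))) v hv)
        (𝒮.mul_mem_of_R ((𝒮.R Y).inv_mem hr₁) hy) ((𝒮.mem_sm _ _ _).2 hyZ)
        (by
          have := (𝒮.mem_sm r₁⁻¹ _ _).2 hy'
          rwa [← 𝒮.sm_mul, inv_mul_cancel_left] at this)
        ((𝒮.mem_sm _ _ _).2 hy'Z)
      rwa [td_mul, 𝒮.L_sm] at this
    by_cases h2 : 𝒮.sm (r₁ * (l.map Prod.snd).prod) Y' = Y₁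
    · rw [h2] at hy'
      exact 𝒮.w1_small0 hV hY (hF Y₁ hY₁).1 hZ1 hy hyZ hy' hy'Z
    exfalso
    obtain ⟨v, hv, hvV⟩ := hY
    obtain ⟨v', hv', hv'V⟩ := hY'
    obtain ⟨y₁, hy₁, hy₁V⟩ := (hF Y₁ hY₁).1
    have h3 : Z ≠ Y₁ := fun e => hZ1 y₁ hy₁V (e ▸ hy₁)
    have hL := 𝒮.one_le Y₁ y₁ hy₁
    have hk1 : 5 * 𝒮.L Y₁ y₁ ≤ ⌈5 * 𝒮.L Y₁ y₁⌉₊ := Nat.le_ceil _
    have hk2 : (⌈5 * 𝒮.L Y₁ y₁⌉₊ : ℝ) ≤ 6 * 𝒮.L Y₁ y₁ := by
      have := Nat.ceil_lt_add_one (show 0 ≤ 5 * 𝒮.L Y₁ y₁ by linarith); linarith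
    have hj1 : 2 * 𝒮.L Y₁ y₁ ≤ ⌈2 * 𝒮.L Y₁ y₁⌉₊ := Nat.le_ceil _
    have hj2 : (⌈2 * 𝒮.L Y₁ y₁⌉₊ : ℝ) ≤ 3 * 𝒮.L Y₁ y₁ := by
      have := Nat.ceil_lt_add_one (show 0 ≤ 2 * 𝒮.L Y₁ y₁ by linarith); linarith
    generalize ⌈5 * 𝒮.L Y₁ y₁⌉₊ = k at hk1 hk2
    generalize ⌈2 * 𝒮.L Y₁ y₁⌉₊ = j at hj1 hj2
    have hle : ∀ i : ℕ, i ≤ 3 → ((k + i * j : ℕ) : ℝ) ≤ 15 * 𝒮.L Y₁ y₁ := by
      intro i hi
      have : (i : ℝ) ≤ 3 := by exact_mod_cast hi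
      have h0 : (0 : ℝ) ≤ j := Nat.cast_nonneg _
      push_cast
      nlinarith
    have hex : ∀ i : ℕ, ∃ z, i ≤ 3 → 𝒮.Mid Y₁ y₁ r₁ z ∧ td y₁ z = k + i * j := by
      intro i
      by_cases hi : i ≤ 3
      · obtain ⟨z, hz⟩ := 𝒮.w1_mid hr₁ hr₁1 hy₁ (k + i * j) (by
          have : (0 : ℝ) ≤ i * j := by positivity
          push_cast; linarith) (by have := hle i hi; linarith)
        exact ⟨z, fun _ => hz⟩
      · exact ⟨1, fun h => absurd h hi⟩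
    choose z hz using hex
    have hno : ∀ W : 𝒮.M, W ≠ Y₁ → ∀ i i', i < i' → i' ≤ 3 → z i ∈ 𝒮.mem W → z i' ∈ 𝒮.mem W →
        False := by
      intro W hW i i' hii hi' a1 a2
      obtain ⟨b1, b2⟩ := hz i (by omega)
      obtain ⟨c1, c2⟩ := hz i' hi'
      have m1 := 𝒮.w1_mid_mem hr₁ hy₁ b1
      have m2 := 𝒮.w1_mid_mem hr₁ hy₁ c1
      have hmul : i * j + j ≤ i' * j := by nlinarith
      have d1 : Btw y₁ (z i) (z i') := b1.1.order c1.1 (by omega)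
      have d2 : j ≤ td (z i) (z i') := by unfold Btw at d1; omega
      have d3 : (j : ℝ) ≤ td (z i) (z i') := by exact_mod_cast d2
      have d4 := 𝒮.piece Y₁ W _ _ hW.symm m1 m2 a1 a2
      have d5 := 𝒮.lip Y₁ y₁ _ hy₁ m1
      rw [b2] at d5
      have d6 := hle i (by omega)
      linarith
    refine w1_pig (a := fun i => z i ∈ 𝒮.mem Y) (b := fun i => z i ∈ 𝒮.mem Z)
      (c := fun i => z i ∈ 𝒮.mem (𝒮.sm (r₁ * (l.map Prod.snd).prod) Y')) (fun i hi => ?_)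
      (hno Y h1) (hno Z h3) (hno _ h2)
    have e1 := 𝒮.chain_btw hV hF l hc hy₁ hy₁V (hz i hi).1 hvV hv'V
    rcases e1.tri y with e2 | e2
    · exact Or.inl (𝒮.convex _ _ _ _ hv hy e2)
    · rcases e2.tri y' with e3 | e3
      · exact Or.inr (Or.inr (𝒮.convex _ _ _ _ ((𝒮.mem_sm _ _ _).2 hv') hy' e3))
      · exact Or.inr (Or.inl (𝒮.convex _ _ _ _ hyZ hy'Z e3))

end SC
end Crest.Agent.R129
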