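import Crest.Agent.R129.Wind1

/-! # The Greendlinger lemma (task R129/Wind2). Statements frozen. -/

set_option autoImplicit false

namespace Crest.Agent.R129
namespace SC
variable {S : Type} [DecidableEq S] (𝒮 : SC S)

/-- members meeting `W` -/
def w2New (W : Set (FreeGroup S)) : Set 𝒮.M := {Y | ∃ y ∈ 𝒮.mem Y, y ∈ W}

/-- the next group -/
def w2N (W : Set (FreeGroup S)) (N : Subgroup (FreeGroup S)) : Subgroup (FreeGroup S) :=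
  Subgroup.closure {g | g ∈ N ∨ ∃ Y ∈ 𝒮.w2New W, g ∈ 𝒮.R Y}

/-- the next family -/
def w2Phi (W : Set (FreeGroup S)) (N : Subgroup (FreeGroup S)) : Set 𝒮.M :=
  {Z | ∃ h ∈ 𝒮.w2N W N, ∃ Y ∈ 𝒮.w2New W, Z = 𝒮.sm h Y}

/-- the next windmill -/
def w2W (W : Set (FreeGroup S)) (N : Subgroup (FreeGroup S)) : Set (FreeGroup S) :=
  {w | ∃ Z ∈ 𝒮.w2Phi W N, w ∈ 𝒮.mem Z}

/-- the invariants -/
structure W2Inv (x : FreeGroup S) (W : Set (FreeGroup S)) (N : Subgroup (FreeGroup S))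
    (Φ : Set 𝒮.M) : Prop where
  x_mem : x ∈ W
  cvx : Cvx W
  W_inv : ∀ h ∈ N, ∀ w ∈ W, h * w ∈ W
  Φ_inv : ∀ h ∈ N, ∀ Y ∈ Φ, 𝒮.sm h Y ∈ Φ
  R_le : ∀ Y ∈ Φ, 𝒮.R Y ≤ N
  small : ∀ Z, Z ∉ Φ → ∀ y y', y ∈ 𝒮.mem Z → y ∈ W → y' ∈ 𝒮.mem Z → y' ∈ W →
    (td y y' : ℝ) ≤ 3 * 𝒮.L Z y
  lg : ∀ h ∈ N, h ≠ 1 → 𝒮.LGat x (h * x)

theorem w2_le (W : Set (FreeGroup S)) (N : Subgroup (FreeGroup S)) : N ≤ 𝒮.w2N W N :=
  fun _ hg => Subgroup.subset_closure (Or.inl hg)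

theorem w2_R_le {W : Set (FreeGroup S)} (N : Subgroup (FreeGroup S)) {Y : 𝒮.M}
    (hY : Y ∈ 𝒮.w2New W) : 𝒮.R Y ≤ 𝒮.w2N W N :=
  fun _ hg => Subgroup.subset_closure (Or.inr ⟨Y, hY, hg⟩)

theorem w2_ind {W : Set (FreeGroup S)} {N : Subgroup (FreeGroup S)} {p : FreeGroup S → Prop}
    (h1 : p 1) (hN : ∀ g ∈ N, ∀ y, p y → p (g * y))
    (hR : ∀ Y ∈ 𝒮.w2New W, ∀ r ∈ 𝒮.R Y, ∀ y, p y → p (r * y)) {h : FreeGroup S}
    (hh : h ∈ 𝒮.w2N W N) : p h := by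
  refine Subgroup.closure_induction_left (p := fun g _ => p g) h1 ?_ ?_ hh
  · rintro g (hg | ⟨Y, hY, hg⟩) y _ hy
    · exact hN g hg y hy
    · exact hR Y hY g hg y hy
  · rintro g (hg | ⟨Y, hY, hg⟩) y _ hy
    · exact hN _ (N.inv_mem hg) y hy
    · exact hR Y hY _ ((𝒮.R Y).inv_mem hg) y hy

theorem w2_mem_W {W : Set (FreeGroup S)} (N : Subgroup (FreeGroup S)) {Y : 𝒮.M}
    (hY : Y ∈ 𝒮.w2New W) {y : FreeGroup S} (hy : y ∈ 𝒮.mem Y) : y ∈ 𝒮.w2W W N :=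
  ⟨Y, ⟨1, Subgroup.one_mem _, Y, hY, (𝒮.sm_one Y).symm⟩, hy⟩

theorem w2_Phi_inv {W : Set (FreeGroup S)} {N : Subgroup (FreeGroup S)} {h : FreeGroup S}
    (hh : h ∈ 𝒮.w2N W N) {Z : 𝒮.M} (hZ : Z ∈ 𝒮.w2Phi W N) : 𝒮.sm h Z ∈ 𝒮.w2Phi W N := by
  obtain ⟨h', hh', Y, hY, rfl⟩ := hZ
  exact ⟨h * h', Subgroup.mul_mem _ hh hh', Y, hY, (𝒮.sm_mul _ _ _).symm⟩

theorem w2_W_inv {W : Set (FreeGroup S)} {N : Subgroup (FreeGroup S)} {h : FreeGroup S}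
    (hh : h ∈ 𝒮.w2N W N) {w : FreeGroup S} (hw : w ∈ 𝒮.w2W W N) : h * w ∈ 𝒮.w2W W N := by
  obtain ⟨Z, hZ, hw⟩ := hw
  exact ⟨_, 𝒮.w2_Phi_inv hh hZ, (𝒮.mem_sm _ _ _).2 hw⟩

theorem w2_W_inv' {W : Set (FreeGroup S)} {N : Subgroup (FreeGroup S)} {h : FreeGroup S}
    (hh : h ∈ 𝒮.w2N W N) {w : FreeGroup S} (hw : h⁻¹ * w ∈ 𝒮.w2W W N) : w ∈ 𝒮.w2W W N := by
  have := 𝒮.w2_W_inv hh hw
  rwa [mul_inv_cancel_left] at this

variable {𝒮} in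
theorem W2Inv.new_inv {x : FreeGroup S} {W : Set (FreeGroup S)} {N : Subgroup (FreeGroup S)}
    {Φ : Set 𝒮.M} (I : 𝒮.W2Inv x W N Φ) {g : FreeGroup S} (hg : g ∈ N) {Y : 𝒮.M}
    (hY : Y ∈ 𝒮.w2New W) : 𝒮.sm g Y ∈ 𝒮.w2New W := by
  obtain ⟨y, hy, hyW⟩ := hY
  exact ⟨g * y, (𝒮.mem_sm _ _ _).2 hy, I.W_inv g hg y hyW⟩

variable {𝒮} in
theorem W2Inv.decomp {x : FreeGroup S} {W : Set (FreeGroup S)} {N : Subgroup (FreeGroup S)}
    {Φ : Set 𝒮.M} (I : 𝒮.W2Inv x W N Φ) {h : FreeGroup S} (hh : h ∈ 𝒮.w2N W N) :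
    ∃ l g, 𝒮.Chain (𝒮.w2New W \ Φ) l ∧ g ∈ N ∧ h = (l.map Prod.snd).prod * g := by
  have hN : ∀ g ∈ N, ∀ y, (∃ l g, 𝒮.Chain (𝒮.w2New W \ Φ) l ∧ g ∈ N ∧
      y = (l.map Prod.snd).prod * g) → ∃ l g', 𝒮.Chain (𝒮.w2New W \ Φ) l ∧ g' ∈ N ∧
      g * y = (l.map Prod.snd).prod * g' := by
    rintro g hg y ⟨l, g', hl, hg', rfl⟩
    refine ⟨l.map fun p => (𝒮.sm g p.1, g * p.2 * g⁻¹), g * g', ⟨?_, ?_⟩, N.mul_mem hg hg', ?_⟩
    · intro p hp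
      obtain ⟨q, hq, rfl⟩ := List.mem_map.1 hp
      obtain ⟨h1, h2, h3⟩ := hl.1 q hq
      refine ⟨⟨I.new_inv hg h1.1, fun hΦ => h1.2 ?_⟩, 𝒮.R_sm _ _ _ h2, fun e => h3 ?_⟩
      · have := I.Φ_inv _ (N.inv_mem hg) _ hΦ
        rwa [𝒮.sm_inv_sm] at this
      · simpa using e
    · rw [List.isChain_map]
      refine hl.2.imp fun p q hpq e => hpq ?_
      have := congrArg (𝒮.sm g⁻¹) e
      rwa [𝒮.sm_inv_sm, 𝒮.sm_inv_sm] at this
    · have : ∀ l : List (𝒮.M × FreeGroup S),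
          ((l.map fun p => (𝒮.sm g p.1, g * p.2 * g⁻¹)).map Prod.snd).prod =
            g * (l.map Prod.snd).prod * g⁻¹ := by
        intro l
        induction l with
        | nil => simp
        | cons p l ih =>
          simp only [List.map_cons, List.prod_cons, ih]
          group
      rw [this]
      group
  refine 𝒮.w2_ind (p := fun y => ∃ l g, 𝒮.Chain (𝒮.w2New W \ Φ) l ∧ g ∈ N ∧
      y = (l.map Prod.snd).prod * g) ⟨[], 1, ⟨by simp, List.isChain_nil⟩, N.one_mem, by simp⟩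
      hN ?_ hh
  intro Y hY r hr y hy
  by_cases hΦ : Y ∈ Φ
  · exact hN r (I.R_le Y hΦ hr) y hy
  by_cases hr1 : r = 1
  · rw [hr1, one_mul]; exact hy
  obtain ⟨l, g, hl, hg, rfl⟩ := hy
  cases l with
  | nil =>
    refine ⟨[(Y, r)], g, ⟨fun p hp => ?_, List.isChain_singleton _⟩, hg, by simp⟩
    rw [List.mem_singleton.1 hp]
    exact ⟨⟨hY, hΦ⟩, hr, hr1⟩
  | cons q l =>
    obtain ⟨Y₁, r₁⟩ := q
    by_cases hYY : Y = Y₁
    · subst hYY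
      by_cases h1 : r * r₁ = 1
      · refine ⟨l, g, 𝒮.w1_tail hl, hg, ?_⟩
        simp only [List.map_cons, List.prod_cons]
        rw [← mul_assoc, ← mul_assoc, h1, one_mul]
      · refine ⟨(Y, r * r₁) :: l, g, ⟨fun p hp => ?_, ?_⟩, hg, ?_⟩
        · rcases List.mem_cons.1 hp with rfl | hp
          · exact ⟨⟨hY, hΦ⟩, (𝒮.R Y).mul_mem hr (hl.1 (Y, r₁) List.mem_cons_self).2.1, h1⟩
          · exact hl.1 p (List.mem_cons_of_mem _ hp)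
        · have := hl.2
          rw [List.isChain_cons] at this ⊢
          exact this
        · simp only [List.map_cons, List.prod_cons, mul_assoc]
    · refine ⟨(Y, r) :: (Y₁, r₁) :: l, g, ⟨fun p hp => ?_, ?_⟩, hg, ?_⟩
      · rcases List.mem_cons.1 hp with rfl | hp
        · exact ⟨⟨hY, hΦ⟩, hr, hr1⟩
        · exact hl.1 p hp
      · exact List.isChain_cons_cons.2 ⟨hYY, hl.2⟩
      · simp only [List.map_cons, List.prod_cons, mul_assoc]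

variable {𝒮} in
theorem W2Inv.step (hall : ∀ w : FreeGroup S, ∃ Y, w ∈ 𝒮.mem Y) {x : FreeGroup S}
    {W : Set (FreeGroup S)} {N : Subgroup (FreeGroup S)} {Φ : Set 𝒮.M} (I : 𝒮.W2Inv x W N Φ) :
    𝒮.W2Inv x (𝒮.w2W W N) (𝒮.w2N W N) (𝒮.w2Phi W N) := by
  have hWW : ∀ w ∈ W, w ∈ 𝒮.w2W W N := fun w hw => by
    obtain ⟨Y, hY⟩ := hall w
    exact 𝒮.w2_mem_W N ⟨w, hY, hw⟩ hY
  have hF : 𝒮.Fresh W (𝒮.w2New W \ Φ) := fun Y hY => ⟨hY.1, I.small Y hY.2⟩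
  have hU : ∀ Y ∈ 𝒮.w2New W, ∀ Y' ∈ 𝒮.w2New W, ∀ u ∈ 𝒮.mem Y, ∀ u' ∈ 𝒮.mem Y', ∀ z,
      Btw u z u' → z ∈ 𝒮.w2W W N := by
    intro Y hY Y' hY' u hu u' hu' z hz
    obtain ⟨v, hv, hvW⟩ := id hY
    obtain ⟨v', hv', hv'W⟩ := id hY'
    rcases hz.tri v with h | h
    · exact 𝒮.w2_mem_W N hY (𝒮.convex _ _ _ _ hu hv h)
    · rcases h.tri v' with h' | h'
      · exact 𝒮.w2_mem_W N hY' (𝒮.convex _ _ _ _ hu' hv' h')
      · exact hWW z (I.cvx _ _ _ hvW hv'W h')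
  have hU2 : ∀ h ∈ 𝒮.w2N W N, ∀ Y ∈ 𝒮.w2New W, ∀ Y' ∈ 𝒮.w2New W, ∀ u ∈ 𝒮.mem Y,
      ∀ u' ∈ 𝒮.mem Y', ∀ z, Btw u z (h * u') → z ∈ 𝒮.w2W W N := by
    intro h hh
    refine 𝒮.w2_ind (p := fun h => ∀ Y ∈ 𝒮.w2New W, ∀ Y' ∈ 𝒮.w2New W, ∀ u ∈ 𝒮.mem Y,
      ∀ u' ∈ 𝒮.mem Y', ∀ z, Btw u z (h * u') → z ∈ 𝒮.w2W W N) ?_ ?_ ?_ hh
    · simpa only [one_mul] using hU
    · intro g hg y ih Y hY Y' hY' u hu u' hu' z hz
      refine 𝒮.w2_W_inv' (𝒮.w2_le W N hg) (ih _ (I.new_inv (N.inv_mem hg) hY) Y' hY' _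
        ((𝒮.mem_sm g⁻¹ _ _).2 hu) u' hu' _ ?_)
      rw [← btw_mul g, mul_inv_cancel_left, mul_inv_cancel_left, ← mul_assoc]
      exact hz
    · intro Y₀ hY₀ r hr y ih Y hY Y' hY' u hu u' hu' z hz
      obtain ⟨y₀, hy₀⟩ := 𝒮.ne Y₀
      rcases hz.tri (r * y₀) with h1 | h1
      · exact hU Y hY Y₀ hY₀ u hu _ (𝒮.mul_mem_of_R hr hy₀) z h1
      · refine 𝒮.w2_W_inv' (𝒮.w2_R_le N hY₀ hr) (ih Y₀ hY₀ Y' hY' y₀ hy₀ u' hu' _ ?_)
        rw [← btw_mul r, mul_inv_cancel_left, ← mul_assoc]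
        exact h1.symm
  have hback : ∀ (h : FreeGroup S) (Y : 𝒮.M) (w : FreeGroup S), w ∈ 𝒮.mem (𝒮.sm h Y) →
      h⁻¹ * w ∈ 𝒮.mem Y := fun h Y w hw => by
    have := (𝒮.mem_sm h⁻¹ _ _).2 hw
    rwa [𝒮.sm_inv_sm] at this
  refine ⟨hWW x I.x_mem, ?_, fun h hh w hw => 𝒮.w2_W_inv hh hw,
    fun h hh Z hZ => 𝒮.w2_Phi_inv hh hZ, ?_, ?_, ?_⟩
  · rintro w w' z ⟨_, ⟨h, hh, Y, hY, rfl⟩, hw⟩ ⟨_, ⟨h', hh', Y', hY', rfl⟩, hw'⟩ hz
    refine 𝒮.w2_W_inv' hh (hU2 (h⁻¹ * h') (Subgroup.mul_mem _ (Subgroup.inv_mem _ hh) hh')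
      Y hY Y' hY' _ (hback _ _ _ hw) _ (hback _ _ _ hw') _ ?_)
    rw [mul_assoc, mul_inv_cancel_left, btw_mul]
    exact hz
  · rintro _ ⟨h, hh, Y, hY, rfl⟩ r hr
    have h1 := 𝒮.R_sm h⁻¹ _ _ hr
    rw [𝒮.sm_inv_sm] at h1
    have h2 := Subgroup.mul_mem _ (Subgroup.mul_mem _ hh (𝒮.w2_R_le N hY h1))
      (Subgroup.inv_mem _ hh)
    have e : h * (h⁻¹ * r * h⁻¹⁻¹) * h⁻¹ = r := by group
    rwa [e] at h2
  · rintro Z hZ y y' hy ⟨_, ⟨h, hh, Y, hY, rfl⟩, hw⟩ hy' ⟨_, ⟨h', hh', Y', hY', rfl⟩, hw'⟩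
    obtain ⟨l, g, hl, hg, e⟩ := I.decomp (Subgroup.mul_mem _ (Subgroup.inv_mem _ hh) hh')
    have := 𝒮.chain_small I.cvx hF (𝒮.w2N W N) (fun Y hY => 𝒮.w2_R_le N hY.1) l hl
      (Y := Y) (Y' := 𝒮.sm g Y') (Z := 𝒮.sm h⁻¹ Z) hY (I.new_inv hg hY') (fun k hk v hv hv' => by
        refine hZ ⟨h * k⁻¹, Subgroup.mul_mem _ hh (Subgroup.inv_mem _ hk), _, ⟨v, hv', hv⟩, ?_⟩
        rw [← 𝒮.sm_mul, ← 𝒮.sm_mul]
        have : h * k⁻¹ * k * h⁻¹ = 1 := by group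
        rw [this, 𝒮.sm_one]) (y := h⁻¹ * y) (y' := h⁻¹ * y') (hback _ _ _ hw)
      ((𝒮.mem_sm _ _ _).2 hy) (by
        rw [← 𝒮.sm_mul, ← e, 𝒮.sm_mul]
        exact (𝒮.mem_sm _ _ _).2 hw') ((𝒮.mem_sm _ _ _).2 hy')
    rwa [td_mul, 𝒮.L_sm] at this
  · intro h hh h1
    obtain ⟨l, g, hl, hg, rfl⟩ := I.decomp hh
    by_cases hl0 : l = []
    · subst hl0
      simp only [List.map_nil, List.prod_nil, one_mul] at h1 ⊢
      exact I.lg g hg h1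
    · rw [mul_assoc]
      exact 𝒮.chain_LG I.cvx hF hl hl0 I.x_mem (I.W_inv g hg x I.x_mem)

/-- the stages -/
def w2Stage (x : FreeGroup S) : ℕ → Set (FreeGroup S) × Subgroup (FreeGroup S) × Set 𝒮.M
  | 0 => ({x}, ⊥, ∅)
  | k + 1 => (𝒮.w2W (w2Stage x k).1 (w2Stage x k).2.1, 𝒮.w2N (w2Stage x k).1 (w2Stage x k).2.1,
      𝒮.w2Phi (w2Stage x k).1 (w2Stage x k).2.1)

/-- Windmill induction.  (If `S` is empty then `h = 1`; so assume `Nonempty S`.)  Fix `x`.  `W 0 = {x}`, `N 0 = ⊥`, `Φ 0 = ∅`;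
`New k = {Y | Y meets W k}`, `N (k+1) = ⨆ Y ∈ New k, R Y`, `Φ (k+1) = {h • Y | h ∈ N (k+1), Y ∈ New k}`,
`W (k+1) = ⋃ Y ∈ Φ (k+1), mem Y` (define the triple by one recursion).  Invariants: `x ∈ W k`, `W k` convex
and `N k`-invariant, `Φ k` `N k`-invariant, `Φ k ⊆ New k`, `N k ≤ N (k+1)`, `R Y ≤ N k` for `Y ∈ Φ k`, `W k ⊆ W (k+1)`
(every vertex lies in a member by `hcov`),
(P) `Z ∉ Φ k →` `Z ∩ W k` has diameter `≤ 3 L Z y`, (LG) `h ∈ N k`, `h ≠ 1 → LGat x (h x)`.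
Step: `Fr = New k \ Φ k` is `Fresh` and `N k`-invariant, so every `h ∈ N (k+1)` is `prod l * g` with
`Chain Fr l`, `g ∈ N k` (closure induction on left multiplication by `r ∈ R Y`: if `Y ∈ Φ k` move `r`
through `l` by conjugation; otherwise cons / merge with the head / delete the head).  (LG) from `chain_LG` with
`v' = g x`; (P) from `chain_small` after translating by `h⁻¹`.  Convexity of `W (k+1)`: the union of two convex
sets with a common point is convex (`tri`); `U = ⋃ New k` is convex, `r U ∩ U ≠ ∅`; induct on `h`.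
Exhaustion: the ball of radius `k` around `x` lies in `W k`, so each `R Y ≤ N k` for some `k`, and
the `N k` form a chain. -/
theorem LG_of_cover (hcov : ∀ (x : FreeGroup S) (σ : S × Bool), ∃ Y, x ∈ 𝒮.mem Y ∧ x * sg σ ∈ 𝒮.mem Y)
    {h : FreeGroup S} (hh : h ∈ 𝒮.N) (h1 : h ≠ 1) (x : FreeGroup S) : 𝒮.LGat x (h * x) := by
  rcases isEmpty_or_nonempty S with hS | ⟨⟨s₀⟩⟩
  · exfalso
    refine h1 (FreeGroup.toWord_eq_nil_iff.1 ?_)
    cases h.toWord with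
    | nil => rfl
    | cons a _ => exact hS.elim a.1
  have hall : ∀ w : FreeGroup S, ∃ Y, w ∈ 𝒮.mem Y := fun w => by
    obtain ⟨Y, hY, -⟩ := hcov w (s₀, true)
    exact ⟨Y, hY⟩
  have hI : ∀ k, 𝒮.W2Inv x (𝒮.w2Stage x k).1 (𝒮.w2Stage x k).2.1 (𝒮.w2Stage x k).2.2 := by
    intro k
    induction k with
    | zero =>
      refine ⟨rfl, ?_, ?_, fun _ _ _ hY => hY.elim, fun _ hY => hY.elim, ?_, ?_⟩
      · intro a b z ha hb hz
        have ha' : a = x := ha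
        have hb' : b = x := hb
        subst ha' hb'
        unfold Btw at hz
        rw [td_self] at hz
        exact (td_eq_zero.1 (by omega : td b z = 0)).symm
      · intro g hg w hw
        have hg' : g = 1 := Subgroup.mem_bot.1 hg
        rw [hg', one_mul]; exact hw
      · intro Z _ y y' hy hyx _ hy'x
        have ha' : y = x := hyx
        have hb' : y' = x := hy'x
        have := 𝒮.one_le Z y hy
        rw [hb', ← ha', td_self]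
        push_cast
        linarith
      · intro g hg hg1
        exact absurd (Subgroup.mem_bot.1 hg) hg1
    | succ k ih => exact ih.step hall
  have hball : ∀ k w, td x w ≤ k → w ∈ (𝒮.w2Stage x k).1 := by
    intro k
    induction k with
    | zero => intro w hw; exact (td_eq_zero.1 (by omega : td x w = 0)).symm
    | succ k ih =>
      intro w hw
      by_cases h0 : td x w = 0
      · rw [← td_eq_zero.1 h0]; exact (hI (k + 1)).x_mem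
      · obtain ⟨z, hz, hzk⟩ := exists_btw x w (k := td x w - 1) (by omega)
        obtain ⟨σ, rfl⟩ := exists_sg_of_td (x := z) (y := w) (by unfold Btw at hz; omega)
        obtain ⟨Y, hY, hY'⟩ := hcov z σ
        exact 𝒮.w2_mem_W _ ⟨z, hY, ih z (by omega)⟩ hY'
  have hmono : Monotone fun k => (𝒮.w2Stage x k).2.1 :=
    monotone_nat_of_le_succ fun k => 𝒮.w2_le _ _
  obtain ⟨k, hk⟩ : ∃ k, h ∈ (𝒮.w2Stage x k).2.1 := by
    refine Subgroup.iSup_induction 𝒮.R (C := fun h => ∃ k, h ∈ (𝒮.w2Stage x k).2.1) hh ?_ ?_ ?_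
    · intro Y r hr
      obtain ⟨y, hy⟩ := 𝒮.ne Y
      exact ⟨td x y + 1, 𝒮.w2_R_le _ ⟨y, hy, hball _ y le_rfl⟩ hr⟩
    · exact ⟨0, Subgroup.one_mem _⟩
    · rintro a b ⟨k, hk⟩ ⟨k', hk'⟩
      exact ⟨max k k', Subgroup.mul_mem _ (hmono (le_max_left _ _) hk)
        (hmono (le_max_right _ _) hk')⟩
  exact (hI k).lg h hk h1

theorem w2_td_edge {x a b : FreeGroup S} {s : S} (ha : a ∈ ({x, x * FreeGroup.of s} : Set _))
    (hb : b ∈ ({x, x * FreeGroup.of s} : Set _)) : td a b ≤ 1 := by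
  have h1 : td x (x * FreeGroup.of s) = 1 := td_sg x (s, true)
  rcases ha with rfl | rfl <;> rcases hb with rfl | rfl
  · rw [td_self]; omega
  · omega
  · rw [td_comm]; omega
  · rw [td_self]; omega

/-- the data with the edges added -/
def w2Ext : SC S where
  M := 𝒮.M ⊕ (FreeGroup S × S)
  sm g := Sum.map (𝒮.sm g) fun p => (g * p.1, p.2)
  sm_one := by
    rintro (m | p)
    · simp [𝒮.sm_one]
    · simp
  sm_mul := by
    rintro g h (m | p)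
    · simp [𝒮.sm_mul]
    · simp [mul_assoc]
  mem := Sum.elim 𝒮.mem fun p => {p.1, p.1 * FreeGroup.of p.2}
  R := Sum.elim 𝒮.R fun _ => ⊥
  L := Sum.elim 𝒮.L fun _ _ => 1
  ne := by
    rintro (m | p)
    · exact 𝒮.ne m
    · exact ⟨p.1, Or.inl rfl⟩
  mem_sm := by
    rintro g (m | p) y
    · exact 𝒮.mem_sm g m y
    · simp [mul_assoc]
  convex := by
    rintro (m | p) x y z hx hy hz
    · exact 𝒮.convex m x y z hx hy hz
    · have := w2_td_edge hx hy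
      unfold Btw at hz
      by_cases h0 : td x z = 0
      · rw [← td_eq_zero.1 h0]; exact hx
      · rw [td_eq_zero.1 (by omega : td z y = 0)]; exact hy
  R_sm := by
    rintro g (m | p) r hr
    · exact 𝒮.R_sm g m r hr
    · have : r = 1 := Subgroup.mem_bot.1 hr
      rw [this, mul_one, mul_inv_cancel]
      exact Subgroup.one_mem _
  R_fix := by
    rintro (m | p) r hr
    · exact congrArg Sum.inl (𝒮.R_fix m r hr)
    · have : r = 1 := Subgroup.mem_bot.1 hr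
      simp [this]
  L_sm := by
    rintro g (m | p) y
    · exact 𝒮.L_sm g m y
    · rfl
  one_le := by
    rintro (m | p) y hy
    · exact 𝒮.one_le m y hy
    · exact le_rfl
  lip := by
    rintro (m | p) x y hx hy
    · exact 𝒮.lip m x y hx hy
    · change (1 : ℝ) ≤ 1 + td x y / 100
      have : (0 : ℝ) ≤ td x y / 100 := by positivity
      linarith
  piece := by
    rintro (m | p) (m' | p') x y hne hx hy hx' hy'
    · exact 𝒮.piece m m' x y (fun e => hne (congrArg Sum.inl e)) hx hy hx' hy'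
    · have h1 : (td x y : ℝ) ≤ 1 := by exact_mod_cast w2_td_edge hx' hy'
      exact h1.trans (𝒮.one_le m x hx)
    · change (td x y : ℝ) ≤ 1
      exact_mod_cast w2_td_edge hx hy
    · change (td x y : ℝ) ≤ 1
      exact_mod_cast w2_td_edge hx hy
  girth := by
    rintro (m | p) r y hr hr1 hy
    · exact 𝒮.girth m r y hr hr1 hy
    · exact absurd (Subgroup.mem_bot.1 hr) hr1

/-- Add the edges `{x, x * of s}` as members (`M ⊕ (FreeGroup S × S)`, `R = ⊥`, `L = 1`) and apply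
`LG_of_cover`; the member found has a nontrivial rotation, so it is an old one. -/
theorem LG {h : FreeGroup S} (hh : h ∈ 𝒮.N) (h1 : h ≠ 1) (x : FreeGroup S) : 𝒮.LGat x (h * x) := by
  have hle : 𝒮.N ≤ 𝒮.w2Ext.N := iSup_le fun m => 𝒮.w2Ext.R_le_N (Sum.inl m)
  obtain ⟨Y, r, a, b, h2, h3, h4, h5, h6, h7, h8⟩ := 𝒮.w2Ext.LG_of_cover (by
    rintro x ⟨s, _ | _⟩
    · refine ⟨Sum.inr (x * (FreeGroup.of s)⁻¹, s), Or.inr ?_, Or.inl rfl⟩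
      simp
    · exact ⟨Sum.inr (x, s), Or.inl rfl, Or.inr rfl⟩) (hle hh) h1 x
  rcases Y with Y | p
  · exact ⟨Y, r, a, b, h2, h3, h4, h5, h6, h7, h8⟩
  · exact absurd (Subgroup.mem_bot.1 h2) h3

end SC
end Crest.Agent.R129
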